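import Crest.Agent.R109.NGrp

/-! Row 109: an element orthogonal to the normaliser is diffuse. -/

set_option autoImplicit false
set_option linter.unusedSectionVars false

namespace Crest.Agent.R109

open Crest.Agent.R124 Filter Topology Function
open scoped BigOperators ComplexConjugate InnerProductSpace ComplexOrder Pointwise

variable {X : Type*} [TopologicalSpace X] [CompactSpace X] [T2Space X] [TotallyDisconnectedSpace X]
  {H : Type*} [NormedAddCommGroup H] [InnerProductSpace ℂ H] [CompleteSpace H]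

/-- Finitely additive families of continuous nonnegative functions. -/
private structure AtFA (h : Set X → X → ℝ) : Prop where
  cont : ∀ U, IsClopen U → Continuous (h U)
  nn : ∀ U, IsClopen U → ∀ w, 0 ≤ h U w
  add : ∀ U V, IsClopen U → IsClopen V → Disjoint U V → ∀ w, h (U ∪ V) w = h U w + h V w

private noncomputable def atD (h : Set X → X → ℝ) (P : Part X) (w : X) : ℝ :=
  ∑ i, h (P.f ⁻¹' {i}) w ^ 2

section
variable {h : Set X → X → ℝ}

private theorem AtFA.empty (hh : AtFA h) (w : X) : h ∅ w = 0 := by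
  have := hh.add ∅ ∅ isClopen_empty isClopen_empty (by simp) w
  rw [Set.union_self] at this
  linarith

private theorem AtFA.diff (hh : AtFA h) {U V : Set X} (hU : IsClopen U) (hV : IsClopen V)
    (hUV : U ⊆ V) (w : X) : h V w = h U w + h (V \ U) w := by
  rw [← hh.add U _ hU (hV.diff hU) Set.disjoint_sdiff_right, Set.union_sdiff_cancel hUV]

private theorem AtFA.mono (hh : AtFA h) {U V : Set X} (hU : IsClopen U) (hV : IsClopen V)
    (hUV : U ⊆ V) (w : X) : h U w ≤ h V w := by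
  have := hh.nn _ (hV.diff hU) w
  rw [hh.diff hU hV hUV]
  linarith

private theorem AtFA.union_le (hh : AtFA h) {U V : Set X} (hU : IsClopen U) (hV : IsClopen V)
    (w : X) : h (U ∪ V) w ≤ h U w + h V w := by
  rw [← Set.union_sdiff_self, hh.add U _ hU (hV.diff hU) Set.disjoint_sdiff_right]
  have := hh.mono (hV.diff hU) hV Set.sdiff_subset w
  linarith

private theorem at_clopen_pre (P : Part X) (s : Finset (Fin P.n)) :
    IsClopen (P.f ⁻¹' (s : Set (Fin P.n))) :=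
  ⟨⟨P.lc (s : Set (Fin P.n))ᶜ⟩, P.lc _⟩

private theorem AtFA.part (hh : AtFA h) (P : Part X) {U : Set X} (hU : IsClopen U) (w : X) :
    ∑ j, h (U ∩ P.f ⁻¹' {j}) w = h U w := by
  have h1 : ∀ s : Finset (Fin P.n),
      ∑ j ∈ s, h (U ∩ P.f ⁻¹' {j}) w = h (U ∩ P.f ⁻¹' (s : Set (Fin P.n))) w := by
    intro s
    induction s using Finset.induction_on with
    | empty => simp [hh.empty]
    | insert a s ha ih =>
      rw [Finset.sum_insert ha, ih, ← hh.add _ _ (hU.inter (P.clopen a))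
        (hU.inter (at_clopen_pre P s)), ← Set.inter_union_distrib_left, ← Set.preimage_union,
        Finset.coe_insert, Set.insert_eq]
      refine Set.disjoint_left.2 fun y hy hy' => ha ?_
      have h2 : P.f y = a := hy.2
      exact h2 ▸ hy'.2
  simpa using h1 Finset.univ

private theorem AtFA.cont_D (hh : AtFA h) (P : Part X) : Continuous (atD h P) :=
  continuous_finsetSum _ fun i _ => (hh.cont _ (P.clopen i)).pow 2

private theorem atD_nonneg (P : Part X) (w : X) : 0 ≤ atD h P w :=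
  Finset.sum_nonneg fun _ _ => sq_nonneg _

private theorem AtFA.D_le (hh : AtFA h) {ι : Type*} [Fintype ι] {A : ι → Set X}
    (hA : ∀ i, IsClopen (A i)) (P : Part X) (hc : ∀ y, ∃ i, ∀ y', P.f y' = P.f y → y' ∈ A i) (w : X) :
    atD h P w ≤ ∑ i, h (A i) w ^ 2 := by
  calc atD h P w ≤ ∑ j, ∑ i, h (A i ∩ P.f ⁻¹' {j}) w ^ 2 := by
        refine Finset.sum_le_sum fun j _ => ?_
        rcases (P.f ⁻¹' {j}).eq_empty_or_nonempty with h0 | ⟨y, hy⟩
        · rw [h0, hh.empty, zero_pow two_ne_zero]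
          exact Finset.sum_nonneg fun _ _ => sq_nonneg _
        · obtain ⟨i, hi⟩ := hc y
          have h1 : A i ∩ P.f ⁻¹' {j} = P.f ⁻¹' {j} :=
            Set.inter_eq_right.2 fun y' hy' => hi y' (hy'.trans hy.symm)
          have h2 := Finset.single_le_sum (f := fun i => h (A i ∩ P.f ⁻¹' {j}) w ^ 2)
            (fun _ _ => sq_nonneg _) (Finset.mem_univ i)
          rwa [h1] at h2
    _ = ∑ i, ∑ j, h (A i ∩ P.f ⁻¹' {j}) w ^ 2 := Finset.sum_comm
    _ ≤ _ := by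
        refine Finset.sum_le_sum fun i _ => ?_
        rw [← hh.part P (hA i) w]
        exact Finset.sum_sq_le_sq_sum_of_nonneg fun j _ => hh.nn _ ((hA i).inter (P.clopen j)) w

private theorem AtFA.D_mono (hh : AtFA h) {P P' : Part X} (hP : P ≤ P') (w : X) :
    atD h P' w ≤ atD h P w :=
  hh.D_le P.clopen P' (fun y => ⟨P.f y, fun y' hy' => hP y' y hy'⟩) w

/-- The negation of case (a). -/
private def AtSplit (h : Set X → X → ℝ) : Prop :=
  ∀ U₀ V₀, IsClopen U₀ → IsClopen V₀ → V₀.Nonempty → (∀ w ∈ V₀, 0 < h U₀ w) →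
    ∃ U, IsClopen U ∧ U ⊆ U₀ ∧ ∃ w ∈ V₀, 1 / 4 * h U₀ w < h U w ∧ 1 / 4 * h U₀ w < h (U₀ \ U) w

private theorem AtFA.split1 (hh : AtFA h) (hs : AtSplit h) {U₀ V : Set X} (hU₀ : IsClopen U₀)
    (hV : IsClopen V) (hne : V.Nonempty) : ∃ W, IsClopen W ∧ W.Nonempty ∧ W ⊆ V ∧
      ∃ U, IsClopen U ∧ U ⊆ U₀ ∧ ∀ w ∈ W, h U w ^ 2 + h (U₀ \ U) w ^ 2 ≤ 7 / 8 * h U₀ w ^ 2 := by
  by_cases h0 : ∃ w ∈ V, 0 < h U₀ w
  · obtain ⟨w₀, hw₀, h0⟩ := h0
    obtain ⟨V₀, hV₀, hw, hsub⟩ := exists_clopen_nhds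
      (hV.isOpen.inter (isOpen_lt continuous_const (hh.cont _ hU₀))) ⟨hw₀, h0⟩
    obtain ⟨U, hU, hUU, w, hw', h1, h2⟩ := hs U₀ V₀ hU₀ hV₀ ⟨w₀, hw⟩ fun w hw => (hsub hw).2
    have hc : Continuous fun w => 1 / 4 * h U₀ w := continuous_const.mul (hh.cont _ hU₀)
    obtain ⟨W, hW, hwW, hsub'⟩ := exists_clopen_nhds
      (hV₀.isOpen.inter ((isOpen_lt hc (hh.cont _ hU)).inter
        (isOpen_lt hc (hh.cont _ (hU₀.diff hU))))) ⟨hw', h1, h2⟩
    refine ⟨W, hW, ⟨w, hwW⟩, fun y hy => (hsub (hsub' hy).1).1, U, hU, hUU, fun y hy => ?_⟩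
    obtain ⟨h3, h4, h5⟩ := hsub' hy
    have h6 : 0 < h U₀ y := (hsub h3).2
    have h7 := hh.diff hU hU₀ hUU y
    simp only [Set.mem_ofPred_eq] at h4 h5
    have h8 := mul_le_mul h4.le h5.le (by positivity) (hh.nn _ hU y)
    have h9 : h U₀ y ^ 2 = h U y ^ 2 + h (U₀ \ U) y ^ 2 + 2 * (h U y * h (U₀ \ U) y) := by
      rw [h7]; ring
    nlinarith
  · push Not at h0
    refine ⟨V, hV, hne, subset_rfl, ∅, isClopen_empty, Set.empty_subset _, fun w hw => ?_⟩
    rw [Set.sdiff_empty, hh.empty, le_antisymm (h0 w hw) (hh.nn _ hU₀ w)]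
    norm_num

private theorem AtFA.split2 (hh : AtFA h) (hs : AtSplit h) (P : Part X) {V : Set X}
    (hV : IsClopen V) (hne : V.Nonempty) : ∃ W, IsClopen W ∧ W.Nonempty ∧ W ⊆ V ∧
      ∃ P' : Part X, ∀ w ∈ W, atD h P' w ≤ 7 / 8 * atD h P w := by
  have h1 : ∀ s : Finset (Fin P.n), ∃ W, IsClopen W ∧ W.Nonempty ∧ W ⊆ V ∧ ∀ i ∈ s,
      ∃ U, IsClopen U ∧ U ⊆ P.f ⁻¹' {i} ∧ ∀ w ∈ W,
        h U w ^ 2 + h (P.f ⁻¹' {i} \ U) w ^ 2 ≤ 7 / 8 * h (P.f ⁻¹' {i}) w ^ 2 := by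
    intro s
    induction s using Finset.induction_on with
    | empty => exact ⟨V, hV, hne, subset_rfl, by simp⟩
    | insert a s ha ih =>
      obtain ⟨W, hW, hWne, hWV, hs'⟩ := ih
      obtain ⟨W', hW', hWne', hWW, hU⟩ := hh.split1 hs (P.clopen a) hW hWne
      refine ⟨W', hW', hWne', hWW.trans hWV, fun i hi => ?_⟩
      rcases Finset.mem_insert.1 hi with rfl | hi
      · exact hU
      · obtain ⟨U, h1, h2, h3⟩ := hs' i hi
        exact ⟨U, h1, h2, fun w hw => h3 w (hWW hw)⟩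
  obtain ⟨W, hW, hWne, hWV, h2⟩ := h1 Finset.univ
  choose U hU hU1 hU2 using fun i => h2 i (Finset.mem_univ i)
  choose R hR using fun i => exists_part_clopen (hU i)
  obtain ⟨R', hR'⟩ := Finite.exists_le R
  obtain ⟨P', hP1, hP2⟩ := exists_ge_ge P R'
  refine ⟨W, hW, hWne, hWV, P', fun w hw => ?_⟩
  have h3 := hh.D_le (A := Sum.elim U fun i => P.f ⁻¹' {i} \ U i)
    (by rintro (i | i); exacts [hU i, (P.clopen i).diff (hU i)]) P' (fun y => ?_) w
  · rw [Fintype.sum_sum_type, ← Finset.sum_add_distrib] at h3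
    refine h3.trans ?_
    rw [atD, Finset.mul_sum]
    exact Finset.sum_le_sum fun i _ => hU2 i w hw
  · by_cases hy : y ∈ U (P.f y)
    · exact ⟨Sum.inl (P.f y), fun y' hy' =>
        (hR (P.f y) y' y (((hR' _).trans hP2) y' y hy')).2 hy⟩
    · exact ⟨Sum.inr (P.f y), fun y' hy' => ⟨hP1 y' y hy', fun h4 =>
        hy ((hR (P.f y) y' y (((hR' _).trans hP2) y' y hy')).1 h4)⟩⟩

/-- Case (a). -/
private theorem AtFA.theta (hh : AtFA h) (hs : ¬ AtSplit h) : ∃ (θ : Set X → Set X) (U₀ V₀ : Set X),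
    Add' θ ∧ IsClopen U₀ ∧ IsClopen V₀ ∧ V₀.Nonempty ∧ (∀ w ∈ V₀, 0 < h U₀ w) ∧
      ∀ (P : Part X) (w : X), 3 / 4 * V₀.indicator (h U₀) w
        ≤ ∑ i, (θ (P.f ⁻¹' {i})).indicator (h (P.f ⁻¹' {i})) w := by
  simp only [AtSplit, not_forall, not_exists, not_and, not_lt] at hs
  obtain ⟨U₀, V₀, hU₀, hV₀, hne, hpos, hs⟩ := hs
  let θ : Set X → Set X := fun U => V₀ ∩ {w | 1 / 4 * h U₀ w < h (U ∩ U₀) w}
  have h1 : ∀ U, IsClopen U → ∀ w ∈ θ U, 3 / 4 * h U₀ w ≤ h (U ∩ U₀) w := fun U hU w hw => by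
    have h2 := hs _ (hU.inter hU₀) Set.inter_subset_right w hw.1 hw.2
    have h3 := hh.diff (hU.inter hU₀) hU₀ Set.inter_subset_right w
    linarith
  have h2 : ∀ U, IsClopen U → θ U = V₀ ∩ {w | 3 / 4 * h U₀ w ≤ h (U ∩ U₀) w} := fun U hU => by
    ext w
    refine ⟨fun hw => ⟨hw.1, h1 U hU w hw⟩, fun hw => ⟨hw.1, ?_⟩⟩
    have h3 := hpos w hw.1
    have h4 : 3 / 4 * h U₀ w ≤ h (U ∩ U₀) w := hw.2
    show 1 / 4 * h U₀ w < h (U ∩ U₀) w
    linarith
  have hθ : Add' θ := by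
    refine ⟨fun U hU => ⟨?_, ?_⟩, fun U V hU hV => ?_, fun U V hU hV hd => ?_⟩
    · rw [h2 U hU]
      exact hV₀.isClosed.inter (isClosed_le (continuous_const.mul (hh.cont _ hU₀))
        (hh.cont _ (hU.inter hU₀)))
    · exact hV₀.isOpen.inter (isOpen_lt (continuous_const.mul (hh.cont _ hU₀))
        (hh.cont _ (hU.inter hU₀)))
    · ext w
      constructor
      · intro hw
        by_contra hn
        have h3 := h1 _ (hU.union hV) w hw
        have h4 : h (U ∩ U₀) w ≤ 1 / 4 * h U₀ w := not_lt.1 fun h => hn (Or.inl ⟨hw.1, h⟩)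
        have h5 : h (V ∩ U₀) w ≤ 1 / 4 * h U₀ w := not_lt.1 fun h => hn (Or.inr ⟨hw.1, h⟩)
        have h6 := hh.union_le (hU.inter hU₀) (hV.inter hU₀) w
        rw [← Set.union_inter_distrib_right] at h6
        have h7 := hpos w hw.1
        linarith
      · rintro (hw | hw)
        · exact ⟨hw.1, lt_of_lt_of_le hw.2 (hh.mono (hU.inter hU₀) ((hU.union hV).inter hU₀)
            (Set.inter_subset_inter_left _ Set.subset_union_left) w)⟩
        · exact ⟨hw.1, lt_of_lt_of_le hw.2 (hh.mono (hV.inter hU₀) ((hU.union hV).inter hU₀)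
            (Set.inter_subset_inter_left _ Set.subset_union_right) w)⟩
    · refine Set.disjoint_left.2 fun w hw hw' => ?_
      have h3 := h1 U hU w hw
      have h4 := h1 V hV w hw'
      have h5 := hh.add _ _ (hU.inter hU₀) (hV.inter hU₀)
        (hd.mono Set.inter_subset_left Set.inter_subset_left) w
      have h6 := hh.mono ((hU.inter hU₀).union (hV.inter hU₀)) hU₀
        (Set.union_subset Set.inter_subset_right Set.inter_subset_right) w
      have h7 := hpos w hw.1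
      linarith
  refine ⟨θ, U₀, V₀, hθ, hU₀, hV₀, hne, hpos, fun P w => ?_⟩
  have hnn : ∀ i ∈ (Finset.univ : Finset (Fin P.n)),
      0 ≤ (θ (P.f ⁻¹' {i})).indicator (h (P.f ⁻¹' {i})) w := fun i _ =>
    Set.indicator_nonneg (fun y _ => hh.nn _ (P.clopen i) y) w
  by_cases hw : w ∈ V₀
  · have h3 : ∀ s : Finset (Fin P.n), w ∈ θ (P.f ⁻¹' (s : Set (Fin P.n))) →
        ∃ i, w ∈ θ (P.f ⁻¹' {i}) := by
      intro s
      induction s using Finset.induction_on with
      | empty =>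
        intro h3
        have h4 : 1 / 4 * h U₀ w < h (P.f ⁻¹' ((∅ : Finset (Fin P.n)) : Set (Fin P.n)) ∩ U₀) w := h3.2
        have h5 := hpos w hw
        simp only [Finset.coe_empty, Set.preimage_empty, Set.empty_inter, hh.empty] at h4
        linarith
      | insert a s ha ih =>
        rw [Finset.coe_insert, Set.insert_eq, Set.preimage_union,
          hθ.union _ _ (P.clopen a) (at_clopen_pre P s)]
        rintro (h3 | h3)
        exacts [⟨a, h3⟩, ih h3]
    obtain ⟨i, hi⟩ := h3 Finset.univ ⟨hw, by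
      have h5 := hpos w hw
      simp only [Finset.coe_univ, Set.preimage_univ, Set.univ_inter, Set.mem_ofPred_eq]
      linarith⟩
    refine le_trans ?_ (Finset.single_le_sum hnn (Finset.mem_univ i))
    rw [Set.indicator_of_mem hw, Set.indicator_of_mem hi]
    exact (h1 _ (P.clopen i) w hi).trans
      (hh.mono ((P.clopen i).inter hU₀) (P.clopen i) Set.inter_subset_left w)
  · rw [Set.indicator_of_notMem hw, mul_zero]
    exact Finset.sum_nonneg hnn

end

namespace NS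

variable (S : NS X H)

private noncomputable def atI (F : X → ℝ) : ℝ := (S.ψ (S.fn fun w => F w)).re

private theorem atI_sum {κ : Type*} (s : Finset κ) {F : κ → X → ℝ} (hF : ∀ i ∈ s, Continuous (F i)) :
    S.atI (fun w => ∑ i ∈ s, F i w) = ∑ i ∈ s, S.atI (F i) := by
  simp only [atI, Complex.ofReal_sum]
  rw [← S.fn_sum (F := fun i w => (F i w : ℂ)) s fun i hi => Complex.continuous_ofReal.comp (hF i hi),
    S.ψ_sum, Complex.re_sum]

private theorem atI_add {F F' : X → ℝ} (hF : Continuous F) (hF' : Continuous F') :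
    S.atI (fun w => F w + F' w) = S.atI F + S.atI F' := by
  simp only [atI, Complex.ofReal_add]
  rw [← S.fn_add (F := fun w => (F w : ℂ)) (F' := fun w => (F' w : ℂ))
    (Complex.continuous_ofReal.comp hF) (Complex.continuous_ofReal.comp hF'), S.ψ_add, Complex.add_re]

private theorem atI_smul (t : ℝ) {F : X → ℝ} (hF : Continuous F) :
    S.atI (fun w => t * F w) = t * S.atI F := by
  simp only [atI, Complex.ofReal_mul]
  rw [← S.fn_smul (F := fun w => (F w : ℂ)) t (Complex.continuous_ofReal.comp hF), S.ψ_smul,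
    Complex.re_ofReal_mul]

private theorem atI_ind {U : Set X} (hU : IsClopen U) :
    S.atI (U.indicator 1) = ‖S.pr U S.Ω‖ ^ 2 := by
  rw [S.norm_sq_eq_ψ, (S.pr_proj hU).isSelfAdjoint.star_eq, (S.pr_proj hU).isIdempotentElem.eq, atI,
    Masa.pr]
  congr 3
  funext w
  by_cases hw : w ∈ U <;> simp [hw]

private theorem at_small {h : Set X → X → ℝ} (hh : AtFA h) (hs : AtSplit h) {η : ℝ} (hη : 0 < η) :
    ∃ P : Part X, S.atI (atD h P) ≤ η := by
  have h1 : ∀ (P : Part X) (ε : ℝ), 0 < ε → ∃ P' : Part X,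
      S.atI (atD h P') ≤ 7 / 8 * S.atI (atD h P) + ε := by
    intro P ε hε
    obtain ⟨B, hB⟩ := isCompact_univ.bddAbove_image (hh.cont_D P).continuousOn
    have hB' : ∀ w, atD h P w ≤ |B| + 1 := fun w =>
      (hB ⟨w, trivial, rfl⟩).trans ((le_abs_self B).trans (by linarith))
    have hB0 : 0 < |B| + 1 := by positivity
    obtain ⟨cls, hc, hg, hc0⟩ := S.exhaust
      (fun V => ∃ P' : Part X, ∀ w ∈ V, atD h P' w ≤ 7 / 8 * atD h P w)
      (fun V hV hne => hh.split2 hs P hV hne) S.Ω (Real.sqrt_pos.2 (div_pos hε hB0))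
    have h2 : ∀ j : Set.range cls, ∃ P' : Part X, (j : ℕ) ≠ 0 →
        ∀ w, cls w = j → atD h P' w ≤ 7 / 8 * atD h P w := by
      rintro ⟨_, w, rfl⟩
      by_cases h0 : cls w = 0
      · exact ⟨P, fun h => absurd h0 h⟩
      · obtain ⟨P', hP'⟩ := hg _ h0 ⟨w, rfl⟩
        exact ⟨P', fun _ => hP'⟩
    choose R hR using h2
    have := hc.range_finite.to_subtype
    obtain ⟨R', hR'⟩ := Finite.exists_le R
    obtain ⟨P', hP1, hP2⟩ := exists_ge_ge P R'
    have hcl : IsClopen (cls ⁻¹' {0}) := hc.isClopen_fiber 0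
    have hi : Continuous ((cls ⁻¹' {0}).indicator (1 : X → ℝ)) :=
      hcl.continuous_indicator continuous_const
    refine ⟨P', (S.ψ_fn_mono (F' := fun w => 7 / 8 * atD h P w +
      (|B| + 1) * (cls ⁻¹' {0}).indicator (1 : X → ℝ) w) (hh.cont_D P')
      ((continuous_const.mul (hh.cont_D P)).add (continuous_const.mul hi)) fun w => ?_).trans ?_⟩
    · by_cases h0 : cls w = 0
      · rw [Set.indicator_of_mem (show w ∈ cls ⁻¹' {0} from h0)]
        have h3 := hh.D_mono hP1 w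
        have h4 := hB' w
        have h5 := atD_nonneg (h := h) P w
        simp only [Pi.one_apply]
        linarith
      · rw [Set.indicator_of_notMem (show w ∉ cls ⁻¹' {0} from h0), mul_zero, add_zero]
        exact (hh.D_mono ((hR' ⟨_, w, rfl⟩).trans hP2) w).trans (hR ⟨_, w, rfl⟩ h0 w rfl)
    · have h3 := S.atI_add (F := fun w => 7 / 8 * atD h P w)
        (F' := fun w => (|B| + 1) * (cls ⁻¹' {0}).indicator (1 : X → ℝ) w)
        (continuous_const.mul (hh.cont_D P)) (continuous_const.mul hi)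
      rw [S.atI_smul _ (hh.cont_D P), S.atI_smul _ hi, S.atI_ind hcl] at h3
      refine h3.le.trans (add_le_add_right ?_ _)
      have h4 := pow_le_pow_left₀ (norm_nonneg _) hc0 2
      rw [Real.sq_sqrt (div_pos hε hB0).le, le_div_iff₀ hB0] at h4
      linarith
  by_contra hn
  push Not at hn
  have hb : BddBelow (Set.range fun P : Part X => S.atI (atD h P)) :=
    ⟨η, by rintro _ ⟨P, rfl⟩; exact (hn P).le⟩
  have h2 : η ≤ ⨅ P : Part X, S.atI (atD h P) := le_ciInf fun P => (hn P).le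
  obtain ⟨P, hP⟩ := exists_lt_of_ciInf_lt
    (show ⨅ P : Part X, S.atI (atD h P) < (⨅ P : Part X, S.atI (atD h P)) + η / 16 by linarith)
  obtain ⟨P', hP'⟩ := h1 P (η / 16) (by positivity)
  have h3 := ciInf_le hb P'
  linarith

/-- PROOF.  `h U = cE (x* pr U x) ≥ 0` is finitely additive in `U`, `D P = ∑ i, h (P i) ^ 2` decreases under
refinement and `D P ≤ ‖x‖ ^ 4`.  Let `δ = 1 / 4`.  Case (a): there are clopen `U₀` and nonempty clopen `V₀`
with `h U₀ > 0` on `V₀` such that for all clopen `U ⊆ U₀` and `w ∈ V₀`: `h U w ≤ δ h U₀ w` or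
`h (U₀ \ U) w ≤ δ h U₀ w`.  Then `θ U = {w ∈ V₀ | δ h U₀ w < h (U ∩ U₀) w}
= {w ∈ V₀ | (1 - δ) h U₀ w ≤ h (U ∩ U₀) w}` works with `c = (1 - δ) ψ (1_{V₀} h U₀)` (`norm_sq_Q'`,
`ψ_fn_pos`).  Otherwise, given `P`, call `V` good if `D P' ≤ (1 - 2 δ²) D P` on `V` for some `P' ≥ P`;
every nonempty clopen set contains a nonempty good one (shrink for one atom of `P` after the other;
`a² + b² = (a + b)² - 2 a b`).  `exhaust` and a common refinement give
`ψ (D P'') ≤ (1 - 2 δ²) ψ (D P) + η`, so the infimum of `ψ (D P)` is `0`. -/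
theorem exists_gap {x : H →L[ℂ] H} (hx : x ∈ S.M) (h : ¬ S.Dif x) :
    ∃ (θ : Set X → Set X) (c : ℝ), Add' θ ∧ 0 < c ∧ ∀ P : Part X, c ≤ ‖S.Q θ P.f x S.Ω‖ ^ 2 := by
  let k : Set X → X → ℝ := fun U w => (S.cE (star x * S.pr U * x) w).re
  have hm : ∀ U, star x * S.pr U * x ∈ S.M := fun U =>
    mul_mem (mul_mem (star_mem hx) (S.pr_mem U)) hx
  have hnn : ∀ U, IsClopen U → ∀ w, 0 ≤ S.cE (star x * S.pr U * x) w := fun U hU w =>
    S.cE_nonneg (hm U) (star_left_conjugate_nonneg (S.pr_proj hU).nonneg x) w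
  have hk : ∀ U, IsClopen U → ∀ w, S.cE (star x * S.pr U * x) w = k U w := fun U hU w =>
    (Complex.eq_re_of_ofReal_le (r := 0) (hnn U hU w))
  have hh : AtFA k := by
    refine ⟨fun U _ => Complex.continuous_re.comp (map_continuous _),
      fun U hU w => (Complex.nonneg_iff.1 (hnn U hU w)).1, fun U V hU hV hd w => ?_⟩
    simp only [k]
    rw [S.pr_union hU hV hd, mul_add, add_mul, S.cE_add (hm U) (hm V), ContinuousMap.add_apply,
      Complex.add_re]
  by_cases hs : AtSplit k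
  · refine absurd (fun η hη => ?_) h
    obtain ⟨P, hP⟩ := S.at_small hh hs hη
    refine ⟨P, le_trans (le_of_eq ?_) hP⟩
    rw [show atD k P = fun w => ∑ i, k (P.f ⁻¹' {i}) w ^ 2 from rfl,
      S.atI_sum (F := fun i w => k (P.f ⁻¹' {i}) w ^ 2) _ fun i _ => (hh.cont _ (P.clopen i)).pow 2]
    refine Finset.sum_congr rfl fun i _ => ?_
    rw [S.norm_sq_eq_ψ, ← map_star, ← map_mul, ← S.fn_coe, atI]
    congr 3
    funext w
    simp [hk _ (P.clopen i), sq]
  · obtain ⟨θ, U₀, V₀, hθ, hU₀, hV₀, ⟨w₀, hw₀⟩, hpos, hle⟩ := hh.theta hs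
    have hc : Continuous fun w => 3 / 4 * V₀.indicator (k U₀) w :=
      continuous_const.mul (hV₀.continuous_indicator (hh.cont _ hU₀))
    refine ⟨θ, S.atI fun w => 3 / 4 * V₀.indicator (k U₀) w, hθ, S.ψ_fn_pos hc
      (fun w => mul_nonneg (by norm_num) (Set.indicator_nonneg (fun y _ => hh.nn _ hU₀ y) w))
      (w := w₀) ?_, fun P => ?_⟩
    · rw [Set.indicator_of_mem hw₀]
      have := hpos w₀ hw₀
      positivity
    · have hci : ∀ i ∈ (Finset.univ : Finset (Fin P.n)),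
          Continuous ((θ (P.f ⁻¹' {i})).indicator (k (P.f ⁻¹' {i}))) := fun i _ =>
        (hθ.clopen _ (P.clopen i)).continuous_indicator (hh.cont _ (P.clopen i))
      refine (S.ψ_fn_mono hc (continuous_finsetSum _ hci) (hle P)).trans (le_of_eq ?_)
      have h1 := congrArg Complex.re (S.norm_sq_Q' hθ P.lc hx)
      rw [Complex.ofReal_re, Complex.re_sum] at h1
      rw [h1]
      refine (S.atI_sum _ hci).trans (Finset.sum_congr rfl fun i _ => ?_)
      rw [S.pr_mul_ι (hθ.clopen _ (P.clopen i)), atI]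
      congr 3
      funext w
      by_cases hw : w ∈ θ (P.f ⁻¹' {i}) <;> simp [hw, hk _ (P.clopen i)]

private theorem atB_sa {U : Set X} (hU : IsClopen U) : star (S.pr U) = S.pr U :=
  (S.pr_proj hU).isSelfAdjoint.star_eq

/-- `y a y*` lies in `A`. -/
private theorem atB_conj {y : H →L[ℂ] H} (hy : y ∈ S.M)
    (h : ∀ U, IsClopen U → ∃ V, IsClopen V ∧ S.pr U * y = y * S.pr V) (F : C(X, ℂ)) :
    ∃ F', S.ι F' = y * S.ι F * star y := by
  refine S.exists_ι_of_pr (mul_mem (mul_mem hy (S.mem F)) (star_mem hy)) fun U hU => ?_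
  obtain ⟨V, hV, e⟩ := h U hU
  have e' : star y * S.pr U = S.pr V * star y := by
    simpa only [star_mul, atB_sa S hU, atB_sa S hV] using congrArg star e
  calc S.pr U * (y * S.ι F * star y) = y * (S.pr V * S.ι F) * star y := by
        rw [← mul_assoc, ← mul_assoc, e, mul_assoc y]
    _ = y * S.ι F * star y * S.pr U := by
        rw [S.pr_comm_ι, mul_assoc _ _ (S.pr U), e', ← mul_assoc, ← mul_assoc]

/-- PROOF.  `k i = y p i y*` commutes with all `pr U`, so it lies in `A` and equals its expectation.  With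
`κ = (∑ k i ^ 2) ^ (1/2) ≥ k i`, `‖κ‖ ≤ ‖y‖²`, `‖κ Ω‖² = ∑ ‖k i Ω‖²` and `z = y* y`:
`‖T P z Ω‖² = ∑ ψ (p i y* k i y p i) ≤ ψ (y* κ y)` is small by `uf`; `‖y Ω‖² = ψ z = ψ (T P z)`. -/
theorem not_dif_star {y : H →L[ℂ] H} (hy : y ∈ S.M) (h0 : y ≠ 0)
    (h : ∀ U, IsClopen U → ∃ V, IsClopen V ∧ S.pr U * y = y * S.pr V) : ¬ S.Dif (star y) := by
  intro hd
  have hyΩ : 0 < ‖y S.Ω‖ := norm_pos_iff.2 fun h1 => h0 (S.sep y hy h1)
  have hyn : 0 < ‖y‖ ^ 2 := pow_pos (norm_pos_iff.2 h0) 2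
  obtain ⟨δ, hδ, huf⟩ := S.uf (y S.Ω) (ε := ‖y S.Ω‖ ^ 3 / (2 * ‖y‖ ^ 2)) (by positivity)
  obtain ⟨P, hP⟩ := hd ((δ * ‖y‖ ^ 2) ^ 2) (by positivity)
  choose K hK using fun i : Fin P.n => atB_conj S hy h (cfn ((P.f ⁻¹' {i}).indicator 1))
  replace hK : ∀ i, S.ι (K i) = y * S.pr (P.f ⁻¹' {i}) * star y := hK
  simp only [star_star, ← hK, S.cE_ι] at hP
  have hK0 : ∀ i w, 0 ≤ K i w := fun i => (S.ι_nonneg_iff _).1 (by
    rw [hK]
    exact star_right_conjugate_nonneg (S.pr_proj (P.clopen i)).nonneg y)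
  have hKre : ∀ i w, ((K i w).re : ℂ) = K i w := fun i w =>
    Complex.ext rfl (by simpa using (Complex.nonneg_iff.1 (hK0 i w)).2)
  have hKre0 : ∀ i w, 0 ≤ (K i w).re := fun i w => (Complex.nonneg_iff.1 (hK0 i w)).1
  have hsum : ∀ w, ∑ i, (K i w).re ≤ ‖y‖ ^ 2 := fun w => by
    have h1 : S.ι (∑ i, K i) = y * star y := by
      rw [map_sum]
      simp only [hK]
      rw [← Finset.sum_mul, ← Finset.mul_sum, S.sum_pr P.lc, mul_one]
    have h2 := (∑ i, K i).norm_coe_le_norm w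
    rw [← S.norm_ι, h1, CStarRing.norm_self_mul_star, ← sq] at h2
    refine le_trans ?_ ((Complex.re_le_norm _).trans h2)
    rw [ContinuousMap.sum_apply, Complex.re_sum]
  set κ : X → ℝ := fun w => √(∑ i, (K i w).re ^ 2) with hκ
  have hκc : Continuous fun w => (κ w : ℂ) := by
    simp only [hκ]; fun_prop
  have hκ0 : ∀ w, 0 ≤ κ w := fun w => Real.sqrt_nonneg _
  have hκ1 : ∀ w, κ w ≤ ‖y‖ ^ 2 := fun w => by
    refine le_trans (Real.sqrt_le_iff.2 ⟨Finset.sum_nonneg fun i _ => hKre0 i w, ?_⟩) (hsum w)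
    exact Finset.sum_sq_le_sq_sum_of_nonneg fun i _ => hKre0 i w
  have hκ2 : ∀ i w, (K i w).re ≤ κ w := fun i w => Real.le_sqrt_of_sq_le
    (Finset.single_le_sum (f := fun i => (K i w).re ^ 2) (fun i _ => sq_nonneg _) (Finset.mem_univ i))
  set k := S.fn fun w => (κ w : ℂ) with hk
  have hkK : ∀ i, S.ι (K i) ≤ k := fun i => by
    rw [← sub_nonneg, hk, Masa.fn, ← map_sub, S.ι_nonneg_iff]
    intro w
    rw [ContinuousMap.sub_apply, cfn_apply hκc, ← hKre, ← Complex.ofReal_sub, Complex.zero_le_real]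
    linarith [hκ2 i w]
  have hkΩ : ‖k S.Ω‖ ≤ δ * ‖y‖ ^ 2 := by
    refine (abs_le_of_sq_le_sq' (le_trans (le_of_eq ?_) hP) (by positivity)).2
    have h1 : star k * k = ∑ i, star (S.ι (K i)) * S.ι (K i) := by
      simp only [← map_star, ← map_mul]
      rw [← map_sum, hk, S.star_fn hκc, S.fn_mul (F := fun w => conj (κ w : ℂ))
        (Complex.continuous_conj.comp hκc) hκc, ← S.fn_coe]
      congr 1
      funext w
      rw [Complex.conj_ofReal, ← Complex.ofReal_mul,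
        Real.mul_self_sqrt (Finset.sum_nonneg fun i _ => sq_nonneg _), ContinuousMap.sum_apply,
        Complex.ofReal_sum]
      refine Finset.sum_congr rfl fun i _ => ?_
      rw [ContinuousMap.mul_apply, ContinuousMap.star_apply, ← hKre i w]
      simp [sq]
    rw [S.norm_sq_eq_ψ, h1, S.ψ_sum, Complex.re_sum]
    exact Finset.sum_congr rfl fun i _ => (S.norm_sq_eq_ψ _).symm
  have hky : ‖k (y S.Ω)‖ ≤ ‖y S.Ω‖ ^ 3 / 2 := by
    have hn : ∀ v, ‖((((‖y‖ ^ 2)⁻¹ : ℝ) : ℂ) • k) v‖ = (‖y‖ ^ 2)⁻¹ * ‖k v‖ := fun v => by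
      rw [ContinuousLinearMap.smul_apply, norm_smul, Complex.norm_real,
        Real.norm_of_nonneg (by positivity)]
    have h1 := huf ((((‖y‖ ^ 2)⁻¹ : ℝ) : ℂ) • k) (smul_mem_vn (S.fn_mem _) _) (by
      rw [norm_smul, Complex.norm_real, Real.norm_of_nonneg (by positivity),
        inv_mul_le_iff₀ hyn, mul_one]
      exact S.norm_fn_le hyn.le fun w => by
        rw [Complex.norm_real, Real.norm_of_nonneg (hκ0 w)]; exact hκ1 w)
      (by rw [hn, inv_mul_le_iff₀ hyn]; linarith)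
    rw [hn, inv_mul_le_iff₀ hyn] at h1
    refine h1.trans (le_of_eq ?_)
    field_simp
  have hz : star y * y ∈ S.M := mul_mem (star_mem hy) hy
  have h1 : ‖y S.Ω‖ ^ 2 ≤ ‖S.T P.f (star y * y) S.Ω‖ := by
    rw [S.norm_sq_eq_ψ, ← S.ψ_T P.lc hz]
    exact (Complex.re_le_norm _).trans (S.norm_ψ_le _)
  have h2 : star (S.T P.f (star y * y)) * S.T P.f (star y * y) ≤ S.T P.f (star y * k * y) := by
    rw [(S.T_sa P.lc (.star_mul_self y)).star_eq]
    nth_rw 1 [Masa.T]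
    rw [Finset.sum_mul]
    refine Finset.sum_le_sum fun i _ => ?_
    have h3 := star_left_conjugate_le_conjugate (hkK i) (y * S.pr (P.f ⁻¹' {i}))
    rw [hK, star_mul, atB_sa S (P.clopen i)] at h3
    rw [mul_assoc, S.pr_mul_T_fibre P.lc]
    simpa only [mul_assoc] using h3
  have h3 := S.ψ_mono h2
  rw [← S.norm_sq_eq_ψ, S.ψ_T P.lc (mul_mem (mul_mem (star_mem hy) (S.fn_mem _)) hy), mul_assoc,
    S.ψ_star_mul] at h3
  have h4 : (⟪y S.Ω, (k * y) S.Ω⟫_ℂ).re ≤ ‖y S.Ω‖ * (‖y S.Ω‖ ^ 3 / 2) :=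
    (Complex.re_le_norm _).trans ((norm_inner_le_norm _ _).trans
      (mul_le_mul_of_nonneg_left hky hyΩ.le))
  have h5 : (‖y S.Ω‖ ^ 2) ^ 2 ≤ ‖S.T P.f (star y * y) S.Ω‖ ^ 2 := by gcongr
  have h6 : 0 < ‖y S.Ω‖ ^ 4 := by positivity
  nlinarith

private theorem atB_graph {x : H →L[ℂ] H} (hx : x ∈ S.M) (h : ¬ S.Dif x) :
    ∃ θ, Add' θ ∧ ∃ y ∈ S.M, y ≠ 0 ∧ (∀ U, IsClopen U → S.pr U * y = y * S.pr (θ U)) ∧
      OExp.WL (UP X) (fun P : Part X => S.Q θ P.f x) y := by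
  obtain ⟨θ, c, hθ, hc, hP⟩ := S.exists_gap hx h
  obtain ⟨y, hy, h1, h2⟩ := S.exists_graph hθ hx
  refine ⟨θ, hθ, y, hy, ?_, h1, h2⟩
  rintro rfl
  have h3 := (Complex.continuous_re.tendsto _).comp (h2 (x S.Ω) S.Ω)
  have h4 := ge_of_tendsto' h3 fun P => (show c ≤ (⟪x S.Ω, S.Q θ P.f x S.Ω⟫_ℂ).re by
    rw [← S.ψ_star_mul, ← S.norm_sq_Q hθ P.lc hx, Complex.ofReal_re]; exact hP P)
  simp at h4
  linarith

/-- PROOF.  `exists_gap`, `exists_graph` give `y` with `ψ (x* y) = lim ‖Q θ P x Ω‖² ≠ 0`.  Repeat for `y*`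
(`not_dif_star`): `y₂ = lim Q θ₂ P y*`, `ψ (y y₂) ≠ 0`, and `y₂ pr U = pr (θ U) y₂` persists.  Put `z = y₂*`.
As `Q θ P z = z`-type invariance: `Q θ P z = z pr (θ univ) = z`, `ψ_star_mul_Q` gives
`ψ (z* x) = lim ψ (z* Q θ P x) = ψ (z* y)`.  In the same way `ψ (z* y) = ψ (z* R y)` for
`R y = (Q θ₂ P y*)* = ∑ pr (θ₂ (P i)) y pr (P i)` (`z = R z`, centrality), which tends weakly to `z`; so
`ψ (z* y) = ‖z Ω‖² ≠ 0`. -/
theorem exists_bigraph {x : H →L[ℂ] H} (hx : x ∈ S.M) (h : ¬ S.Dif x) :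
    ∃ z ∈ S.M, (∀ U, IsClopen U → ∃ V, IsClopen V ∧ S.pr U * z = z * S.pr V) ∧
      (∀ U, IsClopen U → ∃ V, IsClopen V ∧ z * S.pr U = S.pr V * z) ∧ S.ψ (star z * x) ≠ 0 := by
  obtain ⟨θ, hθ, y, hy, hy0, h1, h2⟩ := atB_graph S hx h
  obtain ⟨θ₂, hθ₂, y₂, hy₂, hy₂0, h3, h4⟩ := atB_graph S (star_mem hy)
    (S.not_dif_star hy hy0 fun U hU => ⟨_, hθ.clopen U hU, h1 U hU⟩)
  have h5 : ∀ U, IsClopen U → y₂ * S.pr U = S.pr (θ U) * y₂ := fun U hU => by
    have e : star y * S.pr U = S.pr (θ U) * star y := by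
      simpa only [star_mul, atB_sa S hU, atB_sa S (hθ.clopen U hU)] using congrArg star (h1 U hU)
    refine (h4.mul_right _).unique (h4.mul_left _) (.of_forall fun P => ?_)
    simp only [Masa.Q, Finset.mul_sum, Finset.sum_mul]
    refine Finset.sum_congr rfl fun i _ => ?_
    rw [mul_assoc _ _ (S.pr U), S.pr_comm _ U, ← mul_assoc, mul_assoc _ _ (S.pr U), e, ← mul_assoc,
      S.pr_comm _ (θ U), mul_assoc (S.pr (θ U)), mul_assoc (S.pr (θ U))]
  have h6 : ∀ U, IsClopen U → S.pr U * star y₂ = star y₂ * S.pr (θ U) := fun U hU => by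
    simpa only [star_mul, atB_sa S hU, atB_sa S (hθ.clopen U hU)] using congrArg star (h5 U hU)
  have h7 : ∀ U, IsClopen U → star y₂ * S.pr U = S.pr (θ₂ U) * star y₂ := fun U hU => by
    simpa only [star_mul, atB_sa S hU, atB_sa S (hθ₂.clopen U hU)] using congrArg star (h3 U hU)
  refine ⟨star y₂, star_mem hy₂, fun U hU => ⟨_, hθ.clopen U hU, h6 U hU⟩,
    fun U hU => ⟨_, hθ₂.clopen U hU, h7 U hU⟩, ?_⟩
  have h8 : S.ψ (star (star y₂) * x) = ⟪star y₂ S.Ω, y S.Ω⟫_ℂ := by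
    refine tendsto_nhds_unique (tendsto_const_nhds.congr fun P : Part X => ?_) (h2 _ _)
    have e : S.Q θ P.f (star y₂) = star y₂ := by
      have : ∀ i, S.pr (P.f ⁻¹' {i}) * star y₂ * S.pr (θ (P.f ⁻¹' {i}))
          = S.pr (P.f ⁻¹' {i}) * star y₂ := fun i => by
        rw [mul_assoc, ← h6 _ (P.clopen i), ← mul_assoc,
          (S.pr_proj (P.clopen i)).isIdempotentElem.eq]
      simp only [Masa.Q, this]
      rw [← Finset.sum_mul, S.sum_pr P.lc, one_mul]
    rw [← S.ψ_star_mul, S.ψ_star_mul_Q hθ P.lc (star_mem hy₂) hx, e]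
  have h9 : ⟪star y₂ S.Ω, y S.Ω⟫_ℂ = ⟪star y₂ S.Ω, star y₂ S.Ω⟫_ℂ := by
    refine tendsto_nhds_unique (tendsto_const_nhds.congr fun P : Part X => ?_) (h4.star _ _)
    rw [← S.ψ_star_mul, ← S.ψ_star_mul, star_star, ← S.ψ_T P.lc (mul_mem hy₂ hy)]
    congr 1
    simp only [Masa.Q, Masa.T, star_sum, Finset.mul_sum]
    refine Finset.sum_congr rfl fun i _ => ?_
    rw [star_mul, star_mul, star_star, atB_sa S (P.clopen i), atB_sa S (hθ₂.clopen _ (P.clopen i)),
      ← mul_assoc, ← mul_assoc, ← mul_assoc, ← h3 _ (P.clopen i)]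
  rw [h8, h9, inner_self_ne_zero]
  exact fun h0 => hy₂0 (star_eq_zero.1 (S.sep _ (star_mem hy₂) h0))

/-- PROOF.  `z* z = ι G`.  Pick `w` with `cE (z* x) w ≠ 0`; then `G w ≠ 0`
(`|cE (z* x)| 1_V ≤ ‖z pr V‖ ‖x‖`).  Take a clopen `V ∋ w` where both functions do not vanish and
`v = z * fn (1_V G ^ (-1/2))`; `v* (ι F) v` and `v (ι F) v*` commute with all `pr U`. -/
theorem exists_pi {x z : H →L[ℂ] H} (hx : x ∈ S.M) (hz : z ∈ S.M)
    (h1 : ∀ U, IsClopen U → ∃ V, IsClopen V ∧ S.pr U * z = z * S.pr V)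
    (h2 : ∀ U, IsClopen U → ∃ V, IsClopen V ∧ z * S.pr U = S.pr V * z) (h : S.ψ (star z * x) ≠ 0) :
    ∃ v ∈ S.M, ∃ V, IsClopen V ∧ V.Nonempty ∧ star v * v = S.pr V ∧
      (∀ F, ∃ F', star v * S.ι F * v = S.ι F') ∧ (∀ F, ∃ F', v * S.ι F * star v = S.ι F') ∧
      ∀ w ∈ V, S.cE (star v * x) w ≠ 0 := by
  have h2' : ∀ U, IsClopen U → ∃ V, IsClopen V ∧ S.pr U * star z = star z * S.pr V := fun U hU => by
    obtain ⟨V, hV, e⟩ := h2 U hU
    exact ⟨V, hV, by simpa only [star_mul, atB_sa S hU, atB_sa S hV] using congrArg star e⟩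
  have hzx : star z * x ∈ S.M := mul_mem (star_mem hz) hx
  obtain ⟨G, hG⟩ := atB_conj S (star_mem hz) h2' 1
  rw [map_one, mul_one, star_star] at hG
  have hG0 : ∀ w, 0 ≤ G w := (S.ι_nonneg_iff G).1 (hG ▸ star_mul_self_nonneg z)
  obtain ⟨w, hw⟩ : ∃ w, S.cE (star z * x) w ≠ 0 := by
    by_contra hcon
    push Not at hcon
    have : S.cE (star z * x) = 0 := ContinuousMap.ext hcon
    rw [← S.ψ_EE hzx, ← S.ι_cE hzx, this, map_zero] at h
    exact h (by simp [ψ])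
  have hGw : G w ≠ 0 := fun h0 => by
    refine hw (norm_le_zero_iff.1 (le_of_forall_pos_le_add fun ε hε => ?_))
    have hp : 0 < ‖x‖ + 1 := by positivity
    obtain ⟨V, hV, hwV, hVs⟩ := exists_clopen_nhds (U := {a | ‖G a‖ < (ε / (‖x‖ + 1)) ^ 2})
      (isOpen_lt G.continuous.norm continuous_const) (w := w)
      (by rw [Set.mem_setOf_eq, h0, norm_zero]; positivity)
    have e1 : ‖z * S.pr V‖ ≤ ε / (‖x‖ + 1) := by
      refine (abs_le_of_sq_le_sq' ?_ (by positivity)).2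
      rw [sq, ← CStarRing.norm_star_mul_self, star_mul, atB_sa S hV, mul_assoc, ← mul_assoc (star z),
        ← hG, ← S.pr_comm_ι, ← mul_assoc, (S.pr_proj hV).isIdempotentElem.eq, S.pr_mul_ι hV]
      refine S.norm_fn_le (by positivity) fun a => ?_
      by_cases ha : a ∈ V
      · rw [Set.indicator_of_mem ha]; exact (hVs ha).le
      · rw [Set.indicator_of_notMem ha, norm_zero]; positivity
    have e2 := S.norm_cE_le (mul_mem (S.pr_mem V) hzx)
    rw [Masa.pr, Masa.fn, S.cE_ι_mul _ hzx] at e2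
    have e3 := ((cfn (V.indicator 1) * S.cE (star z * x)).norm_coe_le_norm w).trans e2
    rw [ContinuousMap.mul_apply, cfn_apply (hV.continuous_indicator continuous_one),
      Set.indicator_of_mem hwV, Pi.one_apply, one_mul] at e3
    refine e3.trans ?_
    change ‖S.pr V * (star z * x)‖ ≤ _
    rw [← mul_assoc, ← atB_sa S hV, ← star_mul, zero_add]
    refine (norm_mul_le _ _).trans ?_
    rw [norm_star]
    calc ‖z * S.pr V‖ * ‖x‖ ≤ ε / (‖x‖ + 1) * (‖x‖ + 1) := by gcongr; linarith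
      _ = ε := div_mul_cancel₀ _ hp.ne'
  obtain ⟨V, hV, hwV, hVs⟩ := exists_clopen_nhds
    ((isOpen_ne_fun G.continuous continuous_const).inter
      (isOpen_ne_fun (S.cE (star z * x)).continuous continuous_const)) ⟨hGw, hw⟩
  have hGre : ∀ a, ((G a).re : ℂ) = G a := fun a =>
    Complex.ext rfl (by simpa using (Complex.nonneg_iff.1 (hG0 a)).2)
  have hGpos : ∀ a ∈ V, 0 < (G a).re := fun a ha =>
    lt_of_le_of_ne (Complex.nonneg_iff.1 (hG0 a)).1 fun h0 => (hVs ha).1 (by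
      rw [← hGre, ← h0, Complex.ofReal_zero])
  have hgc : Continuous (V.indicator fun a => (((√(G a).re)⁻¹ : ℝ) : ℂ)) := by
    refine continuous_indicator (by simp [hV.frontier_eq]) ?_
    rw [hV.isClosed.closure_eq]
    refine Complex.continuous_ofReal.comp_continuousOn (ContinuousOn.inv₀ (by fun_prop) ?_)
    exact fun a ha => (Real.sqrt_pos.2 (hGpos a ha)).ne'
  set g : C(X, ℂ) := ⟨_, hgc⟩ with hg
  have hga : ∀ a ∈ V, g a = (((√(G a).re)⁻¹ : ℝ) : ℂ) := fun a ha =>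
    Set.indicator_of_mem ha fun a => (((√(G a).re)⁻¹ : ℝ) : ℂ)
  refine ⟨z * S.ι g, mul_mem hz (S.mem g), V, hV, ⟨w, hwV⟩, ?_, fun F => ?_, fun F => ?_,
    fun a ha => ?_⟩
  · rw [star_mul, mul_assoc, ← mul_assoc (star z), ← hG, ← map_star, ← map_mul, ← map_mul,
      ← S.fn_coe]
    congr 1
    funext a
    by_cases ha : a ∈ V
    · rw [Set.indicator_of_mem ha, ContinuousMap.mul_apply, ContinuousMap.mul_apply,
        ContinuousMap.star_apply, hga a ha, ← hGre a, Complex.star_def, Complex.conj_ofReal,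
        Complex.ofReal_re, ← Complex.ofReal_mul, ← Complex.ofReal_mul, Pi.one_apply,
        Complex.ofReal_eq_one]
      have e1 := Real.mul_self_sqrt (hGpos a ha).le
      have e2 := (Real.sqrt_pos.2 (hGpos a ha)).ne'
      field_simp
      linarith
    · have : g a = 0 := Set.indicator_of_notMem ha fun a => (((√(G a).re)⁻¹ : ℝ) : ℂ)
      simp [ha, this]
  · obtain ⟨F', hF'⟩ := atB_conj S (star_mem hz) h2' F
    refine ⟨star g * F' * g, ?_⟩
    rw [map_mul, map_mul, hF', star_star, star_mul, map_star]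
    simp only [mul_assoc]
  · obtain ⟨F', hF'⟩ := atB_conj S hz h1 (g * F * star g)
    refine ⟨F', ?_⟩
    rw [hF', map_mul, map_mul, star_mul, map_star]
    simp only [mul_assoc]
  · rw [star_mul, mul_assoc, ← map_star, S.cE_ι_mul _ hzx, ContinuousMap.mul_apply,
      ContinuousMap.star_apply, hga a ha]
    refine mul_ne_zero ?_ (hVs ha).2
    simpa using (Real.sqrt_pos.2 (hGpos a ha)).ne'

private theorem atomc_pi {w p : H →L[ℂ] H} (hp : star w * w = p) (hp' : IsStarProjection p) :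
    w * p = w := by
  have h : star (w * p - w) * (w * p - w) = 0 := by
    rw [star_sub, star_mul, hp'.isSelfAdjoint.star_eq, sub_mul, mul_sub, mul_sub, mul_assoc p,
      mul_assoc p, ← mul_assoc (star w), hp, hp'.isIdempotentElem.eq, hp'.isIdempotentElem.eq]
    simp
  exact sub_eq_zero.1 ((CStarRing.star_mul_self_eq_zero_iff _).1 h)

private theorem atomc_ind {W : Set X} (hW : IsClopen W) :
    ∃ P : C(X, ℂ), S.pr W = S.ι P ∧ (∀ a ∈ W, P a = 1) ∧ ∀ a, a ∉ W → P a = 0 := by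
  have h : Continuous (W.indicator (1 : X → ℂ)) := hW.continuous_indicator continuous_one
  exact ⟨cfn (W.indicator 1), rfl, fun a ha => by rw [cfn_apply h]; simp [ha],
    fun a ha => by rw [cfn_apply h]; simp [ha]⟩

private theorem atomc_alg {A : Type*} [Ring A] {w w' p q a : A} (h1 : w * p = w) (h2 : q * w = w)
    (h3 : p * w' = w') (h4 : w' * q = w') (hp : p * p = p) (hq : q * q = q) (hpq : p * q = 0)
    (hqp : q * p = 0) (hap : p * a = a * p) (haq : q * a = a * q) :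
    (w + w' + (1 - p - q)) * a * (w + w' + (1 - p - q)) =
      w * a * w' + w' * a * w + (1 - p - q) * a := by
  have r1 : p * (1 - p - q) = 0 := by rw [mul_sub, mul_sub, hp, hpq]; simp
  have r2 : q * (1 - p - q) = 0 := by rw [mul_sub, mul_sub, hq, hqp]; simp
  have r3 : (1 - p - q) * p = 0 := by rw [sub_mul, sub_mul, hp, hqp]; simp
  have r4 : (1 - p - q) * q = 0 := by rw [sub_mul, sub_mul, hq, hpq]; simp
  have r5 : (1 - p - q) * (1 - p - q) = 1 - p - q := by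
    rw [mul_sub, mul_sub, r3, r4]; simp
  have r6 : (1 - p - q) * a = a * (1 - p - q) := by
    rw [sub_mul, sub_mul, mul_sub, mul_sub, hap, haq]; simp
  generalize 1 - p - q = r at r1 r2 r3 r4 r5 r6
  have a1 : w * a = w * a * p := by rw [mul_assoc, ← hap, ← mul_assoc, h1]
  have a2 : w' * a = w' * a * q := by rw [mul_assoc, ← haq, ← mul_assoc, h4]
  have b1 : w * a * w = 0 := by rw [a1, ← h2, mul_assoc, ← mul_assoc p, hpq]; simp
  have b2 : w * a * r = 0 := by rw [a1, mul_assoc, r1]; simp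
  have b3 : w' * a * w' = 0 := by rw [a2, ← h3, mul_assoc, ← mul_assoc q, hqp]; simp
  have b4 : w' * a * r = 0 := by rw [a2, mul_assoc, r2]; simp
  have b5 : r * a * w = 0 := by rw [r6, ← h2, mul_assoc, ← mul_assoc r, r4]; simp
  have b6 : r * a * w' = 0 := by rw [r6, ← h3, mul_assoc, ← mul_assoc r, r3]; simp
  have b7 : r * a * r = r * a := by rw [r6, mul_assoc, r5]
  simp only [add_mul, mul_add, b1, b2, b3, b4, b5, b6, b7]
  abel

/-- A partial isometry with orthogonal initial and final projections extends to an element of `Γ`.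
PROOF.  `u = w + w* + 1 - p - q` with `p = w* w = pr W`, `q = w w* = pr W'`; `u` is a self-adjoint unitary,
`u F u = w F w* + w* F w + (1 - p - q) F`.  `ψ (w F w*) = ψ (p F D)`; with `D' = w (1_W / D) w*` (a function
positive on `W'`): `ψ (w* F w) = ψ (p (w* F w) (1_W / D) D) = ψ (q F D')`. -/
theorem exists_op_ext {w : H →L[ℂ] H} (hw : w ∈ S.M) {W : Set X} (hW : IsClopen W)
    (hp : star w * w = S.pr W) (ho : w * w = 0) (hl : ∀ F, ∃ F', star w * S.ι F * w = S.ι F')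
    (hr : ∀ F, ∃ F', w * S.ι F * star w = S.ι F') {D : C(X, ℂ)}
    (hD : ∀ a ∈ W, 0 < (D a).re ∧ (D a).im = 0)
    (h : ∀ F, S.ψ (w * S.ι F * star w) = S.ψ (S.pr W * S.ι (F * D))) :
    ∃ γ : S.Γ, S.op γ * S.pr W = w := by
  have hpp := S.pr_proj hW
  have h1 : w * S.pr W = w := atomc_pi hp hpp
  have h2 : w * star w * w = w := by rw [mul_assoc, hp, h1]
  obtain ⟨F₀, hF₀⟩ := hr 1
  rw [map_one, mul_one] at hF₀
  obtain ⟨W', hW', hq⟩ := S.exists_pr_eq (F := F₀) (by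
    rw [← hF₀]
    exact ⟨by rw [IsIdempotentElem, ← mul_assoc, h2], IsSelfAdjoint.mul_star_self w⟩)
  rw [← hF₀] at hq
  have hqq := S.pr_proj hW'
  have h3 : S.pr W * star w = star w := by
    rw [← hpp.isSelfAdjoint.star_eq, ← star_mul, h1]
  have h2' : S.pr W' * w = w := by rw [hq, h2]
  have h4 : star w * S.pr W' = star w := by
    rw [← hqq.isSelfAdjoint.star_eq, ← star_mul, h2']
  have hpq : S.pr W * S.pr W' = 0 := by
    rw [← hp, hq, mul_assoc, ← mul_assoc w, ho]; simp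
  have hqp : S.pr W' * S.pr W = 0 := by rw [S.pr_comm, hpq]
  have hd : ∀ a ∈ W, a ∉ W' := fun a ha ha' => by
    rw [S.pr_mul_pr hW hW', S.pr_eq_zero_iff (hW.inter hW')] at hpq
    exact (hpq ▸ (⟨ha, ha'⟩ : a ∈ W ∩ W') : a ∈ (∅ : Set X))
  have key : ∀ F, (w + star w + (1 - S.pr W - S.pr W')) * S.ι F *
      (w + star w + (1 - S.pr W - S.pr W')) =
      w * S.ι F * star w + star w * S.ι F * w + (1 - S.pr W - S.pr W') * S.ι F := fun F =>
    atomc_alg h1 h2' h3 h4 hpp.isIdempotentElem hqq.isIdempotentElem hpq hqp (S.pr_comm_ι W F)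
      (S.pr_comm_ι W' F)
  have hs : star (w + star w + (1 - S.pr W - S.pr W')) = w + star w + (1 - S.pr W - S.pr W') := by
    rw [star_add, star_add, star_star, star_sub, star_sub, star_one, hpp.isSelfAdjoint.star_eq,
      hqq.isSelfAdjoint.star_eq, add_comm (star w)]
  have huu : (w + star w + (1 - S.pr W - S.pr W')) * (w + star w + (1 - S.pr W - S.pr W')) = 1 := by
    have := key 1
    simp only [map_one, mul_one] at this
    rw [this, hp, ← hq]; abel
  obtain ⟨P, hP, hP1, hP0⟩ := S.atomc_ind hW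
  obtain ⟨Q, hQ, hQ1, hQ0⟩ := S.atomc_ind hW'
  have hA : ∀ F, ∃ F', (w + star w + (1 - S.pr W - S.pr W')) * S.ι F *
      (w + star w + (1 - S.pr W - S.pr W')) = S.ι F' := fun F => by
    obtain ⟨F₁, e₁⟩ := hr F
    obtain ⟨F₂, e₂⟩ := hl F
    exact ⟨F₁ + F₂ + (1 - P - Q) * F, by rw [key, e₁, e₂, hP, hQ]; simp⟩
  have hne : ∀ a, P a * D a + (1 - P a) ≠ 0 := fun a => by
    by_cases ha : a ∈ W
    · rw [hP1 a ha, one_mul, sub_self, add_zero]
      exact fun h0 => (hD a ha).1.ne' (by rw [h0]; rfl)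
    · simp [hP0 a ha]
  obtain ⟨G, hG⟩ : ∃ G : C(X, ℂ), ∀ a, G a = P a * (P a * D a + (1 - P a))⁻¹ :=
    ⟨⟨fun a => P a * (P a * D a + (1 - P a))⁻¹,
      P.continuous.mul (Continuous.inv₀ (by fun_prop) hne)⟩, fun _ => rfl⟩
  have hGD : G * D = P := by
    ext a
    rw [ContinuousMap.mul_apply, hG]
    by_cases ha : a ∈ W
    · have := hne a
      rw [hP1 a ha, one_mul, sub_self, add_zero] at this ⊢
      rw [one_mul, inv_mul_cancel₀ this]
    · simp [hP0 a ha]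
  have hG0 : 0 ≤ S.ι G := (S.ι_nonneg_iff G).2 fun a => by
    rw [hG]
    by_cases ha : a ∈ W
    · rw [hP1 a ha, one_mul, one_mul, sub_self, add_zero]
      exact inv_nonneg.2 (Complex.nonneg_iff.2 ⟨(hD a ha).1.le, (hD a ha).2.symm⟩)
    · simp [hP0 a ha]
  obtain ⟨D', hD'⟩ := hr G
  obtain ⟨D'', hD''⟩ := hr D
  have hD0 : ∀ a, 0 ≤ D' a := (S.ι_nonneg_iff D').1 (hD' ▸ star_right_conjugate_nonneg hG0 w)
  have hQD : Q * D' = D' := S.inj (by rw [map_mul, ← hQ, ← hD', ← mul_assoc, ← mul_assoc, h2'])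
  have hDD : D' * D'' = Q := S.inj (by
    rw [map_mul, ← hQ, ← hD', ← hD'', hq, mul_assoc (w * S.ι G), ← mul_assoc (star w),
      ← mul_assoc (star w), hp, S.pr_comm_ι, mul_assoc (S.ι D), h3, mul_assoc w,
      ← mul_assoc (S.ι G), ← map_mul, hGD, ← hP, h3])
  refine ⟨⟨⟨w + star w + (1 - S.pr W - S.pr W'), by rw [hs, huu], by rw [hs, huu]⟩,
    add_mem (add_mem hw (star_mem hw)) (sub_mem (sub_mem (one_mem _) (S.pr_mem _)) (S.pr_mem _)),
    fun F => ?_, fun F => ?_, P * D + D' + (1 - P - Q), fun a => ?_, fun F => ?_⟩, ?_⟩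
  · simpa only [hs] using hA F
  · simpa only [hs] using hA F
  · have e := ContinuousMap.congr_fun hQD a
    have e' := ContinuousMap.congr_fun hDD a
    simp only [ContinuousMap.add_apply, ContinuousMap.mul_apply, ContinuousMap.sub_apply,
      ContinuousMap.one_apply] at e e' ⊢
    by_cases ha : a ∈ W
    · rw [hQ0 a (hd a ha), zero_mul] at e
      simpa [hP1 a ha, hQ0 a (hd a ha), ← e] using hD a ha
    · by_cases ha' : a ∈ W'
      · rw [hQ1 a ha'] at e'
        have h5 : D' a ≠ 0 := left_ne_zero_of_mul_eq_one e'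
        have h6 := Complex.pos_iff.1 ((hD0 a).lt_of_ne h5.symm)
        simpa [hP0 a ha, hQ1 a ha'] using And.intro h6.1 h6.2.symm
      · rw [hQ0 a ha', zero_mul] at e
        simp [hP0 a ha, hQ0 a ha', ← e]
  · obtain ⟨F₂, e₂⟩ := hl F
    have e3 : S.ψ (star w * S.ι F * w) = S.ψ (S.ι (F * D')) := by
      have e4 : S.pr W * S.ι (F₂ * G * D) = star w * S.ι F * w := by
        rw [mul_assoc F₂, hGD, map_mul, ← hP, ← e₂, mul_assoc (star w * S.ι F), h1, ← mul_assoc,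
          ← mul_assoc, h3]
      rw [← e4, ← h, map_mul, map_mul, ← e₂, ← hD']
      congr 1
      rw [← mul_assoc w, ← mul_assoc w, ← mul_assoc w, ← hq, S.pr_comm_ι, mul_assoc (S.ι F), h2']
      simp only [mul_assoc]
    change S.ψ ((w + star w + (1 - S.pr W - S.pr W')) * S.ι F *
      star (w + star w + (1 - S.pr W - S.pr W'))) = _
    rw [hs, key, S.ψ_add, S.ψ_add, h, e3, ← S.ψ_add, ← S.ψ_add, hP, hQ]
    congr 1
    rw [← map_one S.ι, ← map_sub, ← map_sub, ← map_mul, ← map_mul, ← map_add, ← map_add]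
    congr 1
    ring
  · change (w + star w + (1 - S.pr W - S.pr W')) * S.pr W = w
    rw [add_mul, add_mul, sub_mul, sub_mul, h1, hqp, hpp.isIdempotentElem.eq, ← h4, mul_assoc, hqp]
    simp

/-- PROOF.  If `pr V' * v * pr V' = 0` for a nonempty clopen `V' ⊆ V`: `rn_local` for `ζ = v* Ω` gives
`W ⊆ V'`, `w = v pr W`, `exists_op_ext`, and `cE (u* x) 1_W = cE (w* x) = 1_W cE (v* x)`.  Otherwise
`v pr V' = pr V' v pr V'` for all clopen `V' ⊆ V` (write `v* (1 - pr V') v pr V' = pr V''`; `V'' ⊆ V'` has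
`pr V'' v pr V'' = 0`), hence `v` commutes with all `pr U`, `v ∈ A`, and `γ = 1` works. -/
theorem exists_nrm {x v : H →L[ℂ] H} (hx : x ∈ S.M) (hv : v ∈ S.M) {V : Set X} (hV : IsClopen V)
    (hne : V.Nonempty) (hp : star v * v = S.pr V) (hl : ∀ F, ∃ F', star v * S.ι F * v = S.ι F')
    (hr : ∀ F, ∃ F', v * S.ι F * star v = S.ι F') (h : ∀ w ∈ V, S.cE (star v * x) w ≠ 0) :
    ∃ γ : S.Γ, S.cE (star (S.op γ) * x) ≠ 0 := by
  have h1 : v * S.pr V = v := atomc_pi hp (S.pr_proj hV)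
  by_cases hc : ∃ V', IsClopen V' ∧ V'.Nonempty ∧ V' ⊆ V ∧ S.pr V' * v * S.pr V' = 0
  · obtain ⟨V', hV', hne', hsub, h0⟩ := hc
    obtain ⟨W, hW, ⟨a, ha⟩, hWV, D, hD, hψ⟩ := S.rn_local hV' hne' (ζ := star v S.Ω)
      (fun W hW hWne hWV h2 => by
        have h3 : S.pr W * star v = 0 := S.sep _ (mul_mem (S.pr_mem W) (star_mem hv)) h2
        have h4 : S.pr W = 0 := by
          rw [← S.pr_mul_of_subset hV hW (hWV.trans hsub), S.pr_comm, ← hp, ← mul_assoc, h3,
            zero_mul]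
        exact hWne.ne_empty ((S.pr_eq_zero_iff hW).1 h4))
    have hpp := S.pr_proj hW
    have hst : star (v * S.pr W) = S.pr W * star v := by rw [star_mul, hpp.isSelfAdjoint.star_eq]
    obtain ⟨P, hP, hP1, -⟩ := S.atomc_ind hW
    obtain ⟨γ, hγ⟩ := S.exists_op_ext (mul_mem hv (S.pr_mem W)) hW
      (by rw [hst, mul_assoc, ← mul_assoc (star v), hp,
        S.pr_mul_of_subset hV hW (hWV.trans hsub), hpp.isIdempotentElem.eq])
      (by
        have e := S.pr_mul_of_subset hV' hW hWV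
        have e' : S.pr W * S.pr V' = S.pr W := by rw [S.pr_comm, e]
        calc v * S.pr W * (v * S.pr W)
            = v * (S.pr W * S.pr V') * (v * (S.pr V' * S.pr W)) := by rw [e, e']
          _ = v * S.pr W * (S.pr V' * v * S.pr V') * S.pr W := by simp only [mul_assoc]
          _ = 0 := by rw [h0]; simp)
      (fun F => by
        obtain ⟨F', e⟩ := hl F
        refine ⟨P * F' * P, ?_⟩
        rw [hst, map_mul, map_mul, ← e, ← hP]
        simp only [mul_assoc])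
      (fun F => by
        obtain ⟨F', e⟩ := hr (P * F * P)
        refine ⟨F', ?_⟩
        rw [hst, ← e, map_mul, map_mul, ← hP]
        simp only [mul_assoc])
      hD (fun F => by
        have e : v * S.pr W * S.ι F * (S.pr W * star v) =
            star (star v) * (S.pr W * S.ι F * star v) := by
          rw [star_star, ← mul_assoc, mul_assoc (v * S.pr W), ← S.pr_comm_ι, ← mul_assoc,
            mul_assoc v (S.pr W), hpp.isIdempotentElem.eq]
          simp only [mul_assoc]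
        rw [hst, e, S.ψ_star_mul, ← hψ]
        rfl)
    refine ⟨γ, fun h0 => h a (hsub (hWV ha)) ?_⟩
    have e1 : S.ι P * (star (S.op γ) * x) = S.ι P * (star v * x) := by
      rw [← hP, ← mul_assoc, ← mul_assoc, ← hst, ← hγ, star_mul, hpp.isSelfAdjoint.star_eq]
    have e2 := congrArg S.cE e1
    rw [S.cE_ι_mul _ (mul_mem (star_mem (op_mem γ)) hx), S.cE_ι_mul _ (mul_mem (star_mem hv) hx),
      h0, mul_zero] at e2
    simpa [hP1 a ha] using (ContinuousMap.congr_fun e2 a).symm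
  · have h2 : v * star v * v = v := by rw [mul_assoc, hp, h1]
    obtain ⟨F₀, hF₀⟩ := hr 1
    rw [map_one, mul_one] at hF₀
    have key : ∀ V', IsClopen V' → V' ⊆ V → S.pr V'ᶜ * v * S.pr V' = 0 := by
      intro V' hV' hsub
      have he := S.pr_proj hV'.compl
      have e1 : v * (star v * S.pr V'ᶜ * v) = S.pr V'ᶜ * v := by
        rw [← mul_assoc, ← mul_assoc, hF₀, ← S.pr_comm_ι, ← hF₀, mul_assoc, h2]
      obtain ⟨F', hF'⟩ := hl (cfn (V'ᶜ.indicator 1))
      change star v * S.pr V'ᶜ * v = _ at hF'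
      obtain ⟨U, hU, hU'⟩ := S.exists_pr_eq (F := F') (by
        rw [← hF']
        refine ⟨?_, he.isSelfAdjoint.conjugate' v⟩
        rw [IsIdempotentElem, mul_assoc _ v, e1, ← mul_assoc, mul_assoc (star v),
          he.isIdempotentElem.eq])
      rw [← hF'] at hU'
      have e2 : v * S.pr (U ∩ V') = S.pr V'ᶜ * v * S.pr V' := by
        rw [← S.pr_mul_pr hU hV', ← mul_assoc, hU', e1]
      rcases (U ∩ V').eq_empty_or_nonempty with h3 | h3
      · rw [← e2, h3, S.pr_empty, mul_zero]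
      · refine absurd ⟨_, hU.inter hV', h3, Set.inter_subset_right.trans hsub, ?_⟩ hc
        rw [mul_assoc, e2, ← mul_assoc, ← mul_assoc, S.pr_mul_of_disjoint (hU.inter hV') hV'.compl
          (disjoint_compl_right.mono_left Set.inter_subset_right)]
        simp
    obtain ⟨F, rfl⟩ := S.exists_ι_of_pr hv fun U hU => by
      have k1 := key (V ∩ U) (hV.inter hU) Set.inter_subset_left
      have k2 := key (V ∩ Uᶜ) (hV.inter hU.compl) Set.inter_subset_left
      have e1 : S.pr Uᶜ * v * S.pr U = 0 := by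
        rw [← S.pr_mul_of_subset (hV.inter hU).compl hU.compl
          (Set.compl_subset_compl.2 Set.inter_subset_right), S.pr_comm, ← h1, mul_assoc,
          mul_assoc v, S.pr_mul_pr hV hU, mul_assoc, ← mul_assoc _ v, k1, mul_zero]
      have e2 : S.pr U * v * S.pr Uᶜ = 0 := by
        rw [← S.pr_mul_of_subset (hV.inter hU.compl).compl hU
          (fun a ha h' => h'.2 ha), S.pr_comm, ← h1, mul_assoc,
          mul_assoc v, S.pr_mul_pr hV hU.compl, mul_assoc, ← mul_assoc _ v, k2, mul_zero]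
      rw [S.pr_compl hU] at e1 e2
      rw [sub_mul, sub_mul, one_mul, sub_eq_zero] at e1
      rw [mul_sub, mul_one, sub_eq_zero] at e2
      rw [e1, ← e2]
    obtain ⟨a, ha⟩ := hne
    refine ⟨1, fun h0 => h a ha ?_⟩
    rw [op_one, star_one, one_mul] at h0
    rw [← map_star, S.cE_ι_mul _ hx, h0, mul_zero]
    rfl

theorem dif_of_orth {x : H →L[ℂ] H} (hx : x ∈ S.M) (h : ∀ γ : S.Γ, S.cE (star (S.op γ) * x) = 0) :
    S.Dif x := by
  by_contra hd
  obtain ⟨z, hz, h1, h2, h3⟩ := S.exists_bigraph hx hd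
  obtain ⟨v, hv, V, hV, hne, hp, hl, hr, h4⟩ := S.exists_pi hx hz h1 h2 h3
  obtain ⟨γ, hγ⟩ := S.exists_nrm hx hv hV hne hp hl hr h4
  exact hγ (h γ)

private theorem at_block {p p' q x t k : H →L[ℂ] H} (hp : IsStarProjection p)
    (hp' : IsStarProjection p') (hq : IsStarProjection q) (hx : IsSelfAdjoint x)
    (ht : IsSelfAdjoint t) (h1 : p' * t = p' * (x * p * x) * p') (h2 : Commute q p')
    (hk : t * t ≤ k) {ε : ℝ} (hε : 0 ≤ ε) (h3 : ‖q * k * q‖ ≤ ε ^ 4) : ‖p * x * q * p'‖ ≤ ε := by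
  have e1 : star (p * x * q * p') * (p * x * q * p') = q * p' * (t * q) := by
    simp only [star_mul, hp.isSelfAdjoint.star_eq, hp'.isSelfAdjoint.star_eq,
      hq.isSelfAdjoint.star_eq, hx.star_eq]
    calc p' * (q * (x * p)) * (p * x * q * p') = (p' * q) * (x * (p * p) * x) * (q * p') := by
          noncomm_ring
      _ = (q * p') * (x * p * x) * (p' * q) := by
          rw [hp.isIdempotentElem.eq, ← h2.eq]
      _ = q * (p' * (x * p * x) * p') * q := by noncomm_ring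
      _ = q * p' * (t * q) := by rw [← h1]; noncomm_ring
  have e2 : star (t * q) * (t * q) = q * (t * t) * q := by
    rw [star_mul, hq.isSelfAdjoint.star_eq, ht.star_eq]; noncomm_ring
  have h4 : ‖t * q‖ * ‖t * q‖ ≤ ε ^ 4 := by
    rw [← CStarRing.norm_star_mul_self]
    refine le_trans ?_ h3
    refine CStarAlgebra.norm_le_norm_of_nonneg_of_le (star_mul_self_nonneg _) ?_
    rw [e2]
    exact hq.isSelfAdjoint.conjugate_le_conjugate hk
  have h5 : ‖t * q‖ ≤ ε ^ 2 := by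
    refine (abs_le_of_sq_le_sq' ?_ (sq_nonneg ε)).2
    nlinarith
  have h6 : ‖p * x * q * p'‖ * ‖p * x * q * p'‖ ≤ ε ^ 2 := by
    rw [← CStarRing.norm_star_mul_self, e1]
    refine (norm_mul_le _ _).trans ?_
    have h7 : ‖q * p'‖ ≤ 1 := (norm_mul_le _ _).trans
      (mul_le_one₀ hq.norm_le (norm_nonneg _) hp'.norm_le)
    exact (mul_le_of_le_one_left (norm_nonneg _) h7).trans h5
  exact abs_le_of_sq_le_sq' (by nlinarith) hε |>.2

/-- PROOF.  Take `P` with `∑ ‖EE (x p i x) Ω‖² ≤ η₁` and `P' ≥ P` with `∑ ‖T P' (x p i x) Ω‖² ≤ 2 η₁`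
(`tendsto_norm_T`, `eventually_UP`).  `k = ∑ (T P' (x p i x))²` commutes with the atoms of `P'`; `cut` with
`e = 1`, `t = η ^ 4` gives `q` with `‖(1 - q) Ω‖² ≤ 2 η₁ / η ^ 4` and
`‖p i x p' j q‖⁴ = ‖(q p' j x p i x p' j q)²‖ ≤ ‖q k q‖ ≤ η ^ 4`.  So `q x q` has blocks `≤ η`, is close to
`x` at `Ω` (`uf`), and `x' = q x q - T P' (q x q)` (`norm_T_le_of`); use `η / 2`. -/
theorem exists_blocks {x : H →L[ℂ] H} (hx : x ∈ S.M) (hs : IsSelfAdjoint x) (h : S.Dif x) {η : ℝ}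
    (hη : 0 < η) : ∃ (P : Part X) (x' : H →L[ℂ] H), x' ∈ S.M ∧ IsSelfAdjoint x' ∧ ‖x'‖ ≤ ‖x‖ + η ∧
      (∀ i, S.pr (P.f ⁻¹' {i}) * x' * S.pr (P.f ⁻¹' {i}) = 0) ∧
      (∀ i j, ‖S.pr (P.f ⁻¹' {i}) * x' * S.pr (P.f ⁻¹' {j})‖ ≤ η) ∧ ‖(x - x') S.Ω‖ ≤ η := by
  obtain ⟨ε, hε, rfl⟩ : ∃ ε : ℝ, 0 < ε ∧ η = 3 * ε := ⟨η / 3, by positivity, by ring⟩
  obtain ⟨δ₀, hδ₀, huf⟩ := S.uf (x S.Ω) hε
  obtain ⟨δ, hδ, hδ1, hδ2⟩ : ∃ δ : ℝ, 0 < δ ∧ δ ≤ δ₀ ∧ ‖x‖ * δ ≤ ε := by
    refine ⟨min δ₀ (ε / (‖x‖ + 1)), by positivity, min_le_left _ _, ?_⟩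
    have h1 : min δ₀ (ε / (‖x‖ + 1)) ≤ ε / (‖x‖ + 1) := min_le_right _ _
    rw [le_div_iff₀ (by positivity)] at h1
    have h2 : 0 < min δ₀ (ε / (‖x‖ + 1)) := by positivity
    nlinarith
  obtain ⟨P, hP⟩ := h (ε ^ 4 * δ ^ 2 / 2) (by positivity)
  rw [hs.star_eq] at hP
  have hm : ∀ U, x * S.pr U * x ∈ S.M := fun U => mul_mem (mul_mem hx (S.pr_mem U)) hx
  have h1 : Tendsto (fun P' : Part X => ∑ i, ‖S.T P'.f (x * S.pr (P.f ⁻¹' {i}) * x) S.Ω‖ ^ 2) (UP X)
      (𝓝 (∑ i, ‖S.EE (x * S.pr (P.f ⁻¹' {i}) * x) S.Ω‖ ^ 2)) :=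
    tendsto_finsetSum _ fun i _ => S.tendsto_norm_T (hm _)
  simp only [S.ι_cE (hm _)] at hP
  obtain ⟨P', hP1, hP2⟩ := ((eventually_UP P).and (h1.eventually (gt_mem_nhds
    (lt_of_le_of_lt hP (half_lt_self (by positivity)))))).exists
  let t : Fin P.n → H →L[ℂ] H := fun i => S.T P'.f (x * S.pr (P.f ⁻¹' {i}) * x)
  have hts : ∀ i, IsSelfAdjoint (t i) := fun i =>
    S.T_sa P'.lc ((S.pr_proj (P.clopen i)).isSelfAdjoint.conjugate_self hs)
  have htn : ∀ i, 0 ≤ t i * t i := fun i => by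
    have := star_mul_self_nonneg (t i)
    rwa [(hts i).star_eq] at this
  obtain ⟨q, hqM, hq, -, hqc, hqk, hqΩ⟩ := cut (M := S.M) (k := ∑ i, t i * t i) (e := 1)
    (sum_mem fun i _ => mul_mem (S.T_mem _ (hm _)) (S.T_mem _ (hm _)))
    (Finset.sum_nonneg fun i _ => htn i) (one_mem _) (IsStarProjection.one _) (one_mul _)
    (t := ε ^ 4) (by positivity)
  have hcomm : ∀ j, Commute q (S.pr (P'.f ⁻¹' {j})) := fun j => by
    refine hqc _ (Commute.sum_left _ _ _ fun i _ => ?_) (Commute.one_left _)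
    have h2 : Commute (t i) (S.pr (P'.f ⁻¹' {j})) :=
      (S.pr_mul_T P'.lc (fun w w' h => by simp only [Set.mem_preimage, h]) _).symm
    exact h2.mul_left h2
  have hqδ : ‖(1 - q) S.Ω‖ ≤ δ := by
    have h2 := hqΩ S.Ω
    have h3 : (⟪S.Ω, (∑ i, t i * t i) S.Ω⟫_ℂ).re = ∑ i, ‖t i S.Ω‖ ^ 2 := by
      have h4 := congrArg Complex.re (S.ψ_sum Finset.univ fun i => t i * t i)
      rw [Complex.re_sum] at h4
      refine h4.trans (Finset.sum_congr rfl fun i _ => ?_)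
      rw [S.norm_sq_eq_ψ, (hts i).star_eq]
    rw [h3] at h2
    have h4 : ε ^ 4 * ‖(1 - q) S.Ω‖ ^ 2 ≤ ε ^ 4 * δ ^ 2 := h2.trans hP2.le
    exact (abs_le_of_sq_le_sq' (le_of_mul_le_mul_left h4 (by positivity)) hδ.le).2
  have hbl : ∀ a b, ‖S.pr (P'.f ⁻¹' {a}) * (q * x * q) * S.pr (P'.f ⁻¹' {b})‖ ≤ ε := by
    intro a b
    rcases (P'.f ⁻¹' {a}).eq_empty_or_nonempty with h0 | ⟨y, hy⟩
    · rw [h0, S.pr_empty, zero_mul, zero_mul, norm_zero]
      exact hε.le
    · have h2 : S.pr (P'.f ⁻¹' {a}) * S.pr (P.f ⁻¹' {P.f y}) = S.pr (P'.f ⁻¹' {a}) := by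
        rw [S.pr_comm]
        exact S.pr_mul_of_subset (P.clopen _) (P'.clopen _) fun y' hy' =>
          hP1 y' y (hy'.trans hy.symm)
      have h3 := at_block (S.pr_proj (P.clopen (P.f y))) (S.pr_proj (P'.clopen b)) hq hs
        (hts (P.f y)) (S.pr_mul_T_fibre P'.lc b _) (hcomm b)
        (Finset.single_le_sum (fun i _ => htn i) (Finset.mem_univ (P.f y))) hε.le hqk
      have e : S.pr (P'.f ⁻¹' {a}) * (q * x * q) * S.pr (P'.f ⁻¹' {b}) =
          q * S.pr (P'.f ⁻¹' {a}) * (S.pr (P.f ⁻¹' {P.f y}) * x * q * S.pr (P'.f ⁻¹' {b})) := by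
        calc _ = (S.pr (P'.f ⁻¹' {a}) * q) * x * q * S.pr (P'.f ⁻¹' {b}) := by noncomm_ring
          _ = q * (S.pr (P'.f ⁻¹' {a}) * S.pr (P.f ⁻¹' {P.f y})) * x * q * S.pr (P'.f ⁻¹' {b}) := by
            rw [h2, (hcomm a).eq]
          _ = _ := by noncomm_ring
      rw [e]
      refine (norm_mul_le _ _).trans ?_
      have h7 : ‖q * S.pr (P'.f ⁻¹' {a})‖ ≤ 1 := (norm_mul_le _ _).trans
        (mul_le_one₀ hq.norm_le (norm_nonneg _) (S.pr_proj (P'.clopen a)).norm_le)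
      exact (mul_le_of_le_one_left (norm_nonneg _) h7).trans h3
  have hyM : q * x * q ∈ S.M := mul_mem (mul_mem hqM hx) hqM
  have hys : IsSelfAdjoint (q * x * q) := hs.conjugate_self hq.isSelfAdjoint
  have hT : ‖S.T P'.f (q * x * q)‖ ≤ ε := S.norm_T_le_of P'.lc hε.le fun i => hbl i i
  have hconj : ∀ {a b z : H →L[ℂ] H}, ‖a‖ ≤ 1 → ‖b‖ ≤ 1 → ‖a * z * b‖ ≤ ‖z‖ := fun ha hb =>
    (norm_mul_le _ _).trans ((mul_le_of_le_one_right (norm_nonneg _) hb).trans
      ((norm_mul_le _ _).trans (mul_le_of_le_one_left (norm_nonneg _) ha)))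
  refine ⟨P', q * x * q - S.T P'.f (q * x * q), sub_mem hyM (S.T_mem _ hyM),
    hys.sub (S.T_sa P'.lc hys), ?_, fun i => ?_, fun i j => ?_, ?_⟩
  · have := hconj (z := x) hq.norm_le hq.norm_le
    exact (norm_sub_le _ _).trans (by linarith)
  · rw [mul_sub, sub_mul, S.pr_mul_T_fibre P'.lc, mul_assoc _ (S.pr _) (S.pr _),
      (S.pr_proj (P'.clopen i)).isIdempotentElem.eq, sub_self]
  · rw [mul_sub, sub_mul]
    have h2 := hconj (z := S.T P'.f (q * x * q)) (S.pr_proj (P'.clopen i)).norm_le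
      (S.pr_proj (P'.clopen j)).norm_le
    have h3 := hbl i j
    exact (norm_sub_le _ _).trans (by linarith)
  · have e : x - (q * x * q - S.T P'.f (q * x * q))
        = (1 - q) * x + q * x * (1 - q) + S.T P'.f (q * x * q) := by noncomm_ring
    have h2 := huf (1 - q) (sub_mem (one_mem _) hqM) hq.one_sub.norm_le (hqδ.trans hδ1)
    have h3 : ‖(q * x) ((1 - q) S.Ω)‖ ≤ ε := by
      refine ((q * x).le_opNorm _).trans (le_trans ?_ hδ2)
      exact mul_le_mul ((norm_mul_le _ _).trans (mul_le_of_le_one_left (norm_nonneg _) hq.norm_le))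
        hqδ (norm_nonneg _) (norm_nonneg _)
    have h4 := (S.norm_apply_le _).trans hT
    rw [e]
    refine (norm_add₃_le (a := (1 - q) (x S.Ω)) (b := (q * x) ((1 - q) S.Ω))
      (c := S.T P'.f (q * x * q) S.Ω)).trans ?_
    linarith

end NS

end Crest.Agent.R109
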