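import Crest.Agent.R109.Stab

/-! Row 109: the barrier argument: `Q t > 0` for `0 ≤ t ≤ √r / 6`. -/

set_option autoImplicit false
set_option linter.unusedSectionVars false

namespace Crest.Agent.R109

open scoped BigOperators ComplexConjugate
open Function

variable {I : Type*} [Fintype I] [DecidableEq I] {C : Type} [Fintype C] [DecidableEq C] [Nonempty C]
  {Y : I → I → ℂ}

/-- Sites: `(i, none)` is the index `i` with a random colour, `(i, some c)` a copy of colour `c`. -/
def sY (Y : I → I → ℂ) : I × Option C → I × Option C → ℂ := fun p q => Y p.1 q.1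

/-- The polynomial on the sites. -/
noncomputable def sQ {R : Type*} [CommRing R] [Algebra ℝ R] (Y : I → I → ℂ) (t : I × Option C → R) :
    R := Qf (sY Y) Prod.snd t

/-- Admissible weights when the indices in `D` are merged. -/
def Adm (D : Finset I) (t : I × Option C → ℝ) : Prop :=
  ∀ p, 0 ≤ t p ∧ t p ≤ match p.2 with
    | none => if p.1 ∈ D then √(Fintype.card C) / 6 else 0
    | some _ => if p.1 ∈ D then 0 else (√(Fintype.card C))⁻¹

/-- The invariant. -/
def Inv (Y : I → I → ℂ) (C : Type) [Fintype C] [DecidableEq C] (D : Finset I) : Prop :=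
  ∀ t : I × Option C → ℝ, Adm D t → 0 < sQ Y t ∧
    ∀ w, (∀ c, t (w, some c) = (√(Fintype.card C))⁻¹) →
      ∑ c, sQ Y (update t (w, some c) 0) / sQ Y t
        ≤ Fintype.card C / (1 - 2 / Fintype.card C)

private theorem barA_form (h : HZ Y) {ξ : I → ℂ} {i : I} (hi : ξ i = 0) (z : ℂ) :
    ∑ j, ∑ k, conj (update ξ i z j) * Y j k * update ξ i z k
      = ∑ j, ∑ k, conj (ξ j) * Y j k * ξ k + conj z * (∑ k, Y i k * ξ k) +
        conj (∑ k, Y i k * ξ k) * z := by
  have e : update ξ i z = ξ + Pi.single i z := by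
    funext j
    by_cases hj : j = i
    · rw [hj]; simp [hi]
    · simp [hj]
  have e1 : ∀ f : I → ℂ, ∑ k, f k * Pi.single (M := fun _ => ℂ) i z k = f i * z := fun f => by
    simp [Pi.single_apply]
  have e2 : ∀ f : I → ℂ, ∑ k, conj (Pi.single (M := fun _ => ℂ) i z k) * f k = conj z * f i :=
    fun f => by
      rw [Finset.sum_eq_single i]
      · simp
      · intro k _ hk; simp [hk]
      · simp
  have e3 : conj (∑ k, Y i k * ξ k) * z = ∑ j, conj (ξ j) * Y j i * z := by
    rw [map_sum, Finset.sum_mul]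
    refine Finset.sum_congr rfl fun j _ => ?_
    rw [map_mul, h.herm i j]; ring
  simp only [e, Pi.add_apply, map_add, add_mul, mul_add, Finset.sum_add_distrib, e1]
  simp only [mul_assoc (conj (Pi.single (M := fun _ => ℂ) i z _)), ← Finset.mul_sum, e2, h.diag,
    zero_mul, mul_zero, add_zero, e3]

private theorem barA_nsq {ξ : I → ℂ} {i : I} (hi : ξ i = 0) (z : ℂ) :
    ∑ j, ‖update ξ i z j‖ ^ 2 = ∑ j, ‖ξ j‖ ^ 2 + ‖z‖ ^ 2 := by
  rw [← Finset.add_sum_erase _ _ (Finset.mem_univ i), ← Finset.add_sum_erase _ _ (Finset.mem_univ i),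
    update_self, hi, Finset.sum_congr rfl fun j hj => by
      rw [update_of_ne (Finset.ne_of_mem_erase hj)]]
  simp [add_comm]

private theorem barA_layer (h : HZ Y) (hc : Ctr Y) {b : ℝ} (hb : 0 < b) {a : I → ℝ} (i : I)
    (h0 : ∀ j, 0 ≤ a j) (h1 : ∀ j, j ≠ i → a j ≤ b⁻¹) (h2 : a i < b - 1) {ξ : I → ℂ}
    (hξ : ∀ j, ξ j = a j * ∑ k, Y j k * ξ k) : ξ = 0 := by
  set η : I → ℂ := fun j => ∑ k, Y j k * ξ k with hη
  set ζ : I → ℂ := update ξ i 0 with hζ
  have hζi : ζ i = 0 := update_self _ _ _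
  have hξζ : ξ = update ζ i (ξ i) := by rw [hζ, update_idem, update_eq_self]
  have hηi : ∑ k, Y i k * ζ k = η i := by
    refine Finset.sum_congr rfl fun k _ => ?_
    by_cases hk : k = i
    · rw [hk, h.diag, zero_mul, zero_mul]
    · rw [hζ, update_of_ne hk]
  have hns : ∀ x : ℂ, conj x * x = ((‖x‖ ^ 2 : ℝ) : ℂ) := fun x => by
    rw [← Complex.normSq_eq_conj_mul_self, Complex.normSq_eq_norm_sq]
  set B : ℂ := ∑ j, ∑ k, conj (ζ j) * Y j k * ζ k with hB
  set N : ℝ := ∑ j, ‖ζ j‖ ^ 2 with hN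
  have hN0 : 0 ≤ N := Finset.sum_nonneg fun _ _ => sq_nonneg _
  have hBN : B.re ≤ N := (Complex.re_le_norm B).trans (hc ζ)
  have hηN : ‖η i‖ ^ 2 ≤ N := by
    have c1 := (Complex.re_le_norm _).trans (hc (update ζ i (η i)))
    have c2 := (neg_le_of_abs_le ((Complex.abs_re_le_norm _).trans (hc (update ζ i (-η i)))))
    rw [barA_form h hζi, barA_nsq hζi, hηi, ← hB, ← hN] at c1 c2
    rw [hns] at c1
    rw [map_neg, neg_mul, mul_neg, hns, norm_neg] at c2
    simp only [Complex.add_re, Complex.neg_re, Complex.ofReal_re] at c1 c2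
    linarith
  have hform : ∑ j, a j * ‖η j‖ ^ 2 = B.re + 2 * (a i * ‖η i‖ ^ 2) := by
    have c1 := barA_form h hζi (ξ i)
    rw [← hξζ, hηi, ← hB] at c1
    have c2 : ∀ j, conj (ξ j) * η j = ((a j * ‖η j‖ ^ 2 : ℝ) : ℂ) := fun j => by
      rw [hξ j, map_mul, Complex.conj_ofReal, mul_assoc, hns]; push_cast; rfl
    have c3 : conj (η i) * ξ i = ((a i * ‖η i‖ ^ 2 : ℝ) : ℂ) := by
      rw [hξ i, mul_left_comm, hns]; push_cast; rfl
    have c4 : ∑ j, ∑ k, conj (ξ j) * Y j k * ξ k = ((∑ j, a j * ‖η j‖ ^ 2 : ℝ) : ℂ) := by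
      rw [Complex.ofReal_sum]
      refine Finset.sum_congr rfl fun j _ => ?_
      rw [← c2 j, hη, Finset.mul_sum]
      exact Finset.sum_congr rfl fun k _ => mul_assoc _ _ _
    rw [c4, c2, c3] at c1
    have c5 := congrArg Complex.re c1
    simp only [Complex.add_re, Complex.ofReal_re] at c5
    linarith
  have hlow : b * N + a i * ‖η i‖ ^ 2 ≤ ∑ j, a j * ‖η j‖ ^ 2 := by
    rw [hN, Finset.mul_sum, ← Finset.add_sum_erase _ _ (Finset.mem_univ i),
      ← Finset.add_sum_erase _ (fun j => a j * ‖η j‖ ^ 2) (Finset.mem_univ i), hζi]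
    have : ∑ j ∈ Finset.univ.erase i, b * ‖ζ j‖ ^ 2 ≤
        ∑ j ∈ Finset.univ.erase i, a j * ‖η j‖ ^ 2 := by
      refine Finset.sum_le_sum fun j hj => ?_
      have hji := Finset.ne_of_mem_erase hj
      rw [hζ, update_of_ne hji, hξ j, norm_mul, Complex.norm_of_nonneg (h0 j), mul_pow]
      have c1 : b * a j ≤ 1 := by
        have := mul_le_mul_of_nonneg_left (h1 j hji) hb.le
        rwa [mul_inv_cancel₀ hb.ne'] at this
      have c2 := mul_le_mul_of_nonneg_right c1 (mul_nonneg (h0 j) (sq_nonneg ‖η j‖))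
      calc b * (a j ^ 2 * ‖η j‖ ^ 2) = b * a j * (a j * ‖η j‖ ^ 2) := by ring
        _ ≤ _ := by rwa [one_mul] at c2
    simp only [norm_zero, ne_eq, OfNat.ofNat_ne_zero, not_false_eq_true, zero_pow, mul_zero,
      zero_add]
    linarith
  have hN00 : N = 0 := by
    have c1 := mul_le_mul_of_nonneg_left hηN (h0 i)
    by_contra hne
    have c2 : 0 < N := lt_of_le_of_ne hN0 (Ne.symm hne)
    nlinarith
  have hη0 : η i = 0 := by
    rw [hN00] at hηN
    exact norm_eq_zero.1 (pow_eq_zero_iff two_ne_zero |>.1 (le_antisymm hηN (sq_nonneg _)))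
  funext j
  by_cases hj : j = i
  · rw [hj, hξ i]; exact mul_eq_zero_of_right _ hη0
  · have c1 := (Finset.sum_eq_zero_iff_of_nonneg fun _ _ => sq_nonneg _).1 hN00 j (Finset.mem_univ j)
    rw [hζ, update_of_ne hj] at c1
    exact norm_eq_zero.1 (pow_eq_zero_iff two_ne_zero |>.1 c1)

private theorem barA_ne (h : HZ Y) (hc : Ctr Y) {b : ℝ} (hb : 0 < b) (hbi : b⁻¹ < b - 1)
    {t : I × Option C → ℝ} (p : I × Option C) (hn : ∀ i, t (i, none) = 0) (h0 : ∀ q, 0 ≤ t q)
    (h1 : ∀ q, q ≠ p → t q ≤ b⁻¹) (h2 : t p < b - 1) : sQ Y t ≠ 0 := by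
  obtain ⟨c₀⟩ := (inferInstance : Nonempty C)
  have hs : HZ (sY Y : I × Option C → I × Option C → ℂ) :=
    ⟨fun p q => h.herm p.1 q.1, fun p => h.diag p.1⟩
  have e1 : sQ Y t = Qf (sY Y) (fun q : I × Option C => some (q.2.getD c₀)) t := by
    refine Qf_congr (fun _ _ _ _ => rfl) ?_
    rintro ⟨i, _ | c⟩ hq
    · exact absurd (hn i) hq
    · rfl
  intro hz
  have e2 : Qf (sY Y) (fun q : I × Option C => some (q.2.getD c₀)) (fun q => (t q : ℂ)) = 0 := by
    rw [Qf_ofReal, ← e1, hz, Complex.ofReal_zero]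
  rw [Qf_det hs] at e2
  obtain ⟨ξ, hξ0, hξ⟩ := Matrix.exists_mulVec_eq_zero_iff.2 e2
  have h3 : ∀ q, ξ q = t q * ∑ q', cm (sY Y) (fun q : I × Option C => q.2.getD c₀) q q' * ξ q' := by
    intro q
    have := congrFun hξ q
    rw [Matrix.sub_mulVec, Matrix.one_mulVec] at this
    simp only [Pi.sub_apply, Pi.zero_apply, Matrix.mulVec, dotProduct, Matrix.of_apply,
      Algebra.algebraMap_self, RingHom.id_apply] at this
    rw [sub_eq_zero.1 this, Finset.mul_sum]
    exact Finset.sum_congr rfl fun j _ => by ring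
  have h4 : ∀ i, ξ (i, none) = 0 := fun i => by rw [h3, hn]; simp
  have h5 : ∀ c : C, (fun i => ξ (i, some c)) = 0 := by
    intro c
    refine barA_layer h hc hb (a := fun i => t (i, some c)) p.1 (fun j => h0 _)
      (fun j hj => h1 _ fun e => hj (by rw [← e])) ?_ fun j => ?_
    · by_cases e : (p.1, some c) = p
      · simpa only [e] using h2
      · exact (h1 _ e).trans_lt hbi
    · rw [h3]
      congr 1
      rw [Fintype.sum_prod_type]
      refine Finset.sum_congr rfl fun k _ => ?_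
      simp [Fintype.sum_option, h4, cm, sY]
  refine hξ0 (funext ?_)
  rintro ⟨i, _ | c⟩
  · exact h4 i
  · exact congrFun (h5 c) i

private theorem barA_pos (h : HZ Y) (hc : Ctr Y) {b : ℝ} (hb : 0 < b) (hbi : b⁻¹ < b - 1)
    {t : I × Option C → ℝ} (p : I × Option C) (hn : ∀ i, t (i, none) = 0) (h0 : ∀ q, 0 ≤ t q)
    (h1 : ∀ q, q ≠ p → t q ≤ b⁻¹) (h2 : t p < b - 1) : 0 < sQ Y t := by
  by_contra hle
  push Not at hle
  have hcont : Continuous fun s : ℝ => sQ Y (fun q => s * t q) :=
    (continuous_Qf_real (sY Y) Prod.snd).comp (by fun_prop)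
  have hmem : (0 : ℝ) ∈ Set.Icc (sQ Y fun q => 1 * t q) (sQ Y fun q => 0 * t q) := by
    simp only [one_mul, zero_mul, sQ, Qf_zero]
    exact ⟨hle, zero_le_one⟩
  obtain ⟨s, hs, hs0⟩ := intermediate_value_Icc' zero_le_one hcont.continuousOn hmem
  have hst : ∀ q, s * t q ≤ t q := fun q => mul_le_of_le_one_left (h0 q) hs.2
  exact barA_ne h hc hb hbi p (t := fun q => s * t q) (fun i => by simp [hn])
    (fun q => mul_nonneg hs.1 (h0 q)) (fun q hq => (hst q).trans (h1 q hq))
    ((hst p).trans_lt h2) hs0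

/-- PROOF.  `b = √r ≥ 2`.  Colour the sites `(i, none)` arbitrarily (`Qf_congr`), `Qf_det`.  If all
weights are `≤ 1/b` except one weight `< b - 1` at a site `p`, then `1 - diag t * M` is injective:
`ξ = t M ξ` gives `|ξ p|² / t p + b ‖ξ'‖² ≤ ⟪ξ, M ξ⟫ ≤ 2 |ξ p| ‖ξ'‖ + ‖ξ'‖²` (`Ctr` in each colour layer,
zero diagonal).  So `Q ≠ 0` on the ray `s t`, `s ∈ [0, 1]`, hence `Q > 0` (`Qf_zero`, continuity).
Therefore `ret ≤ 1 / (b - 1) ≤ 2 / b` and `Q / Q[p := 0] = 1 - ret / b ≥ 1 - 2 / r`. -/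
theorem inv_empty (h : HZ Y) (hc : Ctr Y) (hr : 4 ≤ Fintype.card C) : Inv Y C ∅ := by
  intro t ht
  have hr' : (4 : ℝ) ≤ Fintype.card C := by exact_mod_cast hr
  have hb : 2 ≤ √(Fintype.card C : ℝ) := Real.le_sqrt_of_sq_le (by linarith)
  have hbb : √(Fintype.card C : ℝ) * √(Fintype.card C : ℝ) = Fintype.card C :=
    Real.mul_self_sqrt (by linarith)
  have hle0 : ∀ i c, t (i, some c) ≤ (√(Fintype.card C : ℝ))⁻¹ := fun i c => by
    simpa using (ht (i, some c)).2
  generalize √(Fintype.card C : ℝ) = b at *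
  have hb0 : 0 < b := by linarith
  have hbi : b⁻¹ < b - 1 := by
    have : b⁻¹ ≤ 2⁻¹ := inv_anti₀ two_pos hb
    linarith
  have hn : ∀ i, t (i, none) = 0 := fun i => le_antisymm (by simpa using (ht (i, none)).2)
    (ht (i, none)).1
  have hle : ∀ q, t q ≤ b⁻¹ := by
    rintro ⟨i, _ | c⟩
    · rw [hn]; positivity
    · exact hle0 i c
  have hupd : ∀ (w : I) (c : C) (z : ℝ), 0 ≤ z → z < b - 1 →
      0 < sQ Y (update t (w, some c) z) := by
    intro w c z hz0 hz
    refine barA_pos h hc hb0 hbi (w, some c) (fun i => ?_) (fun q => ?_) (fun q hq => ?_) ?_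
    · rw [update_of_ne (by simp), hn]
    · by_cases hq : q = (w, some c)
      · rw [hq, update_self]; exact hz0
      · rw [update_of_ne hq]; exact (ht q).1
    · rw [update_of_ne hq]; exact hle q
    · rw [update_self]; exact hz
  have hpos : 0 < sQ Y t := by
    cases isEmpty_or_nonempty I with
    | inl hI =>
      have : t = fun _ => 0 := funext fun q => isEmptyElim q.1
      rw [this, sQ, Qf_zero]; exact one_pos
    | inr hI =>
      obtain ⟨w⟩ := hI
      obtain ⟨c⟩ := (inferInstance : Nonempty C)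
      have := hupd w c _ (ht (w, some c)).1 ((hle _).trans_lt hbi)
      rwa [update_eq_self] at this
  refine ⟨hpos, fun w hw => ?_⟩
  have h2r : 0 < 1 - 2 / (Fintype.card C : ℝ) := by
    rw [sub_pos, div_lt_one (by linarith)]; linarith
  calc ∑ c, sQ Y (update t (w, some c) 0) / sQ Y t
      ≤ ∑ _c : C, 1 / (1 - 2 / (Fintype.card C : ℝ)) := by
        refine Finset.sum_le_sum fun c _ => ?_
        have h0 := hupd w c 0 le_rfl (by linarith)
        have haff : ∀ z : ℝ, sQ Y (update t (w, some c) z) = sQ Y (update t (w, some c) 0) +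
            z * (sQ Y (update t (w, some c) 1) - sQ Y (update t (w, some c) 0)) := by
          intro z
          have := Qf_affine (Y := sY Y) (π := Prod.snd) (update t (w, some c) z) (w, some c)
          simpa only [sQ, update_idem, update_self] using this
        have ht1 := haff b⁻¹
        rw [← hw c, update_eq_self, hw c] at ht1
        generalize sQ Y (update t (w, some c) 0) = Q0 at *
        generalize sQ Y (update t (w, some c) 1) = Q1 at *
        have hd : b / 2 * (Q0 - Q1) ≤ Q0 := by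
          by_contra hlt
          push Not at hlt
          have hd0 : 0 < Q0 - Q1 := by
            by_contra h5
            push Not at h5
            nlinarith
          have h6 : Q0 / (Q0 - Q1) < b / 2 := by rwa [div_lt_iff₀ hd0]
          have h7 := hupd w c (Q0 / (Q0 - Q1)) (by positivity) (by linarith)
          rw [haff] at h7
          have h8 : Q0 / (Q0 - Q1) * (Q1 - Q0) = -Q0 := by field_simp; ring
          linarith
        rw [div_le_div_iff₀ hpos h2r, ht1, ← hbb]
        have h9 : b⁻¹ * (Q0 - Q1) ≤ 2 / (b * b) * Q0 := by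
          have := mul_le_mul_of_nonneg_left hd (show 0 ≤ 2 / (b * b) by positivity)
          have e : 2 / (b * b) * (b / 2 * (Q0 - Q1)) = b⁻¹ * (Q0 - Q1) := by field_simp
          linarith
        nlinarith
    _ = _ := by
        rw [Finset.sum_const, Finset.card_univ, nsmul_eq_mul, mul_one_div]

/-- Merging: for `t` vanishing at all sites over `v`.  (`Qf_avg`, then `Qf_embed` / `cf_map` with the
swap of `(v, none)` and `(v, some c)`.) -/
theorem sQ_merge {t : I × Option C → ℝ} {v : I} (ht : ∀ o, t (v, o) = 0) :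
    sQ Y (update t (v, none) 1) - sQ Y t
      = (Fintype.card C : ℝ)⁻¹ * ∑ c, (sQ Y (update t (v, some c) 1) - sQ Y t) := by
  have hcard : (Fintype.card C : ℝ) ≠ 0 := by exact_mod_cast Fintype.card_ne_zero
  have key : ∀ c : C, Qf (sY Y) (update Prod.snd (v, none) (some c)) (update t (v, none) 1) =
      sQ Y (update t (v, some c) 1) := by
    intro c
    have hne : ((v, none) : I × Option C) ≠ (v, some c) := by simp
    rw [Qf_embed (Equiv.swap ((v, none) : I × Option C) (v, some c)).toEmbedding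
      fun q _ => (Equiv.swap _ _).surjective q]
    have e1 : (fun q => update t (v, none) 1
        ((Equiv.swap ((v, none) : I × Option C) (v, some c)).toEmbedding q)) =
        update t (v, some c) 1 := by
      funext q
      rw [Equiv.coe_toEmbedding]
      by_cases h1 : q = (v, none)
      · rw [h1, Equiv.swap_apply_left, update_of_ne hne.symm, update_of_ne hne, ht, ht]
      · by_cases h2 : q = (v, some c)
        · rw [h2, Equiv.swap_apply_right, update_self, update_self]
        · rw [Equiv.swap_apply_of_ne_of_ne h1 h2, update_of_ne h1, update_of_ne h2]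
    have e2 : ∀ q : I × Option C,
        ((Equiv.swap ((v, none) : I × Option C) (v, some c)).toEmbedding q).1 = q.1 := by
      intro q
      rw [Equiv.coe_toEmbedding]
      by_cases h1 : q = (v, none)
      · rw [h1, Equiv.swap_apply_left]
      · by_cases h2 : q = (v, some c)
        · rw [h2, Equiv.swap_apply_right]
        · rw [Equiv.swap_apply_of_ne_of_ne h1 h2]
    rw [e1]
    refine Qf_congr (fun p q _ _ => by simp only [sY, e2]) fun q hq => ?_
    rw [Equiv.coe_toEmbedding]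
    by_cases h1 : q = (v, none)
    · rw [h1, update_of_ne hne, ht] at hq
      exact absurd rfl hq
    · by_cases h2 : q = (v, some c)
      · rw [h2, Equiv.swap_apply_right, update_self]
      · rw [Equiv.swap_apply_of_ne_of_ne h1 h2, update_of_ne h1]
  rw [sQ, Qf_avg (i := (v, none)) rfl, Finset.sum_congr rfl fun c _ => key c,
    Finset.sum_sub_distrib, Finset.sum_const, Finset.card_univ, nsmul_eq_mul]
  field_simp

section insert_aux
open Polynomial

/-- The copies of `v`. -/
private def cop (C : Type) [Fintype C] (v : I) : Finset (I × Option C) :=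
  Finset.univ.map ⟨fun c : C => (v, some c), fun _ _ h => Option.some.inj (Prod.mk.inj h).2⟩

private theorem sum_cop {M : Type*} [AddCommMonoid M] (v : I) (f : I × Option C → M) :
    ∑ p ∈ cop C v, f p = ∑ c, f (v, some c) := by
  unfold cop; rw [Finset.sum_map]; rfl

private theorem mem_cop {v : I} {p : I × Option C} : p ∈ cop C v ↔ ∃ c, p = (v, some c) := by
  unfold cop
  simp only [Finset.mem_map, Finset.mem_univ, true_and, Function.Embedding.coeFn_mk]
  exact exists_congr fun c => eq_comm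

private theorem card_cop (v : I) : (cop C v).card = Fintype.card C := by
  unfold cop; rw [Finset.card_map, Finset.card_univ]

/-- All copies of `v` get the weight `s`. -/
private noncomputable def TT {R : Type*} [CommRing R] [Algebra ℝ R] (v : I) (t : I × Option C → ℝ)
    (s : R) : I × Option C → R := fun p => if p ∈ cop C v then s else algebraMap ℝ R (t p)

private theorem map_TT {R R' : Type*} [CommRing R] [Algebra ℝ R] [CommRing R'] [Algebra ℝ R']
    (φ : R →ₐ[ℝ] R') (v : I) (t : I × Option C → ℝ) (s : R) :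
    (fun p => φ (TT v t s p)) = TT v t (φ s) := by
  funext p
  unfold TT
  split_ifs
  · rfl
  · exact φ.commutes _

private theorem TT_zero {v : I} {t : I × Option C → ℝ} (ht : ∀ c, t (v, some c) = 0) :
    TT v t (0 : ℝ) = t := by
  funext p
  unfold TT
  split_ifs with hp
  · obtain ⟨c, rfl⟩ := mem_cop.1 hp
    exact (ht c).symm
  · rfl

private theorem TT_update {R : Type*} [CommRing R] [Algebra ℝ R] {v : I} (t : I × Option C → ℝ)
    (s : R) {p : I × Option C} (hp : p ∉ cop C v) :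
    TT v (update t p 0) s = update (TT v t s) p 0 := by
  funext k
  rcases eq_or_ne k p with rfl | hk
  · simp [TT, hp]
  · simp [TT, update_of_ne hk]

private noncomputable def PP (Y : I → I → ℂ) (v : I) (t : I × Option C → ℝ) : ℝ[X] :=
  sQ Y (TT v t X)

private theorem aeval_PP {R : Type*} [CommRing R] [Algebra ℝ R] (v : I) (t : I × Option C → ℝ)
    (s : R) : aeval s (PP Y v t) = sQ Y (TT v t s) := by
  unfold PP sQ
  rw [map_Qf, map_TT, aeval_X]

private theorem eval_PP (v : I) (t : I × Option C → ℝ) (s : ℝ) :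
    (PP Y v t).eval s = sQ Y (TT v t s) := by
  rw [← aeval_PP, coe_aeval_eq_eval]

private theorem natDegree_PP (v : I) (t : I × Option C → ℝ) :
    (PP Y v t).natDegree ≤ Fintype.card C := by
  unfold PP sQ Qf
  refine natDegree_sum_le_of_forall_le _ _ fun S _ => ?_
  rw [Polynomial.algebraMap_apply, ← card_cop (C := C) v]
  refine (natDegree_C_mul_le _ _).trans ((natDegree_prod_le _ _).trans ?_)
  calc ∑ p ∈ S, (TT v t (X : ℝ[X]) p).natDegree ≤ ∑ p ∈ S, if p ∈ cop C v then 1 else 0 := by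
        refine Finset.sum_le_sum fun p _ => ?_
        unfold TT
        split_ifs
        · exact natDegree_X_le
        · rw [Polynomial.algebraMap_apply, natDegree_C]
    _ ≤ (cop C v).card := by
        rw [← Finset.card_filter]
        exact Finset.card_le_card fun p hp => (Finset.mem_filter.1 hp).2

private theorem euler_PP (v : I) (t : I × Option C → ℝ) :
    X * derivative (PP Y v t) = ∑ c, (PP Y v t - sQ Y (update (TT v t X) (v, some c) 0)) := by
  have := Qf_euler (Y := sY Y) (π := (Prod.snd : I × Option C → Option C))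
    ((LinearMap.mulLeft ℝ (X : ℝ[X])).comp derivative)
    (fun x y => by simp only [LinearMap.comp_apply, LinearMap.mulLeft_apply, derivative_mul]; ring)
    (cop C v) (TT v t X)
    (fun p hp => by simp [TT, hp])
    (fun p hp => by simp [TT, hp])
  rw [sum_cop] at this
  exact this

private theorem aeval_sQ_update (v : I) (t : I × Option C → ℝ) (s a : ℝ) (p : I × Option C) :
    (sQ Y (update (TT v t (X : ℝ[X])) p (Polynomial.C a))).eval s = sQ Y (update (TT v t s) p a) := by
  rw [← coe_aeval_eq_eval]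
  unfold sQ
  rw [map_Qf]
  congr 1
  funext k
  rcases eq_or_ne k p with rfl | hk
  · simp
  · rw [update_of_ne hk, update_of_ne hk, congrFun (map_TT (aeval s) v t X) k, aeval_X]

private theorem coeff_zero_PP {v : I} {t : I × Option C → ℝ} (ht : ∀ c, t (v, some c) = 0) :
    (PP Y v t).coeff 0 = sQ Y t := by
  rw [coeff_zero_eq_eval_zero, eval_PP, TT_zero ht]

private theorem coeff_one_PP {v : I} {t : I × Option C → ℝ} (ht : ∀ c, t (v, some c) = 0) :
    (PP Y v t).coeff 1 = ∑ c, (sQ Y (update t (v, some c) 1) - sQ Y t) := by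
  have h1 := congrArg (fun P : ℝ[X] => P.coeff 1) (euler_PP (Y := Y) v t)
  simp only [finset_sum_coeff] at h1
  rw [coeff_X_mul, coeff_derivative] at h1
  simp only [zero_add, Nat.cast_zero, mul_one] at h1
  rw [h1]
  refine Finset.sum_congr rfl fun c _ => ?_
  have h2 := Qf_affine (Y := sY Y) (π := (Prod.snd : I × Option C → Option C))
    (TT v t (X : ℝ[X])) (v, some c)
  have h3 : TT v t (X : ℝ[X]) (v, some c) = X := if_pos (mem_cop.2 ⟨c, rfl⟩)
  rw [h3] at h2
  have h4 : PP Y v t - sQ Y (update (TT v t X) (v, some c) 0)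
      = X * (sQ Y (update (TT v t X) (v, some c) (Polynomial.C 1))
        - sQ Y (update (TT v t X) (v, some c) (Polynomial.C 0))) := by
    unfold PP sQ
    rw [map_one, map_zero]
    linear_combination h2
  rw [h4, coeff_X_mul, coeff_zero_eq_eval_zero, eval_sub, aeval_sQ_update, aeval_sQ_update,
    TT_zero ht, (update_eq_self_iff (f := t) (a := (v, some c)) (b := 0)).2 (ht c).symm]

/-- The value at a merged point. -/
private theorem sQ_merged {t : I × Option C → ℝ} {v : I} (ht : ∀ c, t (v, some c) = 0) :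
    sQ Y t = (PP Y v (update t (v, none) 0)).coeff 0
      + t (v, none) * ((Fintype.card C : ℝ)⁻¹ * (PP Y v (update t (v, none) 0)).coeff 1) := by
  have h0 : ∀ c, update t (v, none) 0 (v, some c) = 0 := fun c => by
    rw [update_of_ne (by simp), ht]
  have h1 : ∀ o, update t (v, none) 0 (v, o) = 0 := fun o => by
    cases o with
    | none => simp
    | some c => exact h0 c
  rw [coeff_zero_PP h0, coeff_one_PP h0, ← sQ_merge h1, update_idem]
  exact Qf_affine t (v, none)

private theorem amhm {ι : Type*} (s : Finset ι) (d : ι → ℝ) (hd : ∀ j ∈ s, 0 < d j) :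
    (s.card : ℝ) ^ 2 ≤ (∑ j ∈ s, d j) * ∑ j ∈ s, (d j)⁻¹ := by
  have := Finset.sum_sq_le_sum_mul_sum_of_sq_eq_mul s (r := fun _ => (1 : ℝ)) (f := d)
    (g := fun j => (d j)⁻¹) (fun j hj => (hd j hj).le) (fun j hj => (inv_pos.2 (hd j hj)).le)
    (fun j hj => by rw [mul_inv_cancel₀ (hd j hj).ne', one_pow])
  simpa using this

/-- The arithmetic of the roots. -/
private theorem roots_arith {r : ℕ} (hr : 4 ≤ r) (d : Fin r → ℝ) (hd : ∀ j, 0 < d j)
    (h1 : ∑ j, (d j)⁻¹ ≤ r / (1 - 2 / r)) (h2 : ∑ j, d j ≤ r) :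
    (r : ℝ) - 2 ≤ ∑ j, d j ∧ ∀ j, d j ≤ 4 := by
  have hr' : (4 : ℝ) ≤ r := by exact_mod_cast hr
  have h3 : (r : ℝ) / (1 - 2 / r) = r ^ 2 / (r - 2) := by
    have : (r : ℝ) - 2 ≠ 0 := by linarith
    have : (r : ℝ) ≠ 0 := by linarith
    field_simp
  rw [h3, le_div_iff₀ (by linarith)] at h1
  constructor
  · have h4 := amhm Finset.univ d fun j _ => hd j
    rw [Finset.card_univ, Fintype.card_fin] at h4
    have h5 : 0 ≤ ∑ j, d j := Finset.sum_nonneg fun j _ => (hd j).le
    have h6 : (r : ℝ) ^ 2 * (r - 2) ≤ (∑ j, d j) * r ^ 2 := by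
      calc (r : ℝ) ^ 2 * (r - 2) ≤ ((∑ j, d j) * ∑ j, (d j)⁻¹) * (r - 2) := by
            gcongr; linarith
        _ = (∑ j, d j) * ((∑ j, (d j)⁻¹) * (r - 2)) := by ring
        _ ≤ (∑ j, d j) * r ^ 2 := by gcongr
    have h7 : (0 : ℝ) < r ^ 2 := by positivity
    nlinarith
  · intro j
    have h4 := amhm (Finset.univ.erase j) d fun j _ => hd j
    rw [Finset.card_erase_of_mem (Finset.mem_univ j), Finset.card_univ, Fintype.card_fin,
      Nat.cast_sub (by omega), Finset.sum_erase_eq_sub (Finset.mem_univ j),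
      Finset.sum_erase_eq_sub (Finset.mem_univ j)] at h4
    have h5 : 0 ≤ ∑ i, d i - d j := by
      rw [← Finset.sum_erase_eq_sub (Finset.mem_univ j)]
      exact Finset.sum_nonneg fun j _ => (hd j).le
    have h6 : 0 < (d j)⁻¹ := inv_pos.2 (hd j)
    have h7 : ((r : ℝ) - 1) ^ 2 * (r - 2) ≤ (r - d j) * r ^ 2 := by
      calc ((r : ℝ) - 1) ^ 2 * (r - 2)
          ≤ ((∑ i, d i - d j) * (∑ i, (d i)⁻¹ - (d j)⁻¹)) * (r - 2) := by
            push_cast at h4
            gcongr; linarith
        _ ≤ ((∑ i, d i - d j) * (∑ i, (d i)⁻¹)) * (r - 2) := by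
            gcongr
            · linarith
            · linarith
        _ = (∑ i, d i - d j) * ((∑ i, (d i)⁻¹) * (r - 2)) := by ring
        _ ≤ (∑ i, d i - d j) * r ^ 2 := by gcongr
        _ ≤ (r - d j) * r ^ 2 := by gcongr
    have h8 : (0 : ℝ) < r ^ 2 := by positivity
    by_contra hcon
    push Not at hcon
    nlinarith

private theorem coeff_one_prod {n : ℕ} (α : Fin n → ℝ) :
    (∏ j, (1 - Polynomial.C (α j) * X) : ℝ[X]).coeff 1 = -∑ j, α j := by
  have h1 : (∏ j, (1 - Polynomial.C (α j) * X) : ℝ[X]).coeff 1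
      = (derivative (∏ j, (1 - Polynomial.C (α j) * X) : ℝ[X])).eval 0 := by
    rw [← coeff_zero_eq_eval_zero, coeff_derivative]; simp
  rw [h1, derivative_prod_finset, eval_finset_sum, ← Finset.sum_neg_distrib]
  refine Finset.sum_congr rfl fun j _ => ?_
  simp [eval_prod]

private theorem logder_prod {n : ℕ} (α : Fin n → ℝ) {β : ℝ} (hd : ∀ j, 1 - α j * β ≠ 0) :
    (n : ℝ) * (∏ j, (1 - Polynomial.C (α j) * X) : ℝ[X]).eval β
      - β * (derivative (∏ j, (1 - Polynomial.C (α j) * X) : ℝ[X])).eval β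
      = (∏ j, (1 - Polynomial.C (α j) * X) : ℝ[X]).eval β * ∑ j, (1 - α j * β)⁻¹ := by
  rw [derivative_prod_finset, eval_finset_sum, Finset.mul_sum, Finset.mul_sum]
  have h0 : (n : ℝ) * (∏ j, (1 - Polynomial.C (α j) * X) : ℝ[X]).eval β
      = ∑ _j : Fin n, (∏ j, (1 - Polynomial.C (α j) * X) : ℝ[X]).eval β := by simp
  rw [h0, ← Finset.sum_sub_distrib]
  refine Finset.sum_congr rfl fun j _ => ?_
  rw [← Finset.mul_prod_erase _ _ (Finset.mem_univ j)]
  simp only [eval_mul, eval_sub, eval_one, eval_C, eval_X, derivative_sub, derivative_one,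
    derivative_mul, derivative_C, derivative_X, eval_zero, eval_add]
  have := hd j
  field_simp
  ring

end insert_aux

/-- PROOF.  `β = 1/√r`.  Let `t⁰ = t[(v, none) := 0]`, `N(s) = sQ (t⁰ with all (v, some c) := s)`, a
polynomial of degree `≤ r`, `N₀ = N 0 > 0`.  By `mix` and `real_factor`, `N = N₀ ∏ (1 - α_j s)`; `N > 0`
on `[0, β]` so `d_j = 1 - α_j β > 0`; `Qf_euler`: `∑ 1 / d_j ≤ r / (1 - 2/r)`.  With `ᾱ` the mean of the
`α_j`: `ᾱ ≤ 2 β` (AM-HM), `ᾱ ≥ 0` (`ret_nonneg`; the coefficient `N₁ = -N₀ r ᾱ` of `s` is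
`∑_c (sQ t⁰[(v,c) := 1] - N₀)`), hence `∑ d_j ≤ r` and each `d_j ≤ 4` (AM-HM on the other `r - 1`).
`sQ t = N₀ (1 - t_v ᾱ)` (`sQ_merge`), `t_v ᾱ ≤ 1/3`.  For `w`: `D(s) = ∑_c (same with (w,c) deleted)`,
`Im (D/N) ≤ 0` for `Im s < 0` (`mix`), `pick'` for `(D - D₀ N / N₀) / N₀` and `N / N₀`:
`D/N - D₀/N₀ = ∑ γ_j s / (1 - μ_j s) ≥ β (∑ γ) / 4` at `s = β`, while for `t` the same difference is
`t_v (∑ γ) / (r (1 - t_v ᾱ)) ≤ β (∑ γ) / 4`. -/
theorem inv_insert (h : HZ Y) (hr : 4 ≤ Fintype.card C) {D : Finset I} {v : I} (hv : v ∉ D)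
    (hD : Inv Y C D) : Inv Y C (insert v D) := by
  intro t ht
  have hr' : (4 : ℝ) ≤ Fintype.card C := by exact_mod_cast hr
  have hsq : 0 < √(Fintype.card C : ℝ) := Real.sqrt_pos.2 (by linarith)
  have hsq2 : √(Fintype.card C : ℝ) * √(Fintype.card C : ℝ) = Fintype.card C :=
    Real.mul_self_sqrt (by linarith)
  set β : ℝ := (√(Fintype.card C : ℝ))⁻¹ with hβdef
  have hβ : 0 < β := inv_pos.2 hsq
  have hβs : β * √(Fintype.card C : ℝ) = 1 := inv_mul_cancel₀ hsq.ne'
  have hsY : HZ (sY (C := C) Y) := ⟨fun p q => h.herm _ _, fun p => h.diag _⟩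
  -- the bounds of `Adm D`
  set τ : I × Option C → ℝ := fun p => match p.2 with
    | none => if p.1 ∈ D then √(Fintype.card C) / 6 else 0
    | some _ => if p.1 ∈ D then 0 else β with hτ
  have hτ0 : ∀ p, 0 ≤ τ p := by
    rintro ⟨i, _ | c⟩ <;> simp only [hτ] <;> split_ifs <;> positivity
  have hpos : ∀ x : I × Option C → ℝ, (∀ p, 0 ≤ x p ∧ x p ≤ τ p) →
      0 < Qf (sY Y) (Prod.snd : I × Option C → Option C) x := fun x hx => (hD x hx).1
  have htv : ∀ c, t (v, some c) = 0 := fun c => by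
    have := ht (v, some c)
    simp only [Finset.mem_insert_self, if_true] at this
    exact le_antisymm this.2 this.1
  have hτv : 0 ≤ t (v, none) ∧ t (v, none) ≤ √(Fintype.card C : ℝ) / 6 := by
    have := ht (v, none)
    simpa only [Finset.mem_insert_self, if_true] using this
  set t0 := update t (v, none) 0 with ht0
  have ht0b : ∀ p, 0 ≤ t0 p ∧ t0 p ≤ τ p := by
    rintro ⟨i, o⟩
    rcases eq_or_ne i v with rfl | hi
    · cases o with
      | none => rw [ht0, update_self]; exact ⟨le_rfl, hτ0 (i, none)⟩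
      | some c => rw [ht0, update_of_ne (by simp), htv]; exact ⟨le_rfl, hτ0 (i, some c)⟩
    · rw [ht0, update_of_ne (by simp [hi])]
      have := ht (i, o)
      cases o <;> simpa only [Finset.mem_insert, hi, false_or] using this
  have ht0v : ∀ c, t0 (v, some c) = 0 := fun c => by rw [ht0, update_of_ne (by simp), htv]
  have hTb : ∀ s : ℝ, 0 ≤ s → s ≤ β → ∀ p, 0 ≤ TT v t0 s p ∧ TT v t0 s p ≤ τ p := by
    intro s h0 h1 p
    unfold TT
    split_ifs with hp
    · obtain ⟨c, rfl⟩ := mem_cop.1 hp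
      simp only [hτ, hv, if_false]
      exact ⟨h0, h1⟩
    · exact ht0b p
  have hTc : ∀ s : ℂ, s.im < 0 → ∀ p, (TT v t0 s p).im < 0 ∨
      ((TT v t0 s p).im = 0 ∧ 0 ≤ (TT v t0 s p).re ∧ (TT v t0 s p).re ≤ τ p) := by
    intro s hs p
    unfold TT
    split_ifs with hp
    · exact Or.inl hs
    · exact Or.inr ⟨by simp, by simpa using ht0b p⟩
  set P := PP Y v t0 with hP
  have hN0 : 0 < P.coeff 0 := by rw [hP, coeff_zero_PP ht0v]; exact hpos _ ht0b
  set N0 := P.coeff 0 with hN0def
  set q := Polynomial.C N0⁻¹ * P with hq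
  have hq0 : q.coeff 0 = 1 := by rw [hq, Polynomial.coeff_C_mul, inv_mul_cancel₀ hN0.ne']
  have hPc : ∀ s : ℂ, s.im < 0 → Polynomial.aeval s P ≠ 0 := fun s hs => by
    rw [hP, aeval_PP]; exact (mix hsY hτ0 hpos (hTc s hs)).1
  have hN0c : (N0 : ℂ) ≠ 0 := by exact_mod_cast hN0.ne'
  have hqc : ∀ s : ℂ, s.im < 0 → Polynomial.aeval s q ≠ 0 := fun s hs => by
    rw [hq, map_mul, Polynomial.aeval_C]
    exact mul_ne_zero (by simpa using hN0.ne') (hPc s hs)
  obtain ⟨α, hα⟩ := real_factor q (Fintype.card C) hq0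
    ((Polynomial.natDegree_C_mul_le _ _).trans (natDegree_PP v t0)) hqc
  have hPq : P = Polynomial.C N0 * q := by
    rw [hq, ← mul_assoc, ← Polynomial.C_mul, mul_inv_cancel₀ hN0.ne', Polynomial.C_1, one_mul]
  have hPpos : ∀ s : ℝ, 0 ≤ s → s ≤ β → 0 < P.eval s := fun s h0 h1 => by
    rw [hP, eval_PP]; exact hpos _ (hTb s h0 h1)
  have hqpos : ∀ s : ℝ, 0 ≤ s → s ≤ β → 0 < q.eval s := fun s h0 h1 => by
    rw [hq, Polynomial.eval_mul, Polynomial.eval_C]
    exact mul_pos (inv_pos.2 hN0) (hPpos s h0 h1)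
  have hqe : ∀ s : ℝ, q.eval s = ∏ j, (1 - α j * s) := fun s => by
    rw [hα, Polynomial.eval_prod]; simp
  have hd : ∀ j, 0 < 1 - α j * β := by
    intro j
    by_contra hcon
    push Not at hcon
    have h1 : 0 < α j := by
      by_contra h2
      push Not at h2
      nlinarith
    have h2 := hqpos (α j)⁻¹ (inv_pos.2 h1).le (by
      rw [inv_le_iff_one_le_mul₀ h1]; linarith)
    rw [hqe, Finset.prod_eq_zero (Finset.mem_univ j) (by rw [mul_inv_cancel₀ h1.ne', sub_self])] at h2
    exact lt_irrefl _ h2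
  have hTv : ∀ c, TT v t0 β (v, some c) = β := fun c => if_pos (mem_cop.2 ⟨c, rfl⟩)
  have hinv : ∑ j, (1 - α j * β)⁻¹ ≤ Fintype.card C / (1 - 2 / Fintype.card C) := by
    have h1 := (hD _ (hTb β hβ.le le_rfl)).2 v hTv
    have h2 := congrArg (Polynomial.eval β) (euler_PP (Y := Y) v t0)
    rw [Polynomial.eval_mul, Polynomial.eval_X, Polynomial.eval_finset_sum] at h2
    have h3 : ∀ c, Polynomial.eval β (PP Y v t0 - sQ Y (update (TT v t0 Polynomial.X) (v, some c) 0))
        = P.eval β - sQ Y (update (TT v t0 β) (v, some c) 0) := fun c => by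
      rw [Polynomial.eval_sub, ← aeval_sQ_update, map_zero]
    simp only [h3] at h2
    rw [Finset.sum_sub_distrib, Finset.sum_const, Finset.card_univ, nsmul_eq_mul, ← hP] at h2
    have h4 := logder_prod α (fun j => (hd j).ne')
    rw [← hα] at h4
    have h5 : (Polynomial.derivative P).eval β = N0 * (Polynomial.derivative q).eval β := by
      conv_lhs => rw [hPq]
      simp
    have h6 : P.eval β = N0 * q.eval β := by
      conv_lhs => rw [hPq]
      simp
    rw [← Finset.sum_div, ← eval_PP, ← hP, div_le_iff₀ (hPpos β hβ.le le_rfl)] at h1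
    have h7 : P.eval β * ∑ j, (1 - α j * β)⁻¹ = ∑ c, sQ Y (update (TT v t0 β) (v, some c) 0) := by
      rw [h5, h6] at h2
      rw [h6]
      linear_combination -h2 - N0 * h4
    rw [← h7, mul_comm] at h1
    exact le_of_mul_le_mul_right h1 (hPpos β hβ.le le_rfl)
  have hP1 : P.coeff 1 = -(N0 * ∑ j, α j) := by
    conv_lhs => rw [hPq]
    rw [Polynomial.coeff_C_mul, hα, coeff_one_prod]; ring
  have hα0 : 0 ≤ ∑ j, α j := by
    have h1 : P.coeff 1 ≤ 0 := by
      rw [hP, coeff_one_PP ht0v]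
      refine Finset.sum_nonpos fun c _ => ?_
      have hu : update t0 (v, some c) 0 = t0 := update_eq_self_iff.2 (ht0v c).symm
      have h2 := ret_nonneg (π := (Prod.snd : I × Option C → Option C)) hsY (fun p => (ht0b p).1)
        (v, some c) (fun s h0 h1 => by
          rw [hu]
          refine (hpos _ fun p => ⟨mul_nonneg h0 (ht0b p).1, ?_⟩).ne'
          have := ht0b p
          nlinarith)
      unfold ret at h2
      rw [hu, le_div_iff₀ (hpos _ ht0b)] at h2
      unfold sQ
      linarith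
    rw [hP1] at h1
    by_contra h2
    push Not at h2
    nlinarith
  have hsum : ∑ j, (1 - α j * β) = Fintype.card C - β * ∑ j, α j := by
    rw [Finset.sum_sub_distrib, ← Finset.sum_mul]; simp [mul_comm]
  obtain ⟨hlow, hup⟩ := roots_arith hr (fun j => 1 - α j * β) hd hinv
    (by rw [hsum]; nlinarith)
  rw [hsum] at hlow
  set x : ℝ := t (v, none) * ((Fintype.card C : ℝ)⁻¹ * ∑ j, α j) with hx
  have hκ : t (v, none) * (Fintype.card C : ℝ)⁻¹ ≤ β / 6 := by
    rw [mul_inv_le_iff₀ (by linarith)]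
    calc t (v, none) ≤ √(Fintype.card C : ℝ) / 6 := hτv.2
      _ = β / 6 * (√(Fintype.card C : ℝ) * √(Fintype.card C : ℝ)) := by
          linear_combination (-√(Fintype.card C : ℝ) / 6) * hβs
      _ = β / 6 * Fintype.card C := by rw [hsq2]
  have hκ0 : 0 ≤ t (v, none) * (Fintype.card C : ℝ)⁻¹ := mul_nonneg hτv.1 (by positivity)
  have hx3 : x ≤ 1 / 3 := by
    rw [hx, ← mul_assoc]
    calc t (v, none) * (Fintype.card C : ℝ)⁻¹ * ∑ j, α j ≤ β / 6 * ∑ j, α j := by gcongr
      _ ≤ 1 / 3 := by linarith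
  have hsQ : sQ Y t = N0 * (1 - x) := by
    rw [sQ_merged htv, ← ht0, ← hP, hP1, hx]; ring
  have hsQpos : 0 < sQ Y t := by rw [hsQ]; exact mul_pos hN0 (by linarith)
  refine ⟨hsQpos, fun w hw => ?_⟩
  have hwv : w ≠ v := by
    rintro rfl
    obtain ⟨c⟩ := ‹Nonempty C›
    have := hw c
    rw [htv] at this
    exact hβ.ne this
  have hwc : ∀ c : C, (w, some c) ∉ cop C v := fun c hc => by
    obtain ⟨c', hc'⟩ := mem_cop.1 hc
    exact hwv (Prod.mk.inj hc').1
  have hTw : ∀ {R : Type} [CommRing R] [Algebra ℝ R] (s : R) (c : C),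
      TT v t0 s (w, some c) = algebraMap ℝ R β := fun s c => by
    unfold TT
    rw [if_neg (hwc c), ht0, update_of_ne (by simp), hw c]
  set E : Polynomial ℝ := ∑ c, PP Y v (update t0 (w, some c) 0) with hE
  have hEa : ∀ {R : Type} [CommRing R] [Algebra ℝ R] (s : R),
      Polynomial.aeval s E = ∑ c, sQ Y (update (TT v t0 s) (w, some c) 0) := fun s => by
    rw [hE, map_sum]
    exact Finset.sum_congr rfl fun c _ => by rw [aeval_PP, TT_update _ _ (hwc c)]
  set g : Polynomial ℝ := Polynomial.C N0⁻¹ * (E - Polynomial.C (E.coeff 0) * q) with hg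
  have hg0 : g.coeff 0 = 0 := by
    rw [hg, Polynomial.coeff_C_mul, Polynomial.coeff_sub, Polynomial.coeff_C_mul, hq0]; simp
  obtain ⟨J, _, γ, μ, hγ, hμ, hser, hev⟩ := pick' q g hq0 hg0 (fun s hs => ⟨hqc s hs, by
    have h1 : Polynomial.aeval s g / Polynomial.aeval s q
        = Polynomial.aeval s E / Polynomial.aeval s P - ((E.coeff 0 / N0 : ℝ) : ℂ) := by
      have := hPc s hs
      rw [hg, hq]
      simp only [map_mul, map_sub, Polynomial.aeval_C, Complex.coe_algebraMap]
      push_cast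
      field_simp
    rw [h1, Complex.sub_im, Complex.ofReal_im, sub_zero, hEa, Finset.sum_div, Complex.im_sum]
    refine Finset.sum_nonpos fun c _ => ?_
    have h2 := mix hsY hτ0 hpos (hTc s hs)
    have h3 : Qf (sY Y) (Prod.snd : I × Option C → Option C)
        (update (TT v t0 s) (w, some c) 0) ≠ 0 := by
      refine (mix hsY hτ0 hpos fun p => ?_).1
      rcases eq_or_ne p (w, some c) with rfl | hp
      · rw [update_self]; exact Or.inr ⟨rfl, le_rfl, hτ0 (w, some c)⟩
      · rw [update_of_ne hp]; exact hTc s hs p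
    have h4 := Qf_eq_ret _ _ h3
    rw [hP, aeval_PP]
    unfold sQ
    rw [h4, div_mul_cancel_left₀ h3, Complex.inv_im, hTw]
    refine div_nonpos_of_nonpos_of_nonneg ?_ (Complex.normSq_nonneg _)
    have h5 := h2.2 (w, some c)
    simp only [Complex.coe_algebraMap, Complex.sub_im, Complex.one_im, Complex.mul_im,
      Complex.ofReal_re, Complex.ofReal_im, zero_mul, add_zero, zero_sub, neg_neg]
    exact mul_nonpos_of_nonneg_of_nonpos hβ.le h5⟩)
  have hg1 : g.coeff 1 = ∑ j, γ j := by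
    have h1 := congrArg (PowerSeries.coeff 1) hser
    rw [Polynomial.coeff_coe, PowerSeries.coeff_mul, Finset.Nat.antidiagonal_succ] at h1
    simpa [rs, hq0] using h1
  have hγ0 : 0 ≤ ∑ j, γ j := Finset.sum_nonneg fun j _ => hγ j
  have hqβ := hqpos β hβ.le le_rfl
  have h1 : β / 4 * ∑ j, γ j ≤ g.eval β / q.eval β := by
    rw [hev β hqβ.ne', Finset.mul_sum]
    refine Finset.sum_le_sum fun j _ => ?_
    have h2 : 0 < 1 - μ j * β ∧ 1 - μ j * β ≤ 4 := by
      rcases eq_or_ne (μ j) 0 with h0 | h0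
      · rw [h0]; norm_num
      · have h3 := (hμ j).resolve_left h0
        rw [hqe, Finset.prod_eq_zero_iff] at h3
        obtain ⟨i, _, hi⟩ := h3
        have h4 : α i = μ j := by
          field_simp at hi
          linarith
        rw [← h4]
        exact ⟨hd i, hup i⟩
    rw [le_div_iff₀ h2.1]
    have := mul_nonneg (hγ j) hβ.le
    nlinarith [h2.2]
  have h2 : g.eval β / q.eval β = E.eval β / P.eval β - E.coeff 0 / N0 := by
    have := (hPpos β hβ.le le_rfl).ne'
    rw [hg, hq]
    simp only [Polynomial.eval_mul, Polynomial.eval_sub, Polynomial.eval_C]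
    field_simp
  have h3 : E.eval β / P.eval β ≤ Fintype.card C / (1 - 2 / Fintype.card C) := by
    have h4 := (hD _ (hTb β hβ.le le_rfl)).2 w (fun c => hTw β c)
    rwa [← Finset.sum_div, ← hEa, ← eval_PP, Polynomial.coe_aeval_eq_eval] at h4
  have h4 : ∑ c, sQ Y (update t (w, some c) 0)
      = E.coeff 0 + t (v, none) * ((Fintype.card C : ℝ)⁻¹ * E.coeff 1) := by
    rw [hE, Polynomial.finset_sum_coeff, Polynomial.finset_sum_coeff, Finset.mul_sum, Finset.mul_sum,
      ← Finset.sum_add_distrib]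
    refine Finset.sum_congr rfl fun c _ => ?_
    have hne : (w, some c) ≠ (v, none) := by simp
    rw [sQ_merged (v := v) (fun c' => by
      rw [update_of_ne (by simp [hwv.symm]), htv]), update_comm hne, update_of_ne hne.symm]
  have h5 : N0 * g.coeff 1 = E.coeff 1 + E.coeff 0 * ∑ j, α j := by
    rw [hg, Polynomial.coeff_C_mul, Polynomial.coeff_sub, Polynomial.coeff_C_mul, hα, coeff_one_prod]
    field_simp
    ring
  rw [← Finset.sum_div, h4, hsQ]
  have h6 : (E.coeff 0 + t (v, none) * ((Fintype.card C : ℝ)⁻¹ * E.coeff 1)) / (N0 * (1 - x))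
      = E.coeff 0 / N0 + t (v, none) * (Fintype.card C : ℝ)⁻¹ * (∑ j, γ j) / (1 - x) := by
    have h7 : 1 - x ≠ 0 := by linarith
    have h8 : E.coeff 1 = N0 * ∑ j, γ j - E.coeff 0 * ∑ j, α j := by rw [← hg1]; linarith
    rw [h8, div_add_div _ _ hN0.ne' h7, div_eq_div_iff (mul_ne_zero hN0.ne' h7)
      (mul_ne_zero hN0.ne' h7), hx]
    ring
  have h7 : t (v, none) * (Fintype.card C : ℝ)⁻¹ * (∑ j, γ j) / (1 - x) ≤ β / 4 * ∑ j, γ j := by
    rw [div_le_iff₀ (by linarith)]
    calc t (v, none) * (Fintype.card C : ℝ)⁻¹ * (∑ j, γ j) ≤ β / 6 * ∑ j, γ j := by gcongr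
      _ = β / 4 * (∑ j, γ j) * (2 / 3) := by ring
      _ ≤ β / 4 * (∑ j, γ j) * (1 - x) := by gcongr; linarith
  rw [h6]
  linarith

theorem barrier (h : HZ Y) (hc : Ctr Y) (hr : 4 ≤ Fintype.card C) {t : I → ℝ}
    (ht : ∀ i, 0 ≤ t i ∧ t i ≤ √(Fintype.card C) / 6) : 0 < Qf Y (fun _ => (none : Option C)) t := by
  have hall : ∀ D : Finset I, Inv Y C D := by
    intro D
    induction D using Finset.induction_on with
    | empty => exact inv_empty h hc hr
    | insert v D hv ih => exact inv_insert h hr hv ih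
  let t' : I × Option C → ℝ := fun p => match p.2 with
    | none => t p.1
    | some _ => 0
  have hadm : Adm Finset.univ t' := by
    rintro ⟨i, _ | c⟩
    · simpa [t'] using ht i
    · simp [t']
  have h1 := (hall Finset.univ t' hadm).1
  rw [sQ, Qf_embed (⟨fun i => (i, none), fun i j e => (Prod.ext_iff.1 e).1⟩ : I ↪ I × Option C)
    (by
      rintro ⟨i, _ | c⟩ hp
      · exact ⟨i, rfl⟩
      · exact absurd rfl hp)] at h1
  exact h1

end Crest.Agent.R109
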