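import Crest.Agent.R109.OBasic

/-! Row 109: the spectrum of a MASA. -/

set_option autoImplicit false
set_option linter.unusedSectionVars false

namespace Crest.Agent.R109

open Crest.Agent.R124 Filter Topology Function
open scoped BigOperators ComplexConjugate InnerProductSpace ComplexOrder Pointwise

universe u

section
variable {X : Type*} [TopologicalSpace X] [CompactSpace X] [T2Space X]
  {H : Type*} [NormedAddCommGroup H] [InnerProductSpace ℂ H] [CompleteSpace H]

theorem bridge_nonneg (S : Masa X H) {F : C(X, ℂ)} (h : 0 ≤ S.ι F) {w : X} {t : ℝ}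
    (ht : F w = t) : 0 ≤ t := by
  have hs : IsSelfAdjoint F := S.inj (by rw [map_star]; exact h.isSelfAdjoint.star_eq)
  refine spectrum_nonneg_of_nonneg h ?_
  rw [hs.map_spectrum_real S.ι S.inj, spectrum.mem_iff, ContinuousMap.isUnit_iff_forall_ne_zero]
  intro h'
  refine h' w ?_
  rw [ContinuousMap.sub_apply, ht, Algebra.algebraMap_eq_smul_one]
  simp

theorem bridge_td (S : Masa X H) : TotallyDisconnectedSpace X := by
  have : TotallySeparatedSpace X := by
    refine totallySeparatedSpace_iff_exists_isClopen.2 fun x y hxy => ?_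
    obtain ⟨f, h0, h1, -⟩ := exists_continuous_zero_one_of_isClosed (isClosed_singleton (x := x))
      (isClosed_singleton (x := y)) (Set.disjoint_singleton.2 hxy)
    obtain ⟨F, hF⟩ : ∃ F : C(X, ℂ), ∀ w, F w = f w :=
      ⟨⟨fun w => f w, Complex.continuous_ofReal.comp f.continuous⟩, fun _ => rfl⟩
    have hFs : IsSelfAdjoint F := ContinuousMap.ext fun w => by simp [hF]
    obtain ⟨p, hpM, hp, hc, h2, h3⟩ := exists_cut_op (S.mem F) (hFs.map S.ι) (1 / 2)
    obtain ⟨G, rfl⟩ := S.max p hpM fun G =>
      (hc _ (show S.ι F * S.ι G = S.ι G * S.ι F by rw [← map_mul, ← map_mul, mul_comm])).eq.symm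
    have hG : G * G = G := S.inj (by rw [map_mul]; exact hp.isIdempotentElem)
    have hG' : ∀ w, G w = 0 ∨ G w = 1 := fun w => by
      have := congrArg (fun g : C(X, ℂ) => g w) hG
      simp only [ContinuousMap.mul_apply] at this
      by_cases h : G w = 0
      · exact Or.inl h
      · exact Or.inr (mul_left_cancel₀ h (by rw [this, mul_one]))
    have e : S.ι F - (1 / 2 : ℝ) • 1 = S.ι (F - (1 / 2 : ℂ) • 1) := by
      rw [map_sub, map_smul, map_one, ← Complex.coe_smul]
      norm_num
    rw [e, ← map_mul] at h2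
    rw [e, ← map_one S.ι, ← map_sub, ← map_mul, ← neg_nonneg, ← map_neg] at h3
    have hx : G x = 0 := by
      refine (hG' x).resolve_right fun h => ?_
      have := bridge_nonneg S h2 (w := x) (t := -(1 / 2)) (by simp [h, hF, h0 rfl])
      norm_num at this
    have hy : G y = 1 := by
      refine (hG' y).resolve_left fun h => ?_
      have := bridge_nonneg S h3 (w := y) (t := -(1 / 2)) (by
        simp [h, hF, h1 rfl]; norm_num)
      norm_num at this
    refine ⟨G ⁻¹' {0}, ⟨isClosed_singleton.preimage G.continuous, ?_⟩, hx, by simp [hy]⟩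
    have : G ⁻¹' {0} = G ⁻¹' {1}ᶜ := by
      ext w
      rcases hG' w with h | h <;> simp [h]
    rw [this]
    exact isOpen_compl_singleton.preimage G.continuous
  infer_instance

end

/-- PROOF.  `A` is norm closed (maximality, `isClosed_vn`) and commutative, hence a `CommCStarAlgebra`;
`X = characterSpace ℂ A`, `ι = A.subtype ∘ (gelfandStarTransform A).symm`.  `X` is totally separated: two
characters differ on a self-adjoint `a`, say `χ a < t < χ' a` with `t > 0` after a shift; the projection
`p` of `R124.exists_cut_op` commutes with `A`, so lies in `A`, `0 ≤ (a - t) p`, `0 ≤ (t - a) (1 - p)`, and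
`{χ p = 1}` is clopen. -/
theorem bridge {H : Type u} [NormedAddCommGroup H] [InnerProductSpace ℂ H] [CompleteSpace H]
    (M : VonNeumannAlgebra H) (A : StarSubalgebra ℂ (H →L[ℂ] H)) (hAM : A ≤ M.toStarSubalgebra)
    (hA : ∀ a ∈ A, ∀ b ∈ A, a * b = b * a) (hAmax : ∀ y ∈ M, (∀ a ∈ A, a * y = y * a) → y ∈ A) :
    ∃ (X : Type u) (_ : TopologicalSpace X) (_ : CompactSpace X) (_ : T2Space X)
      (_ : TotallyDisconnectedSpace X) (S : Masa X H), S.M = M ∧ ∀ y, y ∈ A ↔ ∃ F, S.ι F = y := by
  have hcl : IsClosed (A : Set (H →L[ℂ] H)) := by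
    have e : (A : Set (H →L[ℂ] H)) = (M : Set (H →L[ℂ] H)) ∩ ⋂ a ∈ A, {y | a * y = y * a} := by
      ext y
      simp only [Set.mem_inter_iff, Set.mem_iInter, SetLike.mem_coe]
      exact ⟨fun h => ⟨hAM h, fun a ha => hA a ha y h⟩, fun h => hAmax y h.1 h.2⟩
    rw [e]
    exact (isClosed_vn M).inter (isClosed_biInter fun a _ => isClosed_eq (by fun_prop) (by fun_prop))
  let : CommCStarAlgebra A :=
    { StarSubalgebra.cstarAlgebra A with mul_comm := fun a b => Subtype.ext (hA _ a.2 _ b.2) }
  let ι : C(WeakDual.characterSpace ℂ A, ℂ) →⋆ₐ[ℂ] (H →L[ℂ] H) :=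
    A.subtype.comp ((gelfandStarTransform A).symm : C(WeakDual.characterSpace ℂ A, ℂ) →⋆ₐ[ℂ] A)
  have hι : ∀ F, ι F = ((gelfandStarTransform A).symm F : A) := fun _ => rfl
  have key : ∀ y, y ∈ A ↔ ∃ F, ι F = y := fun y =>
    ⟨fun h => ⟨gelfandStarTransform A ⟨y, h⟩, by rw [hι, StarAlgEquiv.symm_apply_apply]⟩,
      fun ⟨F, h⟩ => h ▸ ((gelfandStarTransform A).symm F).2⟩
  let S : Masa (WeakDual.characterSpace ℂ A) H :=
    { M := M
      ι := ι
      inj := fun F G h => (gelfandStarTransform A).symm.injective (Subtype.ext h)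
      mem := fun F => hAM ((key _).2 ⟨F, rfl⟩)
      max := fun y hy h => (key y).1 (hAmax y hy fun a ha => by
        obtain ⟨F, rfl⟩ := (key a).1 ha
        exact h F) }
  exact ⟨WeakDual.characterSpace ℂ A, inferInstance, inferInstance, inferInstance, bridge_td S, S,
    rfl, key⟩

end Crest.Agent.R109
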