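import Crest.Agent.R109.FDefs

/-! Row 109: the coefficients `cf` and the multi-affine polynomial `Qf`. -/

set_option autoImplicit false
set_option linter.unusedSectionVars false

namespace Crest.Agent.R109

open scoped BigOperators ComplexConjugate
open Function

variable {I : Type*} [Fintype I] [DecidableEq I] {C : Type} [Fintype C] [DecidableEq C] [Nonempty C]
  {Y Y' : I → I → ℂ} {π π' : I → Option C}

/-- Averaging over one coordinate (bijection `(f, c) ↦ (update f i c, f i)`). -/
theorem expect_update {M : Type*} [AddCommMonoid M] [Module ℚ≥0 M] (F : (I → C) → M) (i : I) :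
    𝔼 f : I → C, F f = 𝔼 f : I → C, 𝔼 c : C, F (update f i c) := by
  let e : (I → C) × C ≃ (I → C) × C :=
    { toFun := fun p => (update p.1 i p.2, p.1 i)
      invFun := fun p => (update p.1 i p.2, p.1 i)
      left_inv := fun p => by simp
      right_inv := fun p => by simp }
  rw [← Finset.expect_product' (f := fun (f : I → C) (c : C) => F (update f i c)),
    Finset.univ_product_univ,
    Fintype.expect_equiv e (fun p => F (update p.1 i p.2)) (fun p => F p.1) (fun p => rfl),
    ← Finset.univ_product_univ, Finset.expect_product]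
  exact Finset.expect_congr rfl fun f _ => (Fintype.expect_const (F f)).symm

/-- The determinant with rows in `S` is the principal minor on `S`
(`Matrix.det_toSquareBlockProp` / `twoBlockTriangular_det`). -/
theorem det_rows (N : Matrix I I ℂ) (S : Finset I) :
    (Matrix.of fun i j => if i ∈ S then N i j else if i = j then (1 : ℂ) else 0).det
      = (N.submatrix ((↑) : S → I) ((↑) : S → I)).det := by
  rw [← Matrix.det_piecewise_one_eq_submatrix_det]
  congr 1
  ext i j
  by_cases hi : i ∈ S <;> simp [Finset.piecewise, hi, Matrix.one_apply]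

theorem cf_eq_sub (Y : I → I → ℂ) (π : I → Option C) (S : Finset I) : cf Y π S =
    (𝔼 f : I → C, ((-cm Y (col π f)).submatrix ((↑) : S → I) ((↑) : S → I)).det).re := by
  rw [cf]
  congr 1
  exact Finset.expect_congr rfl fun f _ => det_rows (-cm Y (col π f)) S

private theorem cf_expect_comp_inj {ι κ G M : Type*} [Fintype ι] [DecidableEq ι] [Fintype κ]
    [DecidableEq κ] [Fintype G] [Nonempty G] [AddCommMonoid M] [Module ℚ≥0 M] {b : κ → ι}
    (hb : Function.Injective b) (F : (κ → G) → M) :
    𝔼 t : ι → G, F (t ∘ b) = 𝔼 τ : κ → G, F τ := by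
  classical
  let e : (ι → G) ≃ (κ → G) × ({i // i ∉ Set.range b} → G) :=
    (Equiv.piEquivPiSubtypeProd (fun i => i ∈ Set.range b) fun _ => G).trans
      (Equiv.prodCongr (Equiv.arrowCongr (Equiv.ofInjective b hb).symm (Equiv.refl G))
        (Equiv.refl _))
  rw [Fintype.expect_equiv e (fun t => F (t ∘ b)) (fun p => F p.1) (fun t => rfl),
    ← Finset.univ_product_univ, Finset.expect_product]
  exact Finset.expect_congr rfl fun τ _ => Fintype.expect_const (F τ)

private theorem cf_expect_indep (S : Finset I) (A B : (I → C) → ℂ)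
    (hA : ∀ f g, A (S.piecewise f g) = A f) (hB : ∀ f g, B (S.piecewise f g) = B g) :
    𝔼 f : I → C, A f * B f = (𝔼 f : I → C, A f) * 𝔼 f : I → C, B f := by
  let e : (I → C) × (I → C) ≃ (I → C) × (I → C) :=
    { toFun := fun p => (S.piecewise p.1 p.2, S.piecewise p.2 p.1)
      invFun := fun p => (S.piecewise p.1 p.2, S.piecewise p.2 p.1)
      left_inv := fun p => by
        ext i <;> by_cases hi : i ∈ S <;> simp [Finset.piecewise, hi]
      right_inv := fun p => by
        ext i <;> by_cases hi : i ∈ S <;> simp [Finset.piecewise, hi] }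
  rw [Fintype.expect_mul_expect,
    ← Finset.expect_product' (f := fun (f g : I → C) => A f * B g), Finset.univ_product_univ,
    Fintype.expect_equiv e (fun p => A p.1 * B p.2) (fun p => A p.1 * B p.1)
      (fun p => by simp only [e, Equiv.coe_fn_mk, hA, hB]),
    ← Finset.univ_product_univ, Finset.expect_product]
  exact Finset.expect_congr rfl fun f _ => (Fintype.expect_const (A f * B f)).symm

theorem cf_empty : cf Y π ∅ = 1 := by
  rw [cf_eq_sub]
  simp

theorem cf_single (h : HZ Y) (i : I) : cf Y π {i} = 0 := by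
  rw [cf_eq_sub, Finset.expect_eq_zero, Complex.zero_re]
  intro f _
  refine Matrix.det_eq_zero_of_row_eq_zero ⟨i, Finset.mem_singleton_self i⟩ fun j => ?_
  have hj : (j : I) = i := Finset.mem_singleton.1 j.2
  simp [cm, hj, h.diag]

/-- Principal minors of Hermitian matrices are real. -/
theorem cf_coe (h : HZ Y) (S : Finset I) : (cf Y π S : ℂ) = 𝔼 f : I → C, (Matrix.of fun i j =>
    if i ∈ S then -cm Y (col π f) i j else if i = j then (1 : ℂ) else 0).det := by
  rw [cf, Complex.re_expect, Complex.ofReal_expect]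
  refine Finset.expect_congr rfl fun f _ => ?_
  rw [← Complex.conj_eq_iff_re]
  have h1 := det_rows (-cm Y (col π f)) S
  simp only [Matrix.neg_apply] at h1
  rw [h1, ← Complex.star_def, ← Matrix.det_conjTranspose]
  congr 1
  ext i j
  by_cases hc : col π f i = col π f j
  · simp [cm, hc, h.herm j i]
  · simp [cm, hc, Ne.symm hc]

theorem cf_avg {i : I} (hi : π i = none) (S : Finset I) :
    cf Y π S = 𝔼 c : C, cf Y (update π i (some c)) S := by
  have hc : ∀ (f : I → C) (c : C), col π (update f i c) = col (update π i (some c)) f := by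
    intro f c
    funext j
    by_cases hj : j = i
    · subst hj; simp [col, hi]
    · simp [col, hj]
  simp only [cf]
  rw [← Complex.re_expect, expect_update _ i, Finset.expect_comm]
  simp only [hc]

/-- `cf` on a larger index set (`R124.expect_comp_inj` is the needed marginal formula). -/
theorem cf_map {J : Type*} [Fintype J] [DecidableEq J] (e : J ↪ I) (S : Finset J) :
    cf Y π (S.map e) = cf (fun i j => Y (e i) (e j)) (fun i => π (e i)) S := by
  rw [cf_eq_sub, cf_eq_sub, ← cf_expect_comp_inj e.injective]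
  congr 1
  refine Finset.expect_congr rfl fun f _ => ?_
  let q : S ≃ S.map e := Equiv.ofBijective (fun j => ⟨e j, Finset.mem_map_of_mem e j.2⟩)
    ⟨fun j k hjk => Subtype.ext (e.injective (congrArg Subtype.val hjk)), fun k => by
      obtain ⟨j, hj, hk⟩ := Finset.mem_map.1 k.2
      exact ⟨⟨j, hj⟩, Subtype.ext hk⟩⟩
  rw [← Matrix.det_submatrix_equiv_self q]
  rfl

theorem cf_congr {S : Finset I} (hY : ∀ i ∈ S, ∀ j ∈ S, Y i j = Y' i j) (hπ : ∀ i ∈ S, π i = π' i) :
    cf Y π S = cf Y' π' S := by
  rw [cf_eq_sub, cf_eq_sub]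
  congr 1
  refine Finset.expect_congr rfl fun f _ => ?_
  congr 1
  ext i j
  simp [cm, col, hY i i.2 j j.2, hπ i i.2, hπ j j.2]

theorem cf_phase (φ : I → ℂ) (hφ : ∀ i, ‖φ i‖ = 1) (S : Finset I) :
    cf (fun i j => conj (φ i) * Y i j * φ j) π S = cf Y π S := by
  rw [cf_eq_sub, cf_eq_sub]
  congr 1
  refine Finset.expect_congr rfl fun f _ => ?_
  have e : (-cm (fun i j => conj (φ i) * Y i j * φ j) (col π f)).submatrix ((↑) : S → I)
      ((↑) : S → I) = Matrix.of fun i j : S => conj (φ i) * (Matrix.of fun i j : S =>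
        φ j * (-cm Y (col π f)).submatrix ((↑) : S → I) ((↑) : S → I) i j) i j := by
    ext i j
    by_cases hc : col π f i = col π f j
    · simp only [cm, Matrix.submatrix_apply, Matrix.neg_apply, Matrix.of_apply, hc, if_true]
      ring
    · simp [cm, hc]
  rw [e, Matrix.det_mul_column, Matrix.det_mul_row, ← mul_assoc, ← Finset.prod_mul_distrib,
    Finset.prod_eq_one, one_mul]
  intro i _
  rw [Complex.conj_mul', hφ]
  simp

/-- Block diagonal minors factor, and the colours on `S` and `T` are independent (reduce to full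
colourings on `S ∪ T` by `cf_avg` and induction on the number of uncoloured indices, or split `I → C`). -/
theorem cf_union (h : HZ Y) {S T : Finset I} (hd : Disjoint S T) (h0 : ∀ i ∈ S, ∀ j ∈ T, Y i j = 0) :
    cf Y π (S ∪ T) = cf Y π S * cf Y π T := by
  have hdet : ∀ (S : Finset I) (g g' : I → C), (∀ i ∈ S, g i = g' i) →
      (Matrix.of fun i j => if i ∈ S then -cm Y g i j else if i = j then (1 : ℂ) else 0).det =
      (Matrix.of fun i j => if i ∈ S then -cm Y g' i j else if i = j then (1 : ℂ) else 0).det := by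
    intro S g g' hg
    refine (det_rows (-cm Y g) S).trans (Eq.trans ?_ (det_rows (-cm Y g') S).symm)
    congr 1
    ext i j
    simp [cm, hg i i.2, hg j j.2]
  have hmul : ∀ g : I → C,
      (Matrix.of fun i j => if i ∈ S ∪ T then -cm Y g i j else if i = j then (1 : ℂ) else 0) =
      (Matrix.of fun i j => if i ∈ S then -cm Y g i j else if i = j then (1 : ℂ) else 0) *
      (Matrix.of fun i j => if i ∈ T then -cm Y g i j else if i = j then (1 : ℂ) else 0) := by
    intro g
    ext i j
    rw [Matrix.mul_apply]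
    by_cases hi : i ∈ S
    · have hz : ∀ k ∈ T, cm Y g i k = 0 := fun k hk => by simp [cm, h0 i hi k hk]
      rw [Finset.sum_eq_single j]
      · by_cases hj : j ∈ T
        · simp [hi, hz j hj]
        · simp [hi, hj]
      · intro k _ hk
        by_cases hkT : k ∈ T
        · simp [hi, hz k hkT]
        · simp [hkT, hk]
      · simp
    · rw [Finset.sum_eq_single i]
      · simp [hi]
      · intro k _ hk
        simp [hi, Ne.symm hk]
      · simp
  apply Complex.ofReal_injective
  rw [Complex.ofReal_mul, cf_coe h, cf_coe h, cf_coe h]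
  simp only [hmul, Matrix.det_mul]
  refine cf_expect_indep S _ _ (fun f g => hdet S _ _ fun i hi => ?_)
    (fun f g => hdet T _ _ fun i hi => ?_)
  · simp [col, hi]
  · simp [col, Finset.disjoint_right.1 hd hi]

theorem cf_neg (S : Finset I) : cf (fun i j => -Y i j) π S = (-1) ^ S.card * cf Y π S := by
  have e : ∀ g : I → C, cm (fun i j => -Y i j) g = -cm Y g := fun g => by
    ext i j
    by_cases hc : g i = g j <;> simp [cm, hc]
  rw [cf_eq_sub, cf_eq_sub, Complex.re_expect, Complex.re_expect, Finset.mul_expect]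
  refine Finset.expect_congr rfl fun f _ => ?_
  rw [e, Matrix.submatrix_neg, Pi.neg_apply, Pi.neg_apply, Matrix.det_neg, Fintype.card_coe,
    ← Complex.re_ofReal_mul]
  simp

theorem continuous_cf (π : I → Option C) (S : Finset I) :
    Continuous fun Y : I → I → ℂ => cf Y π S := by
  simp only [cf, Fintype.expect_eq_sum_div_card]
  refine Complex.continuous_re.comp (Continuous.div_const (continuous_finsetSum _ fun f _ =>
    Continuous.matrix_det (continuous_matrix fun i j => ?_)) _)
  simp only [Matrix.of_apply, cm]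
  split_ifs <;> fun_prop

section Q
variable {R : Type*} [CommRing R] [Algebra ℝ R]

theorem Qf_zero : Qf Y π (fun _ => (0 : R)) = 1 := by
  rw [Qf, Finset.sum_eq_single ∅]
  · simp [cf_empty]
  · intro S _ hS
    obtain ⟨i, hi⟩ := Finset.nonempty_iff_ne_empty.2 hS
    rw [Finset.prod_eq_zero hi rfl, mul_zero]
  · simp

theorem map_Qf {R' : Type*} [CommRing R'] [Algebra ℝ R'] (φ : R →ₐ[ℝ] R') (t : I → R) :
    φ (Qf Y π t) = Qf Y π fun i => φ (t i) := by
  simp only [Qf, map_sum, map_mul, map_prod, AlgHom.commutes]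

theorem Qf_affine (t : I → R) (i : I) :
    Qf Y π t = Qf Y π (update t i 0) + t i * (Qf Y π (update t i 1) - Qf Y π (update t i 0)) := by
  simp only [Qf]
  rw [← Finset.sum_sub_distrib, Finset.mul_sum, ← Finset.sum_add_distrib]
  refine Finset.sum_congr rfl fun S _ => ?_
  by_cases hi : i ∈ S
  · rw [Finset.prod_update_of_mem hi, Finset.prod_update_of_mem hi,
      Finset.prod_eq_mul_prod_sdiff_singleton_of_mem hi]
    ring
  · rw [Finset.prod_update_of_notMem hi, Finset.prod_update_of_notMem hi]
    ring

/-- Only the data on the support of `t` matter. -/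
theorem Qf_congr {t : I → R} (hY : ∀ i j, t i ≠ 0 → t j ≠ 0 → Y i j = Y' i j)
    (hπ : ∀ i, t i ≠ 0 → π i = π' i) : Qf Y π t = Qf Y' π' t := by
  refine Finset.sum_congr rfl fun S _ => ?_
  by_cases h : ∀ i ∈ S, t i ≠ 0
  · rw [cf_congr (fun i hi j hj => hY i j (h i hi) (h j hj)) fun i hi => hπ i (h i hi)]
  · push Not at h
    obtain ⟨i, hi, h0⟩ := h
    rw [Finset.prod_eq_zero hi h0, mul_zero, mul_zero]

private theorem Qf_avg_aux {i : I} (hi : π i = none) (t : I → R) :
    Qf Y π t = algebraMap ℝ R (Fintype.card C : ℝ)⁻¹ * ∑ c, Qf Y (update π i (some c)) t := by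
  simp only [Qf]
  rw [Finset.sum_comm, Finset.mul_sum]
  refine Finset.sum_congr rfl fun S _ => ?_
  rw [cf_avg hi, Fintype.expect_eq_sum_div_card, div_eq_inv_mul, map_mul, map_sum,
    ← Finset.sum_mul, mul_assoc]

theorem Qf_avg {R : Type*} [Field R] [Algebra ℝ R] {i : I} (hi : π i = none) (t : I → R) :
    Qf Y π t = (Fintype.card C : R)⁻¹ * ∑ c, Qf Y (update π i (some c)) t := by
  rw [Qf_avg_aux hi, map_inv₀, map_natCast]

theorem Qf_avg' {i : I} (hi : π i = none) (t : I → R) :
    Qf Y π t = algebraMap ℝ R (Fintype.card C : ℝ)⁻¹ * ∑ c, Qf Y (update π i (some c)) t := by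
  exact Qf_avg_aux hi t

theorem Qf_embed {J : Type*} [Fintype J] [DecidableEq J] (e : J ↪ I) {t : I → R}
    (ht : ∀ i, t i ≠ 0 → i ∈ Set.range e) :
    Qf Y π t = Qf (fun i j => Y (e i) (e j)) (fun i => π (e i)) fun i => t (e i) := by
  symm
  refine Fintype.sum_of_injective (fun S : Finset J => S.map e) (Finset.map_injective e) _ _
    (fun S hS => ?_) fun S => ?_
  · by_cases h : ∀ i ∈ S, t i ≠ 0
    · have h1 : S ⊆ Finset.univ.map e := fun i hi => by
        obtain ⟨j, rfl⟩ := ht i (h i hi)
        exact Finset.mem_map_of_mem e (Finset.mem_univ j)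
      obtain ⟨u, -, hu⟩ := Finset.subset_map_iff.1 h1
      exact absurd ⟨u, hu.symm⟩ hS
    · push Not at h
      obtain ⟨i, hi, h0⟩ := h
      rw [Finset.prod_eq_zero hi h0, mul_zero]
  · rw [cf_map, Finset.prod_map]

theorem Qf_phase (φ : I → ℂ) (hφ : ∀ i, ‖φ i‖ = 1) (t : I → R) :
    Qf (fun i j => conj (φ i) * Y i j * φ j) π t = Qf Y π t := by
  simp only [Qf, cf_phase φ hφ]

theorem Qf_neg (t : I → R) : Qf (fun i j => -Y i j) π t = Qf Y π fun i => -t i := by
  refine Finset.sum_congr rfl fun S _ => ?_
  rw [cf_neg, Finset.prod_neg, map_mul, map_pow, map_neg, map_one]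
  ring

/-- Full colourings: the determinant (`MultilinearMap.map_add_univ` for the rows). -/
theorem Qf_det {R : Type*} [CommRing R] [Algebra ℝ R] [Algebra ℂ R] [IsScalarTower ℝ ℂ R] (h : HZ Y)
    (g : I → C) (t : I → R) :
    Qf Y (fun i => some (g i)) t
      = (1 - Matrix.of fun i j => t i * algebraMap ℂ R (cm Y g i j)).det := by
  let D := (Matrix.detRowAlternating : (I → R) [⋀^I]→ₗ[R] R)
  let m : I → I → R := fun i j => algebraMap ℂ R (-cm Y g i j)
  have e1 : (1 - Matrix.of fun i j => t i * algebraMap ℂ R (cm Y g i j)).det =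
      D ((fun i => t i • m i) + fun i => (1 : Matrix I I R) i) := by
    change Matrix.det _ = Matrix.det _
    congr 1
    ext i j
    simp only [Matrix.sub_apply, Matrix.of_apply, m, map_neg]
    change _ = t i * -_ + _
    ring
  rw [e1, D.map_add_univ]
  refine Finset.sum_congr rfl fun S _ => ?_
  have e2 : S.piecewise (fun i => t i • m i) (fun i => (1 : Matrix I I R) i) =
      fun i => (if i ∈ S then t i else 1) • S.piecewise m (fun i => (1 : Matrix I I R) i) i := by
    funext i
    by_cases hi : i ∈ S <;> simp [Finset.piecewise, hi]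
  rw [e2, D.map_smul_univ, Finset.prod_ite_mem, Finset.univ_inter, smul_eq_mul, mul_comm,
    IsScalarTower.algebraMap_apply ℝ ℂ R, Complex.coe_algebraMap, cf_coe h]
  congr 1
  have hc : ∀ f : I → C, col (fun i => some (g i)) f = g := fun f => rfl
  simp only [hc]
  rw [Fintype.expect_const, RingHom.map_det]
  change Matrix.det _ = Matrix.det _
  congr 1
  ext i j
  by_cases hi : i ∈ S
  · simp [Finset.piecewise, hi, m]
  · by_cases hij : i = j
    · subst hij; simp [Finset.piecewise, hi]
    · simp [Finset.piecewise, hi, hij]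

/-- Euler's identity in the variables of `U`: `D` is a derivation with `D (t i) = t i` on `U` and `0`
outside (used with `D = X * d/dX`). -/
theorem Qf_euler (D : R →ₗ[ℝ] R) (hD : ∀ x y, D (x * y) = x * D y + D x * y) (U : Finset I) (t : I → R)
    (h1 : ∀ i ∈ U, D (t i) = t i) (h0 : ∀ i ∉ U, D (t i) = 0) :
    D (Qf Y π t) = ∑ i ∈ U, (Qf Y π t - Qf Y π (update t i 0)) := by
  have hD1 : D 1 = 0 := by
    have := hD 1 1
    rw [mul_one, one_mul, mul_one] at this
    exact left_eq_add.1 this
  have hP : ∀ S : Finset I, D (∏ i ∈ S, t i) = ∑ i ∈ U, if i ∈ S then ∏ i ∈ S, t i else 0 := by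
    intro S
    induction S using Finset.induction_on with
    | empty => simp [hD1]
    | insert a S ha ih =>
      have e : D (t a) = ∑ i ∈ U, if i = a then t a else 0 := by
        rw [Finset.sum_ite_eq']
        split_ifs with hU
        exacts [h1 a hU, h0 a hU]
      rw [Finset.prod_insert ha, hD, ih, e, Finset.mul_sum, Finset.sum_mul,
        ← Finset.sum_add_distrib]
      refine Finset.sum_congr rfl fun i _ => ?_
      by_cases hia : i = a
      · subst hia; simp [ha]
      · by_cases hi : i ∈ S <;> simp [hia, hi]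
  simp only [Qf, ← Finset.sum_sub_distrib]
  rw [map_sum, Finset.sum_comm]
  refine Finset.sum_congr rfl fun S _ => ?_
  rw [← Algebra.smul_def, map_smul, hP, Finset.smul_sum]
  refine Finset.sum_congr rfl fun i _ => ?_
  by_cases hi : i ∈ S
  · rw [if_pos hi, Finset.prod_update_of_mem hi, zero_mul, mul_zero, sub_zero]
  · rw [if_neg hi, Finset.prod_update_of_notMem hi, ← Algebra.smul_def, sub_self, smul_zero]

end Q

theorem continuous_Qf (Y : I → I → ℂ) (π : I → Option C) : Continuous fun t : I → ℂ => Qf Y π t := by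
  unfold Qf
  fun_prop

theorem continuous_Qf_real (Y : I → I → ℂ) (π : I → Option C) :
    Continuous fun t : I → ℝ => Qf Y π t := by
  unfold Qf
  fun_prop

theorem Qf_ofReal (t : I → ℝ) : Qf Y π (fun i => (t i : ℂ)) = ((Qf Y π t : ℝ) : ℂ) := by
  exact (map_Qf Complex.ofRealAm t).symm

end Crest.Agent.R109
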