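import Crest.Agent.R109.NGrp

/-! Row 109: the projection onto the algebra generated by the normaliser. -/

set_option autoImplicit false
set_option linter.unusedSectionVars false

namespace Crest.Agent.R109

open Crest.Agent.R124 Filter Topology Function
open scoped BigOperators ComplexConjugate InnerProductSpace ComplexOrder Pointwise

variable {X : Type*} [TopologicalSpace X] [CompactSpace X] [T2Space X] [TotallyDisconnectedSpace X]
  {H : Type*} [NormedAddCommGroup H] [InnerProductSpace ℂ H] [CompleteSpace H]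

namespace NS

variable (S : NS X H)

variable {S} in
theorem en_ind {Γ₀ : Finset S.Γ} {y : H →L[ℂ] H} (h : S.FP Γ₀ y) {p : (H →L[ℂ] H) → Prop} (h0 : p 0)
    (ha : ∀ a b, p a → p b → p (a + b)) (h1 : ∀ g ∈ Γ₀, ∀ F, p (S.op g * S.ι F)) : p y := by
  obtain ⟨a, rfl⟩ := h
  exact Finset.sum_induction _ p ha h0 fun g hg => h1 g hg _

theorem en_zero (Γ₀ : Finset S.Γ) : S.FP Γ₀ 0 := ⟨0, by simp⟩

variable {S} in
theorem en_add {Γ₀ : Finset S.Γ} {y y' : H →L[ℂ] H} (h : S.FP Γ₀ y) (h' : S.FP Γ₀ y') :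
    S.FP Γ₀ (y + y') := by
  obtain ⟨a, rfl⟩ := h
  obtain ⟨a', rfl⟩ := h'
  exact ⟨a + a', by simp [mul_add, Finset.sum_add_distrib]⟩

variable {S} in
theorem en_single {Γ₀ : Finset S.Γ} {g : S.Γ} (hg : g ∈ Γ₀) (F : C(X, ℂ)) :
    S.FP Γ₀ (S.op g * S.ι F) := by
  classical
  refine ⟨Pi.single g F, ?_⟩
  rw [Finset.sum_eq_single_of_mem g hg fun b _ hb => by simp [hb], Pi.single_eq_same]

variable {S} in
theorem en_swap (g : S.Γ) (F : C(X, ℂ)) : ∃ F', S.ι F * S.op g = S.op g * S.ι F' := by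
  obtain ⟨F', h⟩ := (op_nrm g).left F
  exact ⟨F', by rw [← h, ← mul_assoc, ← mul_assoc, op_mul_star, one_mul]⟩

variable {S} in
theorem en_star {Γ₀ Γ₁ : Finset S.Γ} {y : H →L[ℂ] H} (h : S.FP Γ₀ y) (hΓ : ∀ g ∈ Γ₀, g⁻¹ ∈ Γ₁) :
    S.FP Γ₁ (star y) := by
  refine en_ind h (p := fun y => S.FP Γ₁ (star y)) (by simpa using S.en_zero Γ₁)
    (fun a b ha hb => by simpa using en_add ha hb) fun g hg F => ?_
  obtain ⟨F', h'⟩ := en_swap g⁻¹ (star F)
  show S.FP Γ₁ (star _)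
  rw [star_mul, ← map_star, ← op_inv, h']
  exact en_single (hΓ g hg) _

theorem en_sym [DecidableEq S.Γ] (Γ₀ : Finset S.Γ) : ∃ B, Sym B ∧ Γ₀ ⊆ B := by
  refine ⟨insert 1 (Γ₀ ∪ Γ₀.image (·⁻¹)), ⟨Finset.mem_insert_self _ _, fun g hg => ?_⟩,
    Finset.subset_union_left.trans (Finset.subset_insert _ _)⟩
  simp only [Finset.mem_insert, Finset.mem_union, Finset.mem_image] at hg ⊢
  rcases hg with rfl | hg | ⟨a, ha, rfl⟩
  exacts [.inl inv_one, .inr (.inr ⟨g, hg, rfl⟩), .inr (.inl (by simpa using ha))]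

theorem FP.mem {Γ₀ : Finset S.Γ} {y : H →L[ℂ] H} (h : S.FP Γ₀ y) : y ∈ S.M :=
  en_ind h (zero_mem _) (fun _ _ => add_mem) fun g _ F => mul_mem (op_mem g) (S.mem F)

theorem FP.mono {Γ₀ Γ₁ : Finset S.Γ} {y : H →L[ℂ] H} (h : S.FP Γ₀ y) (h' : Γ₀ ⊆ Γ₁) : S.FP Γ₁ y :=
  en_ind h (S.en_zero _) (fun _ _ => en_add) fun _ hg F => en_single (h' hg) F

/-- The operators of finite propagation form a `*`-subalgebra (`ι a * op g = op g * ι a'` by `Nrm.left`). -/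
theorem exists_N0 : ∃ N : StarSubalgebra ℂ (H →L[ℂ] H), ∀ y, y ∈ N ↔ ∃ Γ₀, S.FP Γ₀ y := by
  classical
  have h0 : ∃ Γ₀, S.FP Γ₀ 0 := ⟨∅, S.en_zero _⟩
  have ha : ∀ a b, (∃ Γ₀, S.FP Γ₀ a) → (∃ Γ₀, S.FP Γ₀ b) → ∃ Γ₀, S.FP Γ₀ (a + b) := by
    rintro a b ⟨Γ₀, h⟩ ⟨Γ₁, h'⟩
    exact ⟨Γ₀ ∪ Γ₁, en_add (h.mono S Finset.subset_union_left) (h'.mono S Finset.subset_union_right)⟩
  have h1 : ∀ g F, ∃ Γ₀, S.FP Γ₀ (S.op g * S.ι F) := fun g F => ⟨{g}, en_single (by simp) F⟩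
  refine ⟨{ carrier := {y | ∃ Γ₀, S.FP Γ₀ y}
            mul_mem' := ?_
            add_mem' := fun {a b} => ha a b
            algebraMap_mem' := fun c => ?_
            star_mem' := ?_ }, fun y => Iff.rfl⟩
  · rintro a b ⟨Γ₀, h⟩ ⟨Γ₁, h'⟩
    refine en_ind h (p := fun a => ∃ Γ₀, S.FP Γ₀ (a * b)) (by simpa using h0)
      (fun a a' h h' => by simpa [add_mul] using ha _ _ h h') fun g _ F => ?_
    refine en_ind h' (p := fun b => ∃ Γ₀, S.FP Γ₀ (S.op g * S.ι F * b)) (by simpa using h0)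
      (fun a a' h h' => by simpa [mul_add] using ha _ _ h h') fun g' _ F' => ?_
    obtain ⟨F'', h''⟩ := en_swap g' F
    have := h1 (g * g') (F'' * F')
    rwa [op_mul, map_mul, ← mul_assoc, mul_assoc (S.op g), ← h'', ← mul_assoc, mul_assoc] at this
  · have := h1 1 (algebraMap ℂ _ c)
    rwa [op_one, one_mul, AlgHomClass.commutes] at this
  · rintro a ⟨Γ₀, h⟩
    exact ⟨Γ₀.image (·⁻¹), en_star h fun g hg => Finset.mem_image_of_mem _ hg⟩

/-- PROOF.  Induction on `B`: `x_{B+v} = x_B + v EE (v* z)`, `z = x - x_B`.  For `u ∈ B` write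
`EE (u* v) = u* v pr U` (`exists_EE_op`); then
`EE (u* v EE (v* z)) = EE (u* v pr U v* z) = (u* v pr U v* u) EE (u* z) = 0`. -/
theorem exists_xB (B : Finset S.Γ) {x : H →L[ℂ] H} (hx : x ∈ S.M) :
    ∃ y, S.FP B y ∧ ∀ u ∈ B, S.cE (star (S.op u) * (x - y)) = 0 := by
  classical
  induction B using Finset.induction_on with
  | empty => exact ⟨0, S.en_zero _, by simp⟩
  | insert v B _ ih =>
    obtain ⟨y, hy, h⟩ := ih
    have hz : ∀ u : S.Γ, star (S.op u) * (x - y) ∈ S.M := fun u =>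
      mul_mem (star_mem (op_mem u)) (sub_mem hx hy.mem)
    refine ⟨y + S.op v * S.ι (S.cE (star (S.op v) * (x - y))),
      en_add (hy.mono S (Finset.subset_insert _ _)) (en_single (Finset.mem_insert_self _ _) _), fun u hu => ?_⟩
    have hγ : star (S.op u) * S.op v ∈ S.M := mul_mem (star_mem (op_mem u)) (op_mem v)
    rw [← sub_sub, mul_sub, ← mul_assoc, S.cE_sub (hz u) (mul_mem hγ (S.mem _)), S.cE_mul_ι _ hγ, sub_eq_zero]
    rcases Finset.mem_insert.1 hu with rfl | hu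
    · rw [star_op_mul, S.cE_one, one_mul]
    · obtain ⟨U, -, hU⟩ := exists_EE_op (u⁻¹ * v)
      obtain ⟨F, hF⟩ := (op_nrm (u⁻¹ * v)).right (cfn (U.indicator 1))
      rw [op_mul, op_inv] at hU hF
      rw [← S.cE_ι_mul _ (hz v), S.ι_cE hγ, hU]
      have h1 : star (S.op u) * S.op v * S.pr U * (star (S.op v) * (x - y)) =
          S.ι F * (star (S.op u) * (x - y)) := by
        rw [← hF, star_mul, star_star]
        simp only [mul_assoc]
        rw [← mul_assoc (S.op u), op_mul_star, one_mul]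
        rfl
      rw [h1, S.cE_ι_mul _ (hz u), h u hu, mul_zero]

/-- The closed span of the vectors `op g * ι F Ω`. -/
def NV : Set H := {v | ∃ (g : S.Γ) (F : C(X, ℂ)), v = (S.op g * S.ι F) S.Ω}

theorem en_approx (ζ : H) {δ : ℝ} (hδ : 0 < δ) :
    ∃ Γ₀ n, S.FP Γ₀ n ∧ ‖sp S.NV ζ - n S.Ω‖ ≤ δ := by
  obtain ⟨N, hN⟩ := S.exists_N0
  obtain ⟨v, hv, h⟩ := Metric.mem_closure_iff.1 (sp_apply_mem S.NV ζ) δ hδ
  have h1 : ∃ n ∈ N, n S.Ω = v := by
    clear h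
    induction hv using Submodule.span_induction with
    | mem v hv =>
      obtain ⟨g, F, rfl⟩ := hv
      exact ⟨_, (hN _).2 ⟨{g}, en_single (by simp) F⟩, rfl⟩
    | zero => exact ⟨0, zero_mem _, rfl⟩
    | add u v _ _ hu hv =>
      obtain ⟨a, ha, rfl⟩ := hu
      obtain ⟨b, hb, rfl⟩ := hv
      exact ⟨a + b, add_mem ha hb, rfl⟩
    | smul c v _ hv =>
      obtain ⟨a, ha, rfl⟩ := hv
      exact ⟨c • a, N.smul_mem ha c, rfl⟩
  obtain ⟨n, hn, rfl⟩ := h1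
  obtain ⟨Γ₀, hn⟩ := (hN n).1 hn
  exact ⟨Γ₀, n, hn, by rw [← dist_eq_norm]; exact h.le⟩

theorem en_orth {B : Finset S.Γ} {w : H →L[ℂ] H} (hw : w ∈ S.M)
    (h : ∀ u ∈ B, S.cE (star (S.op u) * w) = 0) : ∀ n, S.FP B n → ⟪n S.Ω, w S.Ω⟫_ℂ = 0 := fun n hn =>
  en_ind hn (p := fun n => ⟪n S.Ω, w S.Ω⟫_ℂ = 0) (by simp)
    (fun a b ha hb => by simp [ha, hb]) fun g hg F => by
      show ⟪_, _⟫_ℂ = 0
      rw [← S.ψ_star_mul, star_mul, ← map_star, mul_assoc, S.ψ_ι_mul _ (mul_mem (star_mem (op_mem g)) hw),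
        h g hg, mul_zero, map_zero]
      simp [ψ]

theorem en_pyth {x y : H →L[ℂ] H} {ζ : H} (h : ⟪y ζ, (x - y) ζ⟫_ℂ = 0) : ‖(x - y) ζ‖ ≤ ‖x ζ‖ := by
  have h1 := norm_add_sq_eq_norm_sq_add_norm_sq_of_inner_eq_zero _ _ h
  rw [_root_.sub_apply, add_sub_cancel, ← _root_.sub_apply] at h1
  exact abs_le_of_sq_le_sq' (by nlinarith [mul_self_nonneg ‖y ζ‖]) (norm_nonneg _) |>.2

theorem en_sp_zero {T : Set H} {ζ : H} (h : ∀ v ∈ T, ⟪v, ζ⟫_ℂ = 0) : sp T ζ = 0 := by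
  have h1 : ∀ v ∈ Submodule.span ℂ T, ⟪v, ζ⟫_ℂ = 0 := fun v hv => by
    induction hv using Submodule.span_induction with
    | mem v hv => exact h v hv
    | zero => simp
    | add u v _ _ hu hv => simp [hu, hv]
    | smul c v _ hv => simp [hv]
  have h2 : ⟪sp T ζ, ζ⟫_ℂ = 0 :=
    (isClosed_eq (f := fun v => ⟪v, ζ⟫_ℂ) (by fun_prop) continuous_const).closure_subset_iff.2 h1
      (sp_apply_mem T ζ)
  have h3 := inner_star_left (sp T) (sp T ζ) ζ
  rw [(sp_proj T).isSelfAdjoint.star_eq, sp_apply_of_mem_closure (sp_apply_mem T ζ), h2] at h3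
  exact inner_self_eq_zero.1 h3.symm

/-- PROOF.  Let `e = sp NV`.  For symmetric `B` and `y` from `exists_xB`, `(x - y) Ω ⟂ op u * ι F Ω` for `u ∈ B`,
and also `(x - y)* Ω ⟂ op u * ι F Ω` since `EE (u* (x - y)*) = u* EE ((x - y)* u*) u = 0` (`EE_conj`,
`u⁻¹ ∈ B`).  Approximate `R Ω` and `R* Ω` by combinations of vectors `op u * ι F Ω`, `u ∈ B`; then
`⟪R Ω, (x - y)* Ω⟫` and `⟪(x - y) Ω, R* Ω⟫` are small, because `‖(x - y) Ω‖ ≤ ‖x Ω‖`,
`‖(x - y)* Ω‖ ≤ ‖x* Ω‖` (Pythagoras; `y*` has propagation in `B`).  For `y` the identity is clear since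
`R y = y R`. -/
theorem sym_inner {R x : H →L[ℂ] H} (hx : x ∈ S.M) (hR : ∀ g, R * S.op g = S.op g * R)
    (hR' : ∀ F, R * S.ι F = S.ι F * R) (h1 : sp S.NV (R S.Ω) = R S.Ω)
    (h2 : sp S.NV (star R S.Ω) = star R S.Ω) :
    ⟪R S.Ω, star x S.Ω⟫_ℂ = ⟪x S.Ω, star R S.Ω⟫_ℂ := by
  classical
  obtain ⟨N, hN⟩ := S.exists_N0
  refine eq_of_forall_dist_le fun ε hε => ?_
  obtain ⟨δ, hδ, hδε⟩ : ∃ δ : ℝ, 0 < δ ∧ δ * (‖star x S.Ω‖ + ‖x S.Ω‖) ≤ ε :=
    ⟨ε / (‖star x S.Ω‖ + ‖x S.Ω‖ + 1), by positivity, by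
      rw [div_mul_eq_mul_div, div_le_iff₀ (by positivity)]
      nlinarith⟩
  obtain ⟨Γ₁, n₁, hn₁, e₁⟩ := S.en_approx (R S.Ω) hδ
  obtain ⟨Γ₂, n₂, hn₂, e₂⟩ := S.en_approx (star R S.Ω) hδ
  rw [h1] at e₁
  rw [h2] at e₂
  obtain ⟨B, hB, hB'⟩ := S.en_sym (Γ₁ ∪ Γ₂)
  obtain ⟨y, hy, h⟩ := S.exists_xB B hx
  have hw : x - y ∈ S.M := sub_mem hx hy.mem
  have o1 := S.en_orth hw h
  have o2 := S.en_orth (star_mem hw) (B := B) fun u hu => by
    have h3 := h _ (hB.inv u hu)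
    rw [op_inv, star_star] at h3
    have h4 := S.EE_conj (star_mem (op_mem u)) (by rw [star_star, op_mul_star]) (by rw [star_star, star_op_mul])
      (by simpa using (op_nrm u).right) (by simpa using (op_nrm u).left) (mul_mem (op_mem u) hw)
    rw [← S.ι_cE (mul_mem (op_mem u) hw), h3, map_zero, mul_zero, zero_mul, star_star, ← mul_assoc,
      star_op_mul, one_mul, ← S.ι_cE (mul_mem hw (op_mem u))] at h4
    rw [← star_mul, S.cE_star (mul_mem hw (op_mem u)), (map_eq_zero_iff _ S.inj).1 h4, star_zero]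
  have hc : R * y = y * R := en_ind hy (p := fun y => R * y = y * R) (by simp)
    (fun a b ha hb => by rw [mul_add, add_mul, ha, hb])
    fun g _ F => by rw [← mul_assoc, hR, mul_assoc, hR', mul_assoc]
  have e₃ : ⟪R S.Ω, star y S.Ω⟫_ℂ = ⟪y S.Ω, star R S.Ω⟫_ℂ := by
    rw [inner_star_right, inner_star_right]
    exact congrArg (fun z : H →L[ℂ] H => ⟪z S.Ω, S.Ω⟫_ℂ) hc.symm
  have e₄ : ⟪R S.Ω, star x S.Ω⟫_ℂ - ⟪x S.Ω, star R S.Ω⟫_ℂ =
      ⟪R S.Ω - n₁ S.Ω, star (x - y) S.Ω⟫_ℂ - ⟪(x - y) S.Ω, star R S.Ω - n₂ S.Ω⟫_ℂ := by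
    rw [inner_sub_left, inner_sub_right, o2 _ (hn₁.mono S (Finset.subset_union_left.trans hB')),
      inner_eq_zero_symm.1 (o1 _ (hn₂.mono S (Finset.subset_union_right.trans hB'))), star_sub,
      _root_.sub_apply, _root_.sub_apply, inner_sub_left, inner_sub_right, e₃]
    ring
  have b1 : ‖(x - y) S.Ω‖ ≤ ‖x S.Ω‖ := en_pyth (o1 y hy)
  have b2 : ‖star (x - y) S.Ω‖ ≤ ‖star x S.Ω‖ := by
    have := o2 _ (en_star hy hB.inv)
    rw [star_sub] at this ⊢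
    exact en_pyth this
  rw [dist_eq_norm, e₄]
  refine (norm_sub_le _ _).trans ((add_le_add (norm_inner_le_norm _ _) (norm_inner_le_norm _ _)).trans ?_)
  have b3 := mul_le_mul e₁ b2 (norm_nonneg _) hδ.le
  have b4 := mul_le_mul b1 e₂ (norm_nonneg _) (norm_nonneg _)
  linarith

/-- PROOF.  `e = sp NV` commutes with `N` (`exists_N0`, `sp_comm`).  Let
`N' = {n₁ e + n₂ (1 - e)}`, a `*`-subalgebra.  `e x e ∈ N'''`: if `R` commutes with `N'` then `R₀ = e R e`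
satisfies `⟪n' Ω, x R₀ n Ω⟫ = ⟪n' Ω, R₀ ... ⟫` by `sym_inner` applied to `n'* x n` and `R₀`.  `kap` gives
self-adjoint `n₁ e + n₂ (1 - e)` of norm `≤ ‖x‖` with `n₁ Ω ≈ e x Ω`; `n₁` is self-adjoint (`sep`) and
`‖n₁‖ ≤ ‖x‖` (`norm_apply_le_of_pow` on the dense set `M' Ω`). -/
theorem exists_fp_approx {x : H →L[ℂ] H} (hx : x ∈ S.M) (hs : IsSelfAdjoint x) {η : ℝ} (hη : 0 < η) :
    ∃ Γ₀ y, S.FP Γ₀ y ∧ IsSelfAdjoint y ∧ ‖y‖ ≤ ‖x‖ ∧ ‖y S.Ω - sp S.NV (x S.Ω)‖ ≤ η := by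
  obtain ⟨N, hN⟩ := S.exists_N0
  set e := sp S.NV with he
  have hp : IsStarProjection e := sp_proj _
  have hee : e * e = e := hp.isIdempotentElem
  have hes : star e = e := hp.isSelfAdjoint.star_eq
  have hgF : ∀ g F, S.op g * S.ι F ∈ N := fun g F => (hN _).2 ⟨{g}, en_single (by simp) F⟩
  have hΩ : e S.Ω = S.Ω := sp_apply ⟨1, 1, by simp⟩
  have hNe : ∀ n ∈ N, n * e = e * n := fun n hn => by
    obtain ⟨Γ₀, hn⟩ := (hN n).1 hn
    refine en_ind hn (p := fun n => n * e = e * n) (by simp)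
      (fun a b ha hb => by rw [mul_add, add_mul, ha, hb]) fun g _ F => ?_
    have h1 : ∀ g : S.Γ, ∀ v ∈ S.NV, S.op g v ∈ S.NV := by
      rintro g _ ⟨g', F', rfl⟩
      exact ⟨g * g', F', rfl⟩
    have h2 : ∀ F, ∀ v ∈ S.NV, S.ι F v ∈ S.NV := by
      rintro F _ ⟨g', F', rfl⟩
      obtain ⟨F'', h⟩ := en_swap g' F
      exact ⟨g', F'' * F', by rw [map_mul, ← mul_assoc, ← h]; rfl⟩
    show _ = _
    rw [mul_assoc, sp_comm (h2 F) (by rw [← map_star]; exact h2 _), ← mul_assoc, sp_comm (h1 g) (h1 g⁻¹),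
      mul_assoc]
  let N' : StarSubalgebra ℂ (H →L[ℂ] H) :=
    { carrier := {z | z * e = e * z ∧ ∃ n ∈ N, z * e = n * e}
      mul_mem' := by
        rintro a b ⟨ha, n, hn, ha'⟩ ⟨hb, m, hm, hb'⟩
        refine ⟨by rw [mul_assoc, hb, ← mul_assoc, ha, mul_assoc], n * m, mul_mem hn hm, ?_⟩
        rw [mul_assoc, hb', hNe m hm, ← mul_assoc, ha', mul_assoc, ← hNe m hm, mul_assoc]
      add_mem' := by
        rintro a b ⟨ha, n, hn, ha'⟩ ⟨hb, m, hm, hb'⟩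
        exact ⟨by rw [add_mul, mul_add, ha, hb], n + m, add_mem hn hm, by rw [add_mul, add_mul, ha', hb']⟩
      algebraMap_mem' := fun c => ⟨Algebra.commutes c e, _, algebraMap_mem N c, rfl⟩
      star_mem' := by
        rintro a ⟨ha, n, hn, ha'⟩
        have h1 := congrArg star ha
        have h2 := congrArg star ha'
        rw [star_mul, star_mul, hes] at h1 h2
        exact ⟨h1.symm, star n, star_mem hn, by rw [← h1, h2, hNe _ (star_mem hn)]⟩ }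
  have hz : e * x * e ∈ (cent (N' : Set (H →L[ℂ] H))).commutant := by
    refine VonNeumannAlgebra.mem_commutant_iff.2 fun R hR => ?_
    have hRN : ∀ n ∈ N, n * R = R * n := fun n hn => (mem_cent.1 hR n ⟨hNe n hn, n, hn, rfl⟩).1
    have hRe : e * R = R * e := (mem_cent.1 hR e ⟨rfl, 1, one_mem _, by rw [hee, one_mul]⟩).1
    have hRe' : e * star R = star R * e := by
      have := congrArg star hRe
      rw [star_mul, star_mul, hes] at this
      exact this.symm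
    have h1 : e * (x * R - R * x) * e = 0 := by
      refine mul_sp_eq_zero ?_
      rintro _ ⟨g, F, rfl⟩
      refine en_sp_zero ?_
      rintro _ ⟨g', F', rfl⟩
      have hn := hgF g F
      have hn' := star_mem (hgF g' F')
      have hM : ∀ n ∈ N, n ∈ S.M := fun n hn => ((hN n).1 hn).elim fun _ h => h.mem
      generalize S.op g * S.ι F = n at hn
      generalize S.op g' * S.ι F' = n' at hn'
      have h2 := S.sym_inner (R := R) (mul_mem (mul_mem (hM _ hn') hx) (hM _ hn))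
        (fun g => by simpa using (hRN _ (hgF g 1)).symm) (fun F => by simpa using (hRN _ (hgF 1 F)).symm)
        (by simpa [hΩ] using congr($hRe S.Ω)) (by simpa [hΩ] using congr($hRe' S.Ω))
      rw [inner_star_right, inner_star_right] at h2
      have h3 : star n' * ((x * R - R * x) * n) = star n' * x * n * R - R * (star n' * x * n) := by
        rw [mul_assoc _ n, hRN n hn, ← mul_assoc R, ← mul_assoc R, ← hRN _ hn']
        noncomm_ring
      rw [inner_eq_zero_symm, ← inner_star_left]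
      exact (congrArg (fun z : H →L[ℂ] H => ⟪z S.Ω, S.Ω⟫_ℂ) h3).trans
        ((inner_sub_left _ _ _).trans (sub_eq_zero.2 h2))
    have h2 : e * (x * R - R * x) * e = e * x * e * R - R * (e * x * e) := by
      rw [← mul_assoc R, ← mul_assoc R, mul_assoc _ e R, hRe, mul_sub, sub_mul, ← mul_assoc e R, hRe]
      simp only [mul_assoc]
    rw [h2] at h1
    exact (sub_eq_zero.1 h1).symm
  obtain ⟨z, ⟨hze, n, hn, hzn⟩, hzs, hzl, hzΩ⟩ :=
    kap N' hz (by simpa [hes] using hs.conjugate' e) {S.Ω} hη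
  obtain ⟨Γ₀, hn'⟩ := (hN n).1 hn
  have hzx : ‖z‖ ≤ ‖x‖ := hzl.trans (by
    have := hp.norm_le
    calc ‖e * x * e‖ ≤ ‖e‖ * ‖x‖ * ‖e‖ := norm_mul₃_le
      _ ≤ 1 * ‖x‖ * 1 := by gcongr
      _ = ‖x‖ := by ring)
  have hns : IsSelfAdjoint n := by
    have h1 := congrArg star hzn
    rw [star_mul, star_mul, hes, hzs.star_eq, ← hze, hzn, ← hNe _ (star_mem hn)] at h1
    refine sub_eq_zero.1 (S.sep _ (sub_mem (star_mem hn'.mem) hn'.mem) ?_)
    simpa [hΩ, sub_eq_zero] using congr($h1.symm S.Ω)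
  have hk : ∀ k : ℕ, z ^ k * e = n ^ k * e := fun k => by
    induction k with
    | zero => simp
    | succ k ih => rw [pow_succ, mul_assoc, hzn, hNe n hn, ← mul_assoc, ih, mul_assoc, ← hNe n hn, pow_succ, mul_assoc]
  have hk' : ∀ k : ℕ, (n ^ k) S.Ω = (z ^ k) S.Ω := fun k => by simpa [hΩ] using congr($((hk k).symm) S.Ω)
  refine ⟨Γ₀, n, hn', hns, ContinuousLinearMap.opNorm_le_bound _ (norm_nonneg _) fun ξ => ?_, ?_⟩
  · have h1 : ξ ∈ closure {v | ‖n v‖ ≤ ‖x‖ * ‖v‖} := by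
      refine Metric.mem_closure_iff.2 fun ε hε => ?_
      obtain ⟨m, hm, h⟩ := S.dense ξ hε
      refine ⟨m S.Ω, norm_apply_le_of_pow hns (norm_nonneg _) (B := ‖m‖) fun k => ?_, by rwa [dist_eq_norm]⟩
      have h2 : (n ^ k) (m S.Ω) = m ((z ^ k) S.Ω) := by
        rw [← hk']
        exact congr($(comm_of_mem (pow_mem hn'.mem k) hm) S.Ω)
      rw [h2]
      refine (m.le_opNorm _).trans (mul_le_mul_of_nonneg_left ((S.norm_apply_le _).trans ?_) (norm_nonneg _))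
      rcases k.eq_zero_or_pos with rfl | hk
      · rw [pow_zero, pow_zero]
        exact ContinuousLinearMap.norm_id_le
      · exact (norm_pow_le' z hk).trans (pow_le_pow_left₀ (norm_nonneg _) hzx k)
    exact (isClosed_le (by fun_prop) (by fun_prop)).closure_subset_iff.2 subset_rfl h1
  · have h1 := hzΩ S.Ω (Finset.mem_singleton_self _)
    have h2 := hk' 1
    simp only [pow_one] at h2
    simpa [hΩ, h2] using h1.le

/-- PROOF.  `y` is a weak ultralimit (`R121.exists_wlim`, `mem_of_wlim`) of the approximants with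
`η = 1 / (n + 1)`; `y Ω = sp NV (x Ω)`, so `ψ (ι F * u* (x - y)) = 0` (`cE_unique`). -/
theorem en [DecidableEq S.Γ] {x : H →L[ℂ] H} (hx : x ∈ S.M) (hs : IsSelfAdjoint x) :
    ∃ y ∈ S.M, IsSelfAdjoint y ∧ ‖y‖ ≤ ‖x‖ ∧ (∀ γ : S.Γ, S.cE (star (S.op γ) * (x - y)) = 0) ∧
      ∀ η : ℝ, 0 < η → ∃ Γ₀ y', Sym Γ₀ ∧ S.FP Γ₀ y' ∧ IsSelfAdjoint y' ∧ ‖y'‖ ≤ ‖x‖ ∧
        ‖(y - y') S.Ω‖ ≤ η := by
  have h := fun k : ℕ => S.exists_fp_approx hx hs (Nat.one_div_pos_of_nat (n := k))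
  choose Γ₀ a ha hsa hna hΩ using h
  obtain ⟨y, hy, hl⟩ := R121.exists_wlim (hyperfilter ℕ) a hna
  have hyM : y ∈ S.M := mem_of_wlim (.of_forall fun k => (ha k).mem) hl
  have h1 : Tendsto (fun k => a k S.Ω) (hyperfilter ℕ) (𝓝 (sp S.NV (x S.Ω))) := by
    refine (tendsto_iff_norm_sub_tendsto_zero.2 ?_).mono_left Nat.hyperfilter_le_atTop
    exact squeeze_zero (fun _ => norm_nonneg _) hΩ tendsto_one_div_add_atTop_nhds_zero_nat
  have h2 : y S.Ω = sp S.NV (x S.Ω) := ext_inner_left ℂ fun η =>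
    tendsto_nhds_unique (hl η S.Ω) (tendsto_const_nhds.inner h1)
  refine ⟨y, hyM, ?_, hy, fun γ => ?_, fun η hη => ?_⟩
  · refine ContinuousLinearMap.ext fun ξ => ext_inner_left ℂ fun η => ?_
    rw [inner_star_right, ← inner_conj_symm]
    refine tendsto_nhds_unique ((Complex.continuous_conj.tendsto _).comp (hl ξ η)) ?_
    refine (hl η ξ).congr fun k => ?_
    rw [Function.comp, inner_conj_symm, ← inner_star_right, (hsa k).star_eq]
  · refine S.cE_unique (mul_mem (star_mem (op_mem γ)) (sub_mem hx hyM)) fun F => ?_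
    have h3 : S.ι F * (star (S.op γ) * (x - y)) = star (S.op γ * S.ι (star F)) * (x - y) := by
      rw [star_mul, ← map_star, star_star, mul_assoc]
    have h4 := inner_star_left (sp S.NV) ((S.op γ * S.ι (star F)) S.Ω) (x S.Ω)
    rw [(sp_proj _).isSelfAdjoint.star_eq, sp_apply (T := S.NV) ⟨γ, star F, rfl⟩] at h4
    rw [h3, S.ψ_star_mul, _root_.sub_apply, inner_sub_right, h2, h4, sub_self, mul_zero, map_zero]
    simp [ψ]
  · obtain ⟨k, hk⟩ := exists_nat_one_div_lt hη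
    obtain ⟨B, hB, hB'⟩ := S.en_sym (Γ₀ k)
    refine ⟨B, a k, hB, (ha k).mono S hB', hsa k, hna k, ?_⟩
    rw [_root_.sub_apply, h2, norm_sub_rev]
    exact (hΩ k).trans hk.le

end NS

end Crest.Agent.R109
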