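import Mathlib

/-! Row 109 (paving over arbitrary MASAs): definitions for the finite theory.

For a Hermitian matrix `Y` with zero diagonal, a partial colouring `π` and weights `t`,
`Qf Y π t = 𝔼_f det (1 - diag t * Y_f)` where the uncoloured indices get independent uniform colours and
`Y_f` keeps the entries between indices of equal colour.  `Qf` is multi-affine in `t`; `t i = 0` deletes
the index `i`.  `mom Y π a w n` is the `n`-th coefficient of `Q(s a[w := 0]) / Q(s a)`; for a full
colouring it is `((diag a * Y_f) ^ n) w w`. -/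

set_option autoImplicit false

namespace Crest.Agent.R109

open scoped BigOperators ComplexConjugate
open PowerSeries

section
variable {I : Type*} [Fintype I] [DecidableEq I] {C : Type} [Fintype C] [DecidableEq C]

/-- Complete a partial colouring `π` by `f`. -/
def col (π : I → Option C) (f : I → C) (i : I) : C := (π i).getD (f i)

/-- Keep the entries between indices of the same colour. -/
def cm (Y : I → I → ℂ) (g : I → C) : Matrix I I ℂ :=
  Matrix.of fun i j => if g i = g j then Y i j else 0

/-- Coefficient of `∏ i ∈ S, t i`. -/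
noncomputable def cf (Y : I → I → ℂ) (π : I → Option C) (S : Finset I) : ℝ :=
  (𝔼 f : I → C, (Matrix.of fun i j =>
    if i ∈ S then -cm Y (col π f) i j else if i = j then (1 : ℂ) else 0).det).re

/-- The expected determinant `𝔼_f det (1 - diag t * Y_f)`. -/
noncomputable def Qf {R : Type*} [CommRing R] [Algebra ℝ R] (Y : I → I → ℂ) (π : I → Option C)
    (t : I → R) : R := ∑ S : Finset I, algebraMap ℝ R (cf Y π S) * ∏ i ∈ S, t i

/-- Hermitian with zero diagonal. -/
structure HZ (Y : I → I → ℂ) : Prop where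
  herm : ∀ i j, Y j i = conj (Y i j)
  diag : ∀ i, Y i i = 0

/-- Numerical radius at most one. -/
def Ctr (Y : I → I → ℂ) : Prop :=
  ∀ ξ : I → ℂ, ‖∑ i, ∑ j, conj (ξ i) * Y i j * ξ j‖ ≤ ∑ i, ‖ξ i‖ ^ 2

/-- `Q (s a)` as a power series in `s`. -/
noncomputable def Qs (Y : I → I → ℂ) (π : I → Option C) (a : I → ℝ) : ℝ⟦X⟧ :=
  Qf Y π fun i => PowerSeries.C (a i) * X

/-- The local moments. -/
noncomputable def mom (Y : I → I → ℂ) (π : I → Option C) (a : I → ℝ) (w : I) (n : ℕ) : ℝ :=
  coeff n (Qs Y π (Function.update a w 0) * (Qs Y π a)⁻¹)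

end

/-- `∑ j, b j * s / (1 - μ j * s)`. -/
noncomputable def rs {J : Type*} [Fintype J] (b μ : J → ℝ) : ℝ⟦X⟧ :=
  PowerSeries.mk fun n => if n = 0 then 0 else ∑ j, b j * μ j ^ (n - 1)

/-- Coefficient `N` of `s u' / (1 - u)`. -/
noncomputable def Fs (u : ℝ⟦X⟧) (N : ℕ) : ℝ := coeff N (X * d⁄dX ℝ u * (1 - u)⁻¹)

/-- `tr M ^ N - tr D ^ N` for the arrow matrix `M = [[0, √b], [√b, D]]`, `D = diag μ`. -/
noncomputable def Fb {J : Type*} [Fintype J] (b μ : J → ℝ) (N : ℕ) : ℝ := Fs (X * rs b μ) N

/-- The amplification of uncoloured points. -/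
def cA : ℝ := 160

end Crest.Agent.R109
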