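import Crest.Agent.R109.KeyM

/-! Row 109: half of the colours do not increase the potential. -/

set_option autoImplicit false

namespace Crest.Agent.R109

open scoped BigOperators

variable {J : Type} [Fintype J] [DecidableEq J]

/-- The linear test functional. -/
noncomputable def Lam (b μ : J → ℝ) (ρ : ℝ) (N : ℕ) : ℝ :=
  ∑ j, b j * ρ ^ 2 * (2 * ∑ k ∈ Finset.range (N - 1), (ρ * |μ j|) ^ k + N * (ρ * |μ j|) ^ (N - 2))

section aux
open PowerSeries

private theorem coeff_u (b μ : J → ℝ) (n : ℕ) :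
    coeff n (X * rs b μ) = if n < 2 then 0 else ∑ j, b j * μ j ^ (n - 2) := by
  rcases n with _ | _ | n
  · simp
  · rw [coeff_succ_X_mul]; simp [rs]
  · rw [coeff_succ_X_mul, if_neg (by omega)]; simp [rs]

private theorem coeff_XD (u : ℝ⟦X⟧) (n : ℕ) : coeff n (X * d⁄dX ℝ u) = n * coeff n u := by
  rcases n with _ | n
  · simp
  · rw [coeff_succ_X_mul, coeff_derivative]; push_cast; ring

private theorem Fs_eq (u : ℝ⟦X⟧) (N : ℕ) : Fs u N
    = ∑ p ∈ Finset.HasAntidiagonal.antidiagonal N, (p.1 * coeff p.1 u) * coeff p.2 (1 - u)⁻¹ := by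
  unfold Fs
  rw [coeff_mul]
  exact Finset.sum_congr rfl fun p _ => by rw [coeff_XD]

private theorem inv_rec {u : ℝ⟦X⟧} (hu : constantCoeff u = 0) (k : ℕ) :
    coeff k (1 - u)⁻¹ = (if k = 0 then 1 else 0)
      + ∑ p ∈ Finset.HasAntidiagonal.antidiagonal k, coeff p.1 u * coeff p.2 (1 - u)⁻¹ := by
  have h1 : (1 - u) * (1 - u)⁻¹ = 1 := PowerSeries.mul_inv_cancel _ (by simp [hu])
  have h2 : (1 - u)⁻¹ = 1 + u * (1 - u)⁻¹ := by linear_combination h1
  conv_lhs => rw [h2]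
  rw [map_add, coeff_one, coeff_mul]

private theorem Fs_rescale {u : ℝ⟦X⟧} (hu : constantCoeff u = 0) (ρ : ℝ) (N : ℕ) :
    Fs (rescale ρ u) N = Fs u N * ρ ^ N := by
  have h0 : constantCoeff (rescale ρ u) = 0 := by
    rw [← coeff_zero_eq_constantCoeff_apply, coeff_rescale]; simp [hu]
  have h1 : (1 - rescale ρ u)⁻¹ = rescale ρ (1 - u)⁻¹ := by
    rw [PowerSeries.inv_eq_iff_mul_eq_one (by simp [h0])]
    have : (1 - rescale ρ u) = rescale ρ (1 - u) := by simp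
    rw [this, ← map_mul, PowerSeries.inv_mul_cancel _ (by simp [hu]), map_one]
  rw [Fs_eq, Fs_eq, h1, Finset.sum_mul]
  refine Finset.sum_congr rfl fun p hp => ?_
  rw [coeff_rescale, coeff_rescale, ← Finset.HasAntidiagonal.mem_antidiagonal.1 hp, pow_add]
  ring

private theorem cc_u (b μ : J → ℝ) : constantCoeff (X * rs b μ) = 0 := by simp

private theorem Fb_congr {b μ b' μ' : J → ℝ} (h : ∀ j k, b j * μ j ^ k = b' j * μ' j ^ k) (N : ℕ) :
    Fb b μ N = Fb b' μ' N := by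
  have : rs b μ = rs b' μ' := by
    ext n
    simp only [rs, coeff_mk]
    split_ifs
    · rfl
    · exact Finset.sum_congr rfl fun j _ => h j _
  unfold Fb; rw [this]

private theorem Fb_scale' (b μ : J → ℝ) (ρ : ℝ) (N : ℕ) :
    Fb (fun j => b j * ρ ^ 2) (fun j => ρ * μ j) N = Fb b μ N * ρ ^ N := by
  unfold Fb
  rw [← Fs_rescale (cc_u b μ)]
  congr 1
  ext n
  rw [coeff_rescale, coeff_u, coeff_u]
  split_ifs with hn
  · simp
  · obtain ⟨m, rfl⟩ : ∃ m, n = m + 2 := ⟨n - 2, by omega⟩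
    rw [Finset.mul_sum]
    refine Finset.sum_congr rfl fun j _ => ?_
    simp only [Nat.add_sub_cancel, mul_pow, pow_add]; ring

private theorem sum_abs_inv_le {u : ℝ⟦X⟧} (hu : constantCoeff u = 0) (K : ℕ)
    (h : ∑ n ∈ Finset.range (K + 1), |coeff n u| ≤ 1 / 2) :
    ∑ k ∈ Finset.range (K + 1), |coeff k (1 - u)⁻¹| ≤ 2 := by
  set r := (1 - u)⁻¹ with hr
  have h1 : ∀ k, |coeff k r| ≤ (if k = 0 then 1 else 0)
      + ∑ p ∈ Finset.HasAntidiagonal.antidiagonal k, |coeff p.1 u| * |coeff p.2 r| := by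
    intro k
    rw [hr, inv_rec hu k]
    refine (abs_add_le _ _).trans (add_le_add ?_ ?_)
    · split_ifs <;> simp
    · refine (Finset.abs_sum_le_sum_abs _ _).trans (le_of_eq ?_)
      exact Finset.sum_congr rfl fun p _ => abs_mul _ _
  have h2 : ∑ k ∈ Finset.range (K + 1), ∑ p ∈ Finset.HasAntidiagonal.antidiagonal k, |coeff p.1 u| * |coeff p.2 r|
      ≤ (∑ n ∈ Finset.range (K + 1), |coeff n u|) * ∑ k ∈ Finset.range (K + 1), |coeff k r| := by
    simp only [Finset.Nat.sum_antidiagonal_eq_sum_range_succ_mk]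
    rw [Finset.sum_range_diag_flip (K + 1) fun m n => |coeff m u| * |coeff n r|, Finset.sum_mul]
    refine Finset.sum_le_sum fun m _ => ?_
    rw [← Finset.mul_sum]
    refine mul_le_mul_of_nonneg_left ?_ (abs_nonneg _)
    exact Finset.sum_le_sum_of_subset_of_nonneg (Finset.range_subset_range.2 (by omega))
      fun _ _ _ => abs_nonneg _
  have h3 : ∑ k ∈ Finset.range (K + 1), |coeff k r| ≤ 1 + ∑ k ∈ Finset.range (K + 1),
      ∑ p ∈ Finset.HasAntidiagonal.antidiagonal k, |coeff p.1 u| * |coeff p.2 r| := by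
    refine (Finset.sum_le_sum fun k _ => h1 k).trans (le_of_eq ?_)
    rw [Finset.sum_add_distrib]
    simp
  have h4 : 0 ≤ ∑ k ∈ Finset.range (K + 1), |coeff k r| := Finset.sum_nonneg fun _ _ => abs_nonneg _
  nlinarith

private theorem n_pow_le {x : ℝ} (hx : 0 ≤ x) {n N : ℕ} (hn : 2 ≤ n) (hnN : n ≤ N) :
    n * x ^ (n - 2) ≤ 2 * ∑ k ∈ Finset.range (N - 1), x ^ k + N * x ^ (N - 2) := by
  have hS : 0 ≤ ∑ k ∈ Finset.range (N - 1), x ^ k := Finset.sum_nonneg fun _ _ => by positivity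
  rcases le_total x 1 with h1 | h1
  · have h2 : ∑ k ∈ Finset.range (n - 1), x ^ (n - 2) ≤ ∑ k ∈ Finset.range (N - 1), x ^ k := by
      refine (Finset.sum_le_sum fun k hk => pow_le_pow_of_le_one hx h1
        (by have := Finset.mem_range.1 hk; omega : k ≤ n - 2)).trans ?_
      exact Finset.sum_le_sum_of_subset_of_nonneg (Finset.range_subset_range.2 (by omega))
        fun _ _ _ => by positivity
    rw [Finset.sum_const, Finset.card_range, nsmul_eq_mul, Nat.cast_sub (by omega)] at h2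
    have h3 : (2 : ℝ) ≤ n := by exact_mod_cast hn
    have h4 : 0 ≤ x ^ (n - 2) := by positivity
    have h5 : (0 : ℝ) ≤ N * x ^ (N - 2) := by positivity
    push_cast at h2
    nlinarith
  · have h2 : x ^ (n - 2) ≤ x ^ (N - 2) := pow_le_pow_right₀ h1 (by omega)
    have h3 : (n : ℝ) ≤ N := by exact_mod_cast hnN
    have : n * x ^ (n - 2) ≤ N * x ^ (N - 2) := by gcongr
    linarith

private theorem Lam_scale (b μ : J → ℝ) {ρ : ℝ} (hρ : 0 < ρ) (N : ℕ) :
    Lam (fun j => b j * ρ ^ 2) (fun j => ρ * μ j) 1 N = Lam b μ ρ N := by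
  unfold Lam
  refine Finset.sum_congr rfl fun j _ => ?_
  simp only [abs_mul, abs_of_pos hρ, one_mul, one_pow, mul_one]

private theorem Fb_le_one {b : J → ℝ} (hb : ∀ j, 0 ≤ b j) (μ : J → ℝ) {N : ℕ} (hN : 2 ≤ N)
    (h : Lam b μ 1 N ≤ 1) : Fb b μ N ≤ 2 * Lam b μ 1 N := by
  set u := X * rs b μ with hu
  have hL : Lam b μ 1 N = ∑ j, b j * (2 * ∑ k ∈ Finset.range (N - 1), |μ j| ^ k
      + N * |μ j| ^ (N - 2)) := by
    unfold Lam; simp only [one_pow, mul_one, one_mul]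
  have hL0 : 0 ≤ Lam b μ 1 N := by
    rw [hL]
    exact Finset.sum_nonneg fun j _ => mul_nonneg (hb j) (by positivity)
  have habs : ∀ n, 2 ≤ n → |coeff n u| ≤ ∑ j, b j * |μ j| ^ (n - 2) := by
    intro n hn
    rw [hu, coeff_u, if_neg (by omega)]
    refine (Finset.abs_sum_le_sum_abs _ _).trans (le_of_eq ?_)
    exact Finset.sum_congr rfl fun j _ => by rw [abs_mul, abs_pow, abs_of_nonneg (hb j)]
  have h01 : ∀ n, n < 2 → coeff n u = 0 := fun n hn => by rw [hu, coeff_u, if_pos hn]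
  have h1 : ∑ n ∈ Finset.range (N + 1), |coeff n u| ≤ 1 / 2 := by
    obtain ⟨M, rfl⟩ : ∃ M, N = M + 2 := ⟨N - 2, by omega⟩
    rw [show M + 2 + 1 = (M + 1) + 1 + 1 by ring, Finset.sum_range_succ', Finset.sum_range_succ',
      h01 0 (by omega), h01 (0 + 1) (by omega), abs_zero, add_zero, add_zero]
    have h2 : ∑ k ∈ Finset.range (M + 1), |coeff (k + 1 + 1) u|
        ≤ ∑ k ∈ Finset.range (M + 1), ∑ j, b j * |μ j| ^ k :=
      Finset.sum_le_sum fun k _ => habs _ (by omega)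
    rw [Finset.sum_comm] at h2
    have h3 : 2 * ∑ j, ∑ k ∈ Finset.range (M + 1), b j * |μ j| ^ k ≤ Lam b μ 1 (M + 2) := by
      rw [hL, Finset.mul_sum]
      refine Finset.sum_le_sum fun j _ => ?_
      rw [← Finset.mul_sum, show M + 2 - 1 = M + 1 by omega]
      have : 0 ≤ b j * (((M + 2 : ℕ) : ℝ) * |μ j| ^ (M + 2 - 2)) := mul_nonneg (hb j) (by positivity)
      nlinarith
    linarith
  have h2 := sum_abs_inv_le (cc_u b μ) N h1
  have h3 : ∀ n, n ≤ N → |n * coeff n u| ≤ Lam b μ 1 N := by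
    intro n hn
    rcases lt_or_ge n 2 with h2 | h2
    · rw [h01 n h2]; simpa using hL0
    · rw [abs_mul, Nat.abs_cast]
      refine (mul_le_mul_of_nonneg_left (habs n h2) (Nat.cast_nonneg n)).trans ?_
      rw [hL, Finset.mul_sum]
      refine Finset.sum_le_sum fun j _ => ?_
      rw [mul_left_comm]
      exact mul_le_mul_of_nonneg_left (n_pow_le (abs_nonneg _) h2 hn) (hb j)
  unfold Fb
  rw [Fs_eq, ← hu]
  calc ∑ p ∈ Finset.HasAntidiagonal.antidiagonal N, (p.1 * coeff p.1 u) * coeff p.2 (1 - u)⁻¹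
      ≤ ∑ p ∈ Finset.HasAntidiagonal.antidiagonal N, Lam b μ 1 N * |coeff p.2 (1 - u)⁻¹| := by
        refine Finset.sum_le_sum fun p hp => (le_abs_self _).trans ?_
        rw [abs_mul]
        exact mul_le_mul_of_nonneg_right (h3 _ (by have := Finset.HasAntidiagonal.mem_antidiagonal.1 hp; omega)) (abs_nonneg _)
    _ = Lam b μ 1 N * ∑ k ∈ Finset.range (N + 1), |coeff k (1 - u)⁻¹| := by
        rw [← Finset.mul_sum, ← Finset.Nat.sum_antidiagonal_swap,
          Finset.Nat.sum_antidiagonal_eq_sum_range_succ_mk]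
        rfl
    _ ≤ 2 * Lam b μ 1 N := by rw [← hu] at h2; nlinarith

private theorem Fb_ge_top {b x : J → ℝ} (hb : ∀ j, 0 ≤ b j) (hx : ∀ j, 0 ≤ x j) {N : ℕ} (hN : 2 ≤ N) :
    N * ∑ j, b j * x j ^ (N - 2) ≤ Fb b x N := by
  set u := X * rs b x with hu
  have hu0 : ∀ n, 0 ≤ coeff n u := by
    intro n
    rw [hu, coeff_u]
    split_ifs
    · exact le_rfl
    · exact Finset.sum_nonneg fun j _ => mul_nonneg (hb j) (pow_nonneg (hx j) _)
  have hc : constantCoeff u = 0 := cc_u b x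
  have hr : ∀ k, 0 ≤ coeff k (1 - u)⁻¹ := by
    intro k
    induction k using Nat.strong_induction_on with
    | _ k ih =>
      rw [inv_rec hc k]
      refine add_nonneg (by split_ifs <;> norm_num) (Finset.sum_nonneg fun p hp => ?_)
      rcases Nat.eq_zero_or_pos p.1 with h0 | h0
      · rw [h0, coeff_zero_eq_constantCoeff_apply, hc, zero_mul]
      · exact mul_nonneg (hu0 _) (ih _ (by have := Finset.HasAntidiagonal.mem_antidiagonal.1 hp; omega))
  have hr0 : coeff 0 (1 - u)⁻¹ = 1 := by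
    rw [coeff_zero_eq_constantCoeff_apply, constantCoeff_inv]; simp [hc]
  unfold Fb
  rw [Fs_eq, ← hu]
  refine le_trans (le_of_eq ?_) (Finset.single_le_sum
    (f := fun p : ℕ × ℕ => (p.1 * coeff p.1 u) * coeff p.2 (1 - u)⁻¹)
    (fun p _ => mul_nonneg (mul_nonneg (Nat.cast_nonneg _) (hu0 _)) (hr _))
    (show (N, 0) ∈ Finset.HasAntidiagonal.antidiagonal N by simp))
  simp only
  rw [hr0, hu, coeff_u, if_neg (by omega), mul_one]

private theorem third_le {N : ℕ} (hN : 2 ≤ N) : 1 / 3 ≤ (1 - 1 / (N : ℝ)) ^ (N - 2) := by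
  obtain ⟨m, rfl⟩ : ∃ m, N = m + 2 := ⟨N - 2, by omega⟩
  have hm : (0 : ℝ) < m + 1 := by positivity
  have h1 : (1 - 1 / ((m + 2 : ℕ) : ℝ)) = (1 + 1 / (m + 1 : ℝ))⁻¹ := by
    push_cast; field_simp; ring
  rw [h1, inv_pow, Nat.add_sub_cancel, one_div]
  refine inv_anti₀ (by positivity) ?_
  have h2 : 1 + 1 / (m + 1 : ℝ) ≤ Real.exp (1 / (m + 1 : ℝ)) := by
    have := Real.add_one_le_exp (1 / (m + 1 : ℝ)); linarith
  calc (1 + 1 / (m + 1 : ℝ)) ^ m ≤ Real.exp (1 / (m + 1 : ℝ)) ^ m := by gcongr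
    _ = Real.exp (m * (1 / (m + 1 : ℝ))) := by rw [Real.exp_nat_mul]
    _ ≤ Real.exp 1 := by
        apply Real.exp_le_exp.2
        rw [mul_one_div, div_le_one hm]; linarith
    _ ≤ 3 := by have := Real.exp_one_lt_d9; linarith

private theorem geom_big {x : ℝ} {N : ℕ} (hN : 2 ≤ N) (hx : 1 - 1 / (N : ℝ) ≤ x) :
    ∑ k ∈ Finset.range (N - 1), x ^ k ≤ 3 * (N * x ^ (N - 2)) := by
  have hN' : (2 : ℝ) ≤ N := by exact_mod_cast hN
  have h0 : 0 ≤ 1 - 1 / (N : ℝ) := by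
    rw [sub_nonneg, div_le_one (by linarith)]; linarith
  have hx0 : 0 ≤ x := h0.trans hx
  have hp : 0 ≤ x ^ (N - 2) := by positivity
  have h1 : ∀ k ∈ Finset.range (N - 1), x ^ k ≤ 3 * x ^ (N - 2) := by
    intro k hk
    have hk' := Finset.mem_range.1 hk
    rcases le_total x 1 with h | h
    · have := pow_le_one₀ (n := k) hx0 h
      have h3 : (1 - 1 / (N : ℝ)) ^ (N - 2) ≤ x ^ (N - 2) := by gcongr
      have := third_le hN
      linarith
    · have : x ^ k ≤ x ^ (N - 2) := pow_le_pow_right₀ h (by omega)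
      linarith
  refine (Finset.sum_le_sum h1).trans ?_
  rw [Finset.sum_const, Finset.card_range, nsmul_eq_mul, Nat.cast_sub (by omega)]
  push_cast
  nlinarith

private theorem geom_small {x : ℝ} (hx0 : 0 ≤ x) (hx : x < 1) (n : ℕ) :
    ∑ k ∈ Finset.range n, x ^ k ≤ 1 / (1 - x) := by
  rw [le_div_iff₀ (by linarith), mul_comm, mul_neg_geom_sum]
  have : 0 ≤ x ^ n := by positivity
  linarith

private theorem Lam_le_pos {b x : J → ℝ} (hb : ∀ j, 0 ≤ b j) (hx : ∀ j, 0 ≤ x j) {N : ℕ} (hN : 2 ≤ N)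
    (hE : Even N) (h : Fb b x N ≤ 1) : Lam b x 1 N ≤ 19 := by
  have hN' : (2 : ℝ) ≤ N := by exact_mod_cast hN
  have hNp : (0 : ℝ) < N := by linarith
  have h1 := (Fb_ge_top hb hx hN).trans h
  set m : ℝ := 1 - 1 / (N : ℝ) with hm
  have hiN : 0 < 1 / (N : ℝ) := by positivity
  have hiN2 : 1 / (N : ℝ) ≤ 1 / 2 := one_div_le_one_div_of_le (by norm_num) hN'
  have h2 : ∑ j, (if x j < m then b j else 0) / (1 - x j) ≤ 6 := by
    by_contra hcon
    push Not at hcon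
    have h3 := Fb_drop hb x (by omega : 1 ≤ N) hE (fun j => x j < m)
    have h4 : Fb (fun j => if x j < m then b j else 0) x N
        = Fb (fun j => if x j < m then b j else 0) (fun j => if x j < m then x j else 0) N := by
      refine Fb_congr (fun j k => ?_) N
      split_ifs <;> simp
    have h5 := Fb_ge (b := fun j => if x j < m then b j else 0)
      (μ := fun j => if x j < m then x j else 0) (m := m) (t₀ := 1 + 2 / (N : ℝ))
      (fun j => by split_ifs; exacts [hb j, le_rfl])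
      (fun j => by
        split_ifs with hj
        · exact ⟨hx j, hj.le⟩
        · exact ⟨le_rfl, by linarith⟩) (by linarith)
      (by have : 0 < 2 / (N : ℝ) := by positivity
          linarith)
      (by
        have h6 : ∑ j, (if x j < m then b j else 0) / (1 - x j) ≤ 3 * ∑ j,
            (if x j < m then b j else 0) / (1 + 2 / (N : ℝ) - if x j < m then x j else 0) := by
          rw [Finset.mul_sum]
          refine Finset.sum_le_sum fun j _ => ?_
          split_ifs with hj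
          · have h7 : 0 < 1 - x j := by linarith
            have h8 : 2 / (N : ℝ) = 2 * (1 / (N : ℝ)) := by ring
            rw [← mul_div_assoc, div_le_div_iff₀ h7 (by linarith)]
            have := hb j
            nlinarith
          · simp
        have h8 : 2 / (N : ℝ) = 2 * (1 / (N : ℝ)) := by ring
        linarith) (by omega : 1 ≤ N) hE
    have h6 : 1 + (N : ℝ) * (2 / N) ≤ (1 + 2 / (N : ℝ)) ^ N :=
      one_add_mul_le_pow (by have : 0 < 2 / (N : ℝ) := by positivity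
                             linarith) N
    have h7 : m ^ N ≤ 1 := pow_le_one₀ (by linarith) (by linarith)
    have h8 : (N : ℝ) * (2 / N) = 2 := by field_simp
    linarith
  have h3 : Lam b x 1 N ≤ ∑ j, (7 * (N * (b j * x j ^ (N - 2)))
      + 2 * ((if x j < m then b j else 0) / (1 - x j))) := by
    unfold Lam
    refine Finset.sum_le_sum fun j _ => ?_
    simp only [one_pow, mul_one, one_mul, abs_of_nonneg (hx j)]
    have hp : 0 ≤ b j * ((N : ℝ) * x j ^ (N - 2)) :=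
      mul_nonneg (hb j) (mul_nonneg hNp.le (pow_nonneg (hx j) _))
    split_ifs with hj
    · have h4 := mul_le_mul_of_nonneg_left (geom_small (hx j) (by linarith) (N - 1)) (hb j)
      rw [mul_one_div] at h4
      nlinarith
    · have h4 := mul_le_mul_of_nonneg_left (geom_big hN (not_lt.1 hj)) (hb j)
      rw [zero_div]
      nlinarith
  rw [Finset.sum_add_distrib, ← Finset.mul_sum, ← Finset.mul_sum, ← Finset.mul_sum] at h3
  linarith

end aux

/-- PROOF.  `v n = ∑ b ρ² (ρ |μ|) ^ (n-2) ≥ |u n| ρ ^ n`; `∑_{2 ≤ n ≤ N} v n ≤ Λ / 2 ≤ 1 / 2` and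
`n v n ≤ Λ` (`n x^(n-2) ≤ 2 ∑_{k ≤ N-2} x^k` for `x ≤ 1`, `≤ N x^(N-2)` for `x ≥ 1`).  The recursion
`r k = [k = 0] + ∑ u n r (k - n)` gives `∑_{k ≤ N} |r k| ρ ^ k ≤ 2`; `Fb = ∑ n u n r (N - n)`. -/
theorem Fb_le {b : J → ℝ} (hb : ∀ j, 0 ≤ b j) (μ : J → ℝ) {ρ : ℝ} (hρ : 0 < ρ) {N : ℕ} (hN : 2 ≤ N)
    (h : Lam b μ ρ N ≤ 1) : Fb b μ N * ρ ^ N ≤ 2 * Lam b μ ρ N := by
  rw [← Lam_scale b μ hρ] at h ⊢
  rw [← Fb_scale']
  exact Fb_le_one (fun j => mul_nonneg (hb j) (sq_nonneg _)) _ hN h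

theorem Fb_scale (b μ : J → ℝ) (ρ : ℝ) (N : ℕ) :
    Fb (fun j => b j * ρ ^ 2) (fun j => ρ * μ j) N = Fb b μ N * ρ ^ N := by
  exact Fb_scale' b μ ρ N

theorem Fb_neg (b μ : J → ℝ) {N : ℕ} (hE : Even N) : Fb b (fun j => -μ j) N = Fb b μ N := by
  have := Fb_scale' b μ (-1) N
  rw [hE.neg_one_pow, mul_one] at this
  rw [← this]
  exact Fb_congr (fun j k => by simp) N

theorem Fb_nonneg {b : J → ℝ} (hb : ∀ j, 0 ≤ b j) (μ : J → ℝ) {N : ℕ} (hN : 1 ≤ N) (hE : Even N) :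
    0 ≤ Fb b μ N := by
  have h := Fb_drop hb μ hN hE (fun _ => False)
  refine le_trans (le_of_eq ?_) h
  have : rs (fun j => if False then b j else 0) μ = 0 := by
    ext n; simp [rs]
  unfold Fb Fs
  rw [this]; simp

/-- PROOF.  Scale to `ρ = 1` (`Fb_scale`), treat the atoms with `μ ≥ 0` and `μ < 0` separately
(`Fb_drop`, `Fb_neg`; atoms with `b = 0` may be moved to `μ = 0`); each part gives `≤ 19`.  For `x ≥ 0`:
`N ∑ b x^(N-2) ≤ Fb ≤ 1` (all coefficients are nonnegative).  Atoms `x ≥ 1 - 1/N`: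
`∑_{k ≤ N-2} x^k ≤ 3 N x^(N-2)`.  Atoms `x < 1 - 1/N`: if `∑ b / (1 - x) ≥ 6` then at `t₀ = 1 + 2/N`,
`∑ b / (t₀ - x) ≥ 2 ≥ t₀`, and `Fb_ge` gives `Fb ≥ t₀ ^ N - (1 - 1/N) ^ N > 2`. -/
theorem Lam_le {b : J → ℝ} (hb : ∀ j, 0 ≤ b j) (μ : J → ℝ) {ρ : ℝ} (hρ : 0 < ρ) {N : ℕ} (hN : 2 ≤ N)
    (hE : Even N) (h : Fb b μ N * ρ ^ N ≤ 1) : Lam b μ ρ N ≤ 38 := by
  rw [← Lam_scale b μ hρ]
  rw [← Fb_scale'] at h
  have hb' : ∀ j, 0 ≤ b j * ρ ^ 2 := fun j => mul_nonneg (hb j) (sq_nonneg _)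
  set B : J → ℝ := fun j => b j * ρ ^ 2 with hB
  set ν : J → ℝ := fun j => ρ * μ j with hν
  have hB0 : ∀ j, 0 ≤ B j := hb'
  have h1 : Lam (fun j => if 0 ≤ ν j then B j else 0) (fun j => |ν j|) 1 N ≤ 19 := by
    refine Lam_le_pos (fun j => by split_ifs; exacts [hB0 j, le_rfl]) (fun j => abs_nonneg _) hN hE ?_
    refine le_trans (le_of_eq ?_) ((Fb_drop hB0 ν (by omega) hE fun j => 0 ≤ ν j).trans h)
    refine Fb_congr (fun j k => ?_) N
    split_ifs with hj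
    · rw [abs_of_nonneg hj]
    · simp
  have h2 : Lam (fun j => if ν j < 0 then B j else 0) (fun j => |ν j|) 1 N ≤ 19 := by
    refine Lam_le_pos (fun j => by split_ifs; exacts [hB0 j, le_rfl]) (fun j => abs_nonneg _) hN hE ?_
    refine le_trans (le_of_eq ?_) ((Fb_drop hB0 ν (by omega) hE fun j => ν j < 0).trans h)
    rw [← Fb_neg _ ν hE]
    refine Fb_congr (fun j k => ?_) N
    split_ifs with hj
    · rw [abs_of_neg hj]
    · simp
  have h3 : Lam B ν 1 N = Lam (fun j => if 0 ≤ ν j then B j else 0) (fun j => |ν j|) 1 N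
      + Lam (fun j => if ν j < 0 then B j else 0) (fun j => |ν j|) 1 N := by
    unfold Lam
    rw [← Finset.sum_add_distrib]
    refine Finset.sum_congr rfl fun j _ => ?_
    simp only [abs_abs]
    rcases le_or_gt 0 (ν j) with hj | hj
    · rw [if_pos hj, if_neg (not_lt.2 hj)]; ring
    · rw [if_neg (not_le.2 hj), if_pos hj]; ring
  linarith

/-- PROOF.  `ρ ^ N (F̄ + η) = 1`; `Lam` is linear in `b`, so the average of `Lam (b c)` is at most
`38 / 160`; by Markov at least half of the colours have `Lam (b c) ≤ 76 / 160`; `Fb_le`. -/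
theorem key {C : Type} [Fintype C] [DecidableEq C] [Nonempty C] {b : C → J → ℝ}
    (hb : ∀ c j, 0 ≤ b c j) (μ : J → ℝ) {N : ℕ} (hN : 2 ≤ N) (hE : Even N) {η : ℝ} (hη : 0 < η) :
    Fintype.card C ≤ 2 * (Finset.univ.filter fun c =>
      Fb (b c) μ N ≤ Fb (fun j => cA * ((Fintype.card C : ℝ)⁻¹ * ∑ c', b c' j)) μ N + η).card := by
  set bb : J → ℝ := fun j => cA * ((Fintype.card C : ℝ)⁻¹ * ∑ c', b c' j) with hbb
  have hC : (0 : ℝ) < Fintype.card C := by exact_mod_cast Fintype.card_pos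
  have hbb0 : ∀ j, 0 ≤ bb j := fun j =>
    mul_nonneg (by norm_num [cA]) (mul_nonneg (inv_nonneg.2 hC.le) (Finset.sum_nonneg fun c _ => hb c j))
  have hF := Fb_nonneg hbb0 μ (by omega : 1 ≤ N) hE
  set F := Fb bb μ N with hFdef
  obtain ⟨ρ, hρ, hρN⟩ : ∃ ρ : ℝ, 0 < ρ ∧ (F + η) * ρ ^ N = 1 := by
    have hp : 0 < F + η := by linarith
    refine ⟨(F + η)⁻¹ ^ ((N : ℝ)⁻¹), Real.rpow_pos_of_pos (inv_pos.2 hp) _, ?_⟩
    rw [Real.rpow_inv_natCast_pow (inv_pos.2 hp).le (by omega), mul_inv_cancel₀ hp.ne']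
  have hρN0 : 0 < ρ ^ N := pow_pos hρ N
  have h1 : Lam bb μ ρ N ≤ 38 := Lam_le hbb0 μ hρ hN hE (by nlinarith)
  have h2 : Lam bb μ ρ N = 160 * ((Fintype.card C : ℝ)⁻¹ * ∑ c, Lam (b c) μ ρ N) := by
    unfold Lam
    rw [Finset.sum_comm, Finset.mul_sum, Finset.mul_sum]
    refine Finset.sum_congr rfl fun j _ => ?_
    rw [← Finset.sum_mul, ← Finset.sum_mul, hbb, cA]
    ring
  have h3 : ∑ c, Lam (b c) μ ρ N ≤ 38 / 160 * Fintype.card C := by
    rw [h2] at h1
    have h4 : (Fintype.card C : ℝ)⁻¹ * ∑ c, Lam (b c) μ ρ N ≤ 38 / 160 := by linarith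
    rw [inv_mul_le_iff₀ hC] at h4
    linarith
  have hL0 : ∀ c, 0 ≤ Lam (b c) μ ρ N := fun c =>
    Finset.sum_nonneg fun j _ => mul_nonneg (mul_nonneg (hb c j) (sq_nonneg _)) (by positivity)
  have h4 : ∀ c, ¬ Fb (b c) μ N ≤ F + η → 76 / 160 ≤ Lam (b c) μ ρ N := by
    intro c hc
    by_contra hcon
    push Not at hcon hc
    have h5 := Fb_le (hb c) μ hρ hN (by linarith)
    nlinarith
  have h5 : ((Finset.univ.filter fun c => ¬ Fb (b c) μ N ≤ F + η).card : ℝ) * (76 / 160)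
      ≤ ∑ c, Lam (b c) μ ρ N := by
    rw [← nsmul_eq_mul]
    refine (Finset.card_nsmul_le_sum _ _ _ fun c hc => h4 c (Finset.mem_filter.1 hc).2).trans ?_
    exact Finset.sum_le_sum_of_subset_of_nonneg (Finset.subset_univ _) fun c _ _ => hL0 c
  have h6 := Finset.card_filter_add_card_filter_not (s := (Finset.univ : Finset C))
    (fun c => Fb (b c) μ N ≤ F + η)
  rw [Finset.card_univ] at h6
  have h7 : (2 * (Finset.univ.filter fun c => ¬ Fb (b c) μ N ≤ F + η).card : ℝ) ≤ Fintype.card C := by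
    linarith
  have h8 : 2 * (Finset.univ.filter fun c => ¬ Fb (b c) μ N ≤ F + η).card ≤ Fintype.card C := by
    exact_mod_cast h7
  omega

/-- `Fb_le` with `ρ = 1 / (4 T)`. -/
theorem Fb_le_of_bdd {b μ : J → ℝ} (hb : ∀ j, 0 ≤ b j) {T : ℝ} (hT : 0 < T) (hμ : ∀ j, |μ j| ≤ T)
    (hs : ∑ j, b j ≤ 2 * T ^ 2) {N : ℕ} (hN : 2 ≤ N) : Fb b μ N ≤ 2 * (4 * T) ^ N := by
  have hρ : 0 < (4 * T)⁻¹ := by positivity
  have hx : ∀ j, (4 * T)⁻¹ * |μ j| ≤ 1 / 4 := fun j => by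
    rw [inv_mul_le_iff₀ (by positivity)]; linarith [hμ j]
  have hN4 : (N : ℝ) * (1 / 4) ^ (N - 2) ≤ 2 := by
    obtain ⟨m, rfl⟩ : ∃ m, N = m + 2 := ⟨N - 2, by omega⟩
    rw [Nat.add_sub_cancel, one_div_pow, mul_one_div, div_le_iff₀ (by positivity)]
    have := one_add_mul_le_pow (show (-2 : ℝ) ≤ 3 by norm_num) m
    have hm : (0 : ℝ) ≤ m := Nat.cast_nonneg m
    push_cast
    norm_num at this
    linarith
  have h1 : Lam b μ (4 * T)⁻¹ N ≤ ∑ j, b j * (4 * T)⁻¹ ^ 2 * (14 / 3) := by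
    refine Finset.sum_le_sum fun j _ => mul_le_mul_of_nonneg_left ?_
      (mul_nonneg (hb j) (sq_nonneg _))
    have h0 : 0 ≤ (4 * T)⁻¹ * |μ j| := by positivity
    have h2 := geom_small h0 (by linarith [hx j]) (N - 1)
    have h3 : 1 / (1 - (4 * T)⁻¹ * |μ j|) ≤ 4 / 3 := by
      rw [div_le_iff₀ (by linarith [hx j])]; linarith [hx j]
    have h4 : (N : ℝ) * ((4 * T)⁻¹ * |μ j|) ^ (N - 2) ≤ N * (1 / 4) ^ (N - 2) := by
      gcongr; exact hx j
    linarith
  rw [← Finset.sum_mul, ← Finset.sum_mul] at h1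
  have h2 : (∑ j, b j) * (4 * T)⁻¹ ^ 2 ≤ 1 / 8 := by
    rw [inv_pow, mul_inv_le_iff₀ (by positivity)]; nlinarith
  have h3 : Lam b μ (4 * T)⁻¹ N ≤ 1 := by linarith
  have h4 := Fb_le hb μ hρ hN h3
  rw [inv_pow, mul_inv_le_iff₀ (by positivity)] at h4
  have h5 : 0 < (4 * T) ^ N := by positivity
  nlinarith

end Crest.Agent.R109
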