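import Crest.Agent.R109.Mom
import Crest.Agent.R109.Key
import Crest.Agent.R109.Bar

/-! Row 109: the two finite statements used for the potential. -/

set_option autoImplicit false
set_option linter.unusedSectionVars false

namespace Crest.Agent.R109

open scoped BigOperators ComplexConjugate
open Function

variable {I : Type*} [Fintype I] [DecidableEq I] {C : Type} [Fintype C] [DecidableEq C] [Nonempty C]
  {Y : I → I → ℂ} {π : I → Option C} {a : I → ℝ}

private theorem rs_smul {J : Type*} [Fintype J] (x : ℝ) (b μ : J → ℝ) :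
    rs (fun j => x * b j) μ = PowerSeries.C x * rs b μ := by
  ext n
  simp only [rs, PowerSeries.coeff_mk, PowerSeries.coeff_C_mul]
  split_ifs
  · simp
  · simp only [Finset.mul_sum, mul_assoc]

private theorem rs_sum {J K : Type*} [Fintype J] [Fintype K] (b : K → J → ℝ) (μ : J → ℝ) :
    rs (fun j => ∑ c, b c j) μ = ∑ c, rs (b c) μ := by
  ext n
  simp only [rs, PowerSeries.coeff_mk, map_sum]
  split_ifs
  · simp
  · simp only [Finset.sum_mul]
    exact Finset.sum_comm

private theorem rs_sigma {K : Type*} [Fintype K] [DecidableEq K] {J : K → Type*}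
    [∀ c, Fintype (J c)] (b μ : ∀ c, J c → ℝ) (c : K) :
    rs (fun p : Σ c, J c => if p.1 = c then b p.1 p.2 else 0) (fun p => μ p.1 p.2) =
      rs (b c) (μ c) := by
  ext n
  simp only [rs, PowerSeries.coeff_mk]
  split_ifs
  · rfl
  · rw [Fintype.sum_sigma, Finset.sum_eq_single c]
    · simp
    · intro c' _ hc'
      simp [hc']
    · simp

private theorem Qs_affine (π : I → Option C) (a : I → ℝ) (v : I) (x : ℝ) :
    Qs Y π (update a v x) = Qs Y π (update a v 0) + PowerSeries.C x * (PowerSeries.X *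
      (Qf Y π (update (fun k => PowerSeries.C (a k) * PowerSeries.X) v 1) -
        Qs Y π (update a v 0))) := by
  have h1 : ∀ y : ℝ, (fun k => PowerSeries.C (update a v y k) * PowerSeries.X) =
      update (fun k => PowerSeries.C (a k) * (PowerSeries.X : PowerSeries ℝ)) v
        (PowerSeries.C y * PowerSeries.X) := by
    intro y
    funext k
    by_cases hk : k = v
    · rw [hk, update_self, update_self]
    · rw [update_of_ne hk, update_of_ne hk]
  simp only [Qs, h1]
  rw [Qf_affine _ v]
  simp only [update_idem, update_self, map_zero, zero_mul, mul_assoc]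

/-- PROOF.  `ret_rep` for each `π_c = update π v (some c)` with the weights `update a v (a v / cA)`; put
all atoms on the index type `Σ c, J c`.  `Qs π a` is `Q₀ (1 - X * rs b̄ μ)` with
`b̄ = cA * average` (`Qf_avg'`, `Qf_affine`), `sum_mom_sub`, `key`. -/
theorem step_fin (h : HZ Y) (ha : ∀ i, 0 ≤ a i) {v : I} (hv : π v = none) {N : ℕ} (hN : 2 ≤ N)
    (hE : Even N) {η : ℝ} (hη : 0 < η) :
    Fintype.card C ≤ 2 * (Finset.univ.filter fun c : C =>
      ∑ w, mom Y (update π v (some c)) (update a v (a v / cA)) w N ≤ ∑ w, mom Y π a w N + η).card := by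
  classical
  have hcA : (0 : ℝ) < cA := by norm_num [cA]
  have hav : 0 ≤ a v / cA := div_nonneg (ha v) hcA.le
  have ha' : ∀ i, 0 ≤ update a v (a v / cA) i := fun i => by
    by_cases hi : i = v
    · rw [hi, update_self]; exact hav
    · rw [update_of_ne hi]; exact ha i
  have hrep := fun c : C => ret_rep h (update π v (some c)) ha' v
  choose J hJ b μ hb _ hQ _ using hrep
  simp only [update_idem, update_self] at hQ
  have hπ : ∀ (c : C) (i : I), update a v 0 i ≠ 0 → update π v (some c) i = π i := by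
    intro c i hi
    by_cases hiv : i = v
    · rw [hiv, update_self] at hi; exact absurd rfl hi
    · rw [update_of_ne hiv]
  have hQ0 : ∀ c : C, Qs Y (update π v (some c)) (update a v 0) = Qs Y π (update a v 0) := by
    intro c
    refine Qf_congr (fun _ _ _ _ => rfl) fun i hi => hπ c i fun h0 => hi ?_
    rw [h0, map_zero, zero_mul]
  let bb : C → (Σ c, J c) → ℝ := fun c p => a v / cA * if p.1 = c then b p.1 p.2 else 0
  let μμ : (Σ c, J c) → ℝ := fun p => μ p.1 p.2
  have hbb : ∀ c p, 0 ≤ bb c p := fun c p => by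
    refine mul_nonneg hav ?_
    split_ifs
    · exact hb _ _
    · exact le_rfl
  have hrs : ∀ c, rs (bb c) μμ = PowerSeries.C (a v / cA) * rs (b c) (μ c) := fun c => by
    rw [← rs_sigma b μ c, ← rs_smul]
  have hQ' : ∀ c : C, Qs Y (update π v (some c)) (update a v (a v / cA)) =
      Qs Y (update π v (some c)) (update a v 0) * (1 - PowerSeries.X * rs (bb c) μμ) := fun c => by
    rw [hQ c, hrs]
    ring
  have hc : ∀ c : C, ∑ w, mom Y (update π v (some c)) (update a v (a v / cA)) w N -
      ∑ w, mom Y π (update a v 0) w N = Fb (bb c) μμ N := fun c => by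
    have h1 := sum_mom_sub (Y := Y) (π := update π v (some c)) (a := update a v (a v / cA)) (v := v)
      (u := PowerSeries.X * rs (bb c) μμ) (by rw [update_idem]; exact hQ' c) (n := N) (by omega)
    rw [update_idem] at h1
    have h2 : ∑ w, mom Y π (update a v 0) w N =
        ∑ w, mom Y (update π v (some c)) (update a v 0) w N :=
      Finset.sum_congr rfl fun w _ => (mom_congr (fun _ _ _ _ => rfl) (hπ c) w N).symm
    rw [Fb, ← h1, h2]
  have hcard : (Fintype.card C : ℝ) ≠ 0 := by exact_mod_cast Fintype.card_ne_zero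
  have hfull : ∀ c : C, Qs Y (update π v (some c)) a =
      Qs Y π (update a v 0) * (1 - PowerSeries.C cA * (PowerSeries.X * rs (bb c) μμ)) := fun c => by
    have h1 := Qs_affine (Y := Y) (update π v (some c)) a v (a v)
    have h2 := Qs_affine (Y := Y) (update π v (some c)) a v (a v / cA)
    rw [update_eq_self] at h1
    rw [hQ' c] at h2
    have h3 : PowerSeries.C (a v) = PowerSeries.C cA * PowerSeries.C (a v / cA) := by
      rw [← map_mul, mul_div_cancel₀ _ hcA.ne']
    rw [h1, h3, ← hQ0 c]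
    linear_combination (-PowerSeries.C cA) * h2
  have hbar : Qs Y π a = Qs Y π (update a v 0) * (1 - PowerSeries.X *
      rs (fun j => cA * ((Fintype.card C : ℝ)⁻¹ * ∑ c', bb c' j)) μμ) := by
    have h1 : Qs Y π a = PowerSeries.C (Fintype.card C : ℝ)⁻¹ *
        ∑ c, Qs Y (update π v (some c)) a := Qf_avg' hv _
    have h2 : PowerSeries.C (Fintype.card C : ℝ)⁻¹ * (Fintype.card C : PowerSeries ℝ) = 1 := by
      rw [← map_natCast (PowerSeries.C (R := ℝ)), ← map_mul, inv_mul_cancel₀ hcard, map_one]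
    rw [h1, rs_smul, rs_smul, rs_sum]
    simp only [hfull]
    rw [← Finset.mul_sum, Finset.sum_sub_distrib, ← Finset.mul_sum, ← Finset.mul_sum,
      Finset.sum_const, Finset.card_univ, nsmul_eq_mul, mul_one]
    linear_combination (Qs Y π (update a v 0)) * h2
  have hb' := sum_mom_sub hbar (n := N) (by omega)
  refine (key hbb μμ hN hE hη).trans (Nat.mul_le_mul_left _ (Finset.card_le_card fun c hc' => ?_))
  simp only [Finset.mem_filter, Finset.mem_univ, true_and] at hc' ⊢
  rw [← hc c, Fb, ← hb'] at hc'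
  linarith

/-- PROOF.  `T = 6 A / √r`.  `ret_rep`; `|μ j| ≤ T` as `Q (s a[v := 0]) > 0` for `|s| ≤ 1 / T`
(`barrier` for `Y` and `-Y`, `Qf_neg`); at `s = 1 / T`, `Q (s a) > 0` gives
`s² ∑ a_v b_j / (1 - μ_j s) < 1`, so `∑ a_v b_j ≤ 2 T²`; `Fb_le_of_bdd`. -/
theorem init_fin (h : HZ Y) (hc : Ctr Y) (hr : 4 ≤ Fintype.card C) {A : ℝ} (hA : 0 < A)
    (ha : ∀ i, 0 ≤ a i ∧ a i ≤ A) (v : I) {N : ℕ} (hN : 2 ≤ N) :
    ∑ w, mom Y (fun _ => (none : Option C)) a w N
      - ∑ w, mom Y (fun _ => (none : Option C)) (update a v 0) w N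
      ≤ 2 * (24 * A / √(Fintype.card C)) ^ N := by
  classical
  have hr0 : (0 : ℝ) < √(Fintype.card C) := Real.sqrt_pos.2 (by exact_mod_cast (by omega))
  set T : ℝ := 6 * A / √(Fintype.card C) with hT
  have hT0 : 0 < T := by positivity
  have hAT : T⁻¹ * A = √(Fintype.card C) / 6 := by rw [hT]; field_simp
  have hneg : HZ fun i j => -Y i j := ⟨fun i j => by rw [h.herm i j, map_neg], fun i => by
    rw [h.diag, neg_zero]⟩
  have hcneg : Ctr fun i j => -Y i j := fun ξ => by
    simpa only [mul_neg, neg_mul, Finset.sum_neg_distrib, norm_neg] using hc ξ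
  have hpos : ∀ s : ℝ, |s| ≤ T⁻¹ → ∀ a' : I → ℝ, (∀ i, 0 ≤ a' i ∧ a' i ≤ A) →
      0 < Qf Y (fun _ => (none : Option C)) fun k => s * a' k := by
    intro s hs a' ha'
    have h1 : ∀ i, 0 ≤ |s| * a' i ∧ |s| * a' i ≤ √(Fintype.card C) / 6 := fun i =>
      ⟨mul_nonneg (abs_nonneg _) (ha' i).1,
        hAT ▸ mul_le_mul hs (ha' i).2 (ha' i).1 (by positivity)⟩
    rcases le_total 0 s with h2 | h2
    · rw [abs_of_nonneg h2] at h1
      exact barrier h hc hr h1
    · rw [abs_of_nonpos h2] at h1
      have := barrier hneg hcneg hr h1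
      rw [Qf_neg] at this
      simpa only [neg_mul, neg_neg] using this
  have ha0 : ∀ i, 0 ≤ update a v 0 i ∧ update a v 0 i ≤ A := fun i => by
    by_cases hi : i = v
    · rw [hi, update_self]; exact ⟨le_rfl, hA.le⟩
    · rw [update_of_ne hi]; exact ha i
  obtain ⟨J, hJ, b, μ, hb, hμ, hQ, hval⟩ :=
    ret_rep h (fun _ => (none : Option C)) (fun i => (ha i).1) v
  have hμT : ∀ j, |μ j| < T := fun j => by
    by_contra h1
    push Not at h1
    rcases hμ j with h2 | h2
    · rw [h2, abs_zero] at h1; linarith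
    · refine (hpos _ ?_ _ ha0).ne' h2
      rw [abs_inv]
      exact inv_anti₀ hT0 h1
  have hs : |T⁻¹| ≤ T⁻¹ := (abs_of_pos (inv_pos.2 hT0)).le
  have hupd : update (fun k => T⁻¹ * a k) v 0 = fun k => T⁻¹ * update a v 0 k := by
    funext k
    by_cases hk : k = v
    · rw [hk, update_self, update_self, mul_zero]
    · rw [update_of_ne hk, update_of_ne hk]
  have hQ0 := hpos _ hs _ ha0
  have hQ1 := hpos _ hs _ ha
  rw [Qf_eq_ret _ v (by rw [hupd]; exact hQ0.ne'), hupd, hval _ hQ0.ne'] at hQ1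
  have h1 := (mul_pos_iff_of_pos_left hQ0).1 hQ1
  have h2 : ∑ j, b j * T⁻¹ / 2 ≤ ∑ j, b j * T⁻¹ / (1 - μ j * T⁻¹) := by
    refine Finset.sum_le_sum fun j _ => ?_
    have h3 := abs_lt.1 (hμT j)
    have h4 : μ j * T⁻¹ < 1 := by rw [← div_eq_mul_inv, div_lt_one hT0]; exact h3.2
    have h5 : -1 < μ j * T⁻¹ := by rw [← div_eq_mul_inv, lt_div_iff₀ hT0]; linarith
    exact div_le_div_of_nonneg_left (mul_nonneg (hb j) (inv_pos.2 hT0).le) (by linarith)
      (by linarith)
  have h3 : ∑ j, a v * b j ≤ 2 * T ^ 2 := by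
    rw [← Finset.sum_div, ← Finset.sum_mul] at h2
    have h4 := mul_le_mul_of_nonneg_left h2 (mul_nonneg (inv_pos.2 hT0).le (ha v).1)
    have h5 : T⁻¹ * a v * ((∑ j, b j) * T⁻¹ / 2) = (a v * ∑ j, b j) / (2 * T ^ 2) := by
      field_simp
    rw [← Finset.mul_sum, ← div_le_one (by positivity), ← h5]
    linarith
  have h4 := sum_mom_sub (u := PowerSeries.X * rs (fun j => a v * b j) μ)
    (by rw [hQ, rs_smul]; ring) (n := N) (by omega)
  rw [h4]
  refine (Fb_le_of_bdd (fun j => mul_nonneg (ha v).1 (hb j)) hT0 (fun j => (hμT j).le) h3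
    hN).trans (le_of_eq ?_)
  rw [hT]
  ring

end Crest.Agent.R109
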