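import Crest.Agent.R109.ODefs
import Crest.Agent.R109.Cf

/-! Row 109: random colourings. -/

set_option autoImplicit false
set_option linter.unusedSectionVars false

namespace Crest.Agent.R109

open Crest.Agent.R124 Filter Topology Function
open scoped BigOperators ComplexConjugate InnerProductSpace ComplexOrder

variable {H : Type*} [NormedAddCommGroup H] [InnerProductSpace ℂ H] [CompleteSpace H]

variable {ι : Type*} [Fintype ι] [DecidableEq ι] {C : Type} [Fintype C] [DecidableEq C] [Nonempty C]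

private theorem rmul (A B : H →L[ℂ] H) (v : H) : (A * B) v = A (B v) := rfl

private theorem rone (v : H) : (1 : H →L[ℂ] H) v = v := rfl

/-- Degree of a vector with respect to a commuting family `F`. -/
private def RDg (F : ι → H →L[ℂ] H) : ℕ → Finset ι → H → Prop
  | 0, T, v => ∀ i ∈ T, F i v = 0
  | d + 1, T, v => ∀ i ∈ T, RDg F d (T.erase i) (F i v)

private theorem RDg.comm {F : ι → H →L[ℂ] H} {y : H →L[ℂ] H} {d : ℕ} :
    ∀ {T : Finset ι} {v : H}, (∀ j ∈ T, Commute (F j) y) → RDg F d T v → RDg F d T (y v) := by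
  induction d with
  | zero =>
    intro T v hy h i hi
    have := congrArg (fun A : H →L[ℂ] H => A v) (hy i hi).eq
    simp only [rmul] at this
    rw [this, h i hi, map_zero]
  | succ d ih =>
    intro T v hy h i hi
    have := congrArg (fun A : H →L[ℂ] H => A v) (hy i hi).eq
    simp only [rmul] at this
    rw [this]
    exact ih (fun j hj => hy j (Finset.mem_of_mem_erase hj)) (h i hi)

private theorem RDg.zero {F : ι → H →L[ℂ] H} {d : ℕ} : ∀ {T : Finset ι}, RDg F d T 0 := by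
  induction d with
  | zero => intro T i _; exact map_zero _
  | succ d ih => intro T i _; rw [map_zero]; exact ih

private theorem RDg.add {F : ι → H →L[ℂ] H} {d : ℕ} :
    ∀ {T : Finset ι} {v w : H}, RDg F d T v → RDg F d T w → RDg F d T (v + w) := by
  induction d with
  | zero => intro T v w h h' i hi; rw [map_add, h i hi, h' i hi, add_zero]
  | succ d ih => intro T v w h h' i hi; rw [map_add]; exact ih (h i hi) (h' i hi)

private theorem RDg.mono {F : ι → H →L[ℂ] H} {d : ℕ} :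
    ∀ {T T' : Finset ι} {v : H}, T' ⊆ T → RDg F d T v → RDg F d T' v := by
  induction d with
  | zero => intro T T' v hT h i hi; exact h i (hT hi)
  | succ d ih => intro T T' v hT h i hi; exact ih (Finset.erase_subset_erase i hT) (h i (hT hi))

private theorem RDg.raise {F : ι → H →L[ℂ] H} (hF : ∀ i j, Commute (F i) (F j)) {y : H →L[ℂ] H}
    {a : ι} (hy : ∀ j, j ≠ a → Commute (F j) y) {d : ℕ} :
    ∀ {T : Finset ι} {v : H}, RDg F d T v → RDg F (d + 1) T (y v) := by
  have ha : ∀ d (T : Finset ι) v, RDg F d T v → RDg F d (T.erase a) (F a (y v)) := fun d T v h =>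
    RDg.comm (fun j _ => hF j a) (RDg.comm (fun j hj => hy j (Finset.ne_of_mem_erase hj))
      (h.mono (Finset.erase_subset _ _)))
  have hc : ∀ i, i ≠ a → ∀ v, F i (y v) = y (F i v) := fun i hi v => by
    simpa only [rmul] using congrArg (fun A : H →L[ℂ] H => A v) (hy i hi).eq
  induction d with
  | zero =>
    intro T v h i hi
    by_cases hia : i = a
    · subst hia; exact ha _ _ _ h
    · rw [hc i hia, h i hi, map_zero]; exact RDg.zero
  | succ d ih =>
    intro T v h i hi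
    by_cases hia : i = a
    · subst hia; exact ha _ _ _ h
    · rw [hc i hia]; exact ih (h i hi)

private theorem rand_pyth {p : H →L[ℂ] H} (hp : IsStarProjection p) (v : H) :
    ‖v‖ ^ 2 = ‖p v‖ ^ 2 + ‖(1 - p) v‖ ^ 2 := by
  have h0 : ⟪p v, (1 - p) v⟫_ℂ = 0 := by
    rw [← ContinuousLinearMap.adjoint_inner_right, ← ContinuousLinearMap.star_eq_adjoint,
      hp.isSelfAdjoint.star_eq, ← rmul, mul_sub, mul_one, hp.isIdempotentElem.eq, sub_self]
    simp
  have : v = p v + (1 - p) v := by simp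
  conv_lhs => rw [this]
  rw [@norm_add_sq ℂ, h0]
  simp

private theorem RDg.number {F : ι → H →L[ℂ] H} (hP : ∀ i, IsStarProjection (F i))
    (hF : ∀ i j, Commute (F i) (F j)) (T : Finset ι) :
    ∀ (d : ℕ) (v : H), RDg F d T v → ∑ i ∈ T, ‖F i v‖ ^ 2 ≤ d * ‖v‖ ^ 2 := by
  induction T using Finset.induction_on with
  | empty => intro d v _; simp only [Finset.sum_empty]; positivity
  | insert a T ha ih =>
    intro d v h
    cases d with
    | zero =>
      rw [Finset.sum_eq_zero fun i hi => by rw [h i hi]; simp]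
      simp
    | succ d =>
      have h1 : RDg F d T (F a v) := by
        have := h a (Finset.mem_insert_self _ _)
        rwa [Finset.erase_insert ha] at this
      have h2 : RDg F (d + 1) T ((1 - F a) v) :=
        RDg.comm (fun j _ => (Commute.one_right _).sub_right (hF j a))
          (h.mono (Finset.subset_insert _ _))
      have e : ∀ i, ‖F i v‖ ^ 2 = ‖F i (F a v)‖ ^ 2 + ‖F i ((1 - F a) v)‖ ^ 2 := by
        intro i
        rw [rand_pyth (hP a) (F i v), ← rmul, ← rmul, (hF a i).eq,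
          ((Commute.one_left _).sub_left (hF a i)).eq]
        rfl
      rw [Finset.sum_insert ha, Finset.sum_congr rfl fun i _ => e i, Finset.sum_add_distrib]
      have h3 := ih _ _ h1
      have h4 := ih _ _ h2
      have h5 := rand_pyth (hP a) v
      rw [Nat.cast_succ] at h4 ⊢
      rw [h5]
      nlinarith

private theorem rand_sum_sq {p : ι → H →L[ℂ] H} (hp : ∀ i, IsStarProjection (p i))
    (hs : ∑ i, p i = 1) (v : H) : ∑ i, ‖p i v‖ ^ 2 = ‖v‖ ^ 2 := by
  have h1 : ∀ i, (‖p i v‖ ^ 2 : ℝ) = RCLike.re ⟪v, p i v⟫_ℂ := by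
    intro i
    rw [← inner_self_eq_norm_sq (𝕜 := ℂ), ← ContinuousLinearMap.adjoint_inner_right,
      ← ContinuousLinearMap.star_eq_adjoint, (hp i).isSelfAdjoint.star_eq, ← rmul,
      (hp i).isIdempotentElem.eq]
  simp only [h1]
  rw [← map_sum, ← inner_sum, ← sum_apply, hs, rone, inner_self_eq_norm_sq]

private theorem rand_blk_mul {p y z : ι → H →L[ℂ] H} (hp : ∀ i, IsStarProjection (p i))
    (hpp : Pairwise fun i j => p i * p j = 0) (hz : ∀ i j, Commute (z i) (p j)) :
    (∑ i, y i * p i) * ∑ i, z i * p i = ∑ i, y i * z i * p i := by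
  rw [Finset.sum_mul]
  refine Finset.sum_congr rfl fun i _ => ?_
  rw [Finset.mul_sum, Finset.sum_eq_single i]
  · rw [mul_assoc, ← mul_assoc (p i), ← (hz i i).eq, mul_assoc, (hp i).isIdempotentElem.eq, mul_assoc]
  · intro j _ hj
    rw [mul_assoc, ← mul_assoc (p i), ← (hz j i).eq, mul_assoc, hpp hj.symm, mul_zero, mul_zero]
  · simp

private theorem rand_blk {p y : ι → H →L[ℂ] H} (hp : ∀ i, IsStarProjection (p i))
    (hpp : Pairwise fun i j => p i * p j = 0) (hs : ∑ i, p i = 1) (hy : ∀ i, Commute (y i) (p i))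
    {M : ℝ} (hM : 0 ≤ M) (h : ∀ i, ‖y i‖ ≤ M) (v : H) : ‖(∑ i, y i * p i) v‖ ≤ M * ‖v‖ := by
  refine (le_abs_self _).trans (abs_le_of_sq_le_sq ?_ (by positivity))
  rw [← rand_sum_sq hp hs, mul_pow, ← rand_sum_sq hp hs v, Finset.mul_sum]
  refine Finset.sum_le_sum fun i _ => ?_
  have e : p i * ∑ j, y j * p j = y i * p i := by
    rw [Finset.mul_sum, Finset.sum_eq_single i]
    · rw [(hy i).eq, ← mul_assoc, (hp i).isIdempotentElem.eq]
    · intro j _ hj
      rw [(hy j).eq, ← mul_assoc, hpp hj.symm, zero_mul]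
    · simp
  rw [← rmul, e, rmul, ← mul_pow]
  exact pow_le_pow_left₀ (norm_nonneg _)
    (((y i).le_opNorm _).trans (mul_le_mul_of_nonneg_right (h i) (norm_nonneg _))) 2

private theorem rand_lam {p F : ι → H →L[ℂ] H} (hp : ∀ i, IsStarProjection (p i))
    (hs : ∑ i, p i = 1) (hP : ∀ i, IsStarProjection (F i))
    (hF : ∀ i j, Commute (F i) (F j)) (hFp : ∀ i j, Commute (F i) (p j)) {x : H →L[ℂ] H}
    (hx : ∀ i, Commute (F i) x) {η : ℝ} (hη : 0 ≤ η) (h : ∀ i j, ‖p i * x * p j‖ ≤ η) {d : ℕ} {v : H}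
    (hv : RDg F d Finset.univ v) :
    ‖((∑ i, F i * p i) * x * ∑ i, F i * p i) v‖ ≤ d * η * ‖v‖ := by
  set w := ((∑ i, F i * p i) * x * ∑ i, F i * p i) v with hw
  have hΛ : ∀ j, Commute (F j) (∑ i, F i * p i) := fun j =>
    Commute.sum_right _ _ _ fun i _ => (hF j i).mul_right (hFp j i)
  have hwd : RDg F d Finset.univ w :=
    RDg.comm (fun j _ => ((hΛ j).mul_right (hx j)).mul_right (hΛ j)) hv
  have e1 : ∀ i j, F i * p i * x * (F j * p j) = F j * p i * (p i * x * p j) * (p j * F i) := by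
    intro i j
    have a1 : p i * p i = p i := (hp i).isIdempotentElem.eq
    have a2 : p j * p j = p j := (hp j).isIdempotentElem.eq
    have b1 : Commute (F i) (p i * x * p j) := ((hFp i i).mul_right (hx i)).mul_right (hFp i j)
    have b2 : Commute (F j) (p i * x) := (hFp j i).mul_right (hx j)
    calc F i * p i * x * (F j * p j) = F i * ((p i * x) * F j) * p j := by noncomm_ring
      _ = F i * F j * (p i * x * p j) := by rw [← b2.eq]; noncomm_ring
      _ = F j * (F i * (p i * x * p j)) := by rw [(hF i j).eq]; noncomm_ring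
      _ = F j * ((p i * p i) * x * (p j * p j) * F i) := by rw [b1.eq, a1, a2]
      _ = _ := by noncomm_ring
  have e2 : ‖w‖ ^ 2 ≤ η * ∑ k : ι × ι, ‖p k.1 (F k.2 w)‖ * ‖p k.2 (F k.1 v)‖ := by
    rw [← inner_self_eq_norm_sq (𝕜 := ℂ)]
    nth_rw 2 [hw]
    rw [Finset.sum_mul, Finset.sum_mul, sum_apply, inner_sum, map_sum, Finset.mul_sum,
      Fintype.sum_prod_type]
    refine Finset.sum_le_sum fun i _ => ?_
    rw [Finset.mul_sum, sum_apply, inner_sum, map_sum]
    refine Finset.sum_le_sum fun j _ => ?_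
    rw [e1, mul_assoc (F j * p i), rmul, ← ContinuousLinearMap.adjoint_inner_left,
      ← ContinuousLinearMap.star_eq_adjoint, star_mul, (hp i).isSelfAdjoint.star_eq,
      (hP j).isSelfAdjoint.star_eq]
    refine (re_inner_le_norm _ _).trans ?_
    have := ((p i * x * p j).le_opNorm ((p j * F i) v)).trans
      (mul_le_mul_of_nonneg_right (h i j) (norm_nonneg _))
    calc ‖(p i * F j) w‖ * ‖(p i * x * p j * (p j * F i)) v‖
        ≤ ‖(p i * F j) w‖ * (η * ‖(p j * F i) v‖) :=
          mul_le_mul_of_nonneg_left this (norm_nonneg _)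
      _ = _ := by simp only [rmul]; ring
  have e3 : ∑ k : ι × ι, ‖p k.1 (F k.2 w)‖ * ‖p k.2 (F k.1 v)‖ ≤ d * (‖w‖ * ‖v‖) := by
    refine (le_abs_self _).trans (abs_le_of_sq_le_sq ?_ (by positivity))
    refine (Finset.sum_mul_sq_le_sq_mul_sq _ _ _).trans ?_
    have a1 : ∑ k : ι × ι, ‖p k.1 (F k.2 w)‖ ^ 2 ≤ d * ‖w‖ ^ 2 := by
      rw [Fintype.sum_prod_type_right]
      simp only [rand_sum_sq hp hs]
      exact RDg.number hP hF _ _ _ hwd
    have a2 : ∑ k : ι × ι, ‖p k.2 (F k.1 v)‖ ^ 2 ≤ d * ‖v‖ ^ 2 := by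
      rw [Fintype.sum_prod_type]
      simp only [rand_sum_sq hp hs]
      exact RDg.number hP hF _ _ _ hv
    calc _ ≤ (d * ‖w‖ ^ 2) * (d * ‖v‖ ^ 2) :=
          mul_le_mul a1 a2 (Finset.sum_nonneg fun _ _ => sq_nonneg _) (by positivity)
      _ = _ := by ring
  have e4 : ‖w‖ * ‖w‖ ≤ ‖w‖ * (d * η * ‖v‖) := by
    have := mul_le_mul_of_nonneg_left e3 hη
    nlinarith
  rcases (norm_nonneg w).eq_or_lt with h0 | h0
  · rw [← h0]; positivity
  · exact le_of_mul_le_mul_left e4 h0

/-- Abstract form.  PROOF.  `q = ∑ e i * p i`, `Π = ∑ E i * p i`, `Λ = 1 - Π`,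
`P S = ∏_{i ∈ S} (1 - E i) ∏_{i ∉ S} E i` (orthogonal projections with sum `1`; use `Finset.noncommProd` or
work in a commutative subalgebra).  A vector has degree `≤ d` if `P S v = 0` for `|S| > d`.  `x` preserves
the degree, `q` raises it by at most one (`e i` commutes with `E j`, `j ≠ i`), `‖q Π‖ ≤ β` (blockwise
`‖e i * E i‖² = ‖E i * e i * E i‖`), `Λ P S = p_S P S` with `p_S = ∑_{i ∈ S} p i` and `‖p_S x p_S‖ ≤ |S| η`.
For `v = q v` of degree `≤ d`: `q x v = q Π x v + q Λ x Π q v + q Λ x Λ v` has norm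
`≤ (2 β ‖x‖ + d η) ‖v‖`.  Start with `q ζ = q Π ζ`. -/
theorem rp_abs {p e E : ι → H →L[ℂ] H} (hp : ∀ i, IsStarProjection (p i))
    (hpp : Pairwise fun i j => p i * p j = 0) (hs : ∑ i, p i = 1)
    (he : ∀ i, IsStarProjection (e i)) (hE : ∀ i, IsStarProjection (E i))
    (hEE : ∀ i j, Commute (E i) (E j)) (hEp : ∀ i j, Commute (E i) (p j))
    (hep : ∀ i j, Commute (e i) (p j)) (heE : ∀ i j, i ≠ j → Commute (e i) (E j)) {β : ℝ}
    (hβ : 0 ≤ β) (hEe : ∀ i, ‖E i * e i * E i‖ ≤ β ^ 2) {x : H →L[ℂ] H}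
    (hx : ∀ i, Commute (E i) x) {η : ℝ} (hη : 0 ≤ η) (h : ∀ i j, ‖p i * x * p j‖ ≤ η) {ζ : H}
    (hζ : ∀ i, E i ζ = ζ) (k : ℕ) :
    ‖(((∑ i, e i * p i) * x) ^ k) ((∑ i, e i * p i) ζ)‖ ≤ β * (2 * β * ‖x‖ + k * η) ^ k * ‖ζ‖ := by
  set q := ∑ i, e i * p i with hq
  set Pi' := ∑ i, E i * p i with hPi
  let F : ι → H →L[ℂ] H := fun i => 1 - E i
  set Λ := ∑ i, F i * p i with hΛ
  have hP : ∀ i, IsStarProjection (F i) := fun i => (hE i).one_sub
  have hF : ∀ i j, Commute (F i) (F j) := fun i j =>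
    (Commute.one_left _).sub_left ((Commute.one_right _).sub_right (hEE i j))
  have hFp : ∀ i j, Commute (F i) (p j) := fun i j => (Commute.one_left _).sub_left (hEp i j)
  have hFx : ∀ i, Commute (F i) x := fun i => (Commute.one_left _).sub_left (hx i)
  have hsum : Pi' + Λ = 1 := by
    rw [hPi, hΛ, ← Finset.sum_add_distrib, ← hs]
    exact Finset.sum_congr rfl fun i _ => by simp only [F]; noncomm_ring
  have hsplit : ∀ v, v = Pi' v + Λ v := fun v => by rw [← add_apply, hsum, rone]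
  have n1 : ∀ i, ‖e i * E i‖ ≤ β := by
    intro i
    refine (le_abs_self _).trans (abs_le_of_sq_le_sq ?_ hβ)
    rw [sq, ← CStarRing.norm_star_mul_self, star_mul, (he i).isSelfAdjoint.star_eq,
      (hE i).isSelfAdjoint.star_eq, mul_assoc, ← mul_assoc (e i), (he i).isIdempotentElem.eq,
      ← mul_assoc]
    exact hEe i
  have n2 : ∀ i, ‖E i * e i‖ ≤ β := by
    intro i
    rw [← norm_star, star_mul, (he i).isSelfAdjoint.star_eq, (hE i).isSelfAdjoint.star_eq]
    exact n1 i
  have b1 : ∀ v, ‖q (Pi' v)‖ ≤ β * ‖v‖ := fun v => by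
    rw [← rmul, hq, hPi, rand_blk_mul hp hpp hEp]
    exact rand_blk hp hpp hs (fun i => (hep i i).mul_left (hEp i i)) hβ n1 v
  have b2 : ∀ v, ‖Pi' (q v)‖ ≤ β * ‖v‖ := fun v => by
    rw [← rmul, hq, hPi, rand_blk_mul hp hpp hep]
    exact rand_blk hp hpp hs (fun i => (hEp i i).mul_left (hep i i)) hβ n2 v
  have b3 : ∀ v, ‖q v‖ ≤ ‖v‖ := fun v =>
    (rand_blk hp hpp hs (fun i => hep i i) zero_le_one (fun i => (he i).norm_le) v).trans_eq (one_mul _)
  have b4 : ∀ v, ‖Λ v‖ ≤ ‖v‖ := fun v =>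
    (rand_blk hp hpp hs (fun i => hFp i i) zero_le_one (fun i => (hP i).norm_le) v).trans_eq (one_mul _)
  have hqq : ∀ v, q (q v) = q v := fun v => by
    rw [← rmul, hq, rand_blk_mul hp hpp hep]
    simp only [(he _).isIdempotentElem.eq]
  have hraise : ∀ d v, RDg F d Finset.univ v → RDg F (d + 1) Finset.univ (q v) := by
    intro d v hv
    rw [hq, sum_apply]
    refine Finset.sum_induction _ _ (fun _ _ => RDg.add) RDg.zero fun i _ => ?_
    exact RDg.raise hF (a := i) (fun j hj => Commute.mul_right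
      ((Commute.one_left _).sub_left (heE i j hj.symm).symm) (hFp j i)) hv
  have hstep : ∀ (d : ℕ) v, RDg F d Finset.univ v → q v = v →
      ‖q (x v)‖ ≤ (2 * β * ‖x‖ + d * η) * ‖v‖ := by
    intro d v hv hqv
    have e1 : q (x v) = q (Pi' (x v)) + (q (Λ (x (Pi' (q v)))) + q ((Λ * x * Λ) v)) := by
      rw [hqv, rmul, rmul, ← map_add, ← map_add, ← map_add, ← map_add, ← hsplit, ← hsplit]
    have c1 := (b1 (x v)).trans (mul_le_mul_of_nonneg_left (x.le_opNorm v) hβ)
    have c2 : ‖q (Λ (x (Pi' (q v))))‖ ≤ ‖x‖ * (β * ‖v‖) :=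
      (b3 _).trans ((b4 _).trans ((x.le_opNorm _).trans
        (mul_le_mul_of_nonneg_left (b2 v) (norm_nonneg _))))
    have c3 := (b3 _).trans (rand_lam hp hs hP hF hFp hFx hη h hv)
    rw [e1]
    refine (norm_add_le _ _).trans ((add_le_add le_rfl (norm_add_le _ _)).trans ?_)
    nlinarith
  have hζ0 : RDg F 0 Finset.univ ζ := fun i _ => by simp [F, hζ i]
  have hPiζ : Pi' ζ = ζ := by
    rw [hPi, sum_apply]
    conv_rhs => rw [← rone ζ, ← hs, sum_apply]
    exact Finset.sum_congr rfl fun i _ => by rw [(hEp i i).eq, rmul, hζ]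
  have key : ∀ j ≤ k, RDg F (j + 1) Finset.univ (((q * x) ^ j) (q ζ)) ∧
      q (((q * x) ^ j) (q ζ)) = ((q * x) ^ j) (q ζ) ∧
      ‖((q * x) ^ j) (q ζ)‖ ≤ β * (2 * β * ‖x‖ + k * η) ^ j * ‖ζ‖ := by
    intro j
    induction j with
    | zero =>
      intro _
      simp only [pow_zero, rone, mul_one]
      refine ⟨hraise _ _ hζ0, hqq _, ?_⟩
      have := b1 ζ
      rwa [hPiζ] at this
    | succ j ih =>
      intro hj
      obtain ⟨h1, h2, h3⟩ := ih (by omega)
      rw [pow_succ', rmul, rmul]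
      refine ⟨hraise _ _ (RDg.comm (fun i _ => hFx i) h1), hqq _, (hstep _ _ h1 h2).trans ?_⟩
      have h4 : ((j + 1 : ℕ) : ℝ) * η ≤ k * η := mul_le_mul_of_nonneg_right (by exact_mod_cast hj) hη
      calc _ ≤ (2 * β * ‖x‖ + k * η) * (β * (2 * β * ‖x‖ + k * η) ^ j * ‖ζ‖) :=
            mul_le_mul (by linarith) h3 (norm_nonneg _) (by positivity)
        _ = _ := by ring
  exact (key k le_rfl).2.2

/-- Average over the coordinate `i`. -/
private noncomputable def rE (i : ι) : HH (ι → C) H →L[ℂ] HH (ι → C) H :=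
  mat fun g g' => if g' = update g i (g' i) then ((Fintype.card C : ℂ)⁻¹) • (1 : H →L[ℂ] H) else 0

/-- Multiplication by `[g i = c]`. -/
private noncomputable def re' (i : ι) (c : C) : HH (ι → C) H →L[ℂ] HH (ι → C) H :=
  mat fun g g' => if g = g' ∧ g i = c then (1 : H →L[ℂ] H) else 0

private theorem rE_apply (i : ι) (v : HH (ι → C) H) (g : ι → C) :
    rE i v g = ((Fintype.card C : ℂ)⁻¹) • ∑ c, v (update g i c) := by
  rw [rE, mat_apply, Finset.smul_sum]
  have e : ∀ g' : ι → C, (if g' = update g i (g' i) then ((Fintype.card C : ℂ)⁻¹) • (1 : H →L[ℂ] H)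
      else 0) (v g') = if g' = update g i (g' i) then ((Fintype.card C : ℂ)⁻¹) • v g' else 0 := by
    intro g'; split_ifs <;> rfl
  simp only [e]
  rw [← Finset.sum_filter]
  symm
  refine Finset.sum_bij (fun c _ => update g i c) (fun c _ => by simp) (fun c _ c' _ h => ?_)
    (fun g' hg' => ⟨g' i, Finset.mem_univ _, (Finset.mem_filter.1 hg').2.symm⟩) (fun _ _ => rfl)
  simpa using congrFun h i

private theorem re_apply (i : ι) (c : C) (v : HH (ι → C) H) (g : ι → C) :
    re' i c v g = if g i = c then v g else 0 := by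
  rw [re', mat_apply, Finset.sum_eq_single g]
  · by_cases h : g i = c <;> simp [h]
  · intro g' _ h; simp [Ne.symm h]
  · simp

private theorem rE_proj (i : ι) : IsStarProjection (rE i : HH (ι → C) H →L[ℂ] _) := by
  have hC : (Fintype.card C : ℂ) ≠ 0 := by exact_mod_cast Fintype.card_ne_zero
  constructor
  · ext v g
    rw [rmul, rE_apply]
    simp only [rE_apply, update_idem, Finset.sum_const, Finset.card_univ]
    rw [← Nat.cast_smul_eq_nsmul ℂ, smul_smul, inv_mul_cancel₀ hC, one_smul]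
  · rw [IsSelfAdjoint, rE, star_mat]
    congr 1
    funext g g'
    have : g = update g' i (g i) ↔ g' = update g i (g' i) := by
      constructor <;> intro h <;> rw [h] <;> simp
    simp only [this]
    split_ifs <;> simp

private theorem re_proj (i : ι) (c : C) : IsStarProjection (re' i c : HH (ι → C) H →L[ℂ] _) := by
  constructor
  · ext v g
    rw [rmul, re_apply, re_apply]
    split_ifs <;> rfl
  · rw [IsSelfAdjoint, re', star_mat]
    congr 1
    funext g g'
    by_cases h : g = g'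
    · subst h; split_ifs <;> simp
    · simp [h, Ne.symm h]

private theorem rE_dg (i : ι) (y : H →L[ℂ] H) : Commute (rE i) (dg (ι → C) y) := by
  ext v g
  simp only [rmul, rE_apply, dg_apply, map_smul, map_sum]

private theorem re_dg (i : ι) (c : C) (y : H →L[ℂ] H) : Commute (re' i c) (dg (ι → C) y) := by
  ext v g
  simp only [rmul, re_apply, dg_apply]
  split_ifs <;> simp

private theorem rE_rE (i j : ι) : Commute (rE i : HH (ι → C) H →L[ℂ] _) (rE j) := by
  by_cases h : i = j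
  · subst h; rfl
  ext v g
  simp only [rmul, rE_apply, ← Finset.smul_sum]
  rw [Finset.sum_comm]
  simp only [update_comm h]

private theorem re_rE (c : C) {i j : ι} (h : i ≠ j) :
    Commute (re' i c : HH (ι → C) H →L[ℂ] _) (rE j) := by
  ext v g
  simp only [rmul, rE_apply, re_apply, update_of_ne h]
  split_ifs <;> simp

private theorem rE_re_rE (i : ι) (c : C) : (rE i : HH (ι → C) H →L[ℂ] _) * re' i c * rE i =
    ((Fintype.card C : ℂ)⁻¹) • rE i := by
  ext v g
  rw [rmul, rmul, rE_apply]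
  simp only [re_apply, update_self, Finset.sum_ite_eq', Finset.mem_univ, if_true]
  simp only [smul_apply, PiLp.smul_apply, rE_apply, update_idem]

private theorem rp_one {p : ι → H →L[ℂ] H} (hp : ∀ i, IsStarProjection (p i))
    (hpp : Pairwise fun i j => p i * p j = 0) (hs : ∑ i, p i = 1) (x : H →L[ℂ] H) {η : ℝ}
    (hη : 0 ≤ η) (h : ∀ i j, ‖p i * x * p j‖ ≤ η) (Ω : H) (k : ℕ) (c : C) :
    ∑ g : ι → C, ‖(((∑ i ∈ Finset.univ.filter fun i => g i = c, p i) * x) ^ k)
        ((∑ i ∈ Finset.univ.filter fun i => g i = c, p i) Ω)‖ ^ 2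
      ≤ (Fintype.card C : ℝ)⁻¹ * ((2 * ‖x‖ / √(Fintype.card C) + k * η) ^ (2 * k) *
        (Fintype.card (ι → C) * ‖Ω‖ ^ 2)) := by
  have hC : (0 : ℝ) < Fintype.card C := by exact_mod_cast Fintype.card_pos
  have hβ : (√(Fintype.card C : ℝ))⁻¹ ^ 2 = (Fintype.card C : ℝ)⁻¹ := by
    rw [inv_pow, Real.sq_sqrt hC.le]
  let ζ : HH (ι → C) H := WithLp.toLp 2 fun _ => Ω
  have key := rp_abs (H := HH (ι → C) H) (p := fun i => dg (ι → C) (p i)) (e := fun i => re' i c)
    (E := fun i => rE i) (fun i => (hp i).map (dgH (ι → C) H))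
    (fun i j hij => by simp only; rw [← dg_mul, hpp hij, dg_zero])
    (by rw [← dg_sum, hs, dg_one]) (fun i => re_proj i c) rE_proj rE_rE (fun i j => rE_dg i _)
    (fun i j => re_dg i c _) (fun i j hij => re_rE c hij) (β := (√(Fintype.card C : ℝ))⁻¹)
    (by positivity)
    (fun i => by
      rw [rE_re_rE, norm_smul, hβ, norm_inv, Complex.norm_natCast]
      exact mul_le_of_le_one_right (by positivity) (rE_proj i).norm_le)
    (x := dg (ι → C) x) (fun i => rE_dg i x) hη
    (fun i j => by rw [← dg_mul, ← dg_mul]; exact (norm_dg_le _).trans (h i j)) (ζ := ζ)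
    (fun i => by
      ext g
      have hC' : (Fintype.card C : ℂ) ≠ 0 := by exact_mod_cast Fintype.card_ne_zero
      simp only [rE_apply, ζ, Finset.sum_const, Finset.card_univ]
      rw [← Nat.cast_smul_eq_nsmul ℂ, smul_smul, inv_mul_cancel₀ hC', one_smul]) k
  have hQ : ∀ (v : HH (ι → C) H) g,
      (∑ i, re' i c * dg (ι → C) (p i) : HH (ι → C) H →L[ℂ] HH (ι → C) H) v g =
      (∑ i ∈ Finset.univ.filter fun i => g i = c, p i) (v g) := by
    intro v g
    rw [sum_apply, sum_apply, Finset.sum_filter, WithLp.ofLp_sum, Finset.sum_apply]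
    exact Finset.sum_congr rfl fun i _ => by rw [rmul, re_apply, dg_apply]
  have hk : ∀ (k : ℕ) (v : HH (ι → C) H) g, (((∑ i, re' i c * dg (ι → C) (p i)) * dg (ι → C) x) ^ k) v g =
      (((∑ i ∈ Finset.univ.filter fun i => g i = c, p i) * x) ^ k) (v g) := by
    intro k
    induction k with
    | zero => intro v g; rfl
    | succ k ih => intro v g; rw [pow_succ', pow_succ', rmul, rmul, rmul, rmul, hQ, dg_apply, ih]
  have key2 := pow_le_pow_left₀ (norm_nonneg _) key 2
  rw [HH.norm_sq] at key2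
  simp only [hk, hQ] at key2
  refine key2.trans ?_
  have hζ : ‖ζ‖ ^ 2 = Fintype.card (ι → C) * ‖Ω‖ ^ 2 := by
    rw [HH.norm_sq]; simp [ζ]
  rw [mul_pow, mul_pow, hβ, hζ, mul_assoc, ← pow_mul, mul_comm k 2]
  refine mul_le_mul_of_nonneg_left (mul_le_mul_of_nonneg_right
    (pow_le_pow_left₀ (by positivity) ?_ _) (by positivity)) (by positivity)
  have := mul_le_mul_of_nonneg_left (norm_dg_le (I := ι → C) x)
    (show 0 ≤ 2 * (√(Fintype.card C : ℝ))⁻¹ by positivity)
  rw [div_eq_mul_inv]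
  nlinarith

private theorem rp_split {q : C → H →L[ℂ] H} (hq : ∀ c, IsStarProjection (q c))
    (hqq : Pairwise fun c c' => q c * q c' = 0) (hs : ∑ c, q c = 1) (x : H →L[ℂ] H) (Ω : H) {k : ℕ}
    (_hk : 1 ≤ k) :
    ‖((∑ c, q c * x * q c) ^ k) Ω‖ ^ 2 = ∑ c, ‖((q c * x) ^ k) (q c Ω)‖ ^ 2 := by
  have e : ∀ c, q c * (∑ c', q c' * x * q c') = q c * x * q c := by
    intro c
    rw [Finset.mul_sum, Finset.sum_eq_single c]
    · rw [← mul_assoc, ← mul_assoc, (hq c).isIdempotentElem.eq]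
    · intro c' _ h
      rw [← mul_assoc, ← mul_assoc, hqq h.symm, zero_mul, zero_mul]
    · simp
  have e2 : ∀ c (k : ℕ), q c * (∑ c', q c' * x * q c') ^ k = (q c * x) ^ k * q c := by
    intro c k
    induction k with
    | zero => simp
    | succ k ih => rw [pow_succ', ← mul_assoc, e, mul_assoc, ih, ← mul_assoc, ← pow_succ']
  rw [← rand_sum_sq hq hs]
  exact Finset.sum_congr rfl fun c _ => by rw [← rmul, e2, rmul]

/-- Random pavings of operators with small blocks.  PROOF.  With `q c = ∑_{g i = c} p i` the square norm is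
`∑ c, ‖(q c x) ^ k q c Ω‖²`.  For fixed `c` apply `rp_abs` in `HH (ι → C) H` with `e i` the multiplication by
`[g i = c]`, `E i` the average over the coordinate `i`, `β = 1 / √r`, `ζ` the constant vector `Ω`. -/
theorem rp {p : ι → H →L[ℂ] H} (hp : ∀ i, IsStarProjection (p i))
    (hpp : Pairwise fun i j => p i * p j = 0) (hs : ∑ i, p i = 1) (x : H →L[ℂ] H) {η : ℝ}
    (hη : 0 ≤ η) (h : ∀ i j, ‖p i * x * p j‖ ≤ η) (Ω : H) {k : ℕ} (hk : 1 ≤ k) :
    𝔼 g : ι → C, ‖((∑ c, (∑ i ∈ Finset.univ.filter fun i => g i = c, p i) * x *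
        ∑ i ∈ Finset.univ.filter fun i => g i = c, p i) ^ k) Ω‖ ^ 2
      ≤ (2 * ‖x‖ / √(Fintype.card C) + k * η) ^ (2 * k) * ‖Ω‖ ^ 2 := by
  have hC : (0 : ℝ) < Fintype.card C := by exact_mod_cast Fintype.card_pos
  have hN : (0 : ℝ) < Fintype.card (ι → C) := by exact_mod_cast Fintype.card_pos
  have hmul : ∀ S T : Finset ι, (∑ i ∈ S, p i) * ∑ i ∈ T, p i = ∑ i ∈ S ∩ T, p i := by
    intro S T
    rw [Finset.sum_mul, ← Finset.filter_mem_eq_inter, Finset.sum_filter]
    refine Finset.sum_congr rfl fun i _ => ?_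
    rw [Finset.mul_sum]
    split_ifs with hi
    · rw [Finset.sum_eq_single_of_mem i hi fun j _ hj => hpp hj.symm, (hp i).isIdempotentElem.eq]
    · exact Finset.sum_eq_zero fun j hj => hpp fun e => hi (e ▸ hj)
  have e : ∀ g : ι → C, ‖((∑ c, (∑ i ∈ Finset.univ.filter fun i => g i = c, p i) * x *
        ∑ i ∈ Finset.univ.filter fun i => g i = c, p i) ^ k) Ω‖ ^ 2 =
      ∑ c, ‖(((∑ i ∈ Finset.univ.filter fun i => g i = c, p i) * x) ^ k)
        ((∑ i ∈ Finset.univ.filter fun i => g i = c, p i) Ω)‖ ^ 2 := by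
    intro g
    refine rp_split (q := fun c => ∑ i ∈ Finset.univ.filter fun i => g i = c, p i) (fun c => ⟨?_, ?_⟩)
      (fun c c' hc => ?_) ?_ x Ω hk
    · rw [IsIdempotentElem, hmul, Finset.inter_self]
    · exact isSelfAdjoint_sum _ fun i _ => (hp i).isSelfAdjoint
    · simp only
      rw [hmul, Finset.sum_eq_zero fun i hi => ?_]
      simp only [Finset.mem_inter, Finset.mem_filter] at hi
      exact absurd (hi.1.2.symm.trans hi.2.2) hc
    · rw [Finset.sum_fiberwise, hs]
  simp only [e]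
  rw [Fintype.expect_eq_sum_div_card, div_le_iff₀ hN, Finset.sum_comm]
  refine (Finset.sum_le_sum fun c _ => rp_one hp hpp hs x hη h Ω k c).trans ?_
  rw [Finset.sum_const, Finset.card_univ, nsmul_eq_mul, ← mul_assoc, mul_inv_cancel₀ hC.ne']
  exact le_of_eq (by ring)

private theorem rand_schur {G κ : Type*} [Fintype G] [Nonempty G] [Fintype κ] (a : G → κ → ℝ)
    (R : κ → κ → Prop) [DecidableRel R] (hR : ∀ k l, R k l → R l k)
    (h0 : ∀ k l, ¬ R k l → 𝔼 g, a g k * a g l = 0) (h1 : ∀ g k, |a g k| ≤ 1) {M : ℕ}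
    (hM : ∀ k, (Finset.univ.filter fun l => R k l).card ≤ M) (v : κ → H) :
    𝔼 g, ‖∑ k, (a g k : ℂ) • v k‖ ^ 2 ≤ M * ∑ k, ‖v k‖ ^ 2 := by
  have e : ∀ g, ‖∑ k, (a g k : ℂ) • v k‖ ^ 2 =
      ∑ k, ∑ l, a g k * a g l * RCLike.re ⟪v k, v l⟫_ℂ := by
    intro g
    rw [← inner_self_eq_norm_sq (𝕜 := ℂ), sum_inner, map_sum]
    refine Finset.sum_congr rfl fun k _ => ?_
    rw [inner_sum, map_sum]
    refine Finset.sum_congr rfl fun l _ => ?_
    rw [inner_smul_left, inner_smul_right]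
    simp [mul_assoc]
  simp only [e, Finset.expect_sum_comm, ← Finset.expect_mul]
  have b : ∀ k l, (𝔼 g, a g k * a g l) * RCLike.re ⟪v k, v l⟫_ℂ ≤
      (if R k l then ‖v k‖ ^ 2 / 2 else 0) + (if R l k then ‖v l‖ ^ 2 / 2 else 0) := by
    intro k l
    by_cases h : R k l
    · rw [if_pos h, if_pos (hR k l h)]
      have c1 : |𝔼 g, a g k * a g l| ≤ 1 := by
        refine (Finset.abs_expect_le _ _).trans (Finset.expect_le Finset.univ_nonempty fun g _ => ?_)
        rw [abs_mul]
        exact mul_le_one₀ (h1 g k) (abs_nonneg _) (h1 g l)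
      have c2 : |RCLike.re ⟪v k, v l⟫_ℂ| ≤ ‖v k‖ * ‖v l‖ :=
        (RCLike.abs_re_le_norm _).trans (norm_inner_le_norm _ _)
      refine (le_abs_self _).trans ?_
      rw [abs_mul]
      have := mul_le_mul c1 c2 (abs_nonneg _) zero_le_one
      nlinarith [sq_nonneg (‖v k‖ - ‖v l‖)]
    · rw [h0 k l h, zero_mul, if_neg h, if_neg fun h' => h (hR l k h'), add_zero]
  have c : ∑ k, ∑ l, (if R k l then ‖v k‖ ^ 2 / 2 else 0) ≤ M * (∑ k, ‖v k‖ ^ 2) / 2 := by
    rw [Finset.mul_sum, Finset.sum_div]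
    refine Finset.sum_le_sum fun k _ => ?_
    rw [← Finset.sum_filter, Finset.sum_const, nsmul_eq_mul, mul_div_assoc]
    exact mul_le_mul_of_nonneg_right (by exact_mod_cast hM k) (by positivity)
  refine (Finset.sum_le_sum fun k _ => Finset.sum_le_sum fun l _ => b k l).trans ?_
  simp only [Finset.sum_add_distrib]
  rw [Finset.sum_comm (f := fun k l => if R l k then ‖v l‖ ^ 2 / 2 else 0)]
  linarith

private theorem rand_ind_abs (P : Prop) [Decidable P] :
    |(if P then 1 else 0) - (Fintype.card C : ℝ)⁻¹| ≤ 1 := by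
  have h1 : (1 : ℝ) ≤ Fintype.card C := by exact_mod_cast Fintype.card_pos
  have h2 : (Fintype.card C : ℝ)⁻¹ ≤ 1 := inv_le_one_of_one_le₀ h1
  have h3 : 0 ≤ (Fintype.card C : ℝ)⁻¹ := by positivity
  rw [abs_le]
  split_ifs <;> constructor <;> linarith

private theorem rand_ind_expect (c : C) :
    𝔼 c' : C, ((if c' = c then 1 else 0) - (Fintype.card C : ℝ)⁻¹) = 0 := by
  rw [Finset.expect_sub_distrib, Fintype.expect_const, Fintype.expect_eq_sum_div_card]
  simp

private theorem rand_kill (i : ι) (A B : (ι → C) → ℝ) (hB : ∀ g c, B (update g i c) = B g)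
    (hA : ∀ g, 𝔼 c, A (update g i c) = 0) : 𝔼 g, A g * B g = 0 := by
  rw [expect_update _ i]
  simp only [hB, ← Finset.expect_mul, hA, zero_mul, Finset.expect_const_zero]

/-- The variables `[g i = c] - 1 / r` are uncorrelated with variance `≤ 1` (`expect_update`). -/
theorem rand_single (v : ι → H) (c : C) :
    𝔼 g : ι → C, ‖∑ i, (((if g i = c then 1 else 0) - (Fintype.card C : ℝ)⁻¹ : ℝ) : ℂ) • v i‖ ^ 2
      ≤ ∑ i, ‖v i‖ ^ 2 := by
  have := rand_schur (fun (g : ι → C) i => (if g i = c then 1 else 0) - (Fintype.card C : ℝ)⁻¹)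
    (fun i j => j = i) (fun _ _ h => h.symm)
    (fun i j hij => rand_kill i _ _ (fun g c' => by rw [update_of_ne hij])
      (fun g => by simp only [update_self]; exact rand_ind_expect c))
    (fun g i => rand_ind_abs _) (M := 1) (fun i => by simp [Finset.filter_eq']) v
  simpa only [Nat.cast_one, one_mul] using this

/-- The variables `[g i = g j] - 1 / r` for different unordered pairs are uncorrelated (average over an
index which occurs in one pair only). -/
theorem rand_pair (v : ι → ι → H) :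
    𝔼 g : ι → C, ‖∑ i, ∑ j ∈ Finset.univ.erase i,
        (((if g i = g j then 1 else 0) - (Fintype.card C : ℝ)⁻¹ : ℝ) : ℂ) • v i j‖ ^ 2
      ≤ 2 * ∑ i, ∑ j, ‖v i j‖ ^ 2 := by
  let a : (ι → C) → ι × ι → ℝ := fun g k =>
    if k.2 = k.1 then 0 else (if g k.1 = g k.2 then 1 else 0) - (Fintype.card C : ℝ)⁻¹
  have := rand_schur a (fun k l => l = k ∨ l = k.swap)
    (fun k l h => by rcases h with rfl | rfl <;> simp)
    (fun k l hkl => by
      obtain ⟨i, j⟩ := k
      obtain ⟨i', j'⟩ := l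
      by_cases hij : j = i
      · simp [a, hij]
      have hB : ∀ m, m ≠ i' → m ≠ j' → ∀ g c, a (update g m c) (i', j') = a g (i', j') := by
        intro m h1 h2 g c
        simp only [a, update_of_ne h1.symm, update_of_ne h2.symm]
      by_cases hi : i ≠ i' ∧ i ≠ j'
      · refine rand_kill i _ _ (hB i hi.1 hi.2) fun g => ?_
        simp only [a, if_neg hij, update_self, update_of_ne hij]
        exact rand_ind_expect _
      by_cases hj : j ≠ i' ∧ j ≠ j'
      · refine rand_kill j _ _ (hB j hj.1 hj.2) fun g => ?_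
        simp only [a, if_neg hij, update_self, update_of_ne (Ne.symm hij), eq_comm (a := g i)]
        exact rand_ind_expect _
      exfalso
      simp only [not_and_or, not_not] at hi hj
      simp only [Prod.swap, Prod.mk.injEq, not_or, not_and] at hkl
      rcases hi with rfl | rfl <;> rcases hj with rfl | rfl <;> simp_all)
    (fun g k => by
      simp only [a]
      by_cases h : k.2 = k.1
      · simp [h]
      · rw [if_neg h]; exact rand_ind_abs _) (M := 2)
    (fun k => (Finset.card_le_card (t := {k, k.swap}) fun l hl => by simpa using hl).trans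
      Finset.card_le_two) (fun k => v k.1 k.2)
  rw [Fintype.sum_prod_type] at this
  refine le_trans (le_of_eq (Finset.expect_congr rfl fun g _ => ?_)) this
  rw [Fintype.sum_prod_type]
  congr 2
  refine Finset.sum_congr rfl fun i _ => ?_
  rw [← Finset.sum_erase (s := Finset.univ) (a := i) (by simp [a])]
  exact Finset.sum_congr rfl fun j hj => by simp only [a, if_neg (Finset.ne_of_mem_erase hj)]

/-- Derandomised independent choices.  PROOF.  Induction over finsets of `ι`:
`∑ j, lam j ‖u + v j - v̄‖² = ‖u‖² + ∑ lam j ‖v j‖² - ‖v̄‖²`. -/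
theorem greedy {κ : Type*} [Fintype κ] {n : ℕ} {lam : Fin n → ℝ} (h0 : ∀ j, 0 ≤ lam j)
    (h1 : ∑ j, lam j = 1) (v : κ → ι → Fin n → H) :
    ∃ l : ι → Fin n, ∑ k, ‖∑ i, v k i (l i)‖ ^ 2
      ≤ ∑ k, ‖∑ i, ∑ j, (lam j : ℂ) • v k i j‖ ^ 2 + ∑ k, ∑ i, ∑ j, lam j * ‖v k i j‖ ^ 2 := by
  have hn : (Finset.univ : Finset (Fin n)).Nonempty := by
    by_contra h
    rw [Finset.not_nonempty_iff_eq_empty] at h
    rw [h, Finset.sum_empty] at h1
    exact zero_ne_one h1
  have avg : ∀ (w : H) (y : Fin n → H), ∑ j, lam j * ‖w + y j‖ ^ 2 ≤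
      ‖w + ∑ j, (lam j : ℂ) • y j‖ ^ 2 + ∑ j, lam j * ‖y j‖ ^ 2 := by
    intro w y
    simp only [@norm_add_sq ℂ, mul_add, Finset.sum_add_distrib, ← Finset.sum_mul, h1, inner_sum,
      map_sum, inner_smul_right]
    have : ∑ j, lam j * (2 * RCLike.re ⟪w, y j⟫_ℂ) = 2 * ∑ j, RCLike.re ((lam j : ℂ) * ⟪w, y j⟫_ℂ) := by
      rw [Finset.mul_sum]
      exact Finset.sum_congr rfl fun j _ => by simp; ring
    rw [this]
    nlinarith [sq_nonneg ‖∑ j, (lam j : ℂ) • y j‖]
  have one : ∀ (w : κ → H) (y : κ → Fin n → H), ∃ j, ∑ k, ‖w k + y k j‖ ^ 2 ≤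
      ∑ k, ‖w k + ∑ j, (lam j : ℂ) • y k j‖ ^ 2 + ∑ k, ∑ j, lam j * ‖y k j‖ ^ 2 := by
    intro w y
    obtain ⟨j₀, -, hj⟩ := Finset.exists_min_image Finset.univ (fun j => ∑ k, ‖w k + y k j‖ ^ 2) hn
    refine ⟨j₀, ?_⟩
    calc ∑ k, ‖w k + y k j₀‖ ^ 2 = ∑ j, lam j * ∑ k, ‖w k + y k j₀‖ ^ 2 := by
          rw [← Finset.sum_mul, h1, one_mul]
      _ ≤ ∑ j, lam j * ∑ k, ‖w k + y k j‖ ^ 2 :=
          Finset.sum_le_sum fun j _ => mul_le_mul_of_nonneg_left (hj j (Finset.mem_univ _)) (h0 j)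
      _ = ∑ k, ∑ j, lam j * ‖w k + y k j‖ ^ 2 := by
          simp only [Finset.mul_sum]; exact Finset.sum_comm
      _ ≤ _ := by
          rw [← Finset.sum_add_distrib]
          exact Finset.sum_le_sum fun k _ => avg _ _
  have key : ∀ (s : Finset ι) (u : κ → H), ∃ l : ι → Fin n, ∑ k, ‖u k + ∑ i ∈ s, v k i (l i)‖ ^ 2
      ≤ ∑ k, ‖u k + ∑ i ∈ s, ∑ j, (lam j : ℂ) • v k i j‖ ^ 2 +
        ∑ k, ∑ i ∈ s, ∑ j, lam j * ‖v k i j‖ ^ 2 := by
    intro s
    induction s using Finset.induction_on with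
    | empty => intro u; exact ⟨fun _ => hn.choose, by simp⟩
    | insert a s ha ih =>
      intro u
      obtain ⟨j, hj⟩ := one (fun k => u k + ∑ i ∈ s, ∑ j, (lam j : ℂ) • v k i j) fun k => v k a
      obtain ⟨l, hl⟩ := ih fun k => u k + v k a j
      refine ⟨update l a j, ?_⟩
      have e : ∀ k, ∑ i ∈ s, v k i (update l a j i) = ∑ i ∈ s, v k i (l i) := fun k =>
        Finset.sum_congr rfl fun i hi => by rw [update_of_ne (ne_of_mem_of_not_mem hi ha)]
      simp only [Finset.sum_insert ha, update_self, e, Finset.sum_add_distrib, ← add_assoc]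
      simp only [add_right_comm (u _) (∑ i ∈ s, _)] at hj
      linarith
  simpa using key Finset.univ 0

end Crest.Agent.R109
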