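import Crest.Agent.R109.Gen
import Crest.Agent.R109.Rand

/-! Row 109: the singular part. -/

set_option autoImplicit false
set_option linter.unusedSectionVars false

namespace Crest.Agent.R109

open Crest.Agent.R124 Filter Topology Function
open scoped BigOperators ComplexConjugate InnerProductSpace ComplexOrder Pointwise

variable {X : Type*} [TopologicalSpace X] [CompactSpace X] [T2Space X] [TotallyDisconnectedSpace X]
  {H : Type*} [NormedAddCommGroup H] [InnerProductSpace ℂ H] [CompleteSpace H]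

private theorem sg_mul (A B : H →L[ℂ] H) (v : H) : (A * B) v = A (B v) := rfl

private theorem sg_small {a b K : ℝ} (ha : 0 < a) (hb : 0 < b) (hK : 0 ≤ K) :
    ∃ e, 0 < e ∧ e ≤ a ∧ e * K ≤ b := by
  refine ⟨min a (b / (K + 1)), by positivity, min_le_left _ _, ?_⟩
  have h1 : min a (b / (K + 1)) * (K + 1) ≤ b :=
    (le_div_iff₀ (by positivity)).1 (min_le_right _ _)
  have h2 : 0 < min a (b / (K + 1)) := by positivity
  nlinarith

private theorem sg_unif {G : Finset H} {Q : H → ℝ → Prop}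
    (hm : ∀ ξ ε ε', ε' ≤ ε → Q ξ ε → Q ξ ε') (h : ∀ ξ, ∃ ε, 0 < ε ∧ Q ξ ε) :
    ∃ ε, 0 < ε ∧ ∀ ξ ∈ G, Q ξ ε := by
  classical
  induction G using Finset.induction_on with
  | empty => exact ⟨1, one_pos, by simp⟩
  | insert a G _ ih =>
    obtain ⟨ε, hε, h1⟩ := ih
    obtain ⟨ε', hε', h2⟩ := h a
    refine ⟨min ε ε', lt_min hε hε', ?_⟩
    rw [Finset.forall_mem_insert]
    exact ⟨hm _ _ _ (min_le_right _ _) h2, fun ξ hξ => hm _ _ _ (min_le_left _ _) (h1 ξ hξ)⟩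

private theorem sg_re_le (v w : H) : (⟪v, w⟫_ℂ).re ≤ ‖v‖ * ‖w‖ :=
  (Complex.re_le_norm _).trans (norm_inner_le_norm _ _)

private theorem sg_conj {q : H →L[ℂ] H} (hq : IsSelfAdjoint q) (A : H →L[ℂ] H) (v : H) :
    ⟪v, (q * A * q) v⟫_ℂ = ⟪q v, A (q v)⟫_ℂ := by
  rw [← inner_star_right, hq.star_eq]; rfl

private theorem sg_proj_le {q : H →L[ℂ] H} (hq : IsStarProjection q) (v : H) : ‖q v‖ ≤ ‖v‖ := by
  simpa using q.le_of_opNorm_le hq.norm_le v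

private theorem sg_form_le (A : H →L[ℂ] H) {c : ℝ} (hc : ‖A‖ ≤ c) (v : H) :
    (⟪v, A v⟫_ℂ).re ≤ c * ‖v‖ ^ 2 := by
  refine (sg_re_le _ _).trans ?_
  have := A.le_of_opNorm_le hc v
  nlinarith [norm_nonneg v]

private theorem sg_norm_qp {p q : H →L[ℂ] H} (hp : IsStarProjection p) (hq : IsStarProjection q) :
    ‖q * p‖ ^ 2 = ‖p * q * p‖ := by
  rw [sq, ← CStarRing.norm_star_mul_self, star_mul, hp.isSelfAdjoint.star_eq,
    hq.isSelfAdjoint.star_eq, mul_assoc, ← mul_assoc q, hq.isIdempotentElem.eq, ← mul_assoc]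

/-- `‖q p y‖² ≤ η ‖p y‖²`. -/
private theorem sg_qp {p q : H →L[ℂ] H} (hp : IsStarProjection p) (hq : IsStarProjection q) {η : ℝ}
    (h : ‖p * q * p‖ ≤ η) (y : H) : ‖q (p y)‖ ^ 2 ≤ η * ‖p y‖ ^ 2 := by
  have e : q (p y) = (q * p) (p y) := by rw [sg_mul, ← sg_mul p p, hp.isIdempotentElem.eq]
  rw [e]
  have h1 := pow_le_pow_left₀ (norm_nonneg _) ((q * p).le_opNorm (p y)) 2
  rw [mul_pow, sg_norm_qp hp hq] at h1
  exact h1.trans (mul_le_mul_of_nonneg_right h (sq_nonneg _))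

private theorem sg_sq_le {A : H →L[ℂ] H} (h0 : 0 ≤ A) (h1 : ‖A‖ ≤ 1) (v : H) :
    ‖A v‖ ^ 2 ≤ (⟪v, A v⟫_ℂ).re := by
  obtain ⟨b, rfl⟩ := CStarAlgebra.nonneg_iff_eq_star_mul_self.1 h0
  rw [← norm_sq_eq_inner, sg_mul]
  rw [CStarRing.norm_star_mul_self] at h1
  have h2 : ‖star b‖ ≤ 1 := by rw [norm_star]; nlinarith [norm_nonneg b]
  have h3 := (star b).le_of_opNorm_le h2 (b v)
  rw [one_mul] at h3
  exact pow_le_pow_left₀ (norm_nonneg _) h3 2

private theorem sg_cut {M : VonNeumannAlgebra H} {κ : Type*} [Fintype κ] {h : κ → H →L[ℂ] H}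
    (hM : ∀ c, h c ∈ M) {e : H →L[ℂ] H} (he : e ∈ M) (he' : IsStarProjection e)
    (hh : ∀ c, h c * e = h c) {t : ℝ} (ht : 0 < t) :
    ∃ q ∈ M, IsStarProjection q ∧ e * q = q ∧ (∀ c, ‖h c * q‖ ≤ t) ∧
      ∀ ζ, t ^ 2 * ‖(e - q) ζ‖ ^ 2 ≤ ∑ c, ‖h c ζ‖ ^ 2 := by
  have hk : ∀ ζ, (⟪ζ, (∑ c, star (h c) * h c) ζ⟫_ℂ).re = ∑ c, ‖h c ζ‖ ^ 2 := fun ζ => by
    rw [sum_apply, inner_sum, Complex.re_sum]
    exact Finset.sum_congr rfl fun c _ => (norm_sq_eq_inner _ _).symm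
  obtain ⟨q, hqM, hq, heq, -, h1, h2⟩ := cut (k := ∑ c, star (h c) * h c)
    (sum_mem fun c _ => mul_mem (star_mem (hM c)) (hM c))
    (Finset.sum_nonneg fun c _ => star_mul_self_nonneg _) he he'
    (by
      rw [Finset.mul_sum]
      refine Finset.sum_congr rfl fun c _ => ?_
      rw [← mul_assoc, ← he'.isSelfAdjoint.star_eq, ← star_mul, hh]) (t := t ^ 2) (by positivity)
  refine ⟨q, hqM, hq, heq, fun c => ?_, fun ζ => hk ζ ▸ h2 ζ⟩
  refine ContinuousLinearMap.opNorm_le_bound _ ht.le fun v => ?_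
  refine (le_abs_self _).trans (abs_le_of_sq_le_sq ?_ (by positivity))
  have h3 := sg_form_le _ h1 v
  rw [sg_conj hq.isSelfAdjoint, hk] at h3
  rw [mul_pow, sg_mul]
  exact (Finset.single_le_sum (f := fun c => ‖h c (q v)‖ ^ 2) (fun _ _ => sq_nonneg _)
    (Finset.mem_univ c)).trans h3

private theorem sg_right {e q : H →L[ℂ] H} (he : IsStarProjection e) (hq : IsStarProjection q)
    (h : e * q = q) : q * e = q := by
  have := congrArg star h
  rwa [star_mul, hq.isSelfAdjoint.star_eq, he.isSelfAdjoint.star_eq] at this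

private theorem sg_close {u q q' : H →L[ℂ] H} {ξ : H} {η D : ℝ} (hη : 0 < η)
    (h1 : ‖(u - q) ξ‖ ≤ η / 2) (h2 : η ^ 2 * ‖(q - q') ξ‖ ^ 2 ≤ D) (h3 : D ≤ η ^ 2 * (η / 2) ^ 2) :
    ‖(u - q') ξ‖ ≤ η := by
  have h4 : ‖(q - q') ξ‖ ≤ η / 2 :=
    (le_abs_self _).trans (abs_le_of_sq_le_sq
      (le_of_mul_le_mul_left (h2.trans h3) (by positivity)) (by positivity))
  have e : (u - q') ξ = (u - q) ξ + (q - q') ξ := by simp
  rw [e]
  exact (norm_add_le _ _).trans (by linarith)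

namespace Masa

variable (S : Masa X H)

/-- PROOF.  `u = pr U`, `k₀ = u k u` with `k` from `sing` (close to `1` on `u G`).  `a = cE k₀` is a positive
contraction with `‖ι a ζ‖² ≤ ⟪ζ, ι a ζ⟫` small on `F`, so `ι a (u ξ)` is small for `ξ ∈ G` (`hZ`,
`pr Zᶜ u = u`).  By `EE_tendsto` some `P` has `⟪u ξ, T P k₀ u ξ⟫` small on `G`.  `cut` for `T P k₀` with
`e = u` gives `h ≤ u` commuting with the atoms of `P`, `‖h T P k₀ h‖ ≤ η / 2`, `h ≈ u` on `G`.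
`k' = h k₀ h` has diagonal blocks `≤ η / 2` and `k' ≈ u` on `G`.  `cut` for `u - k'` with `e = u`,
`t = 1 / 2` gives `q ≈ u` commuting with `k'`, `q ≤ 2 q k' q ≤ 2 k'`. -/
theorem sing_of_npart {F : Finset H} {ψ : (H →L[ℂ] H) →ₗ[ℂ] ℂ} (h : S.NPart F ψ) {U Z : Set X}
    (hU : IsClopen U) (hZc : IsClopen Z) (hUZ : Disjoint U Z) (h0 : ψ (S.pr U) = 0)
    (hZ : ∀ (ξ : H) (c : ℝ), 0 < c → ∃ ε : ℝ, 0 < ε ∧
      ∀ a : C(X, ℂ), ‖a‖ ≤ 1 → (∀ ζ ∈ F, ‖S.ι a ζ‖ ≤ ε) → ‖S.ι a (S.pr Zᶜ ξ)‖ ≤ c) : S.Sing U := by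
  classical
  intro G η hη
  obtain ⟨u, hu⟩ : ∃ u, u = S.pr U := ⟨_, rfl⟩
  have hup : IsStarProjection u := hu ▸ S.pr_proj hU
  have huu := hup.isIdempotentElem.eq
  have huM : u ∈ S.M := hu ▸ S.pr_mem U
  obtain ⟨R, hR0, hR⟩ : ∃ R : ℝ, 0 ≤ R ∧ ∀ ξ ∈ G, ‖ξ‖ ≤ R :=
    ⟨∑ ξ ∈ G, ‖ξ‖, by positivity, fun ξ hξ => Finset.single_le_sum (f := fun ξ => ‖ξ‖) (fun _ _ => norm_nonneg _) hξ⟩
  obtain ⟨γ, hγ, -, hγ2⟩ := sg_small (a := 1) (b := η ^ 2 / 2) (K := 3 * R) one_pos (by positivity)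
    (by positivity)
  obtain ⟨c, hc, -, hc2⟩ := sg_small (a := 1) (b := η / 2 * γ ^ 2) (K := R + 1) one_pos
    (by positivity) (by positivity)
  obtain ⟨ε, hε, hε2⟩ := sg_unif (G := G) (Q := fun ξ ε => ∀ a : C(X, ℂ), ‖a‖ ≤ 1 →
      (∀ ζ ∈ F, ‖S.ι a ζ‖ ≤ ε) → ‖S.ι a (S.pr Zᶜ (u ξ))‖ ≤ c)
    (fun ξ ε ε' hle hQ a ha h1 => hQ a ha fun ζ hζ => (h1 ζ hζ).trans hle) fun ξ => hZ (u ξ) c hc
  obtain ⟨k, hkM, hk0, hk1, hkG, hkF⟩ := h.sing U hU h0 (G.image u) (min γ (ε ^ 2)) (by positivity)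
  rw [← hu] at hkF
  obtain ⟨k₀, hk₀⟩ : ∃ k₀, k₀ = u * k * u := ⟨_, rfl⟩
  rw [← hk₀] at hkF
  have hk₀M : k₀ ∈ S.M := hk₀ ▸ mul_mem (mul_mem huM hkM) huM
  have hk₀0 : 0 ≤ k₀ := hk₀ ▸ hup.isSelfAdjoint.conjugate_nonneg hk0
  have hkn : ‖k‖ ≤ 1 := (CStarAlgebra.norm_le_one_iff_of_nonneg k hk0).2 hk1
  have hk₀n : ‖k₀‖ ≤ 1 := by
    rw [hk₀]
    refine norm_mul₃_le.trans ?_
    have := mul_le_mul (mul_le_mul hup.norm_le hkn (norm_nonneg _) zero_le_one) hup.norm_le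
      (norm_nonneg _) (by positivity)
    linarith
  have huk : u * k₀ = k₀ := by rw [hk₀, ← mul_assoc, ← mul_assoc, huu]
  have hku : k₀ * u = k₀ := by rw [hk₀, mul_assoc, huu]
  have hA0 := S.EE_nonneg hk₀0
  have hA1 := (S.norm_EE_le k₀).trans hk₀n
  have hAu : ∀ ξ ∈ G, ‖S.EE k₀ (u ξ)‖ ≤ c := by
    intro ξ hξ
    have h1 := hε2 ξ hξ (S.cE k₀) ((S.norm_cE_le hk₀M).trans hk₀n) fun ζ hζ => by
      rw [S.ι_cE hk₀M]
      refine (le_abs_self _).trans (abs_le_of_sq_le_sq ((sg_sq_le hA0 hA1 ζ).trans ?_) hε.le)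
      exact (Finset.single_le_sum (f := fun ζ => (⟪ζ, S.EE k₀ ζ⟫_ℂ).re)
        (fun _ _ => re_inner_nonneg hA0 _) hζ).trans (hkF.trans (min_le_right _ _))
    have h2 : S.pr Zᶜ * u = u := by
      rw [hu]
      exact S.pr_mul_of_subset hZc.compl hU (Set.subset_compl_iff_disjoint_right.2 hUZ)
    rwa [S.ι_cE hk₀M, ← sg_mul (S.pr Zᶜ), h2] at h1
  have hev : ∀ᶠ P : Part X in UP X, ∀ ξ ∈ G, (⟪u ξ, S.T P.f k₀ (u ξ)⟫_ℂ).re < c * (R + 1) := by
    refine (Filter.eventually_all_finset G).2 fun ξ hξ => ?_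
    refine ((Complex.continuous_re.tendsto _).comp (S.EE_tendsto k₀ (u ξ) (u ξ))).eventually
      (gt_mem_nhds ?_)
    have h1 := sg_re_le (u ξ) (S.EE k₀ (u ξ))
    have h2 := mul_le_mul ((sg_proj_le hup ξ).trans (hR ξ hξ)) (hAu ξ hξ) (norm_nonneg _) hR0
    nlinarith
  obtain ⟨P, hP⟩ := hev.exists
  obtain ⟨p, hp⟩ : ∃ p : Fin P.n → H →L[ℂ] H, ∀ i, p i = S.pr (P.f ⁻¹' {i}) := ⟨_, fun _ => rfl⟩
  have hpp : ∀ i, IsStarProjection (p i) := fun i => hp i ▸ S.pr_proj (P.clopen i)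
  have huK : u * S.T P.f k₀ = S.T P.f k₀ := by
    have := S.T_ι_mul P.f (cfn (U.indicator 1)) k₀
    change S.T P.f (S.pr U * k₀) = S.pr U * S.T P.f k₀ at this
    rw [← hu, huk] at this
    exact this.symm
  obtain ⟨e, heM, he, hue, hec, he1, he2⟩ := cut (S.T_mem P.f hk₀M) (S.T_nonneg P.lc hk₀0) huM hup huK
    (t := η / 2) (by positivity)
  have heu := sg_right hup he hue
  have hee := he.isIdempotentElem.eq
  have hep : ∀ i, Commute e (p i) := fun i => hec _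
    (by
      rw [hp]
      exact (S.pr_mul_T P.lc (fun w w' e => by
        simp only [Set.mem_preimage, Set.mem_singleton_iff, e]) k₀).symm)
    (by rw [hp, hu]; exact S.pr_comm _ _)
  have heG : ∀ ξ ∈ G, ‖u ξ - e ξ‖ ≤ γ := by
    intro ξ hξ
    have h1 := (he2 (u ξ)).trans ((hP ξ hξ).le.trans hc2)
    rw [← sg_mul, sub_mul, huu, heu] at h1
    exact (le_abs_self _).trans (abs_le_of_sq_le_sq
      (le_of_mul_le_mul_left h1 (by positivity)) hγ.le)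
  obtain ⟨k', hk'⟩ : ∃ k', k' = e * k₀ * e := ⟨_, rfl⟩
  have hk'M : k' ∈ S.M := hk' ▸ mul_mem (mul_mem heM hk₀M) heM
  have hk'0 : 0 ≤ k' := hk' ▸ he.isSelfAdjoint.conjugate_nonneg hk₀0
  have huk' : u * k' = k' := by rw [hk', ← mul_assoc, ← mul_assoc, hue]
  have hk'u : k' * u = k' := by rw [hk', mul_assoc, heu]
  have hpk : ∀ i, ‖p i * k' * p i‖ ≤ η / 2 := by
    intro i
    have e1 : p i * k' * p i = p i * (e * S.T P.f k₀ * e) := by
      have e2 : p i * S.T P.f k₀ = p i * k₀ * p i := by rw [hp]; exact S.pr_mul_T_fibre P.lc i k₀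
      calc p i * k' * p i = (p i * e) * k₀ * (e * p i) := by rw [hk']; noncomm_ring
        _ = (e * p i) * k₀ * (p i * e) := by rw [(hep i).eq]
        _ = e * (p i * k₀ * p i) * e := by noncomm_ring
        _ = (e * p i) * S.T P.f k₀ * e := by rw [← e2]; noncomm_ring
        _ = _ := by rw [(hep i).eq]; noncomm_ring
    rw [e1]
    have := mul_le_mul (hpp i).norm_le he1 (norm_nonneg _) zero_le_one
    exact (norm_mul_le _ _).trans (by linarith)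
  have hk'G : ∀ ξ ∈ G, ‖(u - k') ξ‖ ≤ 3 * γ := by
    intro ξ hξ
    have e1 : (u - k') ξ = (u ξ - e ξ) + (e (u ξ - k (u ξ)) + e (k₀ (u ξ - e ξ))) := by
      have a1 : e (u ξ) = e ξ := by rw [← sg_mul, heu]
      have a2 : e (k₀ (u ξ)) = e (k (u ξ)) := by
        rw [← sg_mul k₀, hku, hk₀, sg_mul, sg_mul, ← sg_mul e u, heu]
      simp only [sub_apply, map_sub, hk', sg_mul, a1, a2]
      abel
    have b1 := heG ξ hξ
    have b2 := (sg_proj_le he _).trans ((hkG (u ξ) (Finset.mem_image_of_mem _ hξ)).le.trans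
      (min_le_left _ _))
    have b3 := (sg_proj_le he _).trans (k₀.le_of_opNorm_le hk₀n (u ξ - e ξ))
    rw [e1]
    refine (norm_add_le _ _).trans ((add_le_add le_rfl (norm_add_le _ _)).trans ?_)
    linarith
  have hk'1 : k' ≤ 1 := by
    refine (CStarAlgebra.norm_le_one_iff_of_nonneg k' hk'0).1 ?_
    rw [hk']
    refine norm_mul₃_le.trans ?_
    have := mul_le_mul (mul_le_mul he.norm_le hk₀n (norm_nonneg _) zero_le_one) he.norm_le
      (norm_nonneg _) (by positivity)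
    linarith
  have huk0 : 0 ≤ u - k' := by
    have := hup.isSelfAdjoint.conjugate_nonneg (sub_nonneg.2 hk'1)
    rwa [mul_sub, sub_mul, mul_one, huu, huk', hk'u] at this
  obtain ⟨q, hqM, hq, huq, hqc, hq1, hq2⟩ := cut (sub_mem huM hk'M) huk0 huM hup
    (by rw [mul_sub, huu, huk']) (t := 1 / 2) (by norm_num)
  have huk'c : Commute u k' := huk'.trans hk'u.symm
  have hqk : Commute q k' := hqc _ (huk'c.sub_left (Commute.refl _)) huk'c
  have hqq := hq.isIdempotentElem.eq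
  refine ⟨q, hqM, hq, hu ▸ huq, fun ξ hξ => ?_, P, fun i => ?_⟩
  · rw [← hu]
    refine (le_abs_self _).trans (abs_le_of_sq_le_sq ?_ hη.le)
    have h1 := (hq2 ξ).trans (sg_re_le _ _)
    have h2 := mul_le_mul (hR ξ hξ) (hk'G ξ hξ) (norm_nonneg _) hR0
    nlinarith
  · rw [← hp, ← sg_norm_qp (hpp i) hq]
    have key : ∀ v, ‖q v‖ ^ 2 ≤ 2 * (⟪v, k' v⟫_ℂ).re := by
      intro v
      have a1 := sg_form_le _ hq1 (q v)
      have a0 : q (q v) = q v := by rw [← sg_mul, hqq]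
      rw [sg_conj hq.isSelfAdjoint, a0, sub_apply, inner_sub_right, ← sg_mul u q, huq,
        inner_self_eq_norm_sq_to_K] at a1
      have a2 : k' = q * k' * q + (1 - q) * k' * (1 - q) := by
        have a3 : q * k' * q = q * k' := by rw [mul_assoc, ← hqk.eq, ← mul_assoc, hqq]
        simp only [mul_sub, sub_mul, one_mul, mul_one, a3, ← hqk.eq]
        abel
      have a4 : (⟪v, k' v⟫_ℂ).re = (⟪q v, k' (q v)⟫_ℂ).re + (⟪(1 - q) v, k' ((1 - q) v)⟫_ℂ).re := by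
        rw [← sg_conj hq.isSelfAdjoint, ← sg_conj hq.one_sub.isSelfAdjoint, ← Complex.add_re,
          ← inner_add_right, ← add_apply, ← a2]
      have a5 := re_inner_nonneg hk'0 ((1 - q) v)
      simp only [Complex.sub_re, Complex.coe_algebraMap] at a1
      norm_cast at a1
      linarith
    have h1 : ‖q * p i‖ ≤ √η := by
      refine ContinuousLinearMap.opNorm_le_bound _ (Real.sqrt_nonneg _) fun v => ?_
      refine (le_abs_self _).trans (abs_le_of_sq_le_sq ?_ (by positivity))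
      have a1 := key (p i v)
      have a2 := sg_form_le _ (hpk i) v
      rw [sg_conj (hpp i).isSelfAdjoint] at a2
      rw [mul_pow, Real.sq_sqrt hη.le, sg_mul]
      linarith
    have := pow_le_pow_left₀ (norm_nonneg _) h1 2
    rwa [Real.sq_sqrt hη.le] at this

/-- PROOF.  `z = x - EE x`, `EE z = 0`.  `mazur` (`EE_tendsto`, `W = {P' | P ≤ P'}`) gives `P_j ≥ P` and
weights with `∑ lam j • T P_j z` small on `q G`.  `greedy` for `v ξ i j = q p i T P_j z (q ξ)`; here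
`‖v ξ i j‖² ≤ ‖q p i‖² ‖z‖² ‖p i q ξ‖²` (`p i` commutes with `T P_j z`), `‖q p i‖² = ‖p i q p i‖ ≤ η`.  Put
`P' w = (P w, P_{l (P w)} w)` (encode in `Σ`-types or as the pair of `P w` and a natural number, `Part.of`);
`T P' z = ∑ p i T P_{l i} z`. -/
theorem exists_T_small {x : H →L[ℂ] H} (hx : x ∈ S.M) (G : Finset H) {δ : ℝ} (hδ : 0 < δ) :
    ∃ η : ℝ, 0 < η ∧ ∀ q : H →L[ℂ] H, IsStarProjection q → ∀ P : Part X,
      (∀ i, ‖S.pr (P.f ⁻¹' {i}) * q * S.pr (P.f ⁻¹' {i})‖ ≤ η) →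
      ∃ P' : Part X, P ≤ P' ∧ ∀ ξ ∈ G, ‖(q * (S.T P'.f x - S.EE x) * q) ξ‖ ≤ δ := by
  classical
  obtain ⟨z, hz⟩ : ∃ z, z = x - S.EE x := ⟨_, rfl⟩
  have hEz : S.EE z = 0 := by
    have := S.EE_add z (S.EE x)
    have e : S.EE (S.EE x) = S.EE x := by rw [← S.ι_cE hx, S.EE_ι]
    have e' : z + S.EE x = x := by rw [hz, sub_add_cancel]
    rw [e', e] at this
    exact add_eq_right.1 this.symm
  obtain ⟨η, hη, -, h2⟩ := sg_small (a := 1) (b := δ ^ 2 / 2) (K := ‖z‖ ^ 2 * ∑ ξ ∈ G, ‖ξ‖ ^ 2)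
    one_pos (by positivity) (by positivity)
  obtain ⟨ε, hε, h3, h4⟩ := sg_small (a := 1) (b := δ ^ 2 / 2) (K := G.card) one_pos (by positivity)
    (by positivity)
  refine ⟨η, hη, fun q hq P hP => ?_⟩
  obtain ⟨p, hp⟩ : ∃ p : Fin P.n → H →L[ℂ] H, ∀ i, p i = S.pr (P.f ⁻¹' {i}) := ⟨_, fun _ => rfl⟩
  simp only [← hp] at hP
  have hpp : ∀ i, IsStarProjection (p i) := fun i => hp i ▸ S.pr_proj (P.clopen i)
  have hps : ∑ i, p i = 1 := by simp only [hp, S.sum_pr P.lc]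
  have hpo : Pairwise fun i j => p i * p j = 0 := fun i j hij => by
    simp only [hp, S.pr_fibre_mul P.lc, if_neg hij]
  obtain ⟨n, t, lam, ht, h0, h1, hm⟩ := mazur (S.EE_tendsto z) (eventually_UP P) (G.image q) hε
  have hcomm : ∀ i j, p i * S.T (t j).f z = S.T (t j).f z * p i := fun i j => hp i ▸
    S.pr_mul_T (t j).lc (fun w w' e => by
      simp only [Set.mem_preimage, Set.mem_singleton_iff, ht j w w' e]) z
  obtain ⟨V, hV⟩ : ∃ V : G → Fin P.n → Fin n → H,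
      ∀ ξ i j, V ξ i j = q (p i (S.T (t j).f z (q ξ))) := ⟨_, fun _ _ _ => rfl⟩
  obtain ⟨l, hl⟩ := greedy h0 h1 V
  let f' : X → Σ i : Fin P.n, Fin (t (l i)).n := fun w => ⟨P.f w, (t (l (P.f w))).f w⟩
  have hfib : ∀ k, f' ⁻¹' {k} = P.f ⁻¹' {k.1} ∩ (t (l k.1)).f ⁻¹' {k.2} := by
    rintro ⟨i, k⟩
    ext w
    simp only [f', Set.mem_preimage, Set.mem_singleton_iff, Set.mem_inter_iff, Sigma.mk.injEq]
    refine and_congr_right ?_
    rintro rfl
    simp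
  have hf' : IsLocallyConstant f' := by
    rw [IsLocallyConstant.iff_isOpen_fiber]
    intro k
    rw [hfib]
    exact ((P.clopen _).inter ((t _).clopen _)).isOpen
  refine ⟨Part.of f' hf', fun w w' e => congrArg Sigma.fst ((Part.of_eq hf' w w').1 e),
    fun ξ hξ => ?_⟩
  have e1 : S.T (Part.of f' hf').f x - S.EE x = ∑ i, p i * S.T (t (l i)).f z := by
    have e2 : S.T (Part.of f' hf').f z = S.T (Part.of f' hf').f x - S.EE x := by
      rw [hz, S.T_sub, ← S.ι_cE hx, S.T_ι (Part.of f' hf').lc]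
    rw [← e2, S.T_congr hf' (Part.of f' hf').lc (Part.of_eq hf'), T, Fintype.sum_sigma]
    refine Finset.sum_congr rfl fun i _ => ?_
    rw [← (hpp i).isIdempotentElem.eq, mul_assoc, hcomm, T, Finset.sum_mul, Finset.mul_sum]
    refine Finset.sum_congr rfl fun k _ => ?_
    rw [hfib, ← S.pr_mul_pr (P.clopen _) ((t _).clopen _)]
    nth_rw 2 [S.pr_comm]
    simp only [hp, mul_assoc]
  have e3 : (q * (S.T (Part.of f' hf').f x - S.EE x) * q) ξ = ∑ i, V ⟨ξ, hξ⟩ i (l i) := by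
    rw [e1, sg_mul, sg_mul, sum_apply, map_sum]
    simp only [hV, sg_mul]
  rw [e3]
  refine (le_abs_self _).trans (abs_le_of_sq_le_sq ?_ hδ.le)
  have b0 : ‖∑ i, V ⟨ξ, hξ⟩ i (l i)‖ ^ 2 ≤ ∑ k, ‖∑ i, V k i (l i)‖ ^ 2 :=
    Finset.single_le_sum (f := fun k => ‖∑ i, V k i (l i)‖ ^ 2) (fun _ _ => sq_nonneg _)
      (Finset.mem_univ _)
  have b1 : ∑ ξ : G, ‖∑ i, ∑ j, (lam j : ℂ) • V ξ i j‖ ^ 2 ≤ ε * G.card := by
    refine (Finset.sum_le_card_nsmul _ _ ε fun ξ _ => ?_).trans (by simp [mul_comm])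
    have e4 : ∑ i, ∑ j, (lam j : ℂ) • V ξ i j =
        q ((∑ j, (lam j : ℂ) • S.T (t j).f z - S.EE z) (q ξ)) := by
      simp only [hV]
      rw [hEz, sub_zero, Finset.sum_comm, sum_apply, map_sum]
      refine Finset.sum_congr rfl fun j _ => ?_
      rw [← Finset.smul_sum, ← map_sum, ← sum_apply, hps, smul_apply, map_smul]
      rfl
    have := (sg_proj_le hq _).trans (hm (q ξ) (Finset.mem_image_of_mem _ ξ.2)).le
    rw [e4]
    nlinarith [norm_nonneg (q ((∑ j, (lam j : ℂ) • S.T (t j).f z - S.EE z) (q ξ)))]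
  have b2 : ∑ ξ : G, ∑ i, ∑ j, lam j * ‖V ξ i j‖ ^ 2 ≤ η * (‖z‖ ^ 2 * ∑ ξ ∈ G, ‖ξ‖ ^ 2) := by
    simp only [hV]
    rw [← Finset.sum_coe_sort G, Finset.mul_sum, Finset.mul_sum]
    refine Finset.sum_le_sum fun ξ _ => ?_
    rw [Finset.sum_comm]
    calc ∑ j, ∑ i, lam j * ‖q (p i (S.T (t j).f z (q ξ)))‖ ^ 2
        ≤ ∑ j, lam j * (η * (‖z‖ ^ 2 * ‖(ξ : H)‖ ^ 2)) := by
          refine Finset.sum_le_sum fun j _ => ?_
          rw [← Finset.mul_sum]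
          refine mul_le_mul_of_nonneg_left ?_ (h0 j)
          refine (Finset.sum_le_sum fun i _ => sg_qp (hpp i) hq (hP i) _).trans ?_
          rw [← Finset.mul_sum]
          refine mul_le_mul_of_nonneg_left ((sum_norm_sq_proj_le hpp hpo _).trans ?_) hη.le
          rw [← mul_pow]
          refine pow_le_pow_left₀ (norm_nonneg _) ?_ 2
          exact ((S.T (t j).f z).le_of_opNorm_le (S.norm_T_le (t j).lc z) _).trans
            (mul_le_mul_of_nonneg_left (sg_proj_le hq _) (norm_nonneg _))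
      _ = _ := by rw [← Finset.sum_mul, h1, one_mul]
  linarith

/-- PROOF.  `q, P` from `Sing`, `P'` from `exists_T_small` with atoms `p i` (still `‖p i q p i‖ ≤ η₁`).  For
`f = g ∘ P'`: `T f x = T P' x + r⁻¹ (x - T P' x) + ∑_{i ≠ j} ([g i = g j] - r⁻¹) p i x p j` (`pr_comp`).
`rand_pair` for `v i j = q p i x p j q ξ`, `∑ ‖v i j‖² ≤ η₁ ‖x‖² ‖ξ‖²`.  With `a = (1 - r⁻¹) cE x`,
`h = q (T f x - ι a - r⁻¹ x) q` is small on `G`; `cut` for `h²` with `e = q`. -/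
theorem so_sing {U : Set X} (hU : IsClopen U) (h : S.Sing U) {x : H →L[ℂ] H} (hx : x ∈ S.M)
    (hs : IsSelfAdjoint x) {r : ℕ} (hr : 1 ≤ r) (G : Finset H) {η : ℝ} (hη : 0 < η) :
    ∃ (f : X → Fin r) (a : C(X, ℂ)) (q : H →L[ℂ] H), IsLocallyConstant f ∧ IsSelfAdjoint (S.ι a) ∧
      ‖a‖ ≤ ‖x‖ ∧ q ∈ S.M ∧ IsStarProjection q ∧ S.pr U * q = q ∧ (∀ ξ ∈ G, ‖(S.pr U - q) ξ‖ ≤ η) ∧
      ‖q * (S.T f x - S.ι a) * q‖ ≤ ‖x‖ / r + η := by
  classical
  have : Nonempty (Fin r) := ⟨⟨0, hr⟩⟩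
  have hr0 : (0 : ℝ) < r := by exact_mod_cast hr
  have hr1 : (r : ℝ)⁻¹ ≤ 1 := inv_le_one_of_one_le₀ (by exact_mod_cast hr)
  have hr2 : (0 : ℝ) ≤ (r : ℝ)⁻¹ := by positivity
  set δ := η * (η / 2) / 2 with hδ
  have hδ0 : 0 < δ := by positivity
  obtain ⟨η₀, hη₀, hT⟩ := S.exists_T_small hx G hδ0
  obtain ⟨η₁, hη₁, h1, h2⟩ := sg_small (a := min η₀ (η / 2)) (b := δ ^ 2)
    (K := 2 * (‖x‖ ^ 2 * ∑ ξ ∈ G, ‖ξ‖ ^ 2)) (by positivity) (by positivity) (by positivity)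
  obtain ⟨q, hqM, hq, huq, hG, P₀, hP₀⟩ := h G η₁ hη₁
  obtain ⟨P, hPP, hP2⟩ := hT q hq P₀ fun i => (hP₀ i).trans (h1.trans (min_le_left _ _))
  obtain ⟨p, hp⟩ : ∃ p : Fin P.n → H →L[ℂ] H, ∀ i, p i = S.pr (P.f ⁻¹' {i}) := ⟨_, fun _ => rfl⟩
  have hpp : ∀ i, IsStarProjection (p i) := fun i => hp i ▸ S.pr_proj (P.clopen i)
  have hpo : Pairwise fun i j => p i * p j = 0 := fun i j hij => by
    simp only [hp, S.pr_fibre_mul P.lc, if_neg hij]
  have hps : ∑ i, p i = 1 := by simp only [hp, S.sum_pr P.lc]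
  have hP : ∀ i, ‖p i * q * p i‖ ≤ η₁ := by
    intro i
    rcases (P.f ⁻¹' {i}).eq_empty_or_nonempty with h0 | ⟨w, hw⟩
    · rw [hp, h0, S.pr_empty]; simp [hη₁.le]
    · have hsub : P.f ⁻¹' {i} ⊆ P₀.f ⁻¹' {P₀.f w} := fun w' hw' => hPP w' w (hw'.trans hw.symm)
      have e1 : S.pr (P₀.f ⁻¹' {P₀.f w}) * p i = p i := by
        rw [hp]; exact S.pr_mul_of_subset (P₀.clopen _) (P.clopen _) hsub
      have e2 := sg_right (S.pr_proj (P₀.clopen (P₀.f w))) (hpp i) e1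
      have e3 : p i * q * p i =
          p i * (S.pr (P₀.f ⁻¹' {P₀.f w}) * q * S.pr (P₀.f ⁻¹' {P₀.f w})) * p i := by
        rw [mul_assoc (p i), mul_assoc (p i), mul_assoc _ _ (p i), e1, ← mul_assoc, ← mul_assoc,
          ← mul_assoc, e2]
      rw [e3]
      refine (norm_mul₃_le).trans ?_
      have := mul_le_mul (mul_le_mul (hpp i).norm_le (hP₀ (P₀.f w)) (norm_nonneg _) zero_le_one)
        (hpp i).norm_le (norm_nonneg _) (by positivity)
      linarith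
  obtain ⟨D, hD⟩ : ∃ D : (Fin P.n → Fin r) → H →L[ℂ] H, ∀ g, D g =
    ∑ i, ∑ j ∈ Finset.univ.erase i,
      (((if g i = g j then 1 else 0) - (Fintype.card (Fin r) : ℝ)⁻¹ : ℝ) : ℂ) •
        (q * (p i * x * p j) * q) := ⟨_, fun _ => rfl⟩
  have hE : 𝔼 g, ∑ ξ ∈ G, ‖D g ξ‖ ^ 2 ≤ η₁ * (2 * (‖x‖ ^ 2 * ∑ ξ ∈ G, ‖ξ‖ ^ 2)) := by
    rw [Finset.expect_sum_comm, Finset.mul_sum, Finset.mul_sum, Finset.mul_sum]
    refine Finset.sum_le_sum fun ξ _ => ?_
    have := rand_pair (C := Fin r) (fun i j => q (p i (x (p j (q ξ)))))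
    simp only [hD, sum_apply, smul_apply, sg_mul]
    refine this.trans ?_
    rw [mul_left_comm]
    refine mul_le_mul_of_nonneg_left ?_ zero_le_two
    rw [Finset.sum_comm]
    calc ∑ j, ∑ i, ‖q (p i (x (p j (q ξ))))‖ ^ 2 ≤ ∑ j, η₁ * (‖x‖ ^ 2 * ‖p j (q ξ)‖ ^ 2) := by
          refine Finset.sum_le_sum fun j _ => ?_
          refine (Finset.sum_le_sum fun i _ => sg_qp (hpp i) hq (hP i) _).trans ?_
          rw [← Finset.mul_sum]
          refine mul_le_mul_of_nonneg_left ((sum_norm_sq_proj_le hpp hpo _).trans ?_) hη₁.le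
          rw [← mul_pow]
          exact pow_le_pow_left₀ (norm_nonneg _) (x.le_opNorm _) 2
      _ ≤ _ := by
          rw [← Finset.mul_sum, ← Finset.mul_sum]
          refine mul_le_mul_of_nonneg_left (mul_le_mul_of_nonneg_left
            ((sum_norm_sq_proj_le hpp hpo _).trans ?_) (sq_nonneg _)) hη₁.le
          exact pow_le_pow_left₀ (norm_nonneg _) (sg_proj_le hq ξ) 2
  obtain ⟨g, -, hg⟩ := Finset.exists_le_of_expect_le Finset.univ_nonempty hE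
  have hqq := hq.isIdempotentElem.eq
  have hf : IsLocallyConstant fun w => g (P.f w) := P.lc.comp g
  obtain ⟨a, ha⟩ : ∃ a : C(X, ℂ), a = ((1 - (r : ℝ)⁻¹ : ℝ) : ℂ) • S.cE x := ⟨_, rfl⟩
  have hιa : S.ι a = ((1 - (r : ℝ)⁻¹ : ℝ) : ℂ) • S.EE x := by rw [ha, map_smul, S.ι_cE hx]
  obtain ⟨Tf, hTf⟩ : ∃ Tf, Tf = S.T (fun w => g (P.f w)) x := ⟨_, rfl⟩
  have eT : Tf = ∑ i, ∑ j, (((if g i = g j then 1 else 0 : ℝ)) : ℂ) • (p i * x * p j) := by
    rw [hTf, T]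
    simp only [S.pr_comp P.lc, ← hp, Finset.sum_filter, Finset.sum_mul, Finset.mul_sum]
    rw [Finset.sum_comm]
    conv_rhs => rw [Finset.sum_comm]
    refine Finset.sum_congr rfl fun j _ => ?_
    rw [Finset.sum_comm]
    refine Finset.sum_congr rfl fun i _ => ?_
    rw [Finset.sum_eq_single (g j)]
    · by_cases hij : g i = g j <;> simp [hij]
    · intro c _ hc; simp [Ne.symm hc]
    · simp
  have ex : x = ∑ i, ∑ j, p i * x * p j := by
    simp only [← Finset.mul_sum, ← Finset.sum_mul, hps, one_mul, mul_one]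
  have eP : S.T P.f x = ∑ i, p i * x * p i := by simp only [T, hp]
  have e1 : q * (Tf - S.ι a - (((r : ℝ)⁻¹ : ℝ) : ℂ) • x) * q =
      D g + ((1 - (r : ℝ)⁻¹ : ℝ) : ℂ) • (q * (S.T P.f x - S.EE x) * q) := by
    have e2 : Tf - (((r : ℝ)⁻¹ : ℝ) : ℂ) • x - ((1 - (r : ℝ)⁻¹ : ℝ) : ℂ) • S.T P.f x =
        ∑ i, ∑ j ∈ Finset.univ.erase i,
          (((if g i = g j then 1 else 0) - (Fintype.card (Fin r) : ℝ)⁻¹ : ℝ) : ℂ) • (p i * x * p j) := by
      rw [eT, eP]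
      conv_lhs => enter [1, 2, 2]; rw [ex]
      simp only [Finset.smul_sum, ← Finset.sum_sub_distrib]
      refine Finset.sum_congr rfl fun i _ => ?_
      rw [← Finset.add_sum_erase _ _ (Finset.mem_univ i), Fintype.card_fin]
      simp only [← sub_smul, ← Complex.ofReal_sub, if_true]
      abel
    have e3 : D g = q * (Tf - (((r : ℝ)⁻¹ : ℝ) : ℂ) • x - ((1 - (r : ℝ)⁻¹ : ℝ) : ℂ) • S.T P.f x) * q := by
      rw [e2, hD]
      simp only [Finset.mul_sum, Finset.sum_mul, mul_smul_comm, smul_mul_assoc]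
    rw [e3, hιa]
    simp only [mul_sub, sub_mul, mul_smul_comm, smul_mul_assoc, smul_sub]
    abel
  obtain ⟨q', hq'M, hq', hqq', h3, h4⟩ := sg_cut (κ := Unit)
    (h := fun _ => q * (Tf - S.ι a - (((r : ℝ)⁻¹ : ℝ) : ℂ) • x) * q)
    (fun _ => mul_mem (mul_mem hqM (sub_mem (sub_mem (hTf ▸ S.T_mem _ hx) (S.mem _))
      (smul_mem_vn hx _))) hqM) hqM hq (fun _ => by rw [mul_assoc _ q q, hqq]) hη
  refine ⟨fun w => g (P.f w), a, q', hf, ?_, ?_, hq'M, hq', by rw [← hqq', ← mul_assoc, huq],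
    fun ξ hξ => sg_close hη ((hG ξ hξ).trans (h1.trans (min_le_right _ _))) (h4 ξ) ?_, ?_⟩
  · rw [hιa, IsSelfAdjoint, star_smul, ← S.EE_star, hs.star_eq]
    simp
  · rw [ha, norm_smul, Complex.norm_real, Real.norm_of_nonneg (by linarith)]
    have := S.norm_cE_le hx
    nlinarith [norm_nonneg (S.cE x)]
  · rw [Finset.univ_unique, Finset.sum_singleton, e1, add_apply, smul_apply]
    have b1 : ‖D g ξ‖ ≤ δ := (le_abs_self _).trans (abs_le_of_sq_le_sq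
      ((Finset.single_le_sum (f := fun ξ => ‖D g ξ‖ ^ 2) (fun _ _ => sq_nonneg _) hξ).trans
        (hg.trans h2)) hδ0.le)
    have b2 : ‖((1 - (r : ℝ)⁻¹ : ℝ) : ℂ) • (q * (S.T P.f x - S.EE x) * q) ξ‖ ≤ δ := by
      rw [norm_smul, Complex.norm_real, Real.norm_of_nonneg (by linarith)]
      have := hP2 ξ hξ
      nlinarith [norm_nonneg ((q * (S.T P.f x - S.EE x) * q) ξ)]
    have b3 := pow_le_pow_left₀ (norm_nonneg _) ((norm_add_le _ _).trans (add_le_add b1 b2)) 2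
    exact b3.trans (le_of_eq (by rw [hδ]; ring))
  · have e2 : q' * (Tf - S.ι a) * q' =
        q' * (q * (Tf - S.ι a - (((r : ℝ)⁻¹ : ℝ) : ℂ) • x) * q * q') +
          (((r : ℝ)⁻¹ : ℝ) : ℂ) • (q' * x * q') := by
      rw [mul_assoc _ q q', hqq', ← mul_assoc, ← mul_assoc, sg_right hq hq' hqq']
      simp only [mul_sub, sub_mul, mul_smul_comm, smul_mul_assoc]
      abel
    rw [← hTf, e2]
    refine (norm_add_le _ _).trans ?_
    have b1 := (norm_mul_le q' _).trans (mul_le_mul hq'.norm_le (h3 ()) (norm_nonneg _) zero_le_one)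
    have b2 : ‖(((r : ℝ)⁻¹ : ℝ) : ℂ) • (q' * x * q')‖ ≤ ‖x‖ / r := by
      rw [norm_smul, Complex.norm_real, Real.norm_of_nonneg hr2, div_eq_inv_mul]
      refine mul_le_mul_of_nonneg_left (norm_mul₃_le.trans ?_) hr2
      have := mul_le_mul (mul_le_mul hq'.norm_le (le_refl ‖x‖) (norm_nonneg _) zero_le_one)
        hq'.norm_le (norm_nonneg _) (by positivity)
      linarith
    linarith

/-- PROOF.  `q, P` from `Sing`; for `f = g ∘ P`, `h c = q pr (f ⁻¹' {c}) q - r⁻¹ q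
= ∑ i, ([g i = c] - r⁻¹) q p i q`; `rand_single`; `cut` for `k = ∑ c, (h c)²` with `e = q`. -/
theorem ap_sing {U : Set X} (hU : IsClopen U) (h : S.Sing U) {r : ℕ} (hr : 1 ≤ r) (G : Finset H)
    {η : ℝ} (hη : 0 < η) :
    ∃ (f : X → Fin r) (q : H →L[ℂ] H), IsLocallyConstant f ∧ q ∈ S.M ∧ IsStarProjection q ∧
      S.pr U * q = q ∧ (∀ ξ ∈ G, ‖(S.pr U - q) ξ‖ ≤ η) ∧
      ∀ c, ‖q * S.pr (f ⁻¹' {c}) * q‖ ≤ 1 / r + η := by
  classical
  have : Nonempty (Fin r) := ⟨⟨0, hr⟩⟩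
  obtain ⟨η₁, hη₁, h1, h2⟩ := sg_small (a := η / 2) (b := η ^ 2 * (η / 2) ^ 2)
    (K := r * ∑ ξ ∈ G, ‖ξ‖ ^ 2) (by positivity) (by positivity) (by positivity)
  obtain ⟨q, hqM, hq, huq, hG, P, hP⟩ := h G η₁ hη₁
  set p : Fin P.n → H →L[ℂ] H := fun i => S.pr (P.f ⁻¹' {i}) with hp
  have hpp : ∀ i, IsStarProjection (p i) := fun i => S.pr_proj (P.clopen i)
  have hpo : Pairwise fun i j => p i * p j = 0 := fun i j hij => by
    simp only [hp, S.pr_fibre_mul P.lc, if_neg hij]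
  let hc : (Fin P.n → Fin r) → Fin r → H →L[ℂ] H := fun g c =>
    ∑ i, (((if g i = c then 1 else 0) - (Fintype.card (Fin r) : ℝ)⁻¹ : ℝ) : ℂ) • (q * p i * q)
  have hE : 𝔼 g, ∑ ξ ∈ G, ∑ c, ‖hc g c ξ‖ ^ 2 ≤ η₁ * (r * ∑ ξ ∈ G, ‖ξ‖ ^ 2) := by
    rw [Finset.expect_sum_comm, Finset.mul_sum, Finset.mul_sum]
    refine Finset.sum_le_sum fun ξ _ => ?_
    rw [Finset.expect_sum_comm]
    refine (Finset.sum_le_card_nsmul _ _ (η₁ * ‖ξ‖ ^ 2) fun c _ => ?_).trans ?_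
    · have := rand_single (fun i => (q * p i * q) ξ) c
      simp only [hc, sum_apply, smul_apply]
      refine this.trans ((Finset.sum_le_sum fun i _ => sg_qp (hpp i) hq (hP i) (q ξ)).trans ?_)
      rw [← Finset.mul_sum]
      refine mul_le_mul_of_nonneg_left ((sum_norm_sq_proj_le hpp hpo _).trans ?_) hη₁.le
      exact pow_le_pow_left₀ (norm_nonneg _) (sg_proj_le hq ξ) 2
    · simp only [Finset.card_univ, Fintype.card_fin, nsmul_eq_mul]
      exact le_of_eq (by ring)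
  obtain ⟨g, -, hg⟩ := Finset.exists_le_of_expect_le Finset.univ_nonempty hE
  have hqq := hq.isIdempotentElem.eq
  obtain ⟨q', hq'M, hq', hqq', h3, h4⟩ := sg_cut (h := hc g)
    (fun c => sum_mem fun i _ => smul_mem_vn (mul_mem (mul_mem hqM (S.pr_mem _)) hqM) _) hqM hq
    (fun c => by
      simp only [hc, Finset.sum_mul, smul_mul_assoc, mul_assoc, hqq]) hη
  refine ⟨fun w => g (P.f w), q', P.lc.comp g, hq'M, hq', by rw [← hqq', ← mul_assoc, huq],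
    fun ξ hξ => sg_close hη ((hG ξ hξ).trans h1) (h4 ξ) ?_, fun c => ?_⟩
  · exact (Finset.single_le_sum (f := fun ξ => ∑ c, ‖hc g c ξ‖ ^ 2)
      (fun _ _ => Finset.sum_nonneg fun _ _ => sq_nonneg _) hξ).trans (hg.trans h2)
  · have e1 : hc g c = q * S.pr ((fun w => g (P.f w)) ⁻¹' {c}) * q - ((r : ℂ)⁻¹) • q := by
      have e0 : q = q * (∑ i, p i) * q := by rw [S.sum_pr P.lc, mul_one, hqq]
      conv_rhs => enter [2]; rw [e0]
      rw [S.pr_comp P.lc, Finset.sum_filter]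
      simp only [hc, Finset.mul_sum, Finset.sum_mul, Finset.smul_sum, ← Finset.sum_sub_distrib]
      refine Finset.sum_congr rfl fun i _ => ?_
      split_ifs <;> simp [sub_smul, hp]
    have e2 : q' * S.pr ((fun w => g (P.f w)) ⁻¹' {c}) * q' = q' * (hc g c * q') + ((r : ℂ)⁻¹) • q' := by
      rw [e1, sub_mul, mul_sub, smul_mul_assoc, mul_smul_comm, hqq', hq'.isIdempotentElem.eq,
        mul_assoc _ q q', hqq', ← mul_assoc, ← mul_assoc, sg_right hq hq' hqq']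
      abel
    rw [e2]
    refine (norm_add_le _ _).trans ?_
    have b1 : ‖q' * (hc g c * q')‖ ≤ 1 * η :=
      (norm_mul_le _ _).trans (mul_le_mul hq'.norm_le (h3 c) (norm_nonneg _) zero_le_one)
    have b2 : ‖((r : ℂ)⁻¹) • q'‖ ≤ 1 / r := by
      rw [norm_smul, norm_inv, Complex.norm_natCast, one_div]
      exact mul_le_of_le_one_right (by positivity) hq'.norm_le
    linarith

end Masa

end Crest.Agent.R109
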