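import Crest.Agent.R109.Trans
import Crest.Agent.R109.Sing

/-! Row 109: assembling the normal part, the singular part and the rest. -/

set_option autoImplicit false
set_option linter.unusedSectionVars false

namespace Crest.Agent.R109

open Crest.Agent.R124 Filter Topology Function
open scoped BigOperators ComplexConjugate InnerProductSpace ComplexOrder Pointwise

variable {X : Type*} [TopologicalSpace X] [CompactSpace X] [T2Space X] [TotallyDisconnectedSpace X]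
  {H : Type*} [NormedAddCommGroup H] [InnerProductSpace ℂ H] [CompleteSpace H]

namespace Masa

variable (S : Masa X H)

/-- PROOF.  `exists_npart`, `exists_support`, `exists_carrier`; `U = Eᶜ ∩ Zᶜ`.  `ψ (pr Z) = 0` by `le`, so
`pr Z * pr E = 0` by `Fth`; `ψ (pr U) ≤ ψ (pr Eᶜ) = 0` (`pos_mono`). -/
theorem exists_dec (F : Finset H) :
    ∃ E U Z : Set X, IsClopen E ∧ IsClopen U ∧ IsClopen Z ∧ Disjoint E U ∧ Disjoint E Z ∧
      Disjoint U Z ∧ S.pr E + S.pr U + S.pr Z = 1 ∧ (∀ ξ ∈ F, S.pr Z ξ = 0) ∧ S.Reg E ∧ S.Sing U := by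
  obtain ⟨ψ, hψ⟩ := S.exists_npart F
  obtain ⟨E, hE, h0, hf⟩ := S.exists_support hψ.pos hψ.central hψ.normal
  obtain ⟨Z, hZ, hZF, hZc⟩ := S.exists_carrier F
  have hU : IsClopen (Eᶜ ∩ Zᶜ) := hE.compl.inter hZ.compl
  have hpp : ∀ V, IsClopen V → star (S.pr V) * S.pr V = S.pr V := fun V hV => by
    rw [(S.pr_proj hV).isSelfAdjoint.star_eq, (S.pr_proj hV).isIdempotentElem.eq]
  have hpos : ∀ V, IsClopen V → 0 ≤ ψ (S.pr V) := fun V hV => by
    rw [← hpp V hV]; exact hψ.pos _ (S.pr_mem V)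
  have hEZ : Disjoint E Z := by
    have h1 : (ψ (S.pr Z)).re ≤ 0 := (hψ.le Z hZ).trans (le_of_eq
      (Finset.sum_eq_zero fun ξ hξ => by rw [hZF ξ hξ]; simp))
    have h2 : S.pr Z * S.pr E = 0 := by
      ext ξ
      refine norm_le_zero_iff.1 (le_of_forall_pos_le_add fun c hc => ?_)
      obtain ⟨ε, hε, h⟩ := hf ξ c hc
      rw [zero_add]
      exact h _ (S.pr_mem Z) (S.pr_proj hZ).norm_le (by rw [hpp Z hZ]; linarith)
    rw [S.pr_mul_pr hZ hE, S.pr_eq_zero_iff (hZ.inter hE)] at h2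
    exact (Set.disjoint_iff_inter_eq_empty.2 h2).symm
  have hEU : Disjoint E (Eᶜ ∩ Zᶜ) := Set.disjoint_left.2 fun w h h' => h'.1 h
  have hUZ : Disjoint (Eᶜ ∩ Zᶜ) Z := Set.disjoint_left.2 fun w h h' => h.2 h'
  have hc : S.pr Eᶜ = S.pr (Eᶜ ∩ Zᶜ) + S.pr Z := by
    rw [← S.pr_union hU hZ hUZ]
    congr 1
    ext w
    have : w ∈ E → w ∉ Z := fun h => Set.disjoint_left.1 hEZ h
    simp only [Set.mem_compl_iff, Set.mem_union, Set.mem_inter_iff]
    tauto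
  refine ⟨E, Eᶜ ∩ Zᶜ, Z, hE, hU, hZ, hEU, hEZ, hUZ, ?_, hZF,
    S.reg_of_fth hψ.pos hψ.central hψ.normal hE h0 hf, S.sing_of_npart hψ hU hZ hUZ ?_ hZc⟩
  · rw [add_assoc, ← hc, S.pr_compl hE, add_sub_cancel]
  · rw [hc, map_add] at h0
    exact ((add_eq_zero_iff_of_nonneg (hpos _ hU) (hpos _ hZ)).1 h0).1

/-- Gluing colourings: `f w = inl (f₁ w)` on `E`, `inr (inl (f₂ w))` on `U`, the last colour on `Z`
(`finSumFinEquiv`). -/
theorem exists_glue {E U Z : Set X} (hE : IsClopen E) (hU : IsClopen U) (hZ : IsClopen Z)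
    (hEU : Disjoint E U) (hEZ : Disjoint E Z) (hUZ : Disjoint U Z)
    (h1 : S.pr E + S.pr U + S.pr Z = 1) {r₁ r₂ : ℕ} {f₁ : X → Fin r₁} {f₂ : X → Fin r₂}
    (hf₁ : IsLocallyConstant f₁) (hf₂ : IsLocallyConstant f₂) :
    ∃ f : X → Fin (r₁ + r₂ + 1), IsLocallyConstant f ∧ ∀ y, S.T f y =
      S.pr E * S.T f₁ y * S.pr E + S.pr U * S.T f₂ y * S.pr U + S.pr Z * y * S.pr Z := by
  classical
  have hcov : ∀ w, w ∉ E → w ∉ U → w ∈ Z := by
    intro w h h'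
    have h2 : S.pr (E ∪ U ∪ Z)ᶜ = 0 := by
      rw [S.pr_compl ((hE.union hU).union hZ), S.pr_union (hE.union hU) hZ
        (Set.disjoint_union_left.2 ⟨hEZ, hUZ⟩), S.pr_union hE hU hEU, h1, sub_self]
    rw [S.pr_eq_zero_iff ((hE.union hU).union hZ).compl, Set.compl_empty_iff] at h2
    have h3 : w ∈ E ∪ U ∪ Z := h2 ▸ Set.mem_univ w
    simpa [h, h'] using h3
  let g : X → (Fin r₁ ⊕ Fin r₂) ⊕ Fin 1 := fun w =>
    if w ∈ E then .inl (.inl (f₁ w)) else if w ∈ U then .inl (.inr (f₂ w)) else .inr 0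
  have g1 : ∀ i, g ⁻¹' {.inl (.inl i)} = E ∩ f₁ ⁻¹' {i} := by
    intro i; ext w
    simp only [g, Set.mem_preimage, Set.mem_singleton_iff, Set.mem_inter_iff]
    split_ifs with h h' <;> simp [h]
  have g2 : ∀ i, g ⁻¹' {.inl (.inr i)} = U ∩ f₂ ⁻¹' {i} := by
    intro i; ext w
    simp only [g, Set.mem_preimage, Set.mem_singleton_iff, Set.mem_inter_iff]
    split_ifs with h h'
    · simp [Set.disjoint_left.1 hEU h]
    · simp [h']
    · simp [h']
  have g3 : ∀ i, g ⁻¹' {.inr i} = Z := by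
    intro i; ext w
    simp only [g, Set.mem_preimage, Set.mem_singleton_iff]
    split_ifs with h h'
    · simp [Set.disjoint_left.1 hEZ h]
    · simp [Set.disjoint_left.1 hUZ h']
    · simp [hcov w h h', Subsingleton.elim i 0]
  have hg : IsLocallyConstant g := by
    refine IsLocallyConstant.iff_isOpen_fiber.2 ?_
    rintro ((i | i) | i)
    · rw [g1]; exact hE.isOpen.inter (hf₁.isOpen_fiber i)
    · rw [g2]; exact hU.isOpen.inter (hf₂.isOpen_fiber i)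
    · rw [g3]; exact hZ.isOpen
  let e : (Fin r₁ ⊕ Fin r₂) ⊕ Fin 1 ≃ Fin (r₁ + r₂ + 1) :=
    (Equiv.sumCongr finSumFinEquiv (Equiv.refl _)).trans finSumFinEquiv
  have hf : IsLocallyConstant fun w => e (g w) := hg.comp e
  refine ⟨fun w => e (g w), hf, fun y => ?_⟩
  have key : ∀ {V W : Set X}, IsClopen V → IsClopen W →
      S.pr (V ∩ W) * y * S.pr (V ∩ W) = S.pr V * (S.pr W * y * S.pr W) * S.pr V := by
    intro V W hV hW
    conv_lhs => rw [← S.pr_mul_pr hV hW]; rhs; rw [S.pr_comm]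
    simp only [mul_assoc]
  rw [S.T_congr hg hf (fun w w' => e.apply_eq_iff_eq) y]
  simp only [T, Fintype.sum_sum_type, g1, g2, g3, Fin.sum_univ_one, Finset.mul_sum, Finset.sum_mul]
  congr 2
  · exact Finset.sum_congr rfl fun i _ => key hE (hf₁.isClopen_fiber i)
  · exact Finset.sum_congr rfl fun i _ => key hU (hf₂.isClopen_fiber i)

theorem final_swap {e u z : H →L[ℂ] H} (he : IsStarProjection e) (hu : IsStarProjection u)
    (hz : IsSelfAdjoint z) (h : e * u = z) : u * e = z := by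
  have := congrArg star h
  rwa [star_mul, he.isSelfAdjoint.star_eq, hu.isSelfAdjoint.star_eq, hz.star_eq] at this

theorem final_norm_conj {q : H →L[ℂ] H} (hq : IsStarProjection q) (a : H →L[ℂ] H) :
    ‖q * a * q‖ ≤ ‖a‖ := by
  have h := hq.norm_le
  calc ‖q * a * q‖ ≤ ‖q‖ * ‖a‖ * ‖q‖ := norm_mul₃_le
    _ ≤ 1 * ‖a‖ * 1 := by gcongr
    _ = ‖a‖ := by ring

/-- Block diagonal operators (`norm_sum_block_le` with `Fin 3`, or directly). -/
theorem norm_three_le {e u z : H →L[ℂ] H} (he : IsStarProjection e) (hu : IsStarProjection u)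
    (hz : IsStarProjection z) (heu : e * u = 0) (hez : e * z = 0) (huz : u * z = 0)
    {a b d : H →L[ℂ] H} {c : ℝ} (ha : ‖e * a * e‖ ≤ c) (hb : ‖u * b * u‖ ≤ c) (hd : ‖z * d * z‖ ≤ c) :
    ‖e * a * e + u * b * u + z * d * z‖ ≤ c := by
  have hp : ∀ i : Fin 3, IsStarProjection (![e, u, z] i) := by
    intro i; fin_cases i <;> assumption
  have hpp : Pairwise fun i j : Fin 3 => ![e, u, z] i * ![e, u, z] j = 0 := by
    have h1 := final_swap he hu (IsSelfAdjoint.zero _) heu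
    have h2 := final_swap he hz (IsSelfAdjoint.zero _) hez
    have h3 := final_swap hu hz (IsSelfAdjoint.zero _) huz
    intro i j hij
    fin_cases i <;> fin_cases j <;> first | exact absurd rfl hij | assumption
  have := norm_sum_block_le (z := ![a, b, d]) hp hp hpp hpp ((norm_nonneg _).trans ha)
    (by intro i; fin_cases i <;> assumption)
  simpa [Fin.sum_univ_three] using this

/-- PROOF.  `x = 0` is trivial (`q = 1`).  `exists_dec`; `Reg` gives `f₁, a₁, b`; `cut` for `b²` with `e = pr E`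
gives `q₁ ≤ e`, `‖b q₁‖ ≤ η`; `16000 / √r₁ ≤ 0.8 ε`.  `so_sing` gives `f₂, a₂, q₂`, `1 / r₂ ≤ ε / 4`.
`exists_glue`, `a = 1_E a₁ + 1_U a₂`, `q = q₁ + q₂`, `norm_three_le`. -/
theorem so_final {ε : ℝ} (hε : 0 < ε) (hε1 : ε < 1) {x : H →L[ℂ] H} (hx : x ∈ S.M)
    (hs : IsSelfAdjoint x) (F : Finset H) {δ : ℝ} (hδ : 0 < δ) :
    ∃ f : X → Fin (Nat.ceil (400000000 / ε ^ 2) + Nat.ceil (4 / ε) + 1), IsLocallyConstant f ∧
      ∃ a : C(X, ℂ), IsSelfAdjoint (S.ι a) ∧ ‖S.ι a‖ ≤ ‖x‖ ∧ ∃ q ∈ S.M, IsStarProjection q ∧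
        (∀ ξ ∈ F, ‖(1 - q) ξ‖ < δ) ∧ ‖q * (S.T f x - S.ι a) * q‖ ≤ ε * ‖x‖ := by
  by_cases hx0 : x = 0
  · subst hx0
    refine ⟨fun _ => 0, IsLocallyConstant.const _, 0, by simp, by simp, 1, one_mem _,
      IsStarProjection.one _, fun ξ _ => by simpa using hδ, by simp [T]⟩
  have hs0 : 0 < ‖x‖ := norm_pos_iff.2 hx0
  obtain ⟨E, U, Z, hE, hU, hZ, hEU, hEZ, hUZ, h1, hZF, hR, hS⟩ := S.exists_dec F
  have hε2 : ε ^ 2 ≤ 1 := by nlinarith
  have hr1 : 400000000 / ε ^ 2 ≤ (Nat.ceil (400000000 / ε ^ 2) : ℝ) := Nat.le_ceil _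
  have hr2 : 4 / ε ≤ (Nat.ceil (4 / ε) : ℝ) := Nat.le_ceil _
  generalize Nat.ceil (400000000 / ε ^ 2) = r₁ at hr1 ⊢
  generalize Nat.ceil (4 / ε) = r₂ at hr2 ⊢
  have hr1' : 4 ≤ r₁ := by
    have : (4 : ℝ) ≤ 400000000 / ε ^ 2 := by
      rw [le_div_iff₀ (by positivity)]; linarith
    exact_mod_cast this.trans hr1
  have hr2' : 1 ≤ r₂ := by
    have : (1 : ℝ) ≤ 4 / ε := by rw [le_div_iff₀ hε]; linarith
    exact_mod_cast this.trans hr2
  have hc1 : 16000 / √r₁ ≤ 0.8 * ε := by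
    have h2 : 20000 / ε ≤ √r₁ := Real.le_sqrt_of_sq_le (by rw [div_pow]; linarith)
    have h3 : 0 < 20000 / ε := by positivity
    rw [div_le_iff₀ (h3.trans_le h2)]
    rw [div_le_iff₀ hε] at h2
    linarith
  have hc2 : ‖x‖ / r₂ ≤ ε / 4 * ‖x‖ := by
    have h3 : (0 : ℝ) < r₂ := by exact_mod_cast hr2'
    rw [div_le_iff₀ h3]
    rw [div_le_iff₀ hε] at hr2
    nlinarith
  set c := 0.2 * ε * ‖x‖ with hc
  have hc0 : 0 < c := by positivity
  obtain ⟨f₁, a₁, b, hf₁, ha₁, ha₁n, hbM, hbs, heb, -, hb1, hb2⟩ :=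
    hR x hx hs r₁ hr1' F (c * (δ / 3)) (by positivity)
  have he := S.pr_proj hE
  have hu := S.pr_proj hU
  have hz := S.pr_proj hZ
  obtain ⟨q₁, hq₁M, hq₁, heq, -, hq1, hq2⟩ := cut (k := b * b) (mul_mem hbM hbM)
    (by simpa [hbs.star_eq] using star_mul_self_nonneg b) (S.pr_mem E) he
    (by rw [← mul_assoc, heb]) (t := c ^ 2) (by positivity)
  obtain ⟨f₂, a₂, q₂, hf₂, ha₂, ha₂n, hq₂M, hq₂, huq, hq3, hq4⟩ :=
    S.so_sing hU hS hx hs hr2' F (η := min (δ / 3) (ε / 2 * ‖x‖)) (by positivity)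
  obtain ⟨f, hf, hT⟩ := S.exists_glue hE hU hZ hEU hEZ hUZ h1 hf₁ hf₂
  have heu := S.pr_mul_of_disjoint hE hU hEU
  have hez := S.pr_mul_of_disjoint hE hZ hEZ
  have huz := S.pr_mul_of_disjoint hU hZ hUZ
  have hue := final_swap he hu (IsSelfAdjoint.zero _) heu
  have hqe := final_swap he hq₁ hq₁.isSelfAdjoint heq
  have hqu := final_swap hu hq₂ hq₂.isSelfAdjoint huq
  have ha : S.ι (cfn (E.indicator 1) * a₁ + cfn (U.indicator 1) * a₂) =
      S.pr E * S.ι a₁ * S.pr E + S.pr U * S.ι a₂ * S.pr U := by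
    rw [mul_assoc, mul_assoc, ← S.pr_comm_ι, ← S.pr_comm_ι, ← mul_assoc, ← mul_assoc,
      he.isIdempotentElem.eq, hu.isIdempotentElem.eq, map_add, map_mul, map_mul]
    rfl
  have hqq : q₁ * q₂ = 0 := by rw [← hqe, ← huq, mul_assoc, ← mul_assoc (S.pr E), heu]; simp
  have hbq : ‖b * q₁‖ ≤ c := by
    refine (pow_le_pow_iff_left₀ (norm_nonneg _) hc0.le two_ne_zero).1 ?_
    rw [sq, ← CStarRing.norm_star_mul_self, star_mul, hq₁.isSelfAdjoint.star_eq, hbs.star_eq]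
    simpa only [mul_assoc] using hq1
  refine ⟨f, hf, cfn (E.indicator 1) * a₁ + cfn (U.indicator 1) * a₂, ?_, ?_, q₁ + q₂,
    add_mem hq₁M hq₂M, hq₁.add hq₂ hqq, fun ξ hξ => ?_, ?_⟩
  · rw [ha]
    exact (ha₁.conjugate_self he.isSelfAdjoint).add (ha₂.conjugate_self hu.isSelfAdjoint)
  · have := norm_three_le he hu hz heu hez huz (a := S.ι a₁) (b := S.ι a₂) (d := 0) (c := ‖x‖)
      ((final_norm_conj he _).trans ((S.norm_ι a₁).trans_le ha₁n))
      ((final_norm_conj hu _).trans ((S.norm_ι a₂).trans_le ha₂n)) (by simp)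
    rw [ha]
    simpa using this
  · have e1 : (1 - (q₁ + q₂)) ξ = (S.pr E - q₁) ξ + (S.pr U - q₂) ξ := by
      rw [← h1]
      simp only [sub_apply, add_apply, hZF ξ hξ]
      abel
    have e2 : ‖(S.pr E - q₁) ξ‖ ≤ δ / 3 := by
      have h2 := hq2 ξ
      have h3 : (⟪ξ, (b * b) ξ⟫_ℂ).re = ‖b ξ‖ ^ 2 := by
        rw [mul_apply_eq_comp, ← ContinuousLinearMap.adjoint_inner_left,
          ← ContinuousLinearMap.star_eq_adjoint, hbs.star_eq, inner_self_eq_norm_sq_to_K]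
        norm_cast
      have h4 : ‖b ξ‖ ^ 2 ≤ (c * (δ / 3)) ^ 2 := pow_le_pow_left₀ (norm_nonneg _) (hb2 ξ hξ) 2
      rw [h3] at h2
      rw [mul_pow] at h4
      exact (pow_le_pow_iff_left₀ (norm_nonneg _) (by positivity) two_ne_zero).1
        (le_of_mul_le_mul_left (h2.trans h4) (by positivity))
    have e3 := (hq3 ξ hξ).trans (min_le_left _ _)
    rw [e1]
    linarith [norm_add_le ((S.pr E - q₁) ξ) ((S.pr U - q₂) ξ)]
  · have k1 : (q₁ + q₂) * S.pr E = q₁ := by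
      rw [add_mul, hqe, ← hqu, mul_assoc, hue, mul_zero, add_zero]
    have k2 : (q₁ + q₂) * S.pr U = q₂ := by
      rw [add_mul, hqu, ← hqe, mul_assoc, heu, mul_zero, zero_add]
    have k3 : (q₁ + q₂) * S.pr Z = 0 := by
      rw [add_mul, ← hqu, ← hqe, mul_assoc, mul_assoc, hez, huz]; simp
    have k1' := final_swap (hq₁.add hq₂ hqq) he hq₁.isSelfAdjoint k1
    have k2' := final_swap (hq₁.add hq₂ hqq) hu hq₂.isSelfAdjoint k2
    have e1 : (q₁ + q₂) * (S.T f x - S.ι (cfn (E.indicator 1) * a₁ + cfn (U.indicator 1) * a₂)) *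
        (q₁ + q₂) = q₁ * (S.T f₁ x - S.ι a₁) * q₁ + q₂ * (S.T f₂ x - S.ι a₂) * q₂ + 0 * 0 * 0 := by
      rw [hT, ha]
      generalize q₁ + q₂ = q at *
      calc _ = q * S.pr E * (S.T f₁ x - S.ι a₁) * (S.pr E * q) +
            q * S.pr U * (S.T f₂ x - S.ι a₂) * (S.pr U * q) + q * S.pr Z * x * S.pr Z * q := by
            noncomm_ring
        _ = _ := by rw [k1, k2, k3, k1', k2']; simp
    rw [e1]
    refine norm_three_le hq₁ hq₂ (IsStarProjection.zero _) hqq (by simp) (by simp) ?_ ?_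
      (by simp; positivity)
    · have e2 : q₁ * (S.T f₁ x - S.ι a₁) * q₁ =
          q₁ * (S.pr E * (S.T f₁ x - S.ι a₁) * S.pr E - b) * q₁ + q₁ * (b * q₁) := by
        calc _ = q₁ * S.pr E * (S.T f₁ x - S.ι a₁) * (S.pr E * q₁) := by rw [hqe, heq]
          _ = _ := by noncomm_ring
      have e3 := (final_norm_conj hq₁ _).trans hb1
      have e4 : ‖q₁ * (b * q₁)‖ ≤ c := by
        calc _ ≤ ‖q₁‖ * ‖b * q₁‖ := norm_mul_le _ _
          _ ≤ 1 * c := by gcongr; exact hq₁.norm_le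
          _ = c := one_mul c
      have e5 := mul_le_mul_of_nonneg_right hc1 hs0.le
      rw [e2]
      refine (norm_add_le _ _).trans ?_
      linarith
    · have := min_le_right (δ / 3) (ε / 2 * ‖x‖)
      have h5 : 0 < ε * ‖x‖ := by positivity
      linarith

private theorem finb_conj {p : H →L[ℂ] H} (hp : IsStarProjection p) (z : H →L[ℂ] H) :
    ‖p * z * p‖ ≤ ‖z‖ :=
  calc ‖p * z * p‖ ≤ ‖p‖ * ‖z‖ * ‖p‖ := norm_mul₃_le
    _ ≤ 1 * ‖z‖ * 1 := by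
        gcongr
        exacts [hp.norm_le, hp.norm_le]
    _ = ‖z‖ := by rw [one_mul, mul_one]

private theorem finb_pq {p q : H →L[ℂ] H} (hp : IsStarProjection p) (hq : IsStarProjection q)
    (x : H →L[ℂ] H) : ‖p * (q * x * q) * p‖ ≤ ‖q * p * q‖ * ‖x‖ := by
  have h1 : star (p * q) = q * p := by
    rw [star_mul, hp.isSelfAdjoint.star_eq, hq.isSelfAdjoint.star_eq]
  have h2 : ‖q * p * q‖ = ‖p * q‖ * ‖p * q‖ := by
    rw [← CStarRing.norm_star_mul_self, h1, mul_assoc q p (p * q), ← mul_assoc p p,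
      hp.isIdempotentElem.eq, mul_assoc]
  have h3 : ‖q * p‖ = ‖p * q‖ := by rw [← h1, norm_star]
  calc ‖p * (q * x * q) * p‖ = ‖(p * q) * x * (q * p)‖ := by simp only [mul_assoc]
    _ ≤ ‖p * q‖ * ‖x‖ * ‖q * p‖ := norm_mul₃_le
    _ = _ := by rw [h2, h3]; ring

private theorem finb_T {κ : Type*} [Fintype κ] (P : X → κ) (U : Set X) (z : H →L[ℂ] H) :
    S.pr U * S.T P z * S.pr U = S.T P (S.pr U * z * S.pr U) := by
  have h1 := S.T_mul_ι P (cfn (U.indicator 1)) (S.pr U * z)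
  have h2 := S.T_ι_mul P (cfn (U.indicator 1)) z
  exact (congrArg (· * S.pr U) h2).symm.trans h1.symm

private theorem finb_num {ε : ℝ} (hε : 0 < ε) (hε1 : ε < 1) :
    4 ≤ Nat.ceil (25600000000 / ε ^ 2) ∧
      16000 / √(Nat.ceil (25600000000 / ε ^ 2) : ℕ) ≤ ε / 10 ∧ 1 ≤ Nat.ceil (10 / ε) ∧
      1 / (Nat.ceil (10 / ε) : ℝ) ≤ ε / 10 := by
  have h1 := Nat.le_ceil (25600000000 / ε ^ 2)
  have h2 := Nat.le_ceil (10 / ε)
  have h3 : ε ^ 2 ≤ 1 := by nlinarith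
  have h4 : (4 : ℝ) ≤ 25600000000 / ε ^ 2 := by
    rw [le_div_iff₀ (by positivity)]; linarith
  have h5 : 160000 / ε ≤ √(Nat.ceil (25600000000 / ε ^ 2) : ℕ) := by
    refine Real.le_sqrt_of_sq_le (le_trans (le_of_eq ?_) h1)
    rw [div_pow]; norm_num
  have h6 : 0 < 160000 / ε := by positivity
  have h7 : 0 < 10 / ε := by positivity
  refine ⟨by exact_mod_cast h4.trans h1, ?_, Nat.ceil_pos.2 h7, ?_⟩
  · calc _ ≤ 16000 / (160000 / ε) := div_le_div_of_nonneg_left (by norm_num) h6 h5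
      _ = _ := by field_simp; norm_num
  · calc _ ≤ 1 / (10 / ε) := div_le_div_of_nonneg_left (by norm_num) h7 h2
      _ = _ := by field_simp

/-- PROOF.  `x = 0` is trivial.  `κ = ε / 10`, `16000 / √r₁ ≤ κ`, `1 / r₂ ≤ κ`.  Add to `F` a vector `ζ`,
`‖ζ‖ ≤ 1`, with `‖x ζ‖ > (1 - κ / 2) ‖x‖`.  `exists_dec`, `Reg` (`f₁, a₁, b`; `‖b‖ ≤ (2 + κ) ‖x‖`), `ap_sing`
for the vectors `ξ`, `x (u ξ)` (`f₂, q`).  `y = x - [(1 - κ) b + (u x u - q x q) + z x z]`; the bracket is block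
diagonal of norm `≤ 2 ‖x‖` and small on `F`, so `(1 - κ) ‖x‖ ≤ ‖y‖ ≤ 3 ‖x‖`.
`T f y = [e T f₁ x e - (1 - κ) b] + T f₂ (q x q)`, `‖p q x q p‖ ≤ ‖q p q‖ ‖x‖ ≤ 2 κ ‖x‖`.  With
`a = (1 - κ) 1_E a₁`: `‖T f y - a‖ ≤ (κ + κ (2 + κ) + κ) ‖x‖ ≤ 5 κ ‖x‖ ≤ ε ‖y‖`. -/
theorem ap_final {ε : ℝ} (hε : 0 < ε) (hε1 : ε < 1) {x : H →L[ℂ] H} (hx : x ∈ S.M)
    (hs : IsSelfAdjoint x) (F : Finset H) {δ : ℝ} (hδ : 0 < δ) :
    ∃ y ∈ S.M, IsSelfAdjoint y ∧ ‖y‖ ≤ 3 * ‖x‖ ∧ (∀ ξ ∈ F, ‖(y - x) ξ‖ < δ) ∧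
      ∃ f : X → Fin (Nat.ceil (25600000000 / ε ^ 2) + Nat.ceil (10 / ε) + 1), IsLocallyConstant f ∧
        ∃ a : C(X, ℂ), IsSelfAdjoint (S.ι a) ∧ ‖S.ι a‖ ≤ ‖y‖ ∧ ‖S.T f y - S.ι a‖ ≤ ε * ‖y‖ := by
  classical
  rcases (norm_nonneg x).eq_or_lt with h0 | hN
  · have hx0 : x = 0 := norm_eq_zero.1 h0.symm
    subst hx0
    refine ⟨0, hx, hs, by simp, fun ξ _ => by simpa using hδ, fun _ => Fin.last _,
      IsLocallyConstant.const _, 0, by simp, by simp, ?_⟩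
    simp [T]
  obtain ⟨hr1, hr1', hr2, hr2'⟩ := finb_num hε hε1
  obtain ⟨κ, hκ⟩ : ∃ κ : ℝ, κ = ε / 10 := ⟨_, rfl⟩
  rw [← hκ] at hr1' hr2'
  have hκ0 : 0 < κ := by rw [hκ]; positivity
  have hκ1 : κ ≤ 1 / 10 := by rw [hκ]; linarith
  obtain ⟨ζ, hζ, hxζ⟩ := x.exists_lt_apply_of_lt_opNorm (r := (1 - κ / 2) * ‖x‖) (by nlinarith)
  obtain ⟨η, hη, hηκ, hηδ, hηN⟩ : ∃ η : ℝ, 0 < η ∧ η ≤ κ ∧ η * (2 + ‖x‖) < δ ∧
      η * (2 + ‖x‖) ≤ κ / 2 * ‖x‖ := by
    have hp : 0 < 2 + ‖x‖ := by positivity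
    refine ⟨min κ (min (δ / 2 / (2 + ‖x‖)) (κ / 2 * ‖x‖ / (2 + ‖x‖))), by positivity,
      min_le_left _ _, ?_, ?_⟩
    · refine lt_of_le_of_lt ?_ (half_lt_self hδ)
      rw [← le_div_iff₀ hp]
      exact (min_le_right _ _).trans (min_le_left _ _)
    · rw [← le_div_iff₀ hp]
      exact (min_le_right _ _).trans (min_le_right _ _)
  obtain ⟨E, U, Z, hE, hU, hZ, hEU, hEZ, hUZ, h1, hZ0, hReg, hSing⟩ := S.exists_dec (insert ζ F)
  obtain ⟨f₁, a₁, b, hf₁, ha₁, hna₁, hbM, hbs, heb, hTb, hb, hbG⟩ :=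
    hReg x hx hs _ hr1 (insert ζ F) η hη
  obtain ⟨f₂, q, hf₂, hqM, hq, huq, hqG, hqc⟩ := S.ap_sing hU hSing hr2
    (insert ζ F ∪ (insert ζ F).image fun ξ => x (S.pr U ξ)) hη
  obtain ⟨f, hf, hT⟩ := S.exists_glue hE hU hZ hEU hEZ hUZ h1 hf₁ hf₂
  have he := S.pr_proj hE
  have hu := S.pr_proj hU
  have hz := S.pr_proj hZ
  have heu := S.pr_mul_of_disjoint hE hU hEU
  have hez := S.pr_mul_of_disjoint hE hZ hEZ
  have huz := S.pr_mul_of_disjoint hU hZ hUZ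
  have hue := S.pr_mul_of_disjoint hU hE hEU.symm
  have hze := S.pr_mul_of_disjoint hZ hE hEZ.symm
  have hzu := S.pr_mul_of_disjoint hZ hU hUZ.symm
  have hTe := finb_T S f₁ E
  have hTu := finb_T S f₂ U
  have heM := S.pr_mem E
  have huM := S.pr_mem U
  have hzM := S.pr_mem Z
  have hea : S.pr E * S.ι a₁ = S.ι a₁ * S.pr E := S.pr_comm_ι E a₁
  obtain ⟨P, hP⟩ : ∃ P, S.ι P = S.pr E := ⟨_, rfl⟩
  generalize S.pr E = e at *
  generalize S.pr U = u at *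
  generalize S.pr Z = z at *
  have hee := he.isIdempotentElem.eq
  have huu := hu.isIdempotentElem.eq
  have hzz := hz.isIdempotentElem.eq
  have hbe : b * e = b := by
    have := congrArg star heb
    rwa [star_mul, hbs.star_eq, he.isSelfAdjoint.star_eq] at this
  have hqu : q * u = q := by
    have := congrArg star huq
    rwa [star_mul, hq.isSelfAdjoint.star_eq, hu.isSelfAdjoint.star_eq] at this
  have hb' : ‖e * (S.T f₁ x - S.ι a₁) * e - b‖ ≤ κ * ‖x‖ :=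
    hb.trans (mul_le_mul_of_nonneg_right hr1' hN.le)
  have hTx : ‖S.T f₁ x‖ ≤ ‖x‖ := S.norm_T_le hf₁ x
  have hι : ‖S.ι a₁‖ ≤ ‖x‖ := by rwa [S.norm_ι]
  have hnb : ‖b‖ ≤ (2 + κ) * ‖x‖ := by
    have h2 := norm_sub_norm_le b (e * (S.T f₁ x - S.ι a₁) * e)
    rw [norm_sub_rev] at h2
    have h3 := finb_conj he (S.T f₁ x - S.ι a₁)
    have h4 := norm_sub_le (S.T f₁ x) (S.ι a₁)
    linarith
  obtain ⟨t, ht⟩ : ∃ t : ℂ, t = ((1 - κ : ℝ) : ℂ) := ⟨_, rfl⟩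
  have hnt : ‖t‖ = 1 - κ := by
    rw [ht, Complex.norm_real, Real.norm_of_nonneg (by linarith)]
  have hts : IsSelfAdjoint t := by rw [ht]; exact Complex.conj_ofReal _
  have hebe : e * (t • b) * e = t • b := by
    rw [mul_smul_comm, smul_mul_assoc, heb, hbe]
  have huqu : u * (q * x * q) * u = q * x * q := by
    rw [← mul_assoc, ← mul_assoc, huq, mul_assoc _ q u, hqu]
  obtain ⟨W, hW⟩ : ∃ W, W = e * (t • b) * e + u * (x - q * x * q) * u + z * x * z := ⟨_, rfl⟩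
  have hWn : ‖W‖ ≤ 2 * ‖x‖ := by
    rw [hW]
    refine norm_three_le he hu hz heu hez huz ?_ ?_ ?_
    · rw [hebe, norm_smul, hnt]
      calc _ ≤ (1 - κ) * ((2 + κ) * ‖x‖) := mul_le_mul_of_nonneg_left hnb (by linarith)
        _ ≤ _ := by nlinarith [mul_pos hκ0 hN, mul_pos hκ0 (mul_pos hκ0 hN)]
    · have h2 := finb_conj hu (x - q * x * q)
      have h3 := norm_sub_le x (q * x * q)
      have h4 := finb_conj hq x
      linarith
    · linarith [finb_conj hz x]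
  have hWG : ∀ ξ ∈ insert ζ F, ‖W ξ‖ ≤ η * (2 + ‖x‖) := fun ξ hξ => by
    have h2 : W ξ = t • b ξ + ((u - q) (x (u ξ)) + (q * x) ((u - q) ξ)) := by
      have h3 : u * (x - q * x * q) * u = (u - q) * x * u + q * x * (u - q) := by
        rw [mul_sub u, sub_mul _ _ u, huqu]; noncomm_ring
      rw [hW, hebe, h3]
      simp [hZ0 ξ hξ]
    have h3 := hbG ξ hξ
    have h4 := hqG ξ (Finset.mem_union_left _ hξ)
    have h5 := hqG _ (Finset.mem_union_right _ (Finset.mem_image_of_mem _ hξ))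
    have h6 : ‖q * x‖ ≤ ‖x‖ := (norm_mul_le _ _).trans
      (mul_le_of_le_one_left hN.le hq.norm_le)
    have h7 : ‖(q * x) ((u - q) ξ)‖ ≤ ‖x‖ * η :=
      ((q * x).le_of_opNorm_le h6 _).trans (mul_le_mul_of_nonneg_left h4 hN.le)
    have h8 : ‖t • b ξ‖ ≤ η := by
      rw [norm_smul, hnt]; nlinarith [norm_nonneg (b ξ)]
    rw [h2]
    have h9 := norm_add_le (t • b ξ) ((u - q) (x (u ξ)) + (q * x) ((u - q) ξ))
    have h10 := norm_add_le ((u - q) (x (u ξ))) ((q * x) ((u - q) ξ))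
    linarith
  have hWs : IsSelfAdjoint W := by
    rw [hW]
    exact (((hts.smul hbs).conjugate_self he.isSelfAdjoint).add
      ((hs.sub (hs.conjugate_self hq.isSelfAdjoint)).conjugate_self hu.isSelfAdjoint)).add
      (hs.conjugate_self hz.isSelfAdjoint)
  have hWM : W ∈ S.M := by
    rw [hW]
    exact add_mem (add_mem (mul_mem (mul_mem heM (S.M.toStarSubalgebra.smul_mem hbM t)) heM)
      (mul_mem (mul_mem huM (sub_mem hx (mul_mem (mul_mem hqM hx) hqM))) huM))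
      (mul_mem (mul_mem hzM hx) hzM)
  have hlow : (1 - κ) * ‖x‖ ≤ ‖x - W‖ := by
    have h2 := hWG ζ (Finset.mem_insert_self _ _)
    have h3 : ‖(x - W) ζ‖ ≤ ‖x - W‖ :=
      ((x - W).le_opNorm ζ).trans (mul_le_of_le_one_right (norm_nonneg _) hζ.le)
    have h4 := norm_sub_norm_le (x ζ) (W ζ)
    rw [_root_.sub_apply] at h3
    linarith
  have blk : ∀ {p p' : H →L[ℂ] H} (w : H →L[ℂ] H), p * p' = 0 → p * (p' * w * p') * p = 0 := by
    intro p p' w h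
    rw [← mul_assoc, ← mul_assoc, h, zero_mul, zero_mul, zero_mul]
  have blk' : ∀ {p : H →L[ℂ] H} (w : H →L[ℂ] H), p * p = p → p * (p * w * p) * p = p * w * p := by
    intro p w h
    rw [← mul_assoc, ← mul_assoc, h, mul_assoc _ p p, h]
  have split : ∀ p : H →L[ℂ] H, p * (x - W) * p = p * x * p - (p * (e * (t • b) * e) * p +
      p * (u * (x - q * x * q) * u) * p + p * (z * x * z) * p) := fun p => by
    rw [hW]; simp only [mul_sub p, sub_mul _ _ p, mul_add p, add_mul _ _ p]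
  have hye : e * (x - W) * e = e * x * e - t • b := by
    rw [split, blk' _ hee, blk _ heu, blk _ hez, hebe, add_zero, add_zero]
  have hyu : u * (x - W) * u = q * x * q := by
    rw [split, blk' _ huu, blk _ hue, blk _ huz, zero_add, add_zero, mul_sub u, sub_mul _ _ u, huqu,
      sub_sub_cancel]
  have hyz : z * (x - W) * z = 0 := by
    rw [split, blk' _ hzz, blk _ hze, blk _ hzu, zero_add, zero_add, sub_self]
  have hιa : S.ι (t • (P * a₁)) = t • (e * S.ι a₁ * e) := by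
    rw [map_smul, map_mul, hP, mul_assoc, ← hea, ← mul_assoc, hee]
  refine ⟨x - W, sub_mem hx hWM, hs.sub hWs, by linarith [norm_sub_le x W], fun ξ hξ => ?_, f, hf,
    t • (P * a₁), ?_, ?_, ?_⟩
  · rw [sub_sub_cancel_left, _root_.neg_apply, norm_neg]
    exact (hWG ξ (Finset.mem_insert_of_mem hξ)).trans_lt hηδ
  · rw [hιa]
    exact hts.smul (ha₁.conjugate_self he.isSelfAdjoint)
  · rw [hιa, norm_smul, hnt]
    exact (mul_le_mul_of_nonneg_left ((finb_conj he _).trans hι) (by linarith)).trans hlow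
  · have h2 : S.T f (x - W) - S.ι (t • (P * a₁)) = t • (e * (S.T f₁ x - S.ι a₁) * e - b) +
        (κ : ℂ) • (e * S.T f₁ x * e) + S.T f₂ (q * x * q) := by
      rw [hT, hTe (x - W), hTu, hye, hyu, hyz, S.T_sub, S.T_smul, hTb, ← hTe, hιa, ht, mul_sub e,
        sub_mul _ _ e]
      push_cast
      module
    have h3 : ‖S.T f₂ (q * x * q)‖ ≤ 2 * κ * ‖x‖ := by
      refine S.norm_T_le_of hf₂ (by positivity) fun c => ?_
      refine (finb_pq (S.pr_proj (hf₂.isClopen_fiber c)) hq x).trans ?_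
      exact mul_le_mul_of_nonneg_right ((hqc c).trans (by linarith)) hN.le
    have h4 : ‖t • (e * (S.T f₁ x - S.ι a₁) * e - b)‖ ≤ κ * ‖x‖ := by
      rw [norm_smul, hnt]
      exact (mul_le_of_le_one_left (norm_nonneg _) (by linarith)).trans hb'
    have h5 : ‖(κ : ℂ) • (e * S.T f₁ x * e)‖ ≤ κ * ‖x‖ := by
      rw [norm_smul, Complex.norm_real, Real.norm_of_nonneg hκ0.le]
      exact mul_le_mul_of_nonneg_left ((finb_conj he _).trans hTx) hκ0.le
    rw [h2]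
    have h6 : ε = 10 * κ := by rw [hκ]; ring
    calc _ ≤ κ * ‖x‖ + κ * ‖x‖ + 2 * κ * ‖x‖ :=
          norm_add₃_le.trans (add_le_add (add_le_add h4 h5) h3)
      _ ≤ ε * ((1 - κ) * ‖x‖) := by
          rw [h6]; nlinarith [mul_pos hκ0 hN, mul_le_mul_of_nonneg_right hκ1 (mul_pos hκ0 hN).le]
      _ ≤ _ := mul_le_mul_of_nonneg_left hlow hε.le

end Masa

end Crest.Agent.R109
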