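import Crest.Agent.R109.FDefs

/-! Row 109: the abstract groupoid data.

In the application `X` is the spectrum of the MASA `A`, `Γ` a group of unitaries normalising `A`,
`c γ = E γ` (conditional expectation), `Δ` the Radon-Nikodym cocycle, `I` the state on `C(X)` and
`K γ γ' = E (γ* y γ')`.  At a point `w` the elements of `Γ` modulo `G.E w` form an orthonormal system
(up to phases) on which `y` acts by the matrix `K · · w`. -/

set_option autoImplicit false
set_option linter.unusedSectionVars false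

namespace Crest.Agent.R109

open scoped BigOperators ComplexConjugate Pointwise
open Function

/-- The groupoid data. -/
structure Gd (X : Type*) [TopologicalSpace X] (Γ : Type*) [Group Γ] where
  act : Γ → X → X
  act_one : ∀ w, act 1 w = w
  act_mul : ∀ g h w, act (g * h) w = act g (act h w)
  act_cont : ∀ g, Continuous (act g)
  c : Γ → X → ℂ
  c_cont : ∀ g, Continuous (c g)
  c_norm : ∀ g w, c g w ≠ 0 → ‖c g w‖ = 1
  c_one : ∀ w, c 1 w = 1
  c_fix : ∀ h w, c h w ≠ 0 → act h w = w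
  c_mul : ∀ g h w, c h w ≠ 0 → c (g * h) w = c g w * c h w
  c_inv : ∀ g w, c g⁻¹ w = conj (c g w)
  c_conj : ∀ g h w, c (g * h * g⁻¹) (act g w) = c h w
  Δ : Γ → X → ℝ
  Δ_cont : ∀ g, Continuous (Δ g)
  Δ_pos : ∀ g w, 0 < Δ g w
  Δ_mul : ∀ g h w, Δ (g * h) w = Δ g (act h w) * Δ h w
  Δ_fix : ∀ h w, c h w ≠ 0 → Δ h w = 1
  I : (X → ℝ) → ℝ
  I_add : ∀ F F' : X → ℝ, Continuous F → Continuous F' → I (fun w => F w + F' w) = I F + I F'
  I_smul : ∀ (t : ℝ) (F : X → ℝ), Continuous F → I (fun w => t * F w) = t * I F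
  I_mono : ∀ F F' : X → ℝ, Continuous F → Continuous F' → (∀ w, F w ≤ F' w) → I F ≤ I F'
  I_one : I (fun _ => 1) ≤ 1
  I_tr : ∀ (g : Γ) (F : X → ℝ), Continuous F → I F = I fun w => F (act g w) * Δ g w

variable {X : Type*} [TopologicalSpace X] {Γ : Type*} [Group Γ] [DecidableEq Γ]

/-- A finite symmetric set containing `1`. -/
structure Sym (Γ₀ : Finset Γ) : Prop where
  one : (1 : Γ) ∈ Γ₀
  inv : ∀ g ∈ Γ₀, g⁻¹ ∈ Γ₀

namespace Gd

variable (G : Gd X Γ)

/-- `γ` and `γ'` have the same germ at `w`. -/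
def E (w : X) (γ γ' : Γ) : Prop := G.c (γ⁻¹ * γ') w ≠ 0

theorem E_refl (w : X) (γ : Γ) : G.E w γ γ := by simp [E, G.c_one]

variable {G}

theorem E.symm {w : X} {γ γ' : Γ} (h : G.E w γ γ') : G.E w γ' γ := by
  have := G.c_inv (γ⁻¹ * γ') w
  simp only [mul_inv_rev, inv_inv] at this
  simpa [E, this] using h

theorem E.trans {w : X} {γ γ' γ'' : Γ} (h : G.E w γ γ') (h' : G.E w γ' γ'') : G.E w γ γ'' := by
  have := G.c_mul (γ⁻¹ * γ') (γ'⁻¹ * γ'') w h'
  rw [show γ⁻¹ * γ' * (γ'⁻¹ * γ'') = γ⁻¹ * γ'' by group] at this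
  unfold E
  rw [this]
  exact mul_ne_zero h h'

theorem E_mul_left {w : X} (g γ γ' : Γ) : G.E w (g * γ) (g * γ') ↔ G.E w γ γ' := by
  simp [E, mul_assoc]

theorem E_mul_right {w : X} (g γ γ' : Γ) : G.E w (γ * g) (γ' * g) ↔ G.E (G.act g w) γ γ' := by
  have := G.c_conj g ((γ * g)⁻¹ * (γ' * g)) w
  rw [show g * ((γ * g)⁻¹ * (γ' * g)) * g⁻¹ = γ⁻¹ * γ' by group] at this
  simp only [E, this]

theorem E.act_eq {w : X} {γ γ' : Γ} (h : G.E w γ γ') : G.act γ w = G.act γ' w := by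
  have := congrArg (G.act γ) (G.c_fix _ _ h)
  rw [← G.act_mul, mul_inv_cancel_left] at this
  exact this.symm

theorem E.Δ_eq {w : X} {γ γ' : Γ} (h : G.E w γ γ') : G.Δ γ w = G.Δ γ' w := by
  have := G.Δ_mul γ (γ⁻¹ * γ') w
  rw [mul_inv_cancel_left, G.c_fix _ _ h, G.Δ_fix _ _ h, mul_one] at this
  exact this.symm

variable (G)

theorem Δ_one (w : X) : G.Δ 1 w = 1 := G.Δ_fix 1 w (by simp [G.c_one])

/-- Pairwise different germs. -/
def Free (w : X) (s : Finset Γ) : Prop := ∀ γ ∈ s, ∀ γ' ∈ s, G.E w γ γ' → γ = γ'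

/-- Every element of `B` has the germ of an element of `s`. -/
def Cov (w : X) (s B : Finset Γ) : Prop := ∀ g ∈ B, ∃ γ ∈ s, G.E w γ g

/-- Functions of the germ. -/
def Resp {β : Type*} (w : X) (α : Γ → β) : Prop := ∀ γ γ', G.E w γ γ' → α γ = α γ'

theorem exists_fam (B : Finset Γ) (w : X) :
    ∃ s : Finset Γ, s ⊆ insert 1 B ∧ 1 ∈ s ∧ G.Free w s ∧ G.Cov w s B := by
  classical
  obtain ⟨s, hs, hmax⟩ := Finset.exists_max_image
    ((insert 1 B).powerset.filter fun s => 1 ∈ s ∧ G.Free w s) Finset.card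
    ⟨{1}, by simp [Free]⟩
  simp only [Finset.mem_filter, Finset.mem_powerset] at hs hmax
  refine ⟨s, hs.1, hs.2.1, hs.2.2, fun g hg => ?_⟩
  by_contra hn
  push Not at hn
  have hgs : g ∉ s := fun h => hn g h (G.E_refl w g)
  have := hmax (insert g s) ⟨Finset.insert_subset (Finset.mem_insert_of_mem hg) hs.1,
    Finset.mem_insert_of_mem hs.2.1, ?_⟩
  · rw [Finset.card_insert_of_notMem hgs] at this; omega
  · intro a ha b hb hab
    rcases Finset.mem_insert.mp ha with ha | ha <;> rcases Finset.mem_insert.mp hb with hb | hb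
    · rw [ha, hb]
    · exact (hn b hb (ha ▸ hab.symm)).elim
    · exact (hn a ha (hb ▸ hab)).elim
    · exact hs.2.2 a ha b hb hab

/-- A system of representatives of the germs at `w` of the elements of `B`, containing `1`. -/
noncomputable def fam (B : Finset Γ) (w : X) : Finset Γ := (G.exists_fam B w).choose

theorem fam_subset {B : Finset Γ} (hB : 1 ∈ B) (w : X) : G.fam B w ⊆ B := by
  have : G.fam B w ⊆ insert 1 B := (G.exists_fam B w).choose_spec.1
  rwa [Finset.insert_eq_of_mem hB] at this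

theorem one_mem_fam (B : Finset Γ) (w : X) : 1 ∈ G.fam B w := (G.exists_fam B w).choose_spec.2.1

theorem fam_free (B : Finset Γ) (w : X) : G.Free w (G.fam B w) :=
  (G.exists_fam B w).choose_spec.2.2.1

theorem fam_cov (B : Finset Γ) (w : X) : G.Cov w (G.fam B w) B :=
  (G.exists_fam B w).choose_spec.2.2.2

/-- The kernel of a self-adjoint contraction with zero diagonal and propagation in `Γ₀`. -/
structure Ker (Γ₀ : Finset Γ) (K : Γ → Γ → X → ℂ) : Prop where
  cont : ∀ γ γ', Continuous (K γ γ')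
  herm : ∀ γ γ' w, K γ' γ w = conj (K γ γ' w)
  shift : ∀ γ γ' g w, K (γ * g) (γ' * g) w = K γ γ' (G.act g w)
  phase : ∀ γ γ' h w, G.c h w ≠ 0 → K γ (γ' * h) w = K γ γ' w * G.c h w
  diag : ∀ γ w, K γ γ w = 0
  supp : ∀ γ γ' w, K γ γ' w ≠ 0 → ∃ g ∈ Γ₀, G.E w γ (g * γ')
  ctr : ∀ (w : X) (s : Finset Γ), G.Free w s → Ctr fun i j : s => K i j w

/-- Classes separating the germs in `B`; the class `0` is exceptional. -/
structure Cls (B : Finset Γ) (cls : X → ℕ) : Prop where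
  lc : IsLocallyConstant cls
  sep : ∀ γ ∈ B, ∀ w, cls w ≠ 0 → cls (G.act γ w) = cls w → G.c γ w ≠ 0
  sgn : ∀ γ ∈ B, IsLocallyConstant fun w => if cls w = 0 then 0 else SignType.sign (G.Δ γ w - 1)

variable {C : Type} [Fintype C] [DecidableEq C]

/-- The local moment at the germ `i ∈ s` of the model on the family `s`. -/
noncomputable def md (K : Γ → Γ → X → ℂ) (w : X) (s : Finset Γ) (α : Γ → ℝ) (σ : Γ → Option C)
    (i : s) (n : ℕ) : ℝ :=
  mom (fun i j : s => K i j w) (fun i => σ i) (fun i => α i) i n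

/-- The local moment at the root. -/
noncomputable def mm (Γ₀ : Finset Γ) (K : Γ → Γ → X → ℂ) (n : ℕ) (w : X) (α : Γ → ℝ)
    (σ : Γ → Option C) : ℝ :=
  md K w (G.fam (Γ₀ ^ n) w) α σ ⟨1, G.one_mem_fam _ w⟩ n

open Classical in
/-- The sum over the germs at `w` of the elements of `B`. -/
noncomputable def SB (B : Finset Γ) (w : X) (φ : Γ → ℝ) : ℝ :=
  ∑ γ ∈ B, φ γ / (B.filter fun γ' => G.E w γ γ').card

/-- The amplitudes. -/
noncomputable def amp (cls : X → ℕ) (σ : X → Option C) (w : X) : ℝ :=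
  if cls w = 0 then 0 else if σ w = none then cA else 1

/-- The weights at the point `w`. -/
noncomputable def al (cls : X → ℕ) (N : ℕ) (σ : X → Option C) (w : X) (γ : Γ) : ℝ :=
  G.Δ γ w ^ (N : ℝ)⁻¹ * amp cls σ (G.act γ w)

/-- The density of the potential. -/
noncomputable def den (Γ₀ : Finset Γ) (K : Γ → Γ → X → ℂ) (cls : X → ℕ) (N : ℕ) (σ : X → Option C)
    (w : X) : ℝ :=
  G.mm Γ₀ K N w (G.al cls N σ w) fun γ => σ (G.act γ w)

/-- The potential. -/
noncomputable def Psi (Γ₀ : Finset Γ) (K : Γ → Γ → X → ℂ) (cls : X → ℕ) (N : ℕ)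
    (σ : X → Option C) : ℝ :=
  G.I (G.den Γ₀ K cls N σ)

end Gd

end Crest.Agent.R109
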