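import Crest.Agent.R109.GLoc
import Crest.Agent.R109.FinT

/-! Row 109: the initial value of the potential. -/

set_option autoImplicit false
set_option linter.unusedSectionVars false

namespace Crest.Agent.R109

open scoped BigOperators ComplexConjugate Pointwise
open Function

variable {X : Type*} [TopologicalSpace X] {Γ : Type*} [Group Γ] [DecidableEq Γ] {G : Gd X Γ}
  {Γ₀ : Finset Γ} {K : Γ → Γ → X → ℂ} {C : Type} [Fintype C] [DecidableEq C] [Nonempty C]

theorem gia_telescope {ι κ : Type*} [DecidableEq ι] [LinearOrder κ] (t : Finset ι) (key : ι → κ)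
    (hk : Set.InjOn key t) (F : Finset ι → ℝ) :
    ∑ i ∈ t, (F (t.filter fun j => key j ≤ key i) - F (t.filter fun j => key j < key i))
      = F t - F ∅ := by
  induction t using Finset.induction_on_max_value key with
  | empty => simp
  | insert a s ha hmax ih =>
    have hlt : ∀ x ∈ s, key x < key a := fun x hx => lt_of_le_of_ne (hmax x hx) fun e =>
      ha (hk (Finset.mem_insert_of_mem hx) (Finset.mem_insert_self a s) e ▸ hx)
    have h1 : ∀ i ∈ s, F ((insert a s).filter fun j => key j ≤ key i) -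
        F ((insert a s).filter fun j => key j < key i) =
        F (s.filter fun j => key j ≤ key i) - F (s.filter fun j => key j < key i) := fun i hi => by
      rw [Finset.filter_insert, Finset.filter_insert, if_neg (not_le.2 (hlt i hi)),
        if_neg (not_lt.2 (hmax i hi))]
    rw [Finset.sum_insert ha, Finset.sum_congr rfl h1, ih (hk.mono (by simp)),
      Finset.filter_insert, Finset.filter_insert, if_pos le_rfl, if_neg (lt_irrefl _),
      Finset.filter_true_of_mem hmax, Finset.filter_true_of_mem hlt]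
    ring

namespace Gd

/-- Comparison of keys. -/
def giaP (R : ℕ → ℕ → Prop) (x y : ℝ) (n m : ℕ) : Prop := m ≠ 0 ∧ (x < y ∨ x = y ∧ R n m)

open Classical in
/-- The weights cut off at the key of `γ`. -/
noncomputable def giaCut (G : Gd X Γ) (C : Type) (cls : X → ℕ) (N : ℕ) (R : ℕ → ℕ → Prop) (w : X)
    (γ g : Γ) : ℝ :=
  if giaP R (G.Δ g w) (G.Δ γ w) (cls (G.act g w)) (cls (G.act γ w)) then
    G.al cls N (fun _ => (none : Option C)) w g else 0

variable {cls : X → ℕ} {N : ℕ} {R : ℕ → ℕ → Prop}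

theorem gia_resp (w : X) (γ : Γ) : G.Resp w (G.giaCut C cls N R w γ) :=
  fun _ _ h => by rw [giaCut, giaCut, al, al, h.act_eq, h.Δ_eq]

theorem gia_resp' {w : X} {γ γ' : Γ} (h : G.E w γ γ') (R : ℕ → ℕ → Prop) :
    G.giaCut C cls N R w γ = G.giaCut C cls N R w γ' :=
  funext fun _ => by rw [giaCut, giaCut, h.act_eq, h.Δ_eq]

theorem gia_zero {w : X} {γ : Γ} (h : cls (G.act γ w) = 0) (R : ℕ → ℕ → Prop) :
    G.giaCut C cls N R w γ = fun _ => 0 :=
  funext fun _ => if_neg fun h' => h'.1 h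

theorem gia_cont (hΓ : Sym Γ₀) (hc : G.Cls (Γ₀ ^ (2 * N)) cls) {γ g : Γ} (hγ : γ ∈ Γ₀ ^ N)
    (hg : g ∈ Γ₀ ^ N) : Continuous fun w => G.giaCut C cls N R w γ g := by
  classical
  have h1 := mul_mem_pow_add hg ((hΓ.pow N).inv γ hγ)
  rw [← two_mul] at h1
  have h2 := (((hc.sgn _ h1).comp_continuous (G.act_cont γ)).prodMk
    ((hc.lc.comp_continuous (G.act_cont g)).prodMk (hc.lc.comp_continuous (G.act_cont γ)))).comp
    fun p : SignType × ℕ × ℕ => if p.2.2 ≠ 0 ∧ (p.1 = -1 ∨ p.1 = 0 ∧ R p.2.1 p.2.2) then (1 : ℝ)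
      else 0
  refine (h2.continuous.mul (continuous_al (G := G) hc.lc N (σ := fun _ => (none : Option C))
    (IsLocallyConstant.const _) g)).congr fun w => ?_
  have h3 := G.Δ_mul (g * γ⁻¹) γ w
  rw [inv_mul_cancel_right] at h3
  have h4 := G.Δ_pos γ w
  simp only [giaCut, Function.comp_apply, Pi.mul_apply, ite_mul, one_mul, zero_mul]
  refine if_congr (and_congr_right fun h0 => ?_) rfl rfl
  rw [if_neg h0, sign_eq_neg_one_iff, sign_eq_zero_iff, h3, mul_lt_iff_lt_one_left h4,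
    mul_eq_right₀ h4.ne', sub_neg, sub_eq_zero]

theorem gia_mul (v : X) (h g γ : Γ) : G.giaCut C cls N R v (h * γ) (g * γ) =
    G.Δ γ v ^ (N : ℝ)⁻¹ * G.giaCut C cls N R (G.act γ v) h g := by
  classical
  have h4 := G.Δ_pos γ v
  rw [giaCut, giaCut, al_mul, mul_ite, mul_zero]
  refine if_congr ?_ rfl rfl
  simp only [giaP, G.act_mul, G.Δ_mul, mul_lt_mul_iff_left₀ h4, mul_left_inj' h4.ne']

theorem gia_sum (hΓ : Sym Γ₀) (hN : 1 ≤ N) (hc : G.Cls (Γ₀ ^ (2 * N)) cls) (w : X) :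
    (G.SB (Γ₀ ^ N) w fun γ =>
      G.mm Γ₀ K N w (G.giaCut C cls N (· ≤ ·) w γ) (fun _ => (none : Option C)) -
        G.mm Γ₀ K N w (G.giaCut C cls N (· < ·) w γ) fun _ => (none : Option C)) =
      G.den Γ₀ K cls N (fun _ => (none : Option C)) w := by
  classical
  have hsub := G.fam_subset (hΓ.pow N).one w
  have h0 : ∀ g, cls (G.act g w) = 0 → G.al cls N (fun _ => (none : Option C)) w g = 0 :=
    fun g hg => by simp only [al, amp, hg, if_true, mul_zero]
  rw [SB_eq_sum (G.fam_free _ w) (G.fam_cov _ w) (fun γ γ' h => by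
      simp only [gia_resp' h]),
    Finset.filter_true_of_mem fun i hi => ⟨i, hsub hi, G.E_refl w i⟩,
    ← Finset.sum_filter_of_ne (p := fun i => cls (G.act i w) ≠ 0) fun i _ hi h => hi (by
      simp only [gia_zero h, sub_self])]
  have h1 := gia_telescope ((G.fam (Γ₀ ^ N) w).filter fun i => cls (G.act i w) ≠ 0)
    (fun γ => toLex (G.Δ γ w, cls (G.act γ w)))
    (fun i hi j hj e => by
      rw [Finset.mem_coe, Finset.mem_filter] at hi hj
      exact G.fam_free _ w i hi.1 j hj.1 (hc.E_of_eq hΓ (hsub hi.1) (hsub hj.1) hi.2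
        (congrArg (fun p => (ofLex p).2) e).symm))
    fun u => G.mm Γ₀ K N w
      (fun g => if g ∈ u then G.al cls N (fun _ => (none : Option C)) w g else 0)
      fun _ => (none : Option C)
  rw [mm_of_zero hN w (α := fun g => if g ∈ (∅ : Finset Γ) then _ else 0) (by simp), sub_zero] at h1
  refine (Finset.sum_congr rfl fun i hi => ?_).trans (h1.trans ?_)
  · have hi0 := (Finset.mem_filter.1 hi).2
    refine congrArg₂ (· - ·) ?_ ?_ <;>
    · refine congrArg (fun a => mom _ _ a _ N) (funext fun j => ?_)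
      by_cases hj : cls (G.act j w) = 0
      · simp [giaCut, h0 j hj]
      · simp [giaCut, giaP, hi0, hj, Prod.Lex.toLex_le_toLex, Prod.Lex.toLex_lt_toLex]
  · refine congrArg (fun a => mom _ _ a _ N) (funext fun j => ?_)
    by_cases hj : cls (G.act j w) = 0
    · simp [h0 j hj]
    · simp [hj]

theorem gia_eq (hc : G.Cls (Γ₀ ^ (2 * N)) cls) {v : X} {γ : Γ} (hγ : γ ∈ Γ₀ ^ (2 * N))
    (hE : ¬ G.E v 1 γ) : G.giaCut C cls N (· < ·) v 1 γ = G.giaCut C cls N (· ≤ ·) v 1 γ := by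
  classical
  rw [giaCut, giaCut, G.act_one]
  refine if_congr (and_congr_right fun h0 => or_congr_right (and_congr_right fun _ =>
    ⟨le_of_lt, fun h => lt_of_le_of_ne h fun e => hE ?_⟩)) rfl rfl
  simpa [E] using hc.sep γ hγ v h0 e

theorem gia_le (v : X) (g : Γ) :
    0 ≤ G.giaCut C cls N R v 1 g ∧ G.giaCut C cls N R v 1 g ≤ cA := by
  have hA : 0 ≤ cA := by norm_num [cA]
  unfold giaCut
  split_ifs with h
  · refine ⟨al_nonneg _ _ _ _ _, ?_⟩
    have h1 : G.Δ g v ≤ 1 := G.Δ_one v ▸ h.2.elim le_of_lt fun e => e.1.le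
    have h2 := Real.rpow_le_one (G.Δ_pos g v).le h1 (z := (N : ℝ)⁻¹) (by positivity)
    simp only [al, amp, if_true]
    split_ifs
    · simpa using hA
    · exact mul_le_of_le_one_left hA h2
  · exact ⟨le_rfl, hA⟩

theorem gia_dinit (hΓ : Sym Γ₀) (hK : G.Ker Γ₀ K) (hr : 4 ≤ Fintype.card C) {N : ℕ} (hN : 2 ≤ N)
    {cls : X → ℕ} (hc : G.Cls (Γ₀ ^ (2 * N)) cls) :
    G.Psi Γ₀ K cls N (fun _ => (none : Option C)) ≤ 2 * (24 * cA / √(Fintype.card C)) ^ N := by
  classical
  have hA : 0 < cA := by norm_num [cA]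
  have hm : ∀ R : ℕ → ℕ → Prop, ∀ γ ∈ Γ₀ ^ N, Continuous fun w =>
      G.mm Γ₀ K N w (G.giaCut C cls N R w γ) fun _ => (none : Option C) := fun R γ hγ =>
    continuous_mm hΓ hK (fun w => gia_resp w γ) (fun _ _ _ _ => rfl)
      (fun g hg => gia_cont hΓ hc hγ hg) fun _ _ => IsLocallyConstant.const _
  rw [Psi, ← funext (gia_sum (K := K) (C := C) hΓ (by omega) hc),
    mtp (hΓ.pow N) (φ := fun w γ =>
      G.mm Γ₀ K N w (G.giaCut C cls N (· ≤ ·) w γ) (fun _ => (none : Option C)) -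
        G.mm Γ₀ K N w (G.giaCut C cls N (· < ·) w γ) fun _ => (none : Option C))
      fun γ hγ => (hm _ γ hγ).sub (hm _ γ hγ)]
  refine (G.I_mono _ _ (continuous_SB fun γ hγ => (((hm _ _ ((hΓ.pow N).inv γ hγ)).sub
    (hm _ _ ((hΓ.pow N).inv γ hγ))).comp (G.act_cont γ)).mul (G.Δ_cont γ)) continuous_const
    fun v => ?_).trans (I_const_le (by positivity))
  have hsub := G.fam_subset (hΓ.pow (2 * N)).one v
  have h1 := sum_md_sub hΓ hK N v (α := G.giaCut C cls N (· < ·) v 1)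
    (α' := G.giaCut C cls N (· ≤ ·) v 1) (σ := fun _ => (none : Option C))
    (σ' := fun _ => (none : Option C)) (gia_resp v 1) (gia_resp v 1) (fun _ _ _ => rfl)
    (fun _ _ _ => rfl) fun γ hγ hE => ⟨gia_eq hc hγ hE, rfl⟩
  have h2 := init_fin (I := G.fam (Γ₀ ^ (2 * N)) v) (C := C) (hK.hz v _)
    (hK.ctr v _ (G.fam_free _ v)) hr
    hA (a := fun i => G.giaCut C cls N (· ≤ ·) v 1 i) (fun i => gia_le v i.1)
    ⟨1, G.one_mem_fam _ v⟩ hN
  have h3 : update (fun i : G.fam (Γ₀ ^ (2 * N)) v => G.giaCut C cls N (· ≤ ·) v 1 i)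
      ⟨1, G.one_mem_fam _ v⟩ 0 = fun i : G.fam (Γ₀ ^ (2 * N)) v =>
        G.giaCut C cls N (· < ·) v 1 i := by
    funext i
    by_cases hi : i = ⟨1, G.one_mem_fam _ v⟩
    · rw [hi, update_self]
      simp [giaCut, giaP]
    · rw [update_of_ne hi, gia_eq hc (hsub i.2) fun h =>
        hi (Subtype.ext (G.fam_free _ v 1 (G.one_mem_fam _ v) i i.2 h).symm)]
  rw [h3] at h2
  refine le_trans (le_of_eq ?_) (h1.symm.le.trans h2)
  congr 1
  funext γ
  have h4 : ∀ R g, G.giaCut C cls N R v 1 (g * γ) =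
      G.Δ γ v ^ (N : ℝ)⁻¹ * G.giaCut C cls N R (G.act γ v) γ⁻¹ g := fun R g => by
    rw [← gia_mul, inv_mul_cancel]
  simp only [h4, mm_smul, Real.rpow_inv_natCast_pow (G.Δ_pos γ v).le (by omega : N ≠ 0),
    Pi.mul_apply, Pi.sub_apply, Function.comp_apply]
  ring

end Gd

end Crest.Agent.R109
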