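import Crest.Agent.R109.GLoc
import Crest.Agent.R109.FinT
import Crest.Agent.R109.GInitAuxA

/-! Row 109: the initial and the final value of the potential. -/

set_option autoImplicit false
set_option linter.unusedSectionVars false

namespace Crest.Agent.R109

open scoped BigOperators ComplexConjugate Pointwise
open Function

variable {X : Type*} [TopologicalSpace X] [CompactSpace X] [T2Space X] [TotallyDisconnectedSpace X]
  {Γ : Type*} [Group Γ] [DecidableEq Γ] {G : Gd X Γ} {Γ₀ : Finset Γ} {K : Γ → Γ → X → ℂ}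
  {C : Type} [Fintype C] [DecidableEq C] [Nonempty C]

/-- Telescoping along an injective key (induction on `t`, removing the largest key). -/
theorem telescope {ι κ : Type*} [DecidableEq ι] [LinearOrder κ] (t : Finset ι) (key : ι → κ)
    (hk : Set.InjOn key t) (F : Finset ι → ℝ) :
    ∑ i ∈ t, (F (t.filter fun j => key j ≤ key i) - F (t.filter fun j => key j < key i))
      = F t - F ∅ :=
  gia_telescope t key hk F

namespace Gd

/-- PROOF.  `key w γ = toLex (Δ γ w, cls (act γ w))`, `a = al cls N none`, `B = Γ₀ ^ N`.  Put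
`a₁ w γ g = if cls (act γ w) ≠ 0 ∧ key w g ≤ key w γ then a w g else 0`, `a₂` the same with `<`, and
`φ w γ = mm N w (a₁ w γ) none - mm N w (a₂ w γ) none`.  These are continuous in `w` for `γ, g ∈ B`
(`sgn` for `g * γ⁻¹` at `act γ w`: `Δ g w = Δ (g * γ⁻¹) (act γ w) * Δ γ w`; `continuous_mm`).
`SB B w (φ w) = den w` by `SB_eq_sum` on `fam B w` and `telescope` over the elements of nonzero class
(keys are injective by `Cls.E_of_eq`; `mom_of_zero`).  `mtp`; with `b₁ = a₁ v 1`, `b₂ = a₂ v 1`: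
`φ (act γ v) γ⁻¹ * Δ γ v = mm N (act γ v) (b₁ (· * γ)) none - mm N (act γ v) (b₂ (· * γ)) none`
(`al_mul`, `mm_smul`; `key (act γ v) g ≤ key (act γ v) γ⁻¹ ↔ key v (g * γ) ≤ key v 1`).  `b₁ = b₂` at
the elements of `Γ₀ ^ (2 N)` not equivalent to `1` (`sep`), `b₂ 1 = 0`, `0 ≤ b₁ ≤ cA`; `sum_md_sub`,
`init_fin`. -/
theorem dinit (hΓ : Sym Γ₀) (hK : G.Ker Γ₀ K) (hr : 4 ≤ Fintype.card C) {N : ℕ} (hN : 2 ≤ N)
    {cls : X → ℕ} (hc : G.Cls (Γ₀ ^ (2 * N)) cls) :
    G.Psi Γ₀ K cls N (fun _ => (none : Option C)) ≤ 2 * (24 * cA / √(Fintype.card C)) ^ N :=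
  gia_dinit hΓ hK hr hN hc

private theorem dfinal_entry {I : Type*} [Fintype I] [DecidableEq I] {Y : I → I → ℂ} (h : HZ Y)
    (hc : Ctr Y) (i j : I) : ‖Y i j‖ ≤ 1 := by
  by_cases hij : i = j
  · rw [hij, h.diag]; simp
  have h1 := hc (fun k => if k = i then 1 else if k = j then conj (Y i j) else 0)
  have e : ∀ F : I → ℂ, (∀ k, k ≠ i → k ≠ j → F k = 0) → ∑ k, F k = F i + F j := fun F hF =>
    Finset.sum_eq_add_of_mem i j (Finset.mem_univ _) (Finset.mem_univ _) hij
      fun k _ hk => hF k hk.1 hk.2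
  have e' : ∀ F : I → ℝ, (∀ k, k ≠ i → k ≠ j → F k = 0) → ∑ k, F k = F i + F j := fun F hF =>
    Finset.sum_eq_add_of_mem i j (Finset.mem_univ _) (Finset.mem_univ _) hij
      fun k _ hk => hF k hk.1 hk.2
  rw [e _ fun k h1 h2 => by simp [h1, h2], e _ fun k h1 h2 => by simp [h1, h2],
    e _ fun k h1 h2 => by simp [h1, h2], e' _ fun k h1 h2 => by simp [h1, h2]] at h1
  simp only [if_true, if_neg (Ne.symm hij), map_one, h.diag, h.herm i j, Complex.conj_conj,
    mul_zero, zero_mul, mul_one, one_mul, zero_add, add_zero, Complex.mul_conj, norm_one,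
    Complex.norm_conj, ← Complex.ofReal_add, Complex.norm_real, Complex.normSq_eq_norm_sq,
    Real.norm_eq_abs] at h1
  have h2 := (le_abs_self _).trans h1
  nlinarith [norm_nonneg (Y i j)]

private theorem dfinal_pow {I : Type*} [Fintype I] [DecidableEq I] {A B : Matrix I I ℂ} {n κ : ℝ}
    (hκ : 0 ≤ κ) (hn : (Fintype.card I : ℝ) ≤ n) (hB : ∀ i j, ‖B i j‖ ≤ 1)
    (hA : ∀ i j, ‖A i j - B i j‖ ≤ κ) (k : ℕ) :
    (∀ i j, ‖(B ^ k) i j‖ ≤ n ^ k) ∧
      ∀ i j, ‖(A ^ k) i j - (B ^ k) i j‖ ≤ n ^ k * ((1 + κ) ^ k - 1) := by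
  have hn0 : 0 ≤ n := (Nat.cast_nonneg _).trans hn
  have hs : ∀ (F : I → ℂ) (t : ℝ), 0 ≤ t → (∀ l, ‖F l‖ ≤ t) → ‖∑ l, F l‖ ≤ n * t := by
    intro F t ht hF
    refine (norm_sum_le _ _).trans ((Finset.sum_le_card_nsmul _ _ t fun l _ => hF l).trans ?_)
    rw [Finset.card_univ, nsmul_eq_mul]
    exact mul_le_mul_of_nonneg_right hn ht
  induction k with
  | zero =>
    refine ⟨fun i j => ?_, fun i j => by simp⟩
    rw [pow_zero, pow_zero, Matrix.one_apply]
    split_ifs <;> simp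
  | succ k ih =>
    have h1 : 0 ≤ (1 + κ) ^ k - 1 := sub_nonneg.2 (one_le_pow₀ (by linarith))
    refine ⟨fun i j => ?_, fun i j => ?_⟩
    · rw [pow_succ, Matrix.mul_apply, pow_succ']
      refine hs _ _ (by positivity) fun l => ?_
      rw [norm_mul]
      exact (mul_le_of_le_one_right (norm_nonneg _) (hB l j)).trans (ih.1 i l)
    · rw [pow_succ, pow_succ B, Matrix.mul_apply, Matrix.mul_apply, ← Finset.sum_sub_distrib]
      refine (hs _ (n ^ k * ((1 + κ) ^ k - 1) * (1 + κ) + n ^ k * κ) (by positivity)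
        fun l => ?_).trans (le_of_eq (by ring))
      have e : (A ^ k) i l * A l j - (B ^ k) i l * B l j =
          ((A ^ k) i l - (B ^ k) i l) * A l j + (B ^ k) i l * (A l j - B l j) := by ring
      have h2 : ‖A l j‖ ≤ 1 + κ := by
        linarith [norm_le_norm_add_norm_sub' (A l j) (B l j), hA l j, hB l j]
      rw [e]
      refine (norm_add_le _ _).trans ?_
      rw [norm_mul, norm_mul]
      gcongr
      · exact ih.2 i l
      · exact ih.1 i l
      · exact hA l j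

private theorem dfinal_root (G : Gd X Γ) (B : Finset Γ) {κ : ℝ} (hκ : 0 < κ) :
    ∃ N₀ : ℕ, ∀ N : ℕ, N₀ ≤ N → ∀ g ∈ B, ∀ w, |G.Δ g w ^ (N : ℝ)⁻¹ - 1| ≤ κ := by
  have h1 : ∀ g, ∃ L : ℝ, ∀ w, |Real.log (G.Δ g w)| ≤ L := fun g => by
    obtain ⟨L, hL⟩ := isCompact_univ.exists_bound_of_continuousOn
      ((G.Δ_cont g).log fun w => (G.Δ_pos g w).ne').continuousOn
    exact ⟨L, fun w => hL w trivial⟩
  choose L hL using h1
  obtain ⟨M, hM⟩ := (B.finite_toSet.image L).bddAbove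
  obtain ⟨N₀, hN₀⟩ := exists_nat_gt (max 0 (max M (2 * M / κ)))
  refine ⟨N₀, fun N hN g hg w => ?_⟩
  have h2 : (N₀ : ℝ) ≤ N := by exact_mod_cast hN
  simp only [max_lt_iff] at hN₀
  have h3 : (0 : ℝ) < N := by linarith [hN₀.1]
  have h4 : |Real.log (G.Δ g w)| ≤ M := (hL g w).trans (hM ⟨g, hg, rfl⟩)
  have h5 : |Real.log (G.Δ g w) * (N : ℝ)⁻¹| ≤ M / N := by
    rw [abs_mul, abs_of_pos (inv_pos.2 h3), div_eq_mul_inv]
    gcongr
  have h6 : 2 * M < N * κ := by
    have := hN₀.2.2.trans_le h2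
    rwa [div_lt_iff₀ hκ] at this
  rw [Real.rpow_def_of_pos (G.Δ_pos g w)]
  refine (Real.abs_exp_sub_one_le (h5.trans ?_)).trans ?_
  · rw [div_le_one h3]; linarith [hN₀.2.1]
  · have : 2 * (M / N) ≤ κ := by
      rw [← mul_div_assoc, div_le_iff₀ h3]; linarith
    linarith

/-- PROOF.  `Δ g` is bounded above and below on the compact space, so for large `N`,
`|Δ g w ^ N⁻¹ - 1| ≤ κ'` for `g ∈ Γ₀ ^ m`.  On `s = fam (Γ₀ ^ m) w` (`card s ≤ n = card (Γ₀ ^ m)`) `mom_full`
expresses both `mm m w 1` and `mm m w (al w)` by matrix powers `Y ^ m`, `(D Y) ^ m`, where `D Y = D' Y` with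
`D' = diag (Δ ^ N⁻¹)` by `hdel`, and `|Y i j| ≤ 1` (`Ctr` on two coordinates); entrywise
`|(D' Y) ^ k - Y ^ k| ≤ n ^ k ((1 + κ') ^ k - 1)` by induction.  `md_eq_mm` (with `i = 1`) moves
`mm m w (al w)` to the family `fam (Γ₀ ^ N) w`, where `mom_le_mom` applies. -/
theorem dfinal (G : Gd X Γ) (hΓ : Sym Γ₀) {m : ℕ} (hm : Even m) {κ : ℝ} (hκ : 0 < κ) :
    ∃ N₀ : ℕ, ∀ N : ℕ, N₀ ≤ N → m ≤ N → Even N → ∀ (K : Γ → Γ → X → ℂ) (cls : X → ℕ),
      G.Ker Γ₀ K → IsLocallyConstant cls → (∀ γ γ' w, cls (G.act γ w) = 0 → K γ γ' w = 0) →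
      ∀ f : X → C, IsLocallyConstant f → ∀ c : ℝ, 0 < c →
        G.I (fun w => G.mm Γ₀ K m w (fun _ => 1) fun γ => some (f (G.act γ w)))
          ≤ c ^ m + c ^ m / c ^ N * G.Psi Γ₀ K cls N (fun w => some (f w)) + κ := by
  have hcont : Continuous fun t : ℝ => ((Γ₀ ^ m).card : ℝ) ^ m * ((1 + t) ^ m - 1) := by fun_prop
  obtain ⟨δ, hδ, hδκ⟩ := Metric.continuous_iff.1 hcont 0 κ hκ
  have hκ' : ((Γ₀ ^ m).card : ℝ) ^ m * ((1 + δ / 2) ^ m - 1) ≤ κ := by
    have := hδκ (δ / 2) (by rw [Real.dist_eq, sub_zero, abs_of_pos (by positivity)]; linarith)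
    simp only [add_zero, one_pow, sub_self, mul_zero, Real.dist_eq, sub_zero] at this
    exact (le_abs_self _).trans this.le
  obtain ⟨N₀, hN₀⟩ := dfinal_root G (Γ₀ ^ m) (half_pos hδ)
  refine ⟨N₀, fun N hN hmN hNe K cls hK hcls hdel f hf c hc => ?_⟩
  have hpt : ∀ w, G.mm Γ₀ K m w (fun _ => 1) (fun γ => some (f (G.act γ w))) ≤
      (c ^ m + κ) + c ^ m / c ^ N * G.den Γ₀ K cls N (fun w => some (f w)) w := by
    intro w
    have h1 : G.mm Γ₀ K m w (G.al cls N (fun w => some (f w)) w) (fun γ => some (f (G.act γ w))) ≤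
        c ^ m + c ^ m / c ^ N * G.den Γ₀ K cls N (fun w => some (f w)) w := by
      have e := md_eq_mm hΓ hK (G.fam_free (Γ₀ ^ N) w) ⟨1, G.one_mem_fam _ w⟩ (n := m)
        (fun g hg => by simpa using G.fam_cov (Γ₀ ^ N) w g (hΓ.pow_mono hmN hg))
        (resp_al cls N (fun w => some (f w)) w) (resp_act (fun w => some (f w)) w)
      simp only [mul_one, G.act_one] at e
      rw [← e]
      exact mom_le_mom (hK.hz w _) (fun i => al_nonneg _ _ _ _ _) _ hm hNe hmN hc
    have hsub := G.fam_subset (hΓ.pow m).one w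
    have hY : ∀ i j : G.fam (Γ₀ ^ m) w,
        ‖cm (fun i j : G.fam (Γ₀ ^ m) w => K i j w) (fun i => f (G.act i w)) i j‖ ≤ 1 := by
      intro i j
      simp only [cm, Matrix.of_apply]
      split_ifs
      · exact dfinal_entry (hK.hz w _) (hK.ctr w _ (G.fam_free _ w)) i j
      · simp
    have h2 := (dfinal_pow
      (A := Matrix.of fun i j : G.fam (Γ₀ ^ m) w =>
        ((G.al cls N (fun w => some (f w)) w i : ℝ) : ℂ) *
          cm (fun i j : G.fam (Γ₀ ^ m) w => K i j w) (fun i => f (G.act i w)) i j)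
      (B := Matrix.of fun i j : G.fam (Γ₀ ^ m) w => ((1 : ℝ) : ℂ) *
          cm (fun i j : G.fam (Γ₀ ^ m) w => K i j w) (fun i => f (G.act i w)) i j)
      (n := ((Γ₀ ^ m).card : ℝ)) (half_pos hδ).le
      (by rw [Fintype.card_coe]; exact_mod_cast Finset.card_le_card hsub)
      (fun i j => by simpa using hY i j)
      (fun i j => by
        simp only [Matrix.of_apply]
        by_cases h0 : cls (G.act i w) = 0
        · simp [cm, hdel _ _ _ h0]
          positivity
        · rw [← sub_mul, norm_mul, ← Complex.ofReal_sub, Complex.norm_real, Real.norm_eq_abs]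
          have h3 := hN₀ N hN i (hsub i.2) w
          have h4 : G.al cls N (fun w => some (f w)) w i = G.Δ i w ^ (N : ℝ)⁻¹ := by
            simp [al, amp, h0]
          rw [h4]
          exact (mul_le_of_le_one_right (abs_nonneg _) (hY i j)).trans h3) m).2
      ⟨1, G.one_mem_fam _ w⟩ ⟨1, G.one_mem_fam _ w⟩
    have h3 := (abs_le.1 ((Complex.abs_re_le_norm _).trans h2)).1
    rw [Complex.sub_re, ← mom_full (hK.hz w _) _ (fun _ => 1), ← mom_full (hK.hz w _)] at h3
    have h4 : G.mm Γ₀ K m w (fun _ => 1) (fun γ => some (f (G.act γ w))) ≤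
        G.mm Γ₀ K m w (G.al cls N (fun w => some (f w)) w) (fun γ => some (f (G.act γ w))) + κ := by
      simp only [mm, md]
      linarith
    linarith
  have hlc : IsLocallyConstant fun w => some (f w) := hf.comp some
  have hden := continuous_den hΓ hK hcls N hlc
  have hmm : Continuous fun w => G.mm Γ₀ K m w (fun _ => 1) fun γ => some (f (G.act γ w)) :=
    continuous_mm hΓ hK (α := fun _ _ => 1) (σ := fun w γ => some (f (G.act γ w)))
      (fun _ _ _ _ => rfl) (fun w => resp_act (fun w => some (f w)) w)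
      (fun _ _ => continuous_const) fun g _ => hlc.comp_continuous (G.act_cont g)
  have hd2 : Continuous fun w => c ^ m / c ^ N * G.den Γ₀ K cls N (fun w => some (f w)) w :=
    continuous_const.mul hden
  have h5 := G.I_mono _
    (fun w => (c ^ m + κ) + c ^ m / c ^ N * G.den Γ₀ K cls N (fun w => some (f w)) w) hmm
    (continuous_const.add hd2) hpt
  rw [G.I_add (fun _ => c ^ m + κ) _ continuous_const hd2, G.I_smul _ _ hden] at h5
  have h6 := I_const_le (G := G) (t := c ^ m + κ) (by positivity)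
  rw [Psi]
  linarith

end Gd

end Crest.Agent.R109
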