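import Crest.Agent.R109.Stab

/-! Row 109: the local moments. -/

set_option autoImplicit false
set_option linter.unusedSectionVars false

namespace Crest.Agent.R109

open scoped BigOperators ComplexConjugate
open Function PowerSeries

variable {I : Type*} [Fintype I] [DecidableEq I] {C : Type} [Fintype C] [DecidableEq C] [Nonempty C]
  {Y Y' : I → I → ℂ} {π π' : I → Option C} {a a' : I → ℝ}

theorem mom_coeff_Qs (n : ℕ) :
    coeff n (Qs Y π a) = ∑ S : Finset I, if S.card = n then cf Y π S * ∏ i ∈ S, a i else 0 := by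
  rw [Qs, Qf, map_sum]
  refine Finset.sum_congr rfl fun S _ => ?_
  rw [Finset.prod_mul_distrib, Finset.prod_const, ← map_prod, PowerSeries.algebraMap_apply,
    ← mul_assoc, ← map_mul, coeff_C_mul, coeff_X_pow]
  by_cases h : S.card = n
  · simp [h]
  · simp [h, Ne.symm h]

theorem constantCoeff_Qs : constantCoeff (Qs Y π a) = 1 := by
  rw [← coeff_zero_eq_constantCoeff_apply, mom_coeff_Qs]
  simp [cf_empty]

private theorem Qs_ne : constantCoeff (Qs Y π a) ≠ 0 := by
  rw [constantCoeff_Qs]; exact one_ne_zero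

private theorem mom_zero (w : I) : mom Y π a w 0 = 1 := by
  rw [mom, coeff_zero_eq_constantCoeff_apply, map_mul, constantCoeff_inv, constantCoeff_Qs,
    constantCoeff_Qs, inv_one, mul_one]

private theorem update_CX (i : I) :
    update (fun i => (PowerSeries.C (a i) * X : ℝ⟦X⟧)) i 0 =
      fun j => PowerSeries.C (update a i 0 j) * X := by
  funext j
  by_cases hj : j = i
  · simp [hj]
  · simp [hj]

private theorem ne_of_CX {c : ℝ} (h : (PowerSeries.C c * X : ℝ⟦X⟧) ≠ 0) : c ≠ 0 := by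
  rintro rfl
  simp at h

private theorem ne_of_update {w i : I} (h : update a w 0 i ≠ 0) : a i ≠ 0 := by
  by_cases hi : i = w
  · rw [hi, update_self] at h; exact absurd rfl h
  · rwa [update_of_ne hi] at h

theorem mom_of_zero {w : I} (hw : a w = 0) {n : ℕ} (hn : 1 ≤ n) : mom Y π a w n = 0 := by
  have h1 : update a w 0 = a := by rw [← hw, update_eq_self]
  rw [mom, h1, PowerSeries.mul_inv_cancel _ Qs_ne, coeff_one, if_neg (by omega)]

private theorem Qs_smul (c : ℝ) : Qs Y π (fun i => c * a i) = rescale c (Qs Y π a) := by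
  ext n
  rw [coeff_rescale, mom_coeff_Qs, mom_coeff_Qs, Finset.mul_sum]
  refine Finset.sum_congr rfl fun S _ => ?_
  split_ifs with h
  · rw [Finset.prod_mul_distrib, Finset.prod_const, h]; ring
  · rw [mul_zero]

theorem mom_smul (c : ℝ) (w : I) (n : ℕ) : mom Y π (fun i => c * a i) w n = c ^ n * mom Y π a w n := by
  have h1 : update (fun i => c * a i) w 0 = fun i => c * update a w 0 i := by
    funext j
    by_cases hj : j = w
    · simp [hj]
    · simp [hj]
  have h2 : rescale c (Qs Y π a)⁻¹ = (Qs Y π fun i => c * a i)⁻¹ := by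
    rw [PowerSeries.eq_inv_iff_mul_eq_one Qs_ne, Qs_smul, ← map_mul,
      PowerSeries.inv_mul_cancel _ Qs_ne, map_one]
  rw [mom, mom, h1, ← h2, Qs_smul, ← map_mul, coeff_rescale]

private theorem Qs_congr (hY : ∀ i j, a i ≠ 0 → a j ≠ 0 → Y i j = Y' i j)
    (hπ : ∀ i, a i ≠ 0 → π i = π' i) : Qs Y π a = Qs Y' π' a :=
  Qf_congr (fun i j hi hj => hY i j (ne_of_CX hi) (ne_of_CX hj)) fun i hi => hπ i (ne_of_CX hi)

theorem mom_congr (hY : ∀ i j, a i ≠ 0 → a j ≠ 0 → Y i j = Y' i j) (hπ : ∀ i, a i ≠ 0 → π i = π' i)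
    (w : I) (n : ℕ) : mom Y π a w n = mom Y' π' a w n := by
  rw [mom, mom, Qs_congr hY hπ, Qs_congr (a := update a w 0)
    (fun i j hi hj => hY i j (ne_of_update hi) (ne_of_update hj))
    fun i hi => hπ i (ne_of_update hi)]

private theorem Qs_embed {J : Type*} [Fintype J] [DecidableEq J] (e : J ↪ I)
    (ha : ∀ i, a i ≠ 0 → i ∈ Set.range e) :
    Qs Y π a = Qs (fun i j => Y (e i) (e j)) (fun i => π (e i)) fun i => a (e i) :=
  Qf_embed e fun i hi => ha i (ne_of_CX hi)

theorem mom_embed {J : Type*} [Fintype J] [DecidableEq J] (e : J ↪ I)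
    (ha : ∀ i, a i ≠ 0 → i ∈ Set.range e) (w : J) (n : ℕ) :
    mom Y π a (e w) n = mom (fun i j => Y (e i) (e j)) (fun i => π (e i)) (fun i => a (e i)) w n := by
  have h1 : (fun i => update a (e w) 0 (e i)) = update (fun i => a (e i)) w 0 :=
    update_comp_eq_of_injective a e.injective w 0
  rw [mom, mom, Qs_embed e ha, Qs_embed (a := update a (e w) 0) e fun i hi => ha i (ne_of_update hi),
    h1]

theorem mom_phase (φ : I → ℂ) (hφ : ∀ i, ‖φ i‖ = 1) (w : I) (n : ℕ) :
    mom (fun i j => conj (φ i) * Y i j * φ j) π a w n = mom Y π a w n := by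
  simp only [mom, Qs, Qf_phase φ hφ]

private theorem momb_Qs (a : I → ℝ) :
    Qs Y π a = ∑ S : Finset I, PowerSeries.C (cf Y π S * ∏ i ∈ S, a i) * X ^ S.card := by
  unfold Qs Qf
  refine Finset.sum_congr rfl fun S _ => ?_
  rw [Finset.prod_mul_distrib, Finset.prod_const, ← map_prod, map_mul, mul_assoc]
  rfl

private theorem momb_coeff_mul (a a' : I → ℝ) (k : ℕ) :
    coeff k (Qs Y π a * Qs Y π a') = ∑ p : Finset I × Finset I,
      if k = p.1.card + p.2.card then
        cf Y π p.1 * cf Y π p.2 * ((∏ i ∈ p.1, a i) * ∏ i ∈ p.2, a' i) else 0 := by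
  rw [momb_Qs a, momb_Qs a', Finset.sum_mul_sum, ← Fintype.sum_prod_type', map_sum]
  refine Finset.sum_congr rfl fun p _ => ?_
  rw [mul_mul_mul_comm, ← map_mul, ← pow_add, coeff_C_mul, coeff_X_pow]
  split_ifs
  · ring
  · simp

private theorem momb_prod_update (a : I → ℝ) (w : I) (S : Finset I) :
    ∏ i ∈ S, update a w 0 i = (if w ∈ S then 0 else 1) * ∏ i ∈ S, a i := by
  split_ifs with hw
  · rw [zero_mul]; exact Finset.prod_eq_zero hw (by simp)
  · rw [one_mul]
    exact Finset.prod_congr rfl fun i hi => update_of_ne (by rintro rfl; exact hw hi) _ _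

private theorem momb_gap (lev : I → ℕ) : ∃ l : Finset I → ℕ, ∀ T,
    (∀ i ∈ T, lev i ≠ l T) ∧ l T ≤ T.card ∧ ∀ i ∈ T, lev i = 0 → 0 < l T := by
  classical
  have hex : ∀ T : Finset I, ∃ l, l ∉ T.image lev := fun T => Infinite.exists_notMem_finset _
  refine ⟨fun T => Nat.find (hex T), fun T => ?_⟩
  have h1 : ∀ i ∈ T, lev i ≠ Nat.find (hex T) := fun i hi h =>
    Nat.find_spec (hex T) (h ▸ Finset.mem_image_of_mem lev hi)
  refine ⟨h1, ?_, fun i hi h0 => Nat.pos_of_ne_zero fun h => h1 i hi (h0.trans h.symm)⟩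
  have h2 : Finset.range (Nat.find (hex T)) ⊆ T.image lev := fun m hm => by
    simpa using Nat.find_min (hex T) (Finset.mem_range.1 hm)
  simpa using (Finset.card_le_card h2).trans Finset.card_image_le

private theorem momb_key (h : HZ Y) (lev : I → ℕ) {w : I} (hw : lev w = 0)
    (hl : ∀ i j, a i ≠ 0 → a j ≠ 0 → Y i j ≠ 0 → lev j ≤ lev i + 1) {n k : ℕ} (hk : k ≤ n) :
    ∑ p : Finset I × Finset I, (if k = p.1.card + p.2.card then cf Y π p.1 * cf Y π p.2 *
      ((∏ i ∈ p.1, a i) * ∏ i ∈ p.2, if lev i ≤ n then a i else 0) else 0) *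
      ((if w ∈ p.1 then 0 else 1) - (if w ∈ p.2 then 0 else 1)) = 0 := by
  obtain ⟨l, hlv⟩ := momb_gap lev
  let lo : ℕ → Finset I → Finset I := fun m S => S.filter fun i => lev i < m
  let hi : ℕ → Finset I → Finset I := fun m S => S.filter fun i => ¬ lev i < m
  let g : Finset I × Finset I → Finset I × Finset I := fun p =>
    (lo (l (p.1 ∪ p.2)) p.2 ∪ hi (l (p.1 ∪ p.2)) p.1, lo (l (p.1 ∪ p.2)) p.1 ∪ hi (l (p.1 ∪ p.2)) p.2)
  have hU : ∀ p, (g p).1 ∪ (g p).2 = p.1 ∪ p.2 := fun p => by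
    ext i; simp only [g, lo, hi, Finset.mem_union, Finset.mem_filter]; tauto
  have hg : Involutive g := fun p => by
    refine Prod.ext ?_ ?_
    · ext i
      change i ∈ lo (l ((g p).1 ∪ (g p).2)) (g p).2 ∪ hi (l ((g p).1 ∪ (g p).2)) (g p).1 ↔ _
      rw [hU]
      simp only [g, lo, hi, Finset.mem_union, Finset.mem_filter]; tauto
    · ext i
      change i ∈ lo (l ((g p).1 ∪ (g p).2)) (g p).1 ∪ hi (l ((g p).1 ∪ (g p).2)) (g p).2 ↔ _
      rw [hU]
      simp only [g, lo, hi, Finset.mem_union, Finset.mem_filter]; tauto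
  have hd : ∀ m S S', Disjoint (lo m S) (hi m S') := fun m S S' =>
    Finset.disjoint_left.2 fun i h1 h2 => (Finset.mem_filter.1 h2).2 (Finset.mem_filter.1 h1).2
  have hs : ∀ m S, lo m S ∪ hi m S = S := fun m S => Finset.filter_union_filter_not_eq _ _
  set F : Finset I × Finset I → ℝ := fun p => (if k = p.1.card + p.2.card then
    cf Y π p.1 * cf Y π p.2 * ((∏ i ∈ p.1, a i) * ∏ i ∈ p.2, if lev i ≤ n then a i else 0) else 0) *
      ((if w ∈ p.1 then 0 else 1) - (if w ∈ p.2 then 0 else 1)) with hF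
  have key : ∀ p, F (g p) = -F p := by
    rintro ⟨S, S'⟩
    obtain ⟨l1, l2, l3⟩ := hlv (S ∪ S')
    set m := l (S ∪ S') with hm
    have e1 : (g (S, S')).1 = lo m S' ∪ hi m S := rfl
    have e2 : (g (S, S')).2 = lo m S ∪ hi m S' := rfl
    have c1 : ((if w ∈ lo m S' ∪ hi m S then 0 else 1) - (if w ∈ lo m S ∪ hi m S' then 0 else 1) : ℝ)
        = -((if w ∈ S then 0 else 1) - (if w ∈ S' then 0 else 1)) := by
      by_cases hT : w ∈ S ∪ S'
      · have := l3 w hT hw
        simp only [lo, hi, Finset.mem_union, Finset.mem_filter, hw, this, and_true, not_true,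
          and_false, or_false, neg_sub]
      · rw [Finset.mem_union, not_or] at hT
        simp [lo, hi, hT.1, hT.2]
    have c2 : (lo m S' ∪ hi m S).card + (lo m S ∪ hi m S').card = S.card + S'.card := by
      conv_rhs => rw [← hs m S, ← hs m S']
      simp only [Finset.card_union_of_disjoint (hd _ _ _)]
      ring
    simp only [hF, e1, e2, c1, c2, mul_neg, neg_inj]
    congr 1
    split_ifs with hkc
    swap
    · rfl
    have hmn : m ≤ n := l2.trans ((Finset.card_union_le _ _).trans (hkc ▸ hk))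
    have c3 : ∀ T, ∏ i ∈ lo m T, (if lev i ≤ n then a i else 0) = ∏ i ∈ lo m T, a i := fun T =>
      Finset.prod_congr rfl fun i hi => if_pos ((Finset.mem_filter.1 hi).2.le.trans hmn)
    have c4 : ((∏ i ∈ lo m S' ∪ hi m S, a i) * ∏ i ∈ lo m S ∪ hi m S', if lev i ≤ n then a i else 0)
        = (∏ i ∈ S, a i) * ∏ i ∈ S', if lev i ≤ n then a i else 0 := by
      conv_rhs => rw [← hs m S, ← hs m S']
      simp only [Finset.prod_union (hd _ _ _), c3]
      ring
    rw [c4]
    by_cases h0 : ((∏ i ∈ S, a i) * ∏ i ∈ S', if lev i ≤ n then a i else 0) = 0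
    · rw [h0, mul_zero, mul_zero]
    have ha : ∀ i ∈ S ∪ S', a i ≠ 0 := by
      intro i hi h1
      rcases Finset.mem_union.1 hi with hi | hi
      · exact h0 (mul_eq_zero_of_left (Finset.prod_eq_zero hi h1) _)
      · exact h0 (mul_eq_zero_of_right _ (Finset.prod_eq_zero hi (by simp [h1])))
    have c5 : ∀ A B : Finset I, A ⊆ S ∪ S' → B ⊆ S ∪ S' →
        cf Y π (lo m A ∪ hi m B) = cf Y π (lo m A) * cf Y π (hi m B) := by
      intro A B hA hB
      refine cf_union h (hd _ _ _) fun i hi j hj => ?_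
      obtain ⟨hi1, hi2⟩ := Finset.mem_filter.1 hi
      obtain ⟨hj1, hj2⟩ := Finset.mem_filter.1 hj
      by_contra hY
      have h1 := hl i j (ha i (hA hi1)) (ha j (hB hj1)) hY
      have h2 := l1 j (hB hj1)
      omega
    congr 1
    conv_rhs => rw [← hs m S, ← hs m S']
    rw [c5 S' S Finset.subset_union_right Finset.subset_union_left,
      c5 S S' Finset.subset_union_left Finset.subset_union_right,
      c5 S S Finset.subset_union_left Finset.subset_union_left,
      c5 S' S' Finset.subset_union_right Finset.subset_union_right]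
    ring
  have h1 : ∑ p, F (g p) = ∑ p, F p := Equiv.sum_comp hg.toPerm F
  simp only [key, Finset.sum_neg_distrib] at h1
  linarith

/-- Locality.  PROOF.  Let `a⁰` be the truncated weights.  It suffices that
`Q(a[w:=0]) Q(a⁰) - Q(a) Q(a⁰[w:=0])` has no coefficient of degree `k ≤ n`.  That coefficient is the sum
over pairs `(S, S')` with `|S| + |S'| = k`, `S' ⊆ {lev ≤ n}`, of
`cf S * cf S' * a^S * a^S' * ([w ∉ S] - [w ∉ S'])`.  If exactly one of `S, S'` contains `w`, the set
`T = S ∪ S'` has at most `n` elements, so some level `l ≤ n` is missed by `T`; for the least one let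
`W = T ∩ {lev < l}`.  `Y` vanishes between `W` and `T \ W` (for nonzero weights), so swapping `S ∩ W` and
`S' ∩ W` is a sign reversing involution (`cf_union`, `Finset.sum_involution`). -/
theorem mom_local (h : HZ Y) (lev : I → ℕ) {w : I} (hw : lev w = 0)
    (hl : ∀ i j, a i ≠ 0 → a j ≠ 0 → Y i j ≠ 0 → lev j ≤ lev i + 1) (n : ℕ) :
    mom Y π a w n = mom Y π (fun i => if lev i ≤ n then a i else 0) w n := by
  set a₀ : I → ℝ := fun i => if lev i ≤ n then a i else 0 with ha₀
  have hD : X ^ (n + 1) ∣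
      Qs Y π (update a w 0) * Qs Y π a₀ - Qs Y π a * Qs Y π (update a₀ w 0) := by
    rw [X_pow_dvd_iff]
    intro k hk
    rw [map_sub, momb_coeff_mul, momb_coeff_mul, ← Finset.sum_sub_distrib]
    refine Eq.trans (Finset.sum_congr rfl fun p _ => ?_)
      (momb_key (π := π) h lev hw hl (Nat.lt_succ_iff.1 hk))
    rw [momb_prod_update, momb_prod_update]
    by_cases hc : k = p.1.card + p.2.card
    · simp only [if_pos hc]; ring
    · simp only [if_neg hc]; ring
  have u1 : Qs Y π a * (Qs Y π a)⁻¹ = 1 :=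
    PowerSeries.mul_inv_cancel _ (by rw [constantCoeff_Qs]; exact one_ne_zero)
  have u2 : Qs Y π a₀ * (Qs Y π a₀)⁻¹ = 1 :=
    PowerSeries.mul_inv_cancel _ (by rw [constantCoeff_Qs]; exact one_ne_zero)
  have hE : X ^ (n + 1) ∣
      Qs Y π (update a w 0) * (Qs Y π a)⁻¹ - Qs Y π (update a₀ w 0) * (Qs Y π a₀)⁻¹ := by
    convert hD.mul_right ((Qs Y π a)⁻¹ * (Qs Y π a₀)⁻¹) using 1
    linear_combination (-(Qs Y π (update a w 0) * (Qs Y π a)⁻¹)) * u2 +
      (Qs Y π (update a₀ w 0) * (Qs Y π a₀)⁻¹) * u1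
  have := X_pow_dvd_iff.1 hE n (Nat.lt_succ_self n)
  rw [map_sub, sub_eq_zero] at this
  exact this

/-- `Qf_euler` with `D = X * d/dX`. -/
theorem sum_mom {n : ℕ} (hn : 1 ≤ n) :
    ∑ w, mom Y π a w n = -coeff n (X * d⁄dX ℝ (Qs Y π a) * (Qs Y π a)⁻¹) := by
  have h1 := Qf_euler (Y := Y) (π := π)
    ((LinearMap.mulLeft ℝ (X : ℝ⟦X⟧)).comp (d⁄dX ℝ).toLinearMap)
    (fun x y => by simp [Derivation.leibniz]; ring) Finset.univ
    (fun i => PowerSeries.C (a i) * X) (fun i _ => by simp [Derivation.leibniz]; ring)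
    (fun i hi => absurd (Finset.mem_univ i) hi)
  have h2 : X * d⁄dX ℝ (Qs Y π a) = ∑ i, (Qs Y π a - Qs Y π (update a i 0)) := by
    simp only [update_CX] at h1
    exact h1
  rw [h2, Finset.sum_mul, map_sum, ← Finset.sum_neg_distrib]
  refine Finset.sum_congr rfl fun i _ => ?_
  rw [sub_mul, PowerSeries.mul_inv_cancel _ Qs_ne, map_sub, coeff_one, if_neg (by omega), mom]
  ring

theorem sum_mom_sub {v : I} {u : ℝ⟦X⟧} (hu : Qs Y π a = Qs Y π (update a v 0) * (1 - u)) {n : ℕ}
    (hn : 1 ≤ n) : ∑ w, mom Y π a w n - ∑ w, mom Y π (update a v 0) w n = Fs u n := by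
  have h0 : constantCoeff (1 - u) ≠ 0 := by
    have := Qs_ne (Y := Y) (π := π) (a := a)
    rw [hu, map_mul] at this
    exact right_ne_zero_of_mul this
  have h1 := PowerSeries.mul_inv_cancel _ h0
  have h2 := PowerSeries.mul_inv_cancel _ (Qs_ne (Y := Y) (π := π) (a := update a v 0))
  rw [sum_mom hn, sum_mom hn, Fs, hu, PowerSeries.mul_inv_rev, neg_sub_neg, ← map_sub]
  congr 1
  simp only [Derivation.leibniz, map_sub, Derivation.map_one_eq_zero, smul_eq_mul]
  linear_combination (X * d⁄dX ℝ u * (1 - u)⁻¹) * h2 -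
    (X * d⁄dX ℝ (Qs Y π (update a v 0)) * (Qs Y π (update a v 0))⁻¹) * h1

/-- Moments of a probability measure.  PROOF.  `pick'` for `g = X * Q(a[w := 0])`, `q = Q(a)` when
`a w > 0`: `s a_w Q[w:=0] / Q = 1 / (1 / (s a_w) - ret)`. -/
theorem mom_rep (h : HZ Y) (ha : ∀ i, 0 ≤ a i) (w : I) :
    ∃ (J : Type) (_ : Fintype J) (ν l : J → ℝ), (∀ j, 0 ≤ ν j) ∧
      ∀ n, mom Y π a w n = ∑ j, ν j * l j ^ n := by
  let P : (I → ℝ) → Polynomial ℝ := fun a => Qf Y π fun i => Polynomial.C (a i) * Polynomial.X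
  have hP1 : ∀ a, ((P a : Polynomial ℝ) : ℝ⟦X⟧) = Qs Y π a := fun a => by
    have := map_Qf (Y := Y) (π := π) (Polynomial.coeToPowerSeries.algHom (R := ℝ) ℝ)
      fun i => Polynomial.C (a i) * Polynomial.X
    simpa [Polynomial.coeToPowerSeries.algHom_apply, Qs] using this
  have hP2 : ∀ a (s : ℂ), Polynomial.aeval s (P a) = Qf Y π fun i => (a i : ℂ) * s := fun a s => by
    have := map_Qf (Y := Y) (π := π) (Polynomial.aeval (R := ℝ) s)
      fun i => Polynomial.C (a i) * Polynomial.X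
    simpa using this
  have hst : ∀ a : I → ℝ, (∀ i, 0 ≤ a i) → ∀ s : ℂ, s.im < 0 → ∀ i,
      ((a i : ℂ) * s).im < 0 ∨ (a i : ℂ) * s = 0 := by
    intro a ha s hs i
    rcases (ha i).eq_or_lt with h0 | h0
    · right; rw [← h0]; simp
    · left; simpa using mul_neg_of_pos_of_neg h0 hs
  obtain ⟨J, _, b, μ, hb, -, e, -⟩ := pick' (P a) (Polynomial.X * P (update a w 0))
    (by rw [← Polynomial.coeff_coe, hP1, coeff_zero_eq_constantCoeff_apply, constantCoeff_Qs])
    (by simp) (by
      intro s hs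
      have h1 := stab h π (hst a ha s hs)
      have ha' : ∀ i, 0 ≤ update a w 0 i := fun i => by
        by_cases hi : i = w
        · rw [hi, update_self]
        · rw [update_of_ne hi]; exact ha i
      have e0 : (fun i => ((update a w 0 i : ℝ) : ℂ) * s) = update (fun i => (a i : ℂ) * s) w 0 := by
        funext i
        by_cases hi : i = w
        · rw [hi, update_self, update_self]; simp
        · rw [update_of_ne hi, update_of_ne hi]
      have h2 := stab h π (hst _ ha' s hs)
      rw [e0] at h2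
      have h3 := Qf_eq_ret (Y := Y) (π := π) _ w h2
      have h4 := stab_ret h π (t := fun i => (a i : ℂ) * s) w fun j _ => hst a ha s hs j
      rw [map_mul, Polynomial.aeval_X, hP2, hP2, e0]
      refine ⟨h1, ?_⟩
      set r := ret Y π (fun i => (a i : ℂ) * s) w
      rw [h3, mul_comm s, mul_div_mul_left _ _ h2, Complex.div_im, ← sub_div]
      refine div_nonpos_of_nonpos_of_nonneg ?_ (Complex.normSq_nonneg _)
      have : s.im * (1 - a w * s * r).re - s.re * (1 - a w * s * r).im
          = s.im + a w * (s.re ^ 2 + s.im ^ 2) * r.im := by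
        simp; ring
      rw [this]
      have := mul_nonpos_of_nonneg_of_nonpos
        (mul_nonneg (ha w) (add_nonneg (sq_nonneg s.re) (sq_nonneg s.im))) h4
      linarith)
  refine ⟨J, inferInstance, b, μ, hb, fun n => ?_⟩
  rw [Polynomial.coe_mul, Polynomial.coe_X, hP1, hP1] at e
  have u1 : Qs Y π a * (Qs Y π a)⁻¹ = 1 :=
    PowerSeries.mul_inv_cancel _ (by rw [constantCoeff_Qs]; exact one_ne_zero)
  have e1 : X * (Qs Y π (update a w 0) * (Qs Y π a)⁻¹) = rs b μ := by
    linear_combination (Qs Y π a)⁻¹ * e + rs b μ * u1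
  have := congrArg (coeff (n + 1)) e1
  rw [coeff_succ_X_mul, rs, coeff_mk] at this
  simpa [mom] using this

theorem mom_le_mom (h : HZ Y) (ha : ∀ i, 0 ≤ a i) (w : I) {m N : ℕ} (hm : Even m) (hN : Even N)
    (hmN : m ≤ N) {c : ℝ} (hc : 0 < c) : mom Y π a w m ≤ c ^ m + c ^ m / c ^ N * mom Y π a w N := by
  obtain ⟨J, _, ν, l, hν, hrep⟩ := mom_rep (π := π) h ha w
  have h1 : ∑ j, ν j = 1 := by simpa [mom_zero] using (hrep 0).symm
  have h2 : ∀ x : ℝ, x ^ m ≤ c ^ m + c ^ m / c ^ N * x ^ N := fun x => by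
    rw [← hm.pow_abs x, ← hN.pow_abs x]
    have h3 : 0 ≤ c ^ m / c ^ N * |x| ^ N := by positivity
    rcases le_total |x| c with hx | hx
    · have := pow_le_pow_left₀ (abs_nonneg x) hx m
      linarith
    · have h4 := pow_le_pow_right₀ ((one_le_div hc).2 hx) hmN
      rw [div_pow, div_pow, div_le_iff₀ (pow_pos hc m)] at h4
      have h5 : |x| ^ N / c ^ N * c ^ m = c ^ m / c ^ N * |x| ^ N := by ring
      have := pow_pos hc m
      linarith
  rw [hrep, hrep]
  calc ∑ j, ν j * l j ^ m ≤ ∑ j, ν j * (c ^ m + c ^ m / c ^ N * l j ^ N) :=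
        Finset.sum_le_sum fun j _ => mul_le_mul_of_nonneg_left (h2 _) (hν j)
    _ = (∑ j, ν j) * c ^ m + c ^ m / c ^ N * ∑ j, ν j * l j ^ N := by
        rw [Finset.sum_mul, Finset.mul_sum, ← Finset.sum_add_distrib]
        exact Finset.sum_congr rfl fun j _ => by ring
    _ = _ := by rw [h1, one_mul]

/-- Cramer's rule over `ℂ⟦X⟧` (`Qf_det`, `Matrix.adjugate_apply`): `(1 - X M) * ∑ X^n M^n = 1`. -/
theorem mom_full (h : HZ Y) (g : I → C) (a : I → ℝ) (w : I) (n : ℕ) :
    mom Y (fun i => some (g i)) a w n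
      = (((Matrix.of fun i j => (a i : ℂ) * cm Y g i j) ^ n) w w).re := by
  set M : Matrix I I ℂ := Matrix.of fun i j => (a i : ℂ) * cm Y g i j with hM
  let φ : ℝ⟦X⟧ →ₐ[ℝ] ℂ⟦X⟧ := PowerSeries.mapAlgHom (Algebra.ofId ℝ ℂ)
  have hφ : ∀ (f : ℝ⟦X⟧) (k : ℕ), coeff k (φ f) = ((coeff k f : ℝ) : ℂ) := fun f k => by
    simp [φ, PowerSeries.mapAlgHom_apply]
  have hφX : ∀ c : ℝ, φ (PowerSeries.C c * X) = PowerSeries.C (c : ℂ) * X := fun c => by
    simp [φ, PowerSeries.mapAlgHom_apply]
  have hQ : ∀ a : I → ℝ, φ (Qs Y (fun i => some (g i)) a) = (1 - Matrix.of fun i j =>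
      PowerSeries.C ((a i : ℂ) * cm Y g i j) * (X : ℂ⟦X⟧)).det := fun a => by
    rw [Qs, map_Qf, Qf_det h]
    congr 2
    ext1 i j
    simp only [Matrix.of_apply, hφX, map_mul]
    rw [mul_right_comm]
    rfl
  set A : Matrix I I ℂ⟦X⟧ := 1 - Matrix.of fun i j =>
    PowerSeries.C ((a i : ℂ) * cm Y g i j) * (X : ℂ⟦X⟧) with hA
  let S : Matrix I I ℂ⟦X⟧ := Matrix.of fun i j => PowerSeries.mk fun k => (M ^ k) i j
  have hAS : A * S = 1 := by
    ext1 i j
    rw [hA, sub_mul, one_mul, Matrix.sub_apply, Matrix.mul_apply]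
    ext k
    rw [map_sub, map_sum]
    rcases k with _ | k
    · simp [S, Matrix.one_apply, apply_ite]
    · simp only [S, Matrix.of_apply, mul_assoc, coeff_C_mul, coeff_succ_X_mul, coeff_mk]
      rw [pow_succ', Matrix.mul_apply]
      simp [hM, mul_assoc, Matrix.one_apply, apply_ite, coeff_one]
  have h1 : φ (Qs Y (fun i => some (g i)) (update a w 0)) = A.adjugate w w := by
    rw [hQ, Matrix.adjugate_apply]
    congr 1
    ext1 i j
    by_cases hi : i = w
    · subst hi
      simp [Matrix.one_apply, Pi.single_apply, eq_comm]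
    · simp [hA, Matrix.updateRow_ne hi, update_of_ne hi]
  have h2 : A.adjugate = A.det • S := by
    rw [← mul_one A.adjugate, ← hAS, ← mul_assoc, Matrix.adjugate_mul, smul_mul_assoc, one_mul]
  have u1 : Qs Y (fun i => some (g i)) a * (Qs Y (fun i => some (g i)) a)⁻¹ = 1 :=
    PowerSeries.mul_inv_cancel _ (by rw [constantCoeff_Qs]; exact one_ne_zero)
  have u2 := congrArg φ u1
  rw [map_mul, map_one, hQ, ← hA] at u2
  have h3 : φ (Qs Y (fun i => some (g i)) (update a w 0) * (Qs Y (fun i => some (g i)) a)⁻¹)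
      = S w w := by
    rw [map_mul, h1, h2, Matrix.smul_apply, smul_eq_mul]
    linear_combination S w w * u2
  have h4 := congrArg (coeff n) h3
  rw [hφ] at h4
  simp only [S, Matrix.of_apply, coeff_mk] at h4
  rw [← h4, Complex.ofReal_re, mom]

private theorem continuous_coeff_inv {P : Type*} [TopologicalSpace P] {φ : P → ℝ⟦X⟧}
    (h : ∀ n, Continuous fun p => coeff n (φ p)) (h0 : ∀ p, constantCoeff (φ p) = 1) (n : ℕ) :
    Continuous fun p => coeff n (φ p)⁻¹ := by
  induction n using Nat.strong_induction_on with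
  | _ n ih =>
    have e : (fun p => coeff n (φ p)⁻¹) = fun p => if n = 0 then 1 else
        -∑ x ∈ Finset.HasAntidiagonal.antidiagonal n,
          if x.2 < n then coeff x.1 (φ p) * coeff x.2 (φ p)⁻¹ else 0 := by
      funext p
      rw [PowerSeries.coeff_inv, h0, inv_one, neg_one_mul]
    rw [e]
    split_ifs
    · exact continuous_const
    · refine (continuous_finsetSum _ fun x _ => ?_).neg
      split_ifs with hx
      · exact (h _).mul (ih _ hx)
      · exact continuous_const

private theorem continuous_coeff_Qs {P : Type*} [TopologicalSpace P] {Yf : P → I → I → ℂ}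
    {af : P → I → ℝ} (hY : Continuous Yf) (ha : Continuous af) (π : I → Option C) (n : ℕ) :
    Continuous fun p => coeff n (Qs (Yf p) π (af p)) := by
  simp only [mom_coeff_Qs]
  refine continuous_finsetSum _ fun S _ => ?_
  split_ifs
  · exact ((continuous_cf π S).comp hY).mul
      (continuous_finsetProd _ fun i _ => (continuous_apply i).comp ha)
  · exact continuous_const

theorem continuous_mom (π : I → Option C) (w : I) (n : ℕ) :
    Continuous fun p : (I → I → ℂ) × (I → ℝ) => mom p.1 π p.2 w n := by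
  simp only [mom, coeff_mul]
  refine continuous_finsetSum _ fun x _ => Continuous.mul ?_ ?_
  · exact continuous_coeff_Qs continuous_fst (continuous_snd.update w continuous_const) π _
  · exact continuous_coeff_inv (continuous_coeff_Qs continuous_fst continuous_snd π)
      (fun _ => constantCoeff_Qs) _

end Crest.Agent.R109
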