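import Crest.Agent.R109.GDefs
import Crest.Agent.R109.Mom

/-! Row 109: the local moments on the groupoid do not depend on the family; mass transport. -/

set_option autoImplicit false
set_option linter.unusedSectionVars false

namespace Crest.Agent.R109

open scoped BigOperators ComplexConjugate Pointwise
open Function

variable {X : Type*} [TopologicalSpace X] {Γ : Type*} [Group Γ] [DecidableEq Γ]
  {G : Gd X Γ} {Γ₀ : Finset Γ} {K : Γ → Γ → X → ℂ}
  {C : Type} [Fintype C] [DecidableEq C] [Nonempty C]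

theorem Sym.pow (h : Sym Γ₀) (n : ℕ) : Sym (Γ₀ ^ n) := by
  refine ⟨Finset.one_mem_pow h.one, ?_⟩
  induction n with
  | zero => intro g hg; simpa using hg
  | succ n ih =>
    intro g hg
    rw [pow_succ] at hg
    obtain ⟨a, ha, b, hb, rfl⟩ := Finset.mem_mul.1 hg
    rw [mul_inv_rev, pow_succ']
    exact Finset.mul_mem_mul (h.inv b hb) (ih a ha)

theorem Sym.pow_mono (h : Sym Γ₀) {m n : ℕ} (hmn : m ≤ n) : Γ₀ ^ m ⊆ Γ₀ ^ n := by
  exact Finset.pow_subset_pow_right h.one hmn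

theorem mul_mem_pow_add {m n : ℕ} {g h : Γ} (hg : g ∈ Γ₀ ^ m) (hh : h ∈ Γ₀ ^ n) :
    g * h ∈ Γ₀ ^ (m + n) := by
  rw [pow_add]
  exact Finset.mul_mem_mul hg hh

namespace Gd

theorem Ker.hz (hK : G.Ker Γ₀ K) (w : X) (s : Finset Γ) : HZ fun i j : s => K i j w :=
  ⟨fun _ _ => hK.herm _ _ _, fun _ => hK.diag _ _⟩

/-- `c γ` is continuous with values in `{0} ∪ circle`. -/
theorem isClopen_E (γ γ' : Γ) : IsClopen {w | G.E w γ γ'} := by
  refine ⟨?_, isOpen_ne_fun (G.c_cont _) continuous_const⟩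
  have : {w | G.E w γ γ'} = {w | ‖G.c (γ⁻¹ * γ') w‖ = 1} := by
    ext w
    refine ⟨fun h => G.c_norm _ _ h, fun h h0 => ?_⟩
    rw [Set.mem_ofPred_eq, h0] at h
    simp at h
  rw [this]
  exact isClosed_eq (G.c_cont _).norm continuous_const

private theorem gl_ev_E (γ γ' : Γ) (w₀ : X) : ∀ᶠ w in nhds w₀, (G.E w γ γ' ↔ G.E w₀ γ γ') := by
  by_cases h : G.E w₀ γ γ'
  · filter_upwards [(isClopen_E (G := G) γ γ').isOpen.mem_nhds h] with y hy
    exact iff_of_true hy h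
  · filter_upwards [(isClopen_E (G := G) γ γ').compl.isOpen.mem_nhds h] with y hy
    exact iff_of_false hy h

open Classical in
/-- Only the germs at distance at most `n` from `i` matter. -/
private theorem gl_local (hΓ : Sym Γ₀) (hK : G.Ker Γ₀ K) (w : X) (s : Finset Γ) (i : s) (n : ℕ)
    (α : Γ → ℝ) (σ : Γ → Option C) :
    md K w s α σ i n
      = md K w s (fun j => if ∃ g ∈ Γ₀ ^ n, G.E w j (g * i) then α j else 0) σ i n := by
  have hex : ∀ j : Γ, ∃ l, n + 1 ≤ l ∨ ∃ g ∈ Γ₀ ^ l, G.E w j (g * i) := fun j =>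
    ⟨n + 1, Or.inl le_rfl⟩
  have h1 := mom_local (π := fun j : s => σ j) (a := fun j : s => α j) (hK.hz w s)
    (fun j => Nat.find (hex j)) (w := i)
    ((Nat.find_eq_zero _).2 (Or.inr ⟨1, by simp, by rw [one_mul]; exact G.E_refl w _⟩))
    (fun j j' _ _ hY => ?_) n
  · rw [md, h1, md]
    congr 1
    funext j
    refine if_congr ⟨fun h => ?_, fun h => Nat.find_le (Or.inr h)⟩ rfl rfl
    rcases Nat.find_spec (hex j) with h2 | ⟨g, hg, h2⟩
    · omega
    · exact ⟨g, hΓ.pow_mono h hg, h2⟩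
  · refine Nat.find_le ?_
    rcases Nat.find_spec (hex j) with h2 | ⟨g, hg, h2⟩
    · exact Or.inl (by omega)
    · have h3 : K j' j w ≠ 0 := by
        rw [hK.herm]
        exact (map_ne_zero _).2 hY
      obtain ⟨h, hh, h4⟩ := hK.supp _ _ _ h3
      refine Or.inr ⟨h * g, ?_, ?_⟩
      · rw [add_comm]
        exact mul_mem_pow_add (by rwa [pow_one]) hg
      · rw [mul_assoc]
        exact h4.trans ((E_mul_left h _ _).2 h2)

/-- PROOF.  Let `v = act i w`, `t = fam (Γ₀ ^ n) v`.  For `g ∈ t` pick `e g ∈ s` with `E w (e g) (g * i)`;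
`e` is injective (`E_mul_right`), `e 1 = i`.  Let `lev j` be the least `l ≤ n` with `E w j (g * i)` for some
`g ∈ Γ₀ ^ l` (`n + 1` if there is none); `K j j' w ≠ 0` gives `lev j' ≤ lev j + 1` (`supp`, symmetry of
`Γ₀`).  `mom_local`, `mom_embed` (indices of level `≤ n` lie in the range of `e` by `fam_cov`), and
`K g g' v = K (g * i) (g' * i) w = conj (φ g) * K (e g) (e g') w * φ g'` with
`φ g = c ((e g)⁻¹ * (g * i)) w` (`shift`, `phase`, `herm`), `mom_phase`. -/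
theorem md_eq_mm (hΓ : Sym Γ₀) (hK : G.Ker Γ₀ K) {w : X} {s : Finset Γ} (hs : G.Free w s) (i : s)
    {n : ℕ} (hc : ∀ g ∈ Γ₀ ^ n, ∃ γ ∈ s, G.E w γ (g * i)) {α : Γ → ℝ} {σ : Γ → Option C}
    (hα : G.Resp w α) (hσ : G.Resp w σ) :
    md K w s α σ i n = G.mm Γ₀ K n (G.act i w) (fun g => α (g * i)) fun g => σ (g * i) := by
  classical
  have hsub := G.fam_subset (hΓ.pow n).one (G.act i w)
  have h0 : ∀ g : G.fam (Γ₀ ^ n) (G.act i w), ∃ γ : s, G.E w γ (g * i) := fun g => by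
    obtain ⟨γ, hγ, h⟩ := hc g (hsub g.2)
    exact ⟨⟨γ, hγ⟩, h⟩
  choose e he using h0
  have hinj : Injective e := fun g g' h => by
    have h1 : G.E w (g * i) (g' * i) := (he g).symm.trans (h ▸ he g')
    exact Subtype.ext (G.fam_free _ _ _ g.2 _ g'.2 ((E_mul_right _ _ _).1 h1))
  have he1 : e ⟨1, G.one_mem_fam _ _⟩ = i := by
    have h1 := he ⟨1, G.one_mem_fam _ _⟩
    rw [one_mul] at h1
    exact Subtype.ext (hs _ (e _).2 _ i.2 h1)
  rw [gl_local hΓ hK, md]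
  have h1 := mom_embed (Y := fun i j : s => K i j w) (π := fun j : s => σ j)
    (a := fun j : s => if ∃ g ∈ Γ₀ ^ n, G.E w j (g * i) then α j else 0) ⟨e, hinj⟩
    (fun j hj => ?_) ⟨1, G.one_mem_fam _ _⟩ n
  · simp only [Embedding.coeFn_mk, he1] at h1
    rw [h1, mm, md, ← mom_phase (fun g => G.c (((e g : s) : Γ)⁻¹ * (g * i)) w)
      fun g => G.c_norm _ _ (he g)]
    congr 1
    · funext g g'
      have h2 : ∀ γ (g : G.fam (Γ₀ ^ n) (G.act i w)),
          K γ (g * i) w = K γ (e g) w * G.c (((e g : s) : Γ)⁻¹ * (g * i)) w := fun γ g => by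
        rw [← hK.phase _ _ _ _ (he g), mul_inv_cancel_left]
      rw [← hK.shift, h2, hK.herm (e g') (g * i), h2, map_mul, ← hK.herm]
      ring
    · funext g
      exact hσ _ _ (he g)
    · funext g
      rw [if_pos ⟨g, hsub g.2, he g⟩]
      exact hα _ _ (he g)
  · have h2 : ∃ g ∈ Γ₀ ^ n, G.E w j (g * i) := by
      by_contra h
      exact hj (if_neg h)
    obtain ⟨g, hg, h2⟩ := h2
    obtain ⟨g', hg', h3⟩ := G.fam_cov _ (G.act i w) g hg
    exact ⟨⟨g', hg'⟩, Subtype.ext (hs _ (e _).2 _ j.2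
      (((he ⟨g', hg'⟩).trans ((E_mul_right _ _ _).2 h3)).trans h2.symm))⟩

theorem mm_congr (hΓ : Sym Γ₀) {n : ℕ} {w : X} {α α' : Γ → ℝ} {σ σ' : Γ → Option C}
    (hα : ∀ g ∈ Γ₀ ^ n, α g = α' g) (hσ : ∀ g ∈ Γ₀ ^ n, α g ≠ 0 → σ g = σ' g) :
    G.mm Γ₀ K n w α σ = G.mm Γ₀ K n w α' σ' := by
  have hsub := G.fam_subset (hΓ.pow n).one w
  have h1 : (fun i : G.fam (Γ₀ ^ n) w => α' i) = fun i : G.fam (Γ₀ ^ n) w => α i :=
    funext fun i => (hα i (hsub i.2)).symm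
  rw [mm, mm, md, md, h1]
  exact mom_congr (I := G.fam (Γ₀ ^ n) w) (fun _ _ _ _ => rfl) (fun i hi => hσ i (hsub i.2) hi) _ _

theorem mm_smul (n : ℕ) (w : X) (t : ℝ) (α : Γ → ℝ) (σ : Γ → Option C) :
    G.mm Γ₀ K n w (fun g => t * α g) σ = t ^ n * G.mm Γ₀ K n w α σ := by
  rw [mm, mm, md, md]
  exact mom_smul (a := fun i : G.fam (Γ₀ ^ n) w => α i) t _ n

theorem mm_of_zero {n : ℕ} (hn : 1 ≤ n) (w : X) {α : Γ → ℝ} (hα : α 1 = 0) (σ : Γ → Option C) :
    G.mm Γ₀ K n w α σ = 0 := by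
  rw [mm, md]
  exact mom_of_zero (a := fun i : G.fam (Γ₀ ^ n) w => α i) hα hn

/-- PROOF.  Near `w₀` the family `fam (Γ₀ ^ n) w₀` stays free and covering (`isClopen_E`) and `σ` is
constant on it; `md_eq_mm` with `i = 1`, `continuous_mom`. -/
theorem continuous_mm (hΓ : Sym Γ₀) (hK : G.Ker Γ₀ K) {n : ℕ} {α : X → Γ → ℝ}
    {σ : X → Γ → Option C} (hα : ∀ w, G.Resp w (α w)) (hσ : ∀ w, G.Resp w (σ w))
    (hαc : ∀ g ∈ Γ₀ ^ n, Continuous fun w => α w g)
    (hσc : ∀ g ∈ Γ₀ ^ n, IsLocallyConstant fun w => σ w g) :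
    Continuous fun w => G.mm Γ₀ K n w (α w) (σ w) := by
  refine continuous_iff_continuousAt.2 fun w₀ => ?_
  have hsub := G.fam_subset (hΓ.pow n).one w₀
  have h1 : Continuous fun w => mom (fun i j : G.fam (Γ₀ ^ n) w₀ => K i j w) (fun i => σ w₀ i)
      (fun i => α w i) ⟨1, G.one_mem_fam _ _⟩ n := by
    have h2 : Continuous fun w => ((fun i j : G.fam (Γ₀ ^ n) w₀ => K i j w),
        (fun i : G.fam (Γ₀ ^ n) w₀ => α w i)) :=
      (continuous_pi fun i => continuous_pi fun j => hK.cont _ _).prodMk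
        (continuous_pi fun i => hαc i (hsub i.2))
    have h3 := (continuous_mom (fun i : G.fam (Γ₀ ^ n) w₀ => σ w₀ i)
      ⟨1, G.one_mem_fam _ _⟩ n).comp h2
    simpa only [comp_def] using h3
  refine h1.continuousAt.congr ?_
  have h2 : ∀ᶠ w in nhds w₀, ∀ γ ∈ Γ₀ ^ n, ∀ γ' ∈ Γ₀ ^ n, (G.E w γ γ' ↔ G.E w₀ γ γ') :=
    (Filter.eventually_all_finset _).2 fun γ _ =>
      (Filter.eventually_all_finset _).2 fun γ' _ => gl_ev_E γ γ' w₀
  have h3 : ∀ᶠ w in nhds w₀, ∀ γ ∈ Γ₀ ^ n, σ w γ = σ w₀ γ :=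
    (Filter.eventually_all_finset _).2 fun γ hγ => (hσc γ hγ).eventually_eq w₀
  filter_upwards [h2, h3] with w h2 h3
  have h4 := md_eq_mm hΓ hK (w := w) (s := G.fam (Γ₀ ^ n) w₀)
    (fun γ hγ γ' hγ' h => G.fam_free _ w₀ γ hγ γ' hγ' ((h2 γ (hsub hγ) γ' (hsub hγ')).1 h))
    ⟨1, G.one_mem_fam _ _⟩ (n := n) (fun g hg => by
      obtain ⟨γ, hγ, h⟩ := G.fam_cov _ w₀ g hg
      exact ⟨γ, hγ, by rw [mul_one]; exact (h2 γ (hsub hγ) g hg).2 h⟩) (hα w) (hσ w)
  simp only [mul_one, G.act_one] at h4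
  rw [← h4, md]
  congr 1
  funext i
  exact (h3 i (hsub i.2)).symm

open Classical in
/-- Group the elements of `B` by their representative in `s`. -/
theorem SB_eq_sum {w : X} {s B : Finset Γ} (hs : G.Free w s) (hc : G.Cov w s B) {φ : Γ → ℝ}
    (hφ : G.Resp w φ) : G.SB B w φ = ∑ i ∈ s.filter fun i => ∃ γ ∈ B, G.E w i γ, φ i := by
  have h0 : ∀ g : Γ, ∃ γ, g ∈ B → γ ∈ s ∧ G.E w γ g := fun g => by
    by_cases hg : g ∈ B
    · obtain ⟨γ, hγ, h⟩ := hc g hg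
      exact ⟨γ, fun _ => ⟨hγ, h⟩⟩
    · exact ⟨g, fun h => absurd h hg⟩
  choose r hr using h0
  rw [SB, ← Finset.sum_fiberwise_of_maps_to (g := r) (t := s.filter fun i => ∃ γ ∈ B, G.E w i γ)
    fun g hg => Finset.mem_filter.2 ⟨(hr g hg).1, g, hg, (hr g hg).2⟩]
  refine Finset.sum_congr rfl fun i hi => ?_
  obtain ⟨his, γ₀, hγ₀, h0⟩ := Finset.mem_filter.1 hi
  have h1 : (B.filter fun g => r g = i) = B.filter fun g => G.E w i g :=
    Finset.filter_congr fun g hg => ⟨fun h => h ▸ (hr g hg).2,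
      fun h => hs _ (hr g hg).1 _ his ((hr g hg).2.trans h.symm)⟩
  have h2 : ((B.filter fun g => G.E w i g).card : ℝ) ≠ 0 :=
    Nat.cast_ne_zero.2 (Finset.card_pos.2 ⟨γ₀, Finset.mem_filter.2 ⟨hγ₀, h0⟩⟩).ne'
  rw [h1, Finset.sum_congr rfl (g := fun _ => φ i / (B.filter fun g => G.E w i g).card),
    Finset.sum_const, nsmul_eq_mul, mul_div_cancel₀ _ h2]
  intro g hg
  have h3 := (Finset.mem_filter.1 hg).2
  rw [← hφ _ _ h3, Finset.filter_congr (q := fun g => G.E w i g)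
    fun g' _ => ⟨fun h => h3.trans h, fun h => h3.symm.trans h⟩]

open Classical in
private theorem gl_cont_term (B : Finset Γ) (γ : Γ) {f : X → ℝ} (hf : Continuous f) :
    Continuous fun w => f w / ((B.filter fun γ' => G.E w γ γ').card : ℝ) := by
  have h1 : IsLocallyConstant fun w => (((B.filter fun γ' => G.E w γ γ').card : ℝ))⁻¹ := by
    refine (IsLocallyConstant.iff_eventually_eq _).2 fun w₀ => ?_
    filter_upwards [(Filter.eventually_all_finset B).2 fun γ' _ => gl_ev_E (G := G) γ γ' w₀]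
      with w hw
    rw [Finset.filter_congr hw]
  simp only [div_eq_mul_inv]
  exact hf.mul h1.continuous

theorem continuous_SB {B : Finset Γ} {φ : X → Γ → ℝ} (hφ : ∀ γ ∈ B, Continuous fun w => φ w γ) :
    Continuous fun w => G.SB B w (φ w) := by
  exact continuous_finsetSum _ fun γ hγ => gl_cont_term B γ (hφ γ hγ)

theorem I_sum {ι : Type*} (s : Finset ι) {F : ι → X → ℝ} (hF : ∀ i ∈ s, Continuous (F i)) :
    G.I (fun w => ∑ i ∈ s, F i w) = ∑ i ∈ s, G.I (F i) := by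
  classical
  induction s using Finset.induction_on with
  | empty => simpa using G.I_smul 0 (fun _ => 0) continuous_const
  | insert a s ha ih =>
    simp only [Finset.sum_insert ha]
    rw [G.I_add _ _ (hF a (Finset.mem_insert_self _ _))
      (continuous_finsetSum _ fun i hi => hF i (Finset.mem_insert_of_mem hi)),
      ih fun i hi => hF i (Finset.mem_insert_of_mem hi)]

theorem I_const_le {t : ℝ} (ht : 0 ≤ t) : G.I (fun _ => t) ≤ t := by
  have h := G.I_smul t (fun _ => 1) continuous_const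
  simp only [mul_one] at h
  rw [h]
  exact mul_le_of_le_one_right ht G.I_one

/-- Mass transport.  PROOF.  Reindex by `γ ↦ γ⁻¹`, apply `I_tr γ` to the term of `γ⁻¹`; the number of
`γ' ∈ B` with `E (act γ v) γ⁻¹ γ'` equals the number of `γ' ∈ B` with `E v γ γ'` (bijection
`γ' ↦ γ'⁻¹`; `E (act γ v) γ⁻¹ γ' ↔ E v 1 (γ' * γ) ↔ E v γ'⁻¹ γ`). -/
theorem mtp {B : Finset Γ} (hB : Sym B) {φ : X → Γ → ℝ} (hφ : ∀ γ ∈ B, Continuous fun w => φ w γ) :
    G.I (fun w => G.SB B w (φ w))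
      = G.I fun v => G.SB B v fun γ => φ (G.act γ v) γ⁻¹ * G.Δ γ v := by
  classical
  simp only [SB]
  have hc : ∀ γ ∈ B, Continuous fun v => φ (G.act γ v) γ⁻¹ * G.Δ γ v := fun γ hγ =>
    ((hφ _ (hB.inv γ hγ)).comp (G.act_cont γ)).mul (G.Δ_cont γ)
  rw [I_sum B fun γ hγ => gl_cont_term B γ (hφ γ hγ), I_sum B fun γ hγ => gl_cont_term B γ
    (hc γ hγ)]
  symm
  refine Finset.sum_nbij' (fun γ => γ⁻¹) (fun γ => γ⁻¹) hB.inv hB.inv (fun _ _ => inv_inv _)
    (fun _ _ => inv_inv _) fun γ hγ => ?_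
  rw [G.I_tr γ _ (gl_cont_term B γ⁻¹ (hφ _ (hB.inv γ hγ)))]
  congr 1
  funext v
  have h0 : ∀ γ', G.E (G.act γ v) γ⁻¹ γ'⁻¹ ↔ G.E v γ γ' := fun γ' => by
    rw [← E_mul_right, ← E_mul_left γ', inv_mul_cancel, mul_one, mul_inv_cancel_left]
    exact ⟨E.symm, E.symm⟩
  have h1 : (B.filter fun γ' => G.E v γ γ').card
      = (B.filter fun γ' => G.E (G.act γ v) γ⁻¹ γ').card := by
    refine Finset.card_nbij' (fun γ => γ⁻¹) (fun γ => γ⁻¹) (fun g hg => ?_) (fun g hg => ?_)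
      (fun _ _ => inv_inv _) fun _ _ => inv_inv _
    · rw [Finset.coe_filter, Set.mem_ofPred_eq] at hg ⊢
      exact ⟨hB.inv g hg.1, (h0 g).2 hg.2⟩
    · rw [Finset.coe_filter, Set.mem_ofPred_eq] at hg ⊢
      exact ⟨hB.inv g hg.1, (h0 g⁻¹).1 (by rw [inv_inv]; exact hg.2)⟩
  simp only [h1]
  ring

/-- Changing the data at the root only.  PROOF.  `SB_eq_sum` for `s = fam (Γ₀ ^ (2 N)) v`.  If `i ∈ s` has
the germ of an element of `Γ₀ ^ N` use `md_eq_mm`.  Otherwise both moments at `i` agree by `mom_local`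
(levels as in `md_eq_mm`, measured from `i`; the root `1` has level `> N`, and every other element of `s`
is not equivalent to `1`) and `mom_congr`. -/
theorem sum_md_sub (hΓ : Sym Γ₀) (hK : G.Ker Γ₀ K) (N : ℕ) (v : X) {α α' : Γ → ℝ}
    {σ σ' : Γ → Option C} (hα : G.Resp v α) (hα' : G.Resp v α') (hσ : G.Resp v σ) (hσ' : G.Resp v σ')
    (h : ∀ γ ∈ Γ₀ ^ (2 * N), ¬ G.E v 1 γ → α γ = α' γ ∧ σ γ = σ' γ) :
    ∑ i, md K v (G.fam (Γ₀ ^ (2 * N)) v) α' σ' i N - ∑ i, md K v (G.fam (Γ₀ ^ (2 * N)) v) α σ i N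
      = G.SB (Γ₀ ^ N) v fun γ =>
        G.mm Γ₀ K N (G.act γ v) (fun g => α' (g * γ)) (fun g => σ' (g * γ))
          - G.mm Γ₀ K N (G.act γ v) (fun g => α (g * γ)) fun g => σ (g * γ) := by
  classical
  have hsub := G.fam_subset (hΓ.pow (2 * N)).one v
  have hcov : G.Cov v (G.fam (Γ₀ ^ (2 * N)) v) (Γ₀ ^ N) := fun g hg =>
    G.fam_cov _ v g (hΓ.pow_mono (by omega) hg)
  rw [SB_eq_sum (G.fam_free _ v) hcov, Finset.sum_filter,
    ← Finset.sum_coe_sort (G.fam (Γ₀ ^ (2 * N)) v), ← Finset.sum_sub_distrib]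
  · refine Finset.sum_congr rfl fun i _ => ?_
    split_ifs with hi
    · obtain ⟨γ, hγ, hE⟩ := hi
      have hc : ∀ g ∈ Γ₀ ^ N, ∃ γ ∈ G.fam (Γ₀ ^ (2 * N)) v, G.E v γ (g * i) := fun g hg => by
        obtain ⟨γ', hγ', h1⟩ := G.fam_cov (Γ₀ ^ (2 * N)) v (g * γ)
          (by rw [two_mul]; exact mul_mem_pow_add hg hγ)
        exact ⟨γ', hγ', h1.trans ((E_mul_left g _ _).2 hE.symm)⟩
      rw [md_eq_mm hΓ hK (G.fam_free _ v) i hc hα hσ, md_eq_mm hΓ hK (G.fam_free _ v) i hc hα' hσ']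
    · have h1 : ∀ j : G.fam (Γ₀ ^ (2 * N)) v, (∃ g ∈ Γ₀ ^ N, G.E v j (g * i)) →
          α j = α' j ∧ σ j = σ' j := by
        rintro j ⟨g, hg, hE⟩
        refine h j (hsub j.2) fun h2 => hi ⟨g⁻¹, (hΓ.pow N).inv g hg, ?_⟩
        have h3 := (E_mul_left g⁻¹ _ _).2 (h2.trans hE)
        rw [mul_one, inv_mul_cancel_left] at h3
        exact h3.symm
      rw [gl_local hΓ hK, gl_local hΓ hK v _ i N α, sub_eq_zero, md, md]
      have h2 : (fun j : G.fam (Γ₀ ^ (2 * N)) v =>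
          if ∃ g ∈ Γ₀ ^ N, G.E v j (g * i) then α' j else 0)
          = fun j : G.fam (Γ₀ ^ (2 * N)) v => if ∃ g ∈ Γ₀ ^ N, G.E v j (g * i) then α j else 0 :=
        funext fun j => if_ctx_congr Iff.rfl (fun hj => (h1 j hj).1.symm) fun _ => rfl
      rw [h2]
      refine mom_congr (fun _ _ _ _ => rfl) (fun j hj => (h1 j ?_).2.symm) _ _
      by_contra h3
      exact hj (if_neg h3)
  · intro γ γ' hE
    have e : ∀ {β : Type} {f : Γ → β}, G.Resp v f → (fun g => f (g * γ)) = fun g => f (g * γ') :=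
      fun hf => funext fun g => hf _ _ ((E_mul_left g _ _).2 hE)
    simp only [hE.act_eq, e hα, e hα', e hσ, e hσ']

theorem resp_al (cls : X → ℕ) (N : ℕ) (σ : X → Option C) (w : X) : G.Resp w (G.al cls N σ w) :=
  fun _ _ h => by simp only [al, h.act_eq, h.Δ_eq]

theorem resp_act {β : Type*} (F : X → β) (w : X) : G.Resp w fun γ => F (G.act γ w) :=
  fun _ _ h => by simp only [h.act_eq]

theorem al_nonneg (cls : X → ℕ) (N : ℕ) (σ : X → Option C) (w : X) (γ : Γ) :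
    0 ≤ G.al cls N σ w γ := by
  refine mul_nonneg (Real.rpow_nonneg (G.Δ_pos _ _).le _) ?_
  unfold amp cA
  split_ifs <;> norm_num

/-- The cocycle identity. -/
theorem al_mul (cls : X → ℕ) (N : ℕ) (σ : X → Option C) (v : X) (g γ : Γ) :
    G.al cls N σ v (g * γ) = G.Δ γ v ^ (N : ℝ)⁻¹ * G.al cls N σ (G.act γ v) g := by
  rw [al, al, G.Δ_mul, Real.mul_rpow (G.Δ_pos _ _).le (G.Δ_pos _ _).le, G.act_mul]
  ring

theorem continuous_al {cls : X → ℕ} (hc : IsLocallyConstant cls) (N : ℕ) {σ : X → Option C}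
    (hσ : IsLocallyConstant σ) (γ : Γ) : Continuous fun w => G.al cls N σ w γ := by
  have h1 : IsLocallyConstant (amp cls σ) :=
    (hc.prodMk hσ).comp fun p : ℕ × Option C => if p.1 = 0 then (0 : ℝ) else
      if p.2 = none then cA else 1
  exact ((G.Δ_cont γ).rpow_const fun w => Or.inl (G.Δ_pos γ w).ne').mul
    (h1.continuous.comp (G.act_cont γ))

theorem continuous_den (hΓ : Sym Γ₀) (hK : G.Ker Γ₀ K) {cls : X → ℕ} (hc : IsLocallyConstant cls)
    (N : ℕ) {σ : X → Option C} (hσ : IsLocallyConstant σ) : Continuous (G.den Γ₀ K cls N σ) := by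
  exact continuous_mm hΓ hK (resp_al cls N σ) (resp_act σ) (fun g _ => continuous_al hc N hσ g)
    fun g _ => hσ.comp_continuous (G.act_cont g)

theorem mm_al_shift (cls : X → ℕ) {N : ℕ} (hN : 1 ≤ N) (σ : X → Option C) (v : X) (γ : Γ) :
    G.mm Γ₀ K N (G.act γ v) (fun g => G.al cls N σ v (g * γ)) (fun g => σ (G.act (g * γ) v))
      = G.Δ γ v * G.den Γ₀ K cls N σ (G.act γ v) := by
  simp only [al_mul, G.act_mul]
  rw [mm_smul, Real.rpow_inv_natCast_pow (G.Δ_pos _ _).le (by omega), den]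

/-- Two elements of `Γ₀ ^ N` leading to the same nonzero class have the same germ
(`sep` for `γ' * γ⁻¹` at `act γ w`, `E_mul_right`). -/
theorem Cls.E_of_eq (hΓ : Sym Γ₀) {N : ℕ} {cls : X → ℕ} (hc : G.Cls (Γ₀ ^ (2 * N)) cls) {w : X}
    {γ γ' : Γ} (hγ : γ ∈ Γ₀ ^ N) (hγ' : γ' ∈ Γ₀ ^ N) (h0 : cls (G.act γ w) ≠ 0)
    (h : cls (G.act γ' w) = cls (G.act γ w)) : G.E w γ γ' := by
  have h1 : γ' * γ⁻¹ ∈ Γ₀ ^ (2 * N) := by
    rw [two_mul]
    exact mul_mem_pow_add hγ' ((hΓ.pow N).inv γ hγ)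
  have h2 := hc.sep _ h1 _ h0 (by rw [← G.act_mul, inv_mul_cancel_right, h])
  have h3 : G.E (G.act γ w) 1 (γ' * γ⁻¹) := by simpa [E] using h2
  have h4 := (E_mul_right γ _ _).2 h3
  rwa [one_mul, inv_mul_cancel_right] at h4

end Gd

end Crest.Agent.R109
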