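import Crest.Agent.R109.GLoc
import Crest.Agent.R109.FinT

/-! Row 109: colouring one class, the initial value and the final value of the potential. -/

set_option autoImplicit false
set_option linter.unusedSectionVars false

namespace Crest.Agent.R109

open scoped BigOperators ComplexConjugate Pointwise
open Function

variable {X : Type*} [TopologicalSpace X] [CompactSpace X] [T2Space X] [TotallyDisconnectedSpace X]
  {Γ : Type*} [Group Γ] [DecidableEq Γ] {G : Gd X Γ} {Γ₀ : Finset Γ} {K : Γ → Γ → X → ℂ}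
  {C : Type} [Fintype C] [DecidableEq C] [Nonempty C]

/-- For each `c` a clopen set between `{F c ≤ η}` and `{F c < η'}`. -/
theorem exists_lists {F : C → X → ℝ} (hF : ∀ c, Continuous (F c)) {η η' : ℝ} (hη : η < η')
    (h : ∀ v, Fintype.card C ≤ 2 * (Finset.univ.filter fun c => F c v ≤ η).card) :
    ∃ L : X → Finset C, IsLocallyConstant L ∧ (∀ v, Fintype.card C ≤ 2 * (L v).card) ∧
      ∀ v, ∀ c ∈ L v, F c v ≤ η' := by
  classical
  have h1 : ∀ c, ∃ U : Set X, IsClopen U ∧ {v | F c v ≤ η} ⊆ U ∧ U ⊆ {v | F c v < η'} := fun c =>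
    exists_clopen_of_closed_subset_open (isClosed_le (hF c) continuous_const)
      (isOpen_lt (hF c) continuous_const) fun v hv => lt_of_le_of_lt hv hη
  choose U hU hU1 hU2 using h1
  refine ⟨fun v => Finset.univ.filter fun c => v ∈ U c, ?_, fun v => (h v).trans ?_,
    fun v c hc => (hU2 c (Finset.mem_filter.1 hc).2).le⟩
  · refine (IsLocallyConstant.iff_eventually_eq _).2 fun v => ?_
    have h2 : ∀ c, ∀ᶠ y in nhds v, (y ∈ U c ↔ v ∈ U c) := fun c => by
      by_cases hv : v ∈ U c
      · filter_upwards [(hU c).isOpen.mem_nhds hv] with y hy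
        exact iff_of_true hy hv
      · filter_upwards [(hU c).compl.isOpen.mem_nhds hv] with y hy
        exact iff_of_false hy hv
    filter_upwards [Filter.eventually_all.2 h2] with y hy
    exact Finset.filter_congr fun c _ => hy c
  · exact Nat.mul_le_mul_left _ (Finset.card_le_card fun c hc =>
      Finset.mem_filter.2 ⟨Finset.mem_univ _, hU1 c (Finset.mem_filter.1 hc).2⟩)

namespace Gd

/-- The new state. -/
private def gst (cls : X → ℕ) (j : ℕ) (σ : X → Option C) (g : X → C) (w : X) : Option C :=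
  if cls w = j then some (g w) else σ w

private theorem gst_lc {cls : X → ℕ} (hc : IsLocallyConstant cls) (j : ℕ) {σ : X → Option C}
    (hσ : IsLocallyConstant σ) {g : X → C} (hg : IsLocallyConstant g) :
    IsLocallyConstant (gst cls j σ g) :=
  (hc.prodMk (hσ.prodMk hg)).comp fun p : ℕ × Option C × C => if p.1 = j then some p.2.2 else p.2.1

private theorem gst_ne {cls : X → ℕ} {j : ℕ} (σ : X → Option C) (g : X → C) {w : X}
    (h : cls w ≠ j) : gst cls j σ g w = σ w := if_neg h

private theorem gst_eq {cls : X → ℕ} {j : ℕ} (σ : X → Option C) (g : X → C) {w : X}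
    (h : cls w = j) : gst cls j σ g w = some (g w) := if_pos h

private theorem gs_den_congr (hΓ : Sym Γ₀) (cls : X → ℕ) (N : ℕ) {σ σ' : X → Option C} {w : X}
    (h : ∀ γ ∈ Γ₀ ^ N, cls (G.act γ w) ≠ 0 → σ (G.act γ w) = σ' (G.act γ w)) :
    G.den Γ₀ K cls N σ w = G.den Γ₀ K cls N σ' w := by
  refine mm_congr hΓ (fun γ hγ => ?_) fun γ hγ h0 => h γ hγ fun h1 => h0 ?_
  · by_cases h1 : cls (G.act γ w) = 0
    · simp only [al, amp, h1, if_true]
    · simp only [al, amp, h γ hγ h1]
  · simp only [al, amp, h1, if_true, mul_zero]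

private theorem gs_cont_if {cls : X → ℕ} (hc : IsLocallyConstant cls) (j : ℕ) {p : X → X}
    (hp : Continuous p) {f : X → ℝ} (hf : Continuous f) :
    Continuous fun v => if cls (p v) = j then f v else 0 := by
  have h1 : Continuous fun v => if cls (p v) = j then (1 : ℝ) else 0 :=
    ((hc.comp_continuous hp).comp fun n => if n = j then (1 : ℝ) else 0).continuous
  have h2 : (fun v => if cls (p v) = j then f v else 0) =
      fun v => (if cls (p v) = j then (1 : ℝ) else 0) * f v := by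
    funext v; split_ifs <;> simp
  rw [h2]
  exact h1.mul hf

private theorem gs_SB_congr {B : Finset Γ} {w : X} {φ ψ : Γ → ℝ} (h : ∀ γ ∈ B, φ γ = ψ γ) :
    G.SB B w φ = G.SB B w ψ :=
  Finset.sum_congr rfl fun γ hγ => by rw [h γ hγ]

private theorem gs_SB_zero (B : Finset Γ) (w : X) : G.SB B w (fun _ => 0) = 0 := by
  simp [SB]

/-- The change of the density is carried by the unique germ of class `j`. -/
private theorem gs_SB_eq (hΓ : Sym Γ₀) {N : ℕ} {cls : X → ℕ} (hc : G.Cls (Γ₀ ^ (2 * N)) cls)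
    {j : ℕ} (hj0 : j ≠ 0) (w : X) {d : ℝ} (hd : (∀ γ ∈ Γ₀ ^ N, cls (G.act γ w) ≠ j) → d = 0) :
    G.SB (Γ₀ ^ N) w (fun γ => if cls (G.act γ w) = j then d else 0) = d := by
  classical
  by_cases h : ∃ γ ∈ Γ₀ ^ N, cls (G.act γ w) = j
  · obtain ⟨γ₀, hγ₀, h0⟩ := h
    obtain ⟨i, hi, hE⟩ := G.fam_cov (Γ₀ ^ N) w γ₀ hγ₀
    have hsub := G.fam_subset (hΓ.pow N).one w
    have hij : cls (G.act i w) = j := by rw [hE.act_eq, h0]
    rw [SB_eq_sum (G.fam_free _ w) (G.fam_cov _ w)
      (resp_act (fun x => if cls x = j then d else 0) w), Finset.sum_eq_single i, if_pos hij]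
    · intro k hk hki
      refine if_neg fun hkj => hki ?_
      have hk' := (Finset.mem_filter.1 hk).1
      exact G.fam_free _ w k hk' i hi
        (hc.E_of_eq hΓ (hsub hk') (hsub hi) (by rw [hkj]; exact hj0) (by rw [hkj, hij]))
    · intro hn
      exact absurd (Finset.mem_filter.2 ⟨hi, γ₀, hγ₀, hE⟩) hn
  · push Not at h
    rw [hd h]
    simp [SB]

private theorem gs_cls_ne {N : ℕ} {cls : X → ℕ} (hc : G.Cls (Γ₀ ^ (2 * N)) cls) {j : ℕ}
    (hj0 : j ≠ 0) {v : X} (hv : cls v = j) {γ : Γ} (hγ : γ ∈ Γ₀ ^ (2 * N)) (hE : ¬ G.E v 1 γ) :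
    cls (G.act γ v) ≠ j := fun h => hE (by
  have := hc.sep γ hγ v (by rw [hv]; exact hj0) (by rw [h, hv])
  simpa [E] using this)

/-- At a point of class `j` at least half of the colours are good. -/
private theorem gs_half (hΓ : Sym Γ₀) (hK : G.Ker Γ₀ K) {N : ℕ} (hN : 2 ≤ N) (hE : Even N)
    {cls : X → ℕ} (hc : G.Cls (Γ₀ ^ (2 * N)) cls) {σ : X → Option C} {j : ℕ} (hj0 : j ≠ 0)
    {v : X} (hv : cls v = j) (hσ : σ v = none) {η : ℝ} (hη : 0 < η) :
    Fintype.card C ≤ 2 * (Finset.univ.filter fun c : C => (G.SB (Γ₀ ^ N) v fun γ =>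
      (G.den Γ₀ K cls N (gst cls j σ fun _ => c) (G.act γ v) - G.den Γ₀ K cls N σ (G.act γ v))
        * G.Δ γ v) ≤ η).card := by
  classical
  have hsub := G.fam_subset (hΓ.pow (2 * N)).one v
  have h1 := step_fin (I := G.fam (Γ₀ ^ (2 * N)) v) (hK.hz v (G.fam (Γ₀ ^ (2 * N)) v))
    (a := fun i => G.al cls N σ v i) (π := fun i => σ (G.act i v))
    (fun i => al_nonneg _ _ _ _ _) (v := ⟨1, G.one_mem_fam _ v⟩)
    (by simp only [G.act_one, hσ]) hN hE hη
  refine h1.trans (Nat.mul_le_mul_left _ (Finset.card_le_card fun c hc' => ?_))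
  rw [Finset.mem_filter] at hc' ⊢
  refine ⟨hc'.1, ?_⟩
  have hne : ∀ i : G.fam (Γ₀ ^ (2 * N)) v, i ≠ ⟨1, G.one_mem_fam _ v⟩ → cls (G.act i v) ≠ j :=
    fun i hi => gs_cls_ne hc hj0 hv (hsub i.2) fun h =>
      hi (Subtype.ext (G.fam_free _ v 1 (G.one_mem_fam _ v) i i.2 h).symm)
  have e1 : update (fun i : G.fam (Γ₀ ^ (2 * N)) v => σ (G.act i v)) ⟨1, G.one_mem_fam _ v⟩ (some c)
      = fun i : G.fam (Γ₀ ^ (2 * N)) v => gst cls j σ (fun _ => c) (G.act i v) := by
    funext i
    by_cases hi : i = ⟨1, G.one_mem_fam _ v⟩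
    · rw [hi, update_self]
      simp only [G.act_one, gst_eq σ _ hv]
    · rw [update_of_ne hi, gst_ne σ _ (hne i hi)]
  have e2 : update (fun i : G.fam (Γ₀ ^ (2 * N)) v => G.al cls N σ v i) ⟨1, G.one_mem_fam _ v⟩
      (G.al cls N σ v 1 / cA)
      = fun i : G.fam (Γ₀ ^ (2 * N)) v => G.al cls N (gst cls j σ fun _ => c) v i := by
    funext i
    by_cases hi : i = ⟨1, G.one_mem_fam _ v⟩
    · rw [hi, update_self]
      have h0 : cls v ≠ 0 := by rw [hv]; exact hj0
      have hcA : cA ≠ 0 := by norm_num [cA]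
      simp only [al, amp, G.act_one, gst_eq σ _ hv, hσ, if_neg h0, if_true, reduceCtorEq, if_false]
      field_simp
    · rw [update_of_ne hi]
      simp only [al, amp, gst_ne σ _ (hne i hi)]
  have h2 := hc'.2
  rw [e1, e2] at h2
  have h3 := sum_md_sub hΓ hK N v (resp_al cls N σ v) (resp_al cls N (gst cls j σ fun _ => c) v)
    (resp_act σ v) (resp_act (gst cls j σ fun _ => c) v) fun γ hγ hE' => by
      have := gs_cls_ne hc hj0 hv hγ hE'
      simp only [al, amp, gst_ne σ _ this, and_self]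
  have h4 : (G.SB (Γ₀ ^ N) v fun γ =>
      (G.den Γ₀ K cls N (gst cls j σ fun _ => c) (G.act γ v) - G.den Γ₀ K cls N σ (G.act γ v))
        * G.Δ γ v) = _ := (gs_SB_congr fun γ _ => by
      rw [mm_al_shift cls (by omega), mm_al_shift cls (by omega)]; ring).trans h3.symm
  rw [h4]
  simp only [md]
  linarith

/-- PROOF.  `j = 0`: `L = univ`, the densities agree (`mm_congr`, the amplitude vanishes on class `0`).
`j ≠ 0`: write `σ_g` for the new state, `B = Γ₀ ^ N`, `d_g = den σ_g - den σ`,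
`φ_g w γ = if cls (act γ w) = j then d_g w else 0`.  Then `SB B w (φ_g w) = d_g w` (`SB_eq_sum` on
`fam B w`; at most one germ has class `j` by `Cls.E_of_eq`; if there is none `d_g w = 0` by `mm_congr`).
`mtp`: the integral is that of `H_g v = SB B v (fun γ => if cls v = j then d_g (act γ v) * Δ γ v else 0)`.
For `cls v = j`, `γ ∈ B`: `d_g (act γ v) = d_c (act γ v)` for the constant function `c = g v` (`mm_congr`,
`sep`), so `H_g v = H_{g v} v`.  By `sum_md_sub`, `mm_al_shift` and `step_fin` (on `fam (Γ₀ ^ (2 N)) v`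
only the root has class `j`), at least half of the `c` have `H_c v ≤ η / 2`; `exists_lists`. -/
theorem dstep (hΓ : Sym Γ₀) (hK : G.Ker Γ₀ K) {N : ℕ} (hN : 2 ≤ N) (hE : Even N) {cls : X → ℕ}
    (hc : G.Cls (Γ₀ ^ (2 * N)) cls) {σ : X → Option C} (hσ : IsLocallyConstant σ) (j : ℕ)
    (hj : ∀ w, cls w = j → σ w = none) {η : ℝ} (hη : 0 < η) :
    ∃ L : X → Finset C, IsLocallyConstant L ∧ (∀ w, Fintype.card C ≤ 2 * (L w).card) ∧
      ∀ g : X → C, IsLocallyConstant g → (∀ w, cls w = j → g w ∈ L w) →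
        G.Psi Γ₀ K cls N (fun w => if cls w = j then some (g w) else σ w)
          ≤ G.Psi Γ₀ K cls N σ + η := by
  classical
  change ∃ L : X → Finset C, IsLocallyConstant L ∧ (∀ w, Fintype.card C ≤ 2 * (L w).card) ∧
      ∀ g : X → C, IsLocallyConstant g → (∀ w, cls w = j → g w ∈ L w) →
        G.Psi Γ₀ K cls N (gst cls j σ g) ≤ G.Psi Γ₀ K cls N σ + η
  by_cases hj0 : j = 0
  · refine ⟨fun _ => Finset.univ, IsLocallyConstant.const _,
      fun w => by rw [Finset.card_univ]; omega, fun g _ _ => ?_⟩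
    have : G.den Γ₀ K cls N (gst cls j σ g) = G.den Γ₀ K cls N σ := funext fun w =>
      gs_den_congr hΓ cls N fun γ _ h0 => gst_ne σ g (by rw [hj0]; exact h0)
    simp only [Psi, this]
    linarith
  -- the change of the density and the transported density
  let d : (X → C) → X → ℝ := fun g w => G.den Γ₀ K cls N (gst cls j σ g) w - G.den Γ₀ K cls N σ w
  have hd : ∀ g, IsLocallyConstant g → Continuous (d g) := fun g hg =>
    (continuous_den hΓ hK hc.lc N (gst_lc hc.lc j hσ hg)).sub (continuous_den hΓ hK hc.lc N hσ)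
  let H : (X → C) → X → ℝ := fun g v =>
    G.SB (Γ₀ ^ N) v fun γ => (if cls v = j then d g (G.act γ v) else 0) * G.Δ γ v
  have hH : ∀ g, IsLocallyConstant g → Continuous (H g) := fun g hg =>
    continuous_SB fun γ _ => (gs_cont_if hc.lc j continuous_id
      ((hd g hg).comp (G.act_cont γ))).mul (G.Δ_cont γ)
  have hH0 : ∀ g v, cls v ≠ j → H g v = 0 := fun g v hv => by
    simp only [H, if_neg hv, zero_mul, gs_SB_zero]
  have hI : ∀ g, IsLocallyConstant g → G.I (d g) = G.I (H g) := fun g hg => by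
    have h1 : d g = fun w => G.SB (Γ₀ ^ N) w fun γ => if cls (G.act γ w) = j then d g w else 0 :=
      funext fun w => (gs_SB_eq hΓ hc hj0 w fun h => sub_eq_zero.2
        (gs_den_congr hΓ cls N fun γ hγ _ => gst_ne σ g (h γ hγ))).symm
    rw [h1, mtp (hΓ.pow N) (φ := fun w γ => if cls (G.act γ w) = j then d g w else 0)
      fun γ _ => gs_cont_if hc.lc j (G.act_cont γ) (hd g hg)]
    congr 1
    funext v
    refine gs_SB_congr fun γ _ => ?_
    rw [← G.act_mul, inv_mul_cancel, G.act_one]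
  have hloc : ∀ g v, H g v = H (fun _ => g v) v := fun g v => by
    by_cases hv : cls v = j
    · refine gs_SB_congr fun γ hγ => ?_
      rw [if_pos hv, if_pos hv]
      refine congrArg (fun t => (t - G.den Γ₀ K cls N σ (G.act γ v)) * G.Δ γ v) ?_
      refine gs_den_congr hΓ cls N fun γ' hγ' _ => ?_
      by_cases h1 : cls (G.act γ' (G.act γ v)) = j
      · rw [gst_eq σ _ h1, gst_eq σ _ h1]
        rw [← G.act_mul] at h1 ⊢
        have h2 := mul_mem_pow_add hγ' hγ
        rw [← two_mul] at h2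
        rw [G.c_fix _ _ (hc.sep _ h2 v (by rw [hv]; exact hj0) (by rw [h1, hv]))]
      · rw [gst_ne σ _ h1, gst_ne σ _ h1]
    · rw [hH0 _ _ hv, hH0 _ _ hv]
  obtain ⟨L, hL, hL1, hL2⟩ := exists_lists (F := fun c => H fun _ => c)
    (fun c => hH _ (IsLocallyConstant.const c)) (half_lt_self hη) fun v => by
      by_cases hv : cls v = j
      · simp only [H, if_pos hv]
        exact gs_half hΓ hK hN hE hc hj0 hv (hj v hv) (half_pos hη)
      · rw [Finset.filter_true_of_mem fun c _ => by rw [hH0 _ _ hv]; exact (half_pos hη).le,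
          Finset.card_univ]
        omega
  refine ⟨L, hL, hL1, fun g hg hgL => ?_⟩
  have h1 : G.I (H g) ≤ η := by
    refine (G.I_mono _ (fun _ => η) (hH g hg) continuous_const fun v => ?_).trans (I_const_le hη.le)
    by_cases hv : cls v = j
    · rw [hloc]; exact hL2 v _ (hgL v hv)
    · rw [hH0 _ _ hv]; exact hη.le
  have h2 := G.I_add _ _ (continuous_den hΓ hK hc.lc N hσ) (hd g hg)
  simp only [d, add_sub_cancel] at h2
  rw [← hI g hg] at h1
  simp only [Psi]
  exact h2.le.trans (add_le_add_right h1 _)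

end Gd

end Crest.Agent.R109
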