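import Crest.Agent.R109.Cf

/-! Row 109: choosing colours from adaptive lists while controlling a convex functional. -/

set_option autoImplicit false
set_option linter.unusedSectionVars false

namespace Crest.Agent.R109

open scoped BigOperators
open Function

variable {C : Type} [Fintype C] [DecidableEq C] [Nonempty C]

/-- One atom.  `𝔼_{c ∈ L} F₁ c ≤ F₀ + (2 |L|)⁻¹ ∑_L (F₂ c - F₀) ≤ F₀ + |C|⁻¹ ∑_C (F₂ c - F₀)`. -/
theorem mono_one {F₀ : ℝ} {F₁ F₂ : C → ℝ} (h0 : ∀ c, F₀ ≤ F₂ c) (h1 : ∀ c, 2 * F₁ c ≤ F₂ c + F₀)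
    {L : Finset C} (hL : Fintype.card C ≤ 2 * L.card) : ∃ c ∈ L, F₁ c ≤ 𝔼 c', F₂ c' := by
  by_contra hc
  push Not at hc
  have hn : 0 < Fintype.card C := Fintype.card_pos
  have hne : L.Nonempty := Finset.card_pos.1 (by omega)
  have e1 : F₀ ≤ 𝔼 c', F₂ c' := Finset.le_expect Finset.univ_nonempty fun c _ => h0 c
  have e2 : (Fintype.card C : ℝ) * 𝔼 c', F₂ c' = ∑ c, F₂ c := Fintype.card_mul_expect F₂
  generalize 𝔼 c', F₂ c' = E at hc e1 e2
  have e3 : ∑ _c ∈ L, 2 * (E - F₀) < ∑ c ∈ L, (F₂ c - F₀) :=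
    Finset.sum_lt_sum_of_nonempty hne fun c hc' => by linarith [hc c hc', h1 c]
  have e4 : ∑ c ∈ L, (F₂ c - F₀) ≤ ∑ c, (F₂ c - F₀) :=
    Finset.sum_le_sum_of_subset_of_nonneg (Finset.subset_univ _) fun c _ _ => sub_nonneg.2 (h0 c)
  have e5 : (Fintype.card C : ℝ) ≤ 2 * L.card := by exact_mod_cast hL
  rw [Finset.sum_sub_distrib (s := Finset.univ), Finset.sum_const, Finset.card_univ, nsmul_eq_mul] at e4
  rw [Finset.sum_const, nsmul_eq_mul] at e3
  nlinarith [mul_le_mul_of_nonneg_right e5 (sub_nonneg.2 e1)]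

/-- All atoms.  PROOF.  Induction on the set `D` of treated atoms: there is `g₀` with `g₀ i ∈ L i` on `D` and
`𝔼 g, F (D.piecewise g₀ g) (D.piecewise 1 2) ≤ 𝔼 g, F g 2`; the step is `mono_one` applied to the
averages over the other coordinates. -/
theorem mono_all {ι : Type*} [Fintype ι] [DecidableEq ι] (F : (ι → C) → (ι → ℝ) → ℝ)
    (h1 : ∀ g a i c, F (update g i c) (update a i 0) = F g (update a i 0))
    (h2 : ∀ g a i, F g (update a i 0) ≤ F g (update a i 2))
    (h3 : ∀ g a i, 2 * F g (update a i 1) ≤ F g (update a i 2) + F g (update a i 0))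
    (L : ι → Finset C) (hL : ∀ i, Fintype.card C ≤ 2 * (L i).card) :
    ∃ g : ι → C, (∀ i, g i ∈ L i) ∧ F g (fun _ => 1) ≤ 𝔼 g', F g' fun _ => 2 := by
  have key : ∀ D : Finset ι, ∃ g₀ : ι → C, (∀ i ∈ D, g₀ i ∈ L i) ∧
      𝔼 g, F (D.piecewise g₀ g) (D.piecewise (fun _ => 1) fun _ => 2) ≤
        𝔼 g', F g' fun _ => 2 := by
    intro D
    induction D using Finset.induction_on with
    | empty => exact ⟨fun _ => Classical.arbitrary C, by simp, by simp⟩
    | insert i D hi ih =>
      obtain ⟨g₀, hg, h⟩ := ih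
      set a : ι → ℝ := D.piecewise (fun _ => 1) fun _ => 2 with ha
      obtain ⟨c, hc, h'⟩ := mono_one (F₀ := 𝔼 g, F (D.piecewise g₀ g) (update a i 0))
        (F₁ := fun c => 𝔼 g, F (update (D.piecewise g₀ g) i c) (update a i 1))
        (F₂ := fun c => 𝔼 g, F (update (D.piecewise g₀ g) i c) (update a i 2))
        (fun c => Finset.expect_le_expect fun g _ => (h1 _ a i c).symm.trans_le (h2 _ a i))
        (fun c => by
          rw [Finset.mul_expect, ← Finset.expect_add_distrib]
          exact Finset.expect_le_expect fun g _ => (h3 _ a i).trans_eq (by rw [h1])) (hL i)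
      refine ⟨update g₀ i c, fun j hj => ?_, le_trans (le_of_eq ?_) (h'.trans (le_of_eq_of_le ?_ h))⟩
      · by_cases hji : j = i
        · subst hji; simpa using hc
        · simpa [hji] using hg j ((Finset.mem_insert.1 hj).resolve_left hji)
      · refine Finset.expect_congr rfl fun g _ => ?_
        rw [Finset.piecewise_insert, Finset.piecewise_insert, update_self]
        congr 2
        exact Finset.piecewise_congr _ (fun j hj => update_of_ne (fun e : j = i => hi (e ▸ hj)) _ _)
          fun _ _ => rfl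
      · have e : update a i 2 = a := update_eq_self_iff.2 (by simp [ha, hi])
        rw [e, Finset.expect_comm, expect_update (fun g => F (D.piecewise g₀ g) a) i]
        refine Finset.expect_congr rfl fun g _ => Finset.expect_congr rfl fun c' _ => ?_
        rw [Finset.update_piecewise_of_notMem _ _ _ hi]
  obtain ⟨g₀, hg, h⟩ := key Finset.univ
  refine ⟨g₀, fun i => hg i (Finset.mem_univ _), ?_⟩
  simpa [Fintype.expect_const] using h

private theorem lc_ite {X Y : Type*} [TopologicalSpace X] {c : X → ℕ} (hc : IsLocallyConstant c)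
    (p : ℕ → Prop) [DecidablePred p] {f g : X → Y} (hf : IsLocallyConstant f)
    (hg : IsLocallyConstant g) : IsLocallyConstant fun w => if p (c w) then f w else g w :=
  (hc.prodMk (hf.prodMk hg)).comp fun q => if p q.1 then q.2.1 else q.2.2

private theorem lc_pi {X Y κ : Type*} [TopologicalSpace X] [Finite κ] {f : κ → X → Y}
    (hf : ∀ s, IsLocallyConstant (f s)) : IsLocallyConstant fun w s => f s w :=
  (IsLocallyConstant.iff_eventually_eq _).2 fun x =>
    (Filter.eventually_all.2 fun s => (hf s).eventually_eq x).mono fun _ h => funext h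

/-- PROOF.  Backward induction on `k ≤ J` (from `k = J` to `0`) of: for every finite family of locally
constant `σ : X → C` there is a locally constant `P : X → ι` (`ι : Type` finite) with fibres inside the
fibres of `P₀` such that for each `σ` of the family some locally constant `f` satisfies
`Φ f 1 ≤ 𝔼 g : ι → C, Φ (if cls < k then σ else g ∘ P) (if cls < k then 1 else 2)` and
`Ψ (some ∘ f) ≤ Ψ (if cls < k then some ∘ σ else none) + (J - k) η`.  Step `k + 1 → k`: let `P₁ : X → ι₁`
refine `P₀` and the lists of all members (`hΨ`), apply the claim for `k + 1` to the finite family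
`if cls = k then g ∘ P₁ else σ` (`g : ι₁ → C`), get `P₂ : X → ι₂`, and put
`P w = if cls w = k then inl (P₁ w) else inr (P₂ w)`.  `mono_all` for
`F g a = 𝔼 g₂, Φ (σ | g ∘ P₁ | g₂ ∘ P₂) (1 | a ∘ P₁ | 2)` with `U = {cls = k ∧ P₁ = i}`. -/
theorem game {X : Type*} [TopologicalSpace X] [CompactSpace X] {cls : X → ℕ}
    (hc : IsLocallyConstant cls) {J : ℕ} (hJ : ∀ w, cls w < J) (Ψ : (X → Option C) → ℝ) {η : ℝ}
    (hΨ : ∀ σ : X → Option C, IsLocallyConstant σ → ∀ j, (∀ w, cls w = j → σ w = none) →
      ∃ L : X → Finset C, IsLocallyConstant L ∧ (∀ w, Fintype.card C ≤ 2 * (L w).card) ∧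
        ∀ g : X → C, IsLocallyConstant g → (∀ w, cls w = j → g w ∈ L w) →
          Ψ (fun w => if cls w = j then some (g w) else σ w) ≤ Ψ σ + η)
    (Φ : (X → C) → (X → ℝ) → ℝ) {ι₀ : Type} [Fintype ι₀] {P₀ : X → ι₀} (hP₀ : IsLocallyConstant P₀)
    (h1 : ∀ (f f' : X → C) (a : X → ℝ), IsLocallyConstant f → IsLocallyConstant f' →
      IsLocallyConstant a → (∀ w, a w ≠ 0 → f w = f' w) → Φ f a = Φ f' a)
    (h2 : ∀ (f : X → C) (a₀ a₁ a₂ : X → ℝ) (U : Set X), IsLocallyConstant f → IsLocallyConstant a₀ →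
      IsClopen U → (∀ w ∈ U, ∀ w' ∈ U, P₀ w = P₀ w') → (∀ w ∈ U, a₀ w = 0 ∧ a₁ w = 1 ∧ a₂ w = 2) →
      (∀ w ∉ U, a₁ w = a₀ w ∧ a₂ w = a₀ w) → Φ f a₀ ≤ Φ f a₂ ∧ 2 * Φ f a₁ ≤ Φ f a₂ + Φ f a₀)
    {B : ℝ} (h3 : ∀ (ι : Type) [Fintype ι] [DecidableEq ι] (P : X → ι), IsLocallyConstant P →
      (∀ w w', P w = P w' → P₀ w = P₀ w') → 𝔼 g : ι → C, Φ (fun w => g (P w)) (fun _ => 2) ≤ B) :
    ∃ f : X → C, IsLocallyConstant f ∧ Φ f (fun _ => 1) ≤ B ∧
      Ψ (fun w => some (f w)) ≤ Ψ (fun _ => none) + J * η := by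
  classical
  have key : ∀ d k : ℕ, k + d = J → ∀ (κ : Type) [Fintype κ] (σ : κ → X → C),
      (∀ s, IsLocallyConstant (σ s)) → ∃ (ι : Type) (_ : Fintype ι) (_ : DecidableEq ι) (P : X → ι),
      IsLocallyConstant P ∧ (∀ w w', P w = P w' → P₀ w = P₀ w') ∧ ∀ s, ∃ f : X → C,
        IsLocallyConstant f ∧ Φ f (fun _ => 1) ≤ 𝔼 g : ι → C,
          Φ (fun w => if cls w < k then σ s w else g (P w)) (fun w => if cls w < k then 1 else 2) ∧
        Ψ (fun w => some (f w)) ≤ Ψ (fun w => if cls w < k then some (σ s w) else none) + d * η := by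
    intro d
    induction d with
    | zero =>
      rintro k rfl κ _ σ hσ
      refine ⟨ι₀, inferInstance, inferInstance, P₀, hP₀, fun _ _ h => h, fun s => ⟨σ s, hσ s, ?_, ?_⟩⟩
      · simp [show ∀ w, cls w < k from hJ]
      · simp [show ∀ w, cls w < k from hJ]
    | succ d ih =>
      intro k hk κ _ σ hσ
      choose L hL1 hL2 hL3 using fun s => hΨ (fun w => if cls w < k then some (σ s w) else none)
        (lc_ite hc (· < k) ((hσ s).comp some) (IsLocallyConstant.const _)) k
        fun w hw => if_neg (by omega)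
      set P₁ : X → ι₀ × (κ → Finset C) := fun w => (P₀ w, fun s => L s w) with hP₁d
      have hP₁ : IsLocallyConstant P₁ := hP₀.prodMk (lc_pi hL1)
      have hσ' : ∀ s (g : ι₀ × (κ → Finset C) → C),
          IsLocallyConstant fun w => if cls w = k then g (P₁ w) else σ s w := fun s g =>
        lc_ite hc (· = k) (hP₁.comp g) (hσ s)
      obtain ⟨ι₂, _, _, P₂, hP₂, hP₂', h⟩ := ih (k + 1) (by omega) (κ × (ι₀ × (κ → Finset C) → C))
        (fun s w => if cls w = k then s.2 (P₁ w) else σ s.1 w) fun s => hσ' s.1 s.2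
      refine ⟨(ι₀ × (κ → Finset C)) ⊕ ι₂, inferInstance, inferInstance,
        fun w => if cls w = k then Sum.inl (P₁ w) else Sum.inr (P₂ w),
        lc_ite hc (· = k) (hP₁.comp Sum.inl) (hP₂.comp Sum.inr), fun w w' e => ?_, fun s => ?_⟩
      · beta_reduce at e
        split_ifs at e
        · exact congrArg Prod.fst (Sum.inl.inj e)
        · exact hP₂' _ _ (Sum.inr.inj e)
      have hf : ∀ (g : ι₀ × (κ → Finset C) → C) (g₂ : ι₂ → C), IsLocallyConstant fun w =>
          if cls w < k + 1 then if cls w = k then g (P₁ w) else σ s w else g₂ (P₂ w) := fun g g₂ =>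
        lc_ite hc (· < k + 1) (hσ' s g) (hP₂.comp g₂)
      have ha : ∀ a : ι₀ × (κ → Finset C) → ℝ, IsLocallyConstant fun w =>
          if cls w = k then a (P₁ w) else if cls w < k then 1 else 2 := fun a =>
        lc_ite hc (· = k) (hP₁.comp a)
          (lc_ite hc (· < k) (IsLocallyConstant.const _) (IsLocallyConstant.const _))
      have h23 : ∀ (g : ι₀ × (κ → Finset C) → C) (g₂ : ι₂ → C) (a : ι₀ × (κ → Finset C) → ℝ) i, _ :=
        fun g g₂ a i => h2 _ _
          (fun w => if cls w = k then update a i 1 (P₁ w) else if cls w < k then 1 else 2)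
          (fun w => if cls w = k then update a i 2 (P₁ w) else if cls w < k then 1 else 2)
          {w | cls w = k ∧ P₁ w = i} (hf g g₂) (ha (update a i 0))
          ((hc.isClopen_fiber k).inter (hP₁.isClopen_fiber i))
          (fun w hw w' hw' => congrArg Prod.fst (hw.2.trans hw'.2.symm))
          (fun w hw => by simp [hw.1, hw.2]) fun w hw => by
            by_cases e : cls w = k
            · have : P₁ w ≠ i := fun e' => hw ⟨e, e'⟩
              simp [e, this]
            · simp [e]
      obtain ⟨g, hg, hle⟩ := mono_all (fun g a => 𝔼 g₂ : ι₂ → C,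
        Φ (fun w => if cls w < k + 1 then if cls w = k then g (P₁ w) else σ s w else g₂ (P₂ w))
          fun w => if cls w = k then a (P₁ w) else if cls w < k then 1 else 2)
        (fun g a i c => Finset.expect_congr rfl fun g₂ _ => h1 _ _ _ (hf _ _) (hf _ _) (ha _)
          fun w hw => by
            by_cases e : cls w = k
            · have : P₁ w ≠ i := fun e' => hw (by simp [e, e'])
              simp [e, this]
            · simp [e])
        (fun g a i => Finset.expect_le_expect fun g₂ _ => (h23 g g₂ a i).1)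
        (fun g a i => by
          rw [Finset.mul_expect, ← Finset.expect_add_distrib]
          exact Finset.expect_le_expect fun g₂ _ => (h23 g g₂ a i).2)
        (fun i => if Fintype.card C ≤ 2 * (i.2 s).card then i.2 s else Finset.univ) fun i => by
          split_ifs with e
          · exact e
          · rw [Finset.card_univ]; omega
      obtain ⟨f, hf1, hf2, hf3⟩ := h (s, g)
      refine ⟨f, hf1, hf2.trans (le_of_eq_of_le ?_ (hle.trans_eq ?_)), hf3.trans ?_⟩
      · refine Finset.expect_congr rfl fun g₂ _ => congrArg _ (funext fun w => ?_)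
        split_ifs <;> first | rfl | omega
      · rw [← Finset.expect_product', Finset.univ_product_univ]
        refine Fintype.expect_equiv (Equiv.sumArrowEquivProdArrow _ _ _).symm _ _ fun ⟨p₁, p₂⟩ => ?_
        congr 1 <;> funext w <;> rcases lt_trichotomy (cls w) k with e | e | e
        · simp [e, e.ne, Nat.lt_succ_of_lt e]
        · simp [e]
        · simp [e.ne', e.le.not_gt, e.not_ge]
        · simp [e, e.ne]
        · simp [e]
        · simp [e.ne', e.le.not_gt]
      · have e := hL3 s (fun w => g (P₁ w)) (hP₁.comp g) fun w _ => by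
          simpa [hP₁d, hL2 s w] using hg (P₁ w)
        have e' : (fun w => if cls w < k + 1 then
            some (if cls w = k then g (P₁ w) else σ s w) else none) = fun w =>
            if cls w = k then some (g (P₁ w)) else if cls w < k then some (σ s w) else none := by
          funext w
          split_ifs <;> first | rfl | omega
        beta_reduce
        rw [e']
        push_cast
        linarith
  obtain ⟨ι, _, _, P, hP, hP', h⟩ := key J 0 (zero_add _) Unit (fun _ _ => Classical.arbitrary C)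
    fun _ => IsLocallyConstant.const _
  obtain ⟨f, hf1, hf2, hf3⟩ := h ()
  simp only [not_lt_zero, if_false] at hf2 hf3
  exact ⟨f, hf1, hf2.trans (h3 ι P hP hP'), hf3⟩

end Crest.Agent.R109
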