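import Crest.Agent.R109.ODefs

/-! Row 109: Kaplansky density, spectral cuts, Mazur's lemma. -/

set_option autoImplicit false
set_option linter.unusedSectionVars false
set_option linter.deprecated false

namespace Crest.Agent.R109

open Crest.Agent.R124 Filter Topology Function
open scoped BigOperators ComplexConjugate InnerProductSpace ComplexOrder

variable {H : Type*} [NormedAddCommGroup H] [InnerProductSpace ℂ H] [CompleteSpace H]

private lemma Hil_sa_fin {A : Type*} [CStarAlgebra A] (lam : A →⋆ₐ[ℂ] (H →L[ℂ] H)) {k : H →L[ℂ] H}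
    (hk : k ∈ (cent (Set.range lam)).commutant) (hs : IsSelfAdjoint k) (F : Finset H) {ε : ℝ}
    (hε : 0 < ε) : ∃ a : A, IsSelfAdjoint a ∧ ∀ ξ ∈ F, ‖k ξ - lam a ξ‖ < ε := by
  classical
  let lam' : A →⋆ₐ[ℂ] (HH F H →L[ℂ] HH F H) := (dgH F H).comp lam
  have hl : ∀ a, lam' a = dg F (lam a) := fun a => rfl
  have h1 : dg F k ∈ (cent (Set.range lam')).commutant := by
    refine VonNeumannAlgebra.mem_commutant_iff.mpr fun Y hY => ext_ent fun i j => ?_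
    rw [ent_dg_mul, ent_mul_dg]
    have h2 : ∀ a, lam a * ent Y i j = ent Y i j * lam a := fun a => by
      rw [← ent_dg_mul, ← ent_mul_dg, ← hl, (mem_cent.mp hY _ ⟨a, rfl⟩).1]
    refine comm_of_mem (P := cent (Set.range lam)) (mem_cent.mpr ?_) hk
    rintro _ ⟨a, rfl⟩
    exact ⟨h2 a, by rw [← map_star]; exact h2 _⟩
  have h3 : IsSelfAdjoint (dg F k) := by rw [IsSelfAdjoint, ← dg_star, hs.star_eq]
  obtain ⟨a, ha, h⟩ := kap_sa lam' h1 h3 (WithLp.toLp 2 fun i : F => (i : H)) hε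
  refine ⟨a, ha, fun ξ hξ => lt_of_le_of_lt ?_ h⟩
  have := PiLp.norm_apply_le (dg F k (WithLp.toLp 2 fun i : F => (i : H)) -
    lam' a (WithLp.toLp 2 fun i : F => (i : H))) ⟨ξ, hξ⟩
  simpa [hl] using this

private lemma Hil_unit {A : Type*} [CStarAlgebra A] (lam : A →⋆ₐ[ℂ] (H →L[ℂ] H)) {h : H →L[ℂ] H}
    (hh : h ∈ (cent (Set.range lam)).commutant) (hs : IsSelfAdjoint h) (hn : ‖h‖ ≤ 1)
    (F : Finset H) {ε : ℝ} (hε : 0 < ε) :
    ∃ b : A, IsSelfAdjoint b ∧ ‖b‖ ≤ 1 ∧ ∀ ξ ∈ F, ‖lam b ξ - h ξ‖ < ε := by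
  classical
  rcases subsingleton_or_nontrivial (H →L[ℂ] H) with h0 | h0
  · refine ⟨0, .zero _, by simp, fun ξ _ => ?_⟩
    rw [Subsingleton.elim h 0]; simpa using hε
  let g : ℝ → ℝ := fun t => t / (1 + √(1 - t ^ 2))
  have hpos : ∀ t : ℝ, 0 < 1 + √(1 - t ^ 2) := fun t => by positivity
  have hg : Continuous g := Continuous.div (by fun_prop) (by fun_prop) fun t => (hpos t).ne'
  set k := cfc g h with hkdef
  have hks : IsSelfAdjoint k := cfc_predicate g h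
  have hkP : k ∈ (cent (Set.range lam)).commutant := mem_of_comm fun y hy =>
    (Commute.cfc_real (comm_of_mem hh hy) g).eq.symm
  have hc : Commute k h := (Commute.refl h).cfc_real g
  have e1 : h * (1 + k * k) = k + k := by
    have : cfc (fun t : ℝ => t * (1 + g t * g t)) h = cfc (fun t : ℝ => g t + g t) h := by
      refine cfc_congr fun t ht => ?_
      have h1 : |t| ≤ 1 := by
        have := (spectrum.norm_le_norm_of_mem ht).trans hn
        simpa using this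
      have h2 : √(1 - t ^ 2) ^ 2 = 1 - t ^ 2 :=
        Real.sq_sqrt (by nlinarith [abs_nonneg t, sq_abs t])
      have h3 := (hpos t).ne'
      simp only [g]
      field_simp
      linear_combination t * h2
    rwa [cfc_mul _ _ h, cfc_add (a := h) _ _, cfc_add (a := h) _ _, cfc_mul _ _ h, cfc_id' ℝ h,
      cfc_const_one ℝ h] at this
  obtain ⟨r, r1, r2, -, -⟩ := exists_resolvent hks
  obtain ⟨s, s1, s2, -, -⟩ := exists_resolvent hks.neg
  have e2 : (k + Complex.I • 1) * h * (-k + Complex.I • 1) =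
      (-k + Complex.I • 1) - (k + Complex.I • 1) := by
    have : (k + Complex.I • 1) * h * (-k + Complex.I • 1) = -(h * (1 + k * k)) := by
      simp only [add_mul, mul_add, smul_mul_assoc, mul_smul_comm, one_mul, mul_one, mul_neg,
        hc.eq, smul_add, smul_smul, Complex.I_mul_I, mul_assoc]
      module
    rw [this, e1]; abel
  have e3 : h = r - s := by
    calc h = (r * (k + Complex.I • 1)) * h * ((-k + Complex.I • 1) * s) := by
          rw [r1, s2, one_mul, mul_one]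
      _ = r * ((k + Complex.I • 1) * h * (-k + Complex.I • 1)) * s := by simp only [mul_assoc]
      _ = r - s := by rw [e2, mul_sub, sub_mul, mul_assoc, s2, r1, mul_one, one_mul]
  obtain ⟨a, ha, hab⟩ := Hil_sa_fin lam hkP hks (F.image r ∪ F.image s) (half_pos hε)
  obtain ⟨u, u1, u2, u3, u4⟩ := exists_resolvent ha
  obtain ⟨v, v1, v2, v3, v4⟩ := exists_resolvent ha.neg
  have su : star u = -v := by
    have t1 : star u * (a - Complex.I • 1) = 1 := by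
      have := congrArg star u2
      simpa [star_mul, ha.star_eq, sub_eq_add_neg] using this
    have t2 : (a - Complex.I • 1) * (-v) = 1 := by
      have : -(a - Complex.I • (1 : A)) = -a + Complex.I • 1 := by abel
      rw [mul_neg, ← neg_mul, this, v2]
    calc star u = star u * ((a - Complex.I • 1) * (-v)) := by rw [t2, mul_one]
      _ = -v := by rw [← mul_assoc, t1, one_mul]
  have key : ∀ {k r : H →L[ℂ] H} {a u : A}, (k + Complex.I • 1) * r = 1 →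
      u * (a + Complex.I • 1) = 1 → ‖u‖ ≤ 1 → ∀ ξ, ‖lam u ξ - r ξ‖ ≤ ‖k (r ξ) - lam a (r ξ)‖ := by
    intro k r a u hr hu hu1 ξ
    have t1 : lam u * (lam a + Complex.I • 1) = 1 := by
      have := congrArg lam hu
      simpa using this
    have t2 : lam u * (k - lam a) * r = lam u - r := by
      have : k - lam a = (k + Complex.I • 1) - (lam a + Complex.I • 1) := by abel
      rw [this, mul_sub, sub_mul, mul_assoc, hr, t1, mul_one, one_mul]
    have t3 := congr($t2 ξ)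
    simp only [ContinuousLinearMap.mul_apply, ContinuousLinearMap.sub_apply] at t3
    rw [← t3]
    have n1 : ‖lam u‖ ≤ 1 := (NonUnitalStarAlgHom.norm_apply_le lam u).trans hu1
    simpa using (lam u).le_of_opNorm_le n1 (k (r ξ) - lam a (r ξ))
  refine ⟨u - v, ?_, ?_, fun ξ hξ => ?_⟩
  · have sv : star v = -u := by rw [← neg_neg v, ← su]; simp
    rw [IsSelfAdjoint, star_sub, su, sv]; abel
  · have t1 : (2 * Complex.I) • (u - v) = (1 - (2 * Complex.I) • v) - (1 - (2 * Complex.I) • u) := by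
      rw [smul_sub]; abel
    have t2 := norm_sub_le (1 - (2 * Complex.I) • v) (1 - (2 * Complex.I) • u)
    rw [← t1, norm_smul] at t2
    simp only [norm_mul, Complex.norm_ofNat, Complex.norm_I, mul_one] at t2
    linarith
  · have b1 := key r2 u1 u4 ξ
    have b2 := key s2 v1 v4 ξ
    have b3 := hab (r ξ) (Finset.mem_union_left _ (Finset.mem_image_of_mem _ hξ))
    have b4 := hab (s ξ) (Finset.mem_union_right _ (Finset.mem_image_of_mem _ hξ))
    have b5 : ‖(-k) (s ξ) - lam (-a) (s ξ)‖ = ‖k (s ξ) - lam a (s ξ)‖ := by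
      rw [← norm_neg]; congr 1; simp; abel
    have b6 : lam (u - v) ξ - h ξ = (lam u ξ - r ξ) - (lam v ξ - s ξ) := by
      rw [e3]; simp; abel
    rw [b6]
    have := norm_sub_le (lam u ξ - r ξ) (lam v ξ - s ξ)
    linarith

private lemma Hil_kap1 (N : StarSubalgebra ℂ (H →L[ℂ] H)) {z : H →L[ℂ] H}
    (hz : z ∈ (cent (N : Set (H →L[ℂ] H))).commutant) (hs : IsSelfAdjoint z) (hn : ‖z‖ ≤ 1)
    (F : Finset H) {ε : ℝ} (hε : 0 < ε) :
    ∃ n ∈ N, IsSelfAdjoint n ∧ ‖n‖ ≤ 1 ∧ ∀ ξ ∈ F, ‖(n - z) ξ‖ < ε := by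
  classical
  have : IsClosed (N.topologicalClosure : Set (H →L[ℂ] H)) := N.isClosed_topologicalClosure
  have h1 : z ∈ (cent (Set.range N.topologicalClosure.subtype)).commutant :=
    VonNeumannAlgebra.mem_commutant_iff.mpr fun y hy =>
      VonNeumannAlgebra.mem_commutant_iff.mp hz y (mem_cent.mpr fun g hg =>
        mem_cent.mp hy g ⟨⟨g, N.le_topologicalClosure hg⟩, rfl⟩)
  obtain ⟨⟨b, hb⟩, hbs, hb1, h⟩ := Hil_unit N.topologicalClosure.subtype h1 hs hn F (half_pos hε)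
  have hbs' : IsSelfAdjoint b := congrArg Subtype.val hbs
  have hb1' : ‖b‖ ≤ 1 := hb1
  set C : ℝ := ∑ ξ ∈ F, ‖ξ‖ + 1 with hC
  have hC0 : 0 < C := by positivity
  set δ : ℝ := ε / (4 * C) with hδ
  have hδ0 : 0 < δ := by positivity
  obtain ⟨n0, hn0, hd⟩ := Metric.mem_closure_iff.mp hb δ hδ0
  rw [dist_eq_norm] at hd
  set n1 : H →L[ℂ] H := (2⁻¹ : ℂ) • (n0 + star n0) with hn1
  have d1 : ‖n1 - b‖ ≤ δ := by
    have t1 : n1 - b = (2⁻¹ : ℂ) • ((n0 - b) + star (n0 - b)) := by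
      rw [hn1, star_sub, hbs'.star_eq]; module
    have t2 := norm_add_le (n0 - b) (star (n0 - b))
    rw [norm_star, norm_sub_rev] at t2
    rw [t1, norm_smul]
    simp only [norm_inv, Complex.norm_ofNat]
    linarith
  have d2 : ‖n1‖ ≤ 1 + δ := by
    have := norm_add_le (n1 - b) b
    rw [sub_add_cancel] at this
    linarith
  have hp : 0 < 1 + δ := by positivity
  set n : H →L[ℂ] H := (((1 + δ)⁻¹ : ℝ) : ℂ) • n1 with hn'
  have d3 : ‖n‖ ≤ 1 := by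
    rw [hn', norm_smul, Complex.norm_real, norm_inv, Real.norm_of_nonneg hp.le, inv_mul_le_iff₀ hp]
    linarith
  have d4 : n1 = n + (δ : ℂ) • n := by
    have : ((1 + δ : ℝ) : ℂ) ≠ 0 := by exact_mod_cast hp.ne'
    rw [hn', smul_smul (δ : ℂ), ← add_smul]
    have t : (((1 + δ)⁻¹ : ℝ) : ℂ) + (δ : ℂ) * (((1 + δ)⁻¹ : ℝ) : ℂ) = 1 := by
      push_cast at this ⊢; field_simp
    rw [t, one_smul]
  have d5 : ‖n - b‖ ≤ 2 * δ := by
    have t1 : n - b = (n1 - b) - (δ : ℂ) • n := by rw [d4]; abel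
    have t2 := norm_sub_le (n1 - b) ((δ : ℂ) • n)
    rw [← t1, norm_smul, Complex.norm_real, Real.norm_of_nonneg hδ0.le] at t2
    nlinarith
  refine ⟨n, N.smul_mem (N.smul_mem (add_mem hn0 (star_mem hn0)) _) _, ?_, d3, fun ξ hξ => ?_⟩
  · rw [IsSelfAdjoint, hn', hn1, star_smul, star_smul, star_add, star_star, add_comm (star n0)]
    simp
  · have t1 : (n - z) ξ = (n - b) ξ + (b ξ - z ξ) := by simp
    have t2 : ‖ξ‖ ≤ C := by
      have := Finset.single_le_sum (f := fun ξ : H => ‖ξ‖) (fun _ _ => norm_nonneg _) hξ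
      linarith
    have t3 : ‖(n - b) ξ‖ ≤ ε / 2 := by
      calc _ ≤ ‖n - b‖ * ‖ξ‖ := (n - b).le_opNorm ξ
        _ ≤ 2 * δ * C := by gcongr
        _ = ε / 2 := by rw [hδ]; field_simp; ring
    have t4 : ‖b ξ - z ξ‖ < ε / 2 := h ξ hξ
    rw [t1]
    have := norm_add_le ((n - b) ξ) (b ξ - z ξ)
    linarith

/-- Kaplansky's density theorem. -/
theorem kap (N : StarSubalgebra ℂ (H →L[ℂ] H)) {z : H →L[ℂ] H}
    (hz : z ∈ (cent (N : Set (H →L[ℂ] H))).commutant) (hs : IsSelfAdjoint z) (F : Finset H) {ε : ℝ}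
    (hε : 0 < ε) : ∃ n ∈ N, IsSelfAdjoint n ∧ ‖n‖ ≤ ‖z‖ ∧ ∀ ξ ∈ F, ‖(n - z) ξ‖ < ε := by
  rcases eq_or_ne z 0 with rfl | h0
  · exact ⟨0, zero_mem _, .zero _, le_rfl, fun ξ _ => by simpa using hε⟩
  have hp : 0 < ‖z‖ := norm_pos_iff.mpr h0
  obtain ⟨n, hn, hns, hn1, h⟩ := Hil_kap1 N (smul_mem_vn hz ((‖z‖⁻¹ : ℝ) : ℂ))
    (by rw [IsSelfAdjoint, star_smul, hs.star_eq]; simp)
    (by rw [norm_smul]; simp [hp.ne']) F (div_pos hε hp)
  refine ⟨(‖z‖ : ℂ) • n, N.smul_mem hn _, ?_, ?_, fun ξ hξ => ?_⟩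
  · rw [IsSelfAdjoint, star_smul, hns.star_eq]; simp
  · rw [norm_smul, Complex.norm_real, norm_norm]; nlinarith
  · have t : (‖z‖ : ℂ) • n - z = (‖z‖ : ℂ) • (n - ((‖z‖⁻¹ : ℝ) : ℂ) • z) := by
      rw [smul_sub, smul_smul, ← Complex.ofReal_mul, mul_inv_cancel₀ hp.ne']; simp
    rw [t, ContinuousLinearMap.smul_apply, norm_smul, Complex.norm_real, norm_norm]
    have := h ξ hξ
    rwa [lt_div_iff₀' hp] at this

/-- `q = e - p` with `p` from `R124.exists_cut`. -/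
theorem cut {M : VonNeumannAlgebra H} {k e : H →L[ℂ] H} (hk : k ∈ M) (h0 : 0 ≤ k) (he : e ∈ M)
    (he' : IsStarProjection e) (hek : e * k = k) {t : ℝ} (ht : 0 < t) :
    ∃ q ∈ M, IsStarProjection q ∧ e * q = q ∧ (∀ y, Commute k y → Commute e y → Commute q y) ∧
      ‖q * k * q‖ ≤ t ∧ ∀ ζ, t * ‖(e - q) ζ‖ ^ 2 ≤ (⟪ζ, k ζ⟫_ℂ).re := by
  obtain ⟨p, hpM, hp, hc, h1, h2, h3⟩ := exists_cut hk h0.isSelfAdjoint ht
  have hep : e * p = p := h3 e hek
  have hpe : p * e = p := by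
    have := congrArg star hep
    rwa [star_mul, hp.isSelfAdjoint.star_eq, he'.isSelfAdjoint.star_eq] at this
  have hee : e * e = e := he'.isIdempotentElem
  have hpp : p * p = p := hp.isIdempotentElem
  have hq : IsStarProjection (e - p) :=
    ⟨by simp only [IsIdempotentElem, sub_mul, mul_sub, hee, hpp, hep, hpe]; abel,
      he'.isSelfAdjoint.sub hp.isSelfAdjoint⟩
  have hpk : Commute p k := hc k (Commute.refl k)
  have hpos : ∀ ζ, 0 ≤ (⟪ζ, k ζ⟫_ℂ).re := fun ζ => re_inner_nonneg h0 ζ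
  refine ⟨e - p, sub_mem he hpM, hq, by rw [mul_sub, hee, hep],
    fun y hy hy' => hy'.sub_left (hc y hy), ?_, fun ζ => ?_⟩
  · have t0 : 0 ≤ (e - p) * k * (e - p) := hq.isSelfAdjoint.conjugate_nonneg h0
    rw [CStarAlgebra.norm_le_iff_le_algebraMap _ ht.le t0, ← sub_nonneg,
      ContinuousLinearMap.nonneg_iff_isPositive]
    have t1 : IsSelfAdjoint (algebraMap ℝ (H →L[ℂ] H) t - (e - p) * k * (e - p)) := by
      refine IsSelfAdjoint.sub ?_ t0.isSelfAdjoint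
      rw [IsSelfAdjoint, Algebra.algebraMap_eq_smul_one, star_smul]; simp
    refine ⟨ContinuousLinearMap.isSelfAdjoint_iff_isSymmetric.mp t1, fun ζ => ?_⟩
    have t2 := re_inner_sub_smul ((e - p) * k * (e - p)) t ζ
    have t3 : ⟪ζ, ((e - p) * k * (e - p)) ζ⟫_ℂ = ⟪(e - p) ζ, k ((e - p) ζ)⟫_ℂ := by
      rw [← inner_star_right, hq.isSelfAdjoint.star_eq]; rfl
    have t4 : (e - p) ζ = e ζ - p (e ζ) := by
      rw [← ContinuousLinearMap.mul_apply, hpe]; rfl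
    have t5 := h2 (e ζ)
    rw [← t4, ← t3] at t5
    have t6 : ‖(e - p) ζ‖ ≤ ‖ζ‖ := by simpa using (e - p).le_of_opNorm_le hq.norm_le ζ
    have t7 : t * ‖(e - p) ζ‖ ^ 2 ≤ t * ‖ζ‖ ^ 2 := by gcongr
    rw [ContinuousLinearMap.reApplyInnerSelf, Algebra.algebraMap_eq_smul_one, ← neg_sub,
      ContinuousLinearMap.neg_apply, inner_neg_left, map_neg, inner_re_symm]
    change 0 ≤ -(⟪ζ, _⟫_ℂ).re
    linarith
  · rw [sub_sub_cancel]
    refine (h1 ζ).trans ?_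
    have t1 := hpos (ζ - p ζ)
    have t2 : ∀ a b, ⟪p a, b⟫_ℂ = ⟪a, p b⟫_ℂ := fun a b => by
      rw [← inner_star_right, hp.isSelfAdjoint.star_eq]
    have t3 : ∀ a, p (k a) = k (p a) := fun a => congr($(hpk.eq) a)
    have t4 : ∀ a, p (p a) = p a := fun a => congr($hpp a)
    simp only [map_sub, inner_sub_left, inner_sub_right, t2, t3, t4, Complex.sub_re] at t1 ⊢
    linarith

/-- `‖n ξ‖ ^ (2 ^ j) ≤ ‖n ^ (2 ^ j) ξ‖ ‖ξ‖ ^ (2 ^ j - 1)` by Cauchy-Schwarz. -/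
theorem norm_apply_le_of_pow {n : H →L[ℂ] H} (hn : IsSelfAdjoint n) {ξ : H} {c B : ℝ} (hc : 0 ≤ c)
    (h : ∀ k : ℕ, ‖(n ^ k) ξ‖ ≤ B * c ^ k) : ‖n ξ‖ ≤ c * ‖ξ‖ := by
  have h1 : ∀ m : ℕ, ‖(n ^ m) ξ‖ ^ 2 ≤ ‖ξ‖ * ‖(n ^ (2 * m)) ξ‖ := fun m => by
    rw [norm_sq_eq_inner, (hn.pow m).star_eq, ← pow_add, ← two_mul]
    exact (Complex.re_le_norm _).trans (norm_inner_le_norm _ _)
  have h2 : ∀ j : ℕ, ‖n ξ‖ ^ (2 ^ j) * ‖ξ‖ ≤ ‖(n ^ (2 ^ j)) ξ‖ * ‖ξ‖ ^ (2 ^ j) := fun j => by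
    induction j with
    | zero => simp
    | succ j ih =>
      rcases eq_or_ne ξ 0 with rfl | h0
      · simp
      have hp : 0 < ‖ξ‖ := norm_pos_iff.mpr h0
      have t1 := h1 (2 ^ j)
      rw [pow_succ' 2 j]
      refine le_of_mul_le_mul_right ?_ hp
      calc ‖n ξ‖ ^ (2 * 2 ^ j) * ‖ξ‖ * ‖ξ‖ = (‖n ξ‖ ^ (2 ^ j) * ‖ξ‖) ^ 2 := by ring
        _ ≤ (‖(n ^ (2 ^ j)) ξ‖ * ‖ξ‖ ^ (2 ^ j)) ^ 2 := by gcongr
        _ = ‖(n ^ (2 ^ j)) ξ‖ ^ 2 * ‖ξ‖ ^ (2 * 2 ^ j) := by ring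
        _ ≤ (‖ξ‖ * ‖(n ^ (2 * 2 ^ j)) ξ‖) * ‖ξ‖ ^ (2 * 2 ^ j) := by gcongr
        _ = _ := by ring
  rcases eq_or_ne ξ 0 with rfl | h0
  · simp
  have hp : 0 < ‖ξ‖ := norm_pos_iff.mpr h0
  by_contra hlt
  push Not at hlt
  have h3 : ∀ j : ℕ, ‖n ξ‖ ^ (2 ^ j) * ‖ξ‖ ≤ B * (c * ‖ξ‖) ^ (2 ^ j) := fun j =>
    (h2 j).trans (by
      calc _ ≤ B * c ^ (2 ^ j) * ‖ξ‖ ^ (2 ^ j) := by gcongr; exact h _
        _ = _ := by ring)
  have hq : 0 < ‖n ξ‖ := lt_of_le_of_lt (by positivity) hlt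
  set ρ : ℝ := c * ‖ξ‖ / ‖n ξ‖ with hρ
  have hρ0 : 0 ≤ ρ := by positivity
  have hρ1 : ρ < 1 := (div_lt_one hq).mpr hlt
  have h4 : ∀ j : ℕ, ‖ξ‖ ≤ B * ρ ^ (2 ^ j) := fun j => by
    rw [hρ, div_pow, ← mul_div_assoc, le_div_iff₀ (by positivity), mul_comm]
    exact h3 j
  have h5 : Tendsto (fun j : ℕ => B * ρ ^ (2 ^ j)) atTop (𝓝 (B * 0)) :=
    ((tendsto_pow_atTop_nhds_zero_of_lt_one hρ0 hρ1).comp
      (tendsto_pow_atTop_atTop_of_one_lt one_lt_two)).const_mul B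
  have := ge_of_tendsto' h5 h4
  linarith

/-- Mazur.  PROOF.  In `HH G H` the vector `(b ξ)_ξ` lies in the closed convex hull of the vectors
`(a i ξ)_ξ`, `i ∈ W` (`geometric_hahn_banach_point_closed` / nearest point projection, Riesz). -/
theorem mazur {I : Type*} {l : Filter I} [l.NeBot] {a : I → H →L[ℂ] H} {b : H →L[ℂ] H}
    (h : ∀ η ξ, Tendsto (fun i => ⟪η, a i ξ⟫_ℂ) l (𝓝 ⟪η, b ξ⟫_ℂ)) {W : Set I} (hW : W ∈ l)
    (G : Finset H) {ε : ℝ} (hε : 0 < ε) :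
    ∃ (n : ℕ) (t : Fin n → I) (lam : Fin n → ℝ), (∀ j, t j ∈ W) ∧ (∀ j, 0 ≤ lam j) ∧
      ∑ j, lam j = 1 ∧ ∀ ξ ∈ G, ‖(∑ j, (lam j : ℂ) • a (t j) - b) ξ‖ < ε := by
  classical
  let v : HH G H := WithLp.toLp 2 fun i : G => (i : H)
  let φ : I → HH G H := fun i => dg G (a i) v
  have h1 : dg G b v ∈ closure (convexHull ℝ (φ '' W)) := by
    by_contra hn
    obtain ⟨f, u, hf, hu⟩ := RCLike.geometric_hahn_banach_point_closed (𝕜 := ℂ)
      (convex_convexHull ℝ _).closure isClosed_closure hn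
    let y : HH G H := (InnerProductSpace.toDual ℂ (HH G H)).symm f
    have hy : ∀ w, f w = ⟪y, w⟫_ℂ := fun w => by simp [y]
    have t1 : Tendsto (fun i => f (φ i)) l (𝓝 (f (dg G b v))) := by
      simp only [hy, PiLp.inner_apply, φ, dg_apply]
      exact tendsto_finset_sum _ fun j _ => h _ _
    have t2 : Tendsto (fun i => RCLike.re (f (φ i))) l (𝓝 (RCLike.re (f (dg G b v)))) :=
      (RCLike.continuous_re.tendsto _).comp t1
    have t3 : u ≤ RCLike.re (f (dg G b v)) := ge_of_tendsto t2 (by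
      filter_upwards [hW] with i hi
      exact (hu _ (subset_closure (subset_convexHull ℝ _ ⟨i, hi, rfl⟩))).le)
    linarith
  obtain ⟨w, hw, hd⟩ := Metric.mem_closure_iff.mp h1 ε hε
  obtain ⟨κ, _, c, z, hc0, hc1, hz, hs⟩ := mem_convexHull_iff_exists_fintype.mp hw
  choose t ht htz using hz
  let e := (Fintype.equivFin κ).symm
  refine ⟨Fintype.card κ, fun j => t (e j), fun j => c (e j), fun j => ht _, fun j => hc0 _,
    by rw [Equiv.sum_comp e c, hc1], fun ξ hξ => lt_of_le_of_lt ?_ hd⟩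
  rw [dist_comm, dist_eq_norm]
  have t1 := PiLp.norm_apply_le (w - dg G b v) ⟨ξ, hξ⟩
  refine le_of_eq_of_le ?_ t1
  congr 1
  rw [Equiv.sum_comp e (fun k => (c k : ℂ) • a (t k)), ← hs]
  simp [← htz, φ, v]

/-- Orthogonal decomposition of a vector. -/
theorem sum_norm_sq_proj_le {κ : Type*} [Fintype κ] {p : κ → H →L[ℂ] H}
    (hp : ∀ i, IsStarProjection (p i)) (hpp : Pairwise fun i j => p i * p j = 0) (ξ : H) :
    ∑ i, ‖p i ξ‖ ^ 2 ≤ ‖ξ‖ ^ 2 := by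
  obtain ⟨s, -, hs, -, h2⟩ := exists_sum_proj (P := cent (∅ : Set (H →L[ℂ] H))) p
    (fun i => mem_cent.mpr (by simp)) hp hpp
  rw [← (h2 ξ).unique (hasSum_fintype _)]
  have : ‖s ξ‖ ≤ ‖ξ‖ := by simpa using s.le_of_opNorm_le hs.norm_le ξ
  gcongr

end Crest.Agent.R109
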