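import Crest.Agent.R109.OExp
import Crest.Agent.R109.Hil

/-! Row 109: positive functionals, maximal null nets and the normal part (proofs for `Gen`). -/

set_option autoImplicit false
set_option linter.unusedSectionVars false

namespace Crest.Agent.R109

open Crest.Agent.R124 Filter Topology Function
open scoped BigOperators ComplexConjugate InnerProductSpace ComplexOrder Pointwise

variable {X : Type*} [TopologicalSpace X] [CompactSpace X] [T2Space X] [TotallyDisconnectedSpace X]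
  {H : Type*} [NormedAddCommGroup H] [InnerProductSpace ℂ H] [CompleteSpace H]

section
variable {M : VonNeumannAlgebra H} {ψ : (H →L[ℂ] H) →ₗ[ℂ] ℂ}

theorem gena_expand (ψ : (H →L[ℂ] H) →ₗ[ℂ] ℂ) (a b : H →L[ℂ] H) (t : ℂ) :
    ψ (star (a + t • b) * (a + t • b)) = ψ (star a * a) + t * ψ (star a * b)
      + conj t * ψ (star b * a) + conj t * t * ψ (star b * b) := by
  simp only [star_add, star_smul, add_mul, mul_add, smul_mul_assoc, mul_smul_comm, map_add,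
    map_smul, smul_eq_mul, RCLike.star_def]
  ring

theorem gena_herm (hψ : ∀ y ∈ M, 0 ≤ ψ (star y * y)) {a b : H →L[ℂ] H} (ha : a ∈ M) (hb : b ∈ M) :
    ψ (star b * a) = conj (ψ (star a * b)) := by
  have h := fun t : ℂ => (Complex.nonneg_iff.1 (hψ _ (add_mem ha (smul_mem_vn hb t)))).2
  have h1 := h 1
  have h2 := h Complex.I
  have ha' := (Complex.nonneg_iff.1 (hψ _ ha)).2
  have hb' := (Complex.nonneg_iff.1 (hψ _ hb)).2
  rw [gena_expand] at h1 h2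
  simp only [Complex.add_im, Complex.mul_im, Complex.mul_re, Complex.conj_re, Complex.conj_im,
    Complex.one_re, Complex.one_im, Complex.I_re, Complex.I_im, ← ha', ← hb'] at h1 h2
  apply Complex.ext
  · rw [Complex.conj_re]; linarith
  · rw [Complex.conj_im]; linarith

theorem gena_cs (hψ : ∀ y ∈ M, 0 ≤ ψ (star y * y)) {a b : H →L[ℂ] H} (ha : a ∈ M) (hb : b ∈ M) :
    ‖ψ (star a * b)‖ ^ 2 ≤ (ψ (star a * a)).re * (ψ (star b * b)).re := by
  set γ := ψ (star a * b) with hγ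
  set α := (ψ (star a * a)).re with hα
  set β := (ψ (star b * b)).re with hβ
  have hα0 : 0 ≤ α := (Complex.nonneg_iff.1 (hψ _ ha)).1
  have hβ0 : 0 ≤ β := (Complex.nonneg_iff.1 (hψ _ hb)).1
  have hb' := (Complex.nonneg_iff.1 (hψ _ hb)).2
  have hn : ‖γ‖ ^ 2 = γ.re * γ.re + γ.im * γ.im := by rw [Complex.sq_norm, Complex.normSq_apply]
  have h : ∀ s : ℝ, 0 ≤ (‖γ‖ ^ 2 * β) * (s * s) + (-(2 * ‖γ‖ ^ 2)) * s + α := fun s => by
    have h1 := (Complex.nonneg_iff.1 (hψ _ (add_mem ha (smul_mem_vn hb (-(s : ℂ) * conj γ))))).1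
    rw [gena_expand, gena_herm hψ ha hb, ← hγ] at h1
    simp only [Complex.add_re, Complex.mul_im, Complex.mul_re, Complex.conj_re, Complex.conj_im,
      Complex.neg_re, Complex.neg_im, Complex.ofReal_re, Complex.ofReal_im, ← hb', ← hα, ← hβ] at h1
    rw [hn]
    nlinarith
  have h2 := discrim_le_zero h
  rw [discrim] at h2
  by_cases h0 : ‖γ‖ ^ 2 = 0
  · rw [h0]; positivity
  have h3 : 0 < ‖γ‖ ^ 2 := lt_of_le_of_ne (by positivity) (Ne.symm h0)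
  refine le_of_mul_le_mul_left ?_ h3
  nlinarith

theorem gena_nonneg (hψ : ∀ y ∈ M, 0 ≤ ψ (star y * y)) {a : H →L[ℂ] H} (ha : a ∈ M) (h : 0 ≤ a) :
    0 ≤ ψ a := by
  obtain ⟨R, hR0, hRR, -, hc⟩ := exists_sqrt h
  have hR : R ∈ M := mem_of_comm fun y hy => (hc y (comm_of_mem ha hy)).eq.symm
  have := hψ R hR
  rwa [(IsSelfAdjoint.of_nonneg hR0).star_eq, hRR] at this

theorem gena_mono (hψ : ∀ y ∈ M, 0 ≤ ψ (star y * y)) {a b : H →L[ℂ] H} (ha : a ∈ M) (hb : b ∈ M)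
    (h : a ≤ b) : ψ a ≤ ψ b := by
  have := gena_nonneg hψ (sub_mem hb ha) (sub_nonneg.2 h)
  rwa [map_sub, sub_nonneg] at this

theorem gena_re_mono (hψ : ∀ y ∈ M, 0 ≤ ψ (star y * y)) {a b : H →L[ℂ] H} (ha : a ∈ M) (hb : b ∈ M)
    (h : a ≤ b) : (ψ a).re ≤ (ψ b).re := (Complex.le_def.1 (gena_mono hψ ha hb h)).1

theorem gena_maxnull (hψ : ∀ y ∈ M, 0 ≤ ψ (star y * y)) :
    ∃ (y : Finset H × ℕ → H →L[ℂ] H) (s : ℝ), (∀ i, y i ∈ M ∧ 0 ≤ y i ∧ y i ≤ 1) ∧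
      (∀ ξ, Tendsto (fun i => y i ξ) atTop (𝓝 0)) ∧ Tendsto (fun i => (ψ (y i)).re) atTop (𝓝 s) ∧
      ∀ c : ℝ, 0 < c → ∃ (G : Finset H) (ε : ℝ), 0 < ε ∧
        ∀ z ∈ M, 0 ≤ z → z ≤ 1 → (∀ ξ ∈ G, ‖z ξ‖ < ε) → (ψ z).re ≤ s + c := by
  classical
  let e : Finset H × ℕ → ℝ := fun i => 1 / ((i.2 : ℝ) + 1)
  have he : ∀ i, 0 < e i := fun i => by positivity
  let A : Finset H × ℕ → Set ℝ := fun i =>
    {r | ∃ z ∈ M, 0 ≤ z ∧ z ≤ 1 ∧ (∀ ξ ∈ i.1, ‖z ξ‖ < e i) ∧ r = (ψ z).re}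
  have h0 : ∀ i, (0 : ℝ) ∈ A i := fun i =>
    ⟨0, zero_mem _, le_rfl, zero_le_one, fun ξ _ => by simpa using he i, by simp⟩
  have hb : ∀ i, BddAbove (A i) := fun i => ⟨(ψ 1).re, by
    rintro _ ⟨z, hz, -, h1, -, rfl⟩
    exact gena_re_mono hψ hz (one_mem _) h1⟩
  let t : Finset H × ℕ → ℝ := fun i => sSup (A i)
  have ht0 : ∀ i, 0 ≤ t i := fun i => le_csSup (hb i) (h0 i)
  have hanti : Antitone t := fun i j hij => csSup_le_csSup (hb i) ⟨0, h0 j⟩ (by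
    rintro _ ⟨z, hz, h1, h2, h3, rfl⟩
    refine ⟨z, hz, h1, h2, fun ξ hξ => (h3 ξ (hij.1 hξ)).trans_le ?_, rfl⟩
    exact Nat.one_div_le_one_div hij.2)
  have hbb : BddBelow (Set.range t) := ⟨0, by rintro _ ⟨i, rfl⟩; exact ht0 i⟩
  have hlim : Tendsto t atTop (𝓝 (⨅ i, t i)) := tendsto_atTop_ciInf hanti hbb
  have hy : ∀ i, ∃ z ∈ M, 0 ≤ z ∧ z ≤ 1 ∧ (∀ ξ ∈ i.1, ‖z ξ‖ < e i) ∧ t i - e i < (ψ z).re :=
    fun i => by
      obtain ⟨_, ⟨z, hz, h1, h2, h3, rfl⟩, h4⟩ :=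
        exists_lt_of_lt_csSup ⟨0, h0 i⟩ (show t i - e i < sSup (A i) from sub_lt_self _ (he i))
      exact ⟨z, hz, h1, h2, h3, h4⟩
  choose y hyM hy0 hy1 hy2 hy3 using hy
  have hsnd : Tendsto (fun i : Finset H × ℕ => i.2) atTop atTop := by
    rw [← prod_atTop_atTop_eq]
    exact tendsto_snd
  have hel : Tendsto e atTop (𝓝 0) := tendsto_one_div_add_atTop_nhds_zero_nat.comp hsnd
  refine ⟨y, ⨅ i, t i, fun i => ⟨hyM i, hy0 i, hy1 i⟩, fun ξ => ?_, ?_, fun c hc => ?_⟩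
  · refine squeeze_zero_norm' ?_ hel
    filter_upwards [eventually_ge_atTop (({ξ} : Finset H), 0)] with i hi
    exact (hy2 i ξ (hi.1 (Finset.mem_singleton_self ξ))).le
  · have h1 : Tendsto (fun i => t i - e i) atTop (𝓝 (⨅ i, t i)) := by simpa using hlim.sub hel
    exact tendsto_of_tendsto_of_tendsto_of_le_of_le h1 hlim (fun i => (hy3 i).le)
      fun i => le_csSup (hb i) ⟨y i, hyM i, hy0 i, hy1 i, hy2 i, rfl⟩
  · obtain ⟨i, hi⟩ := exists_lt_of_ciInf_lt (show ⨅ i, t i < (⨅ i, t i) + c by linarith)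
    exact ⟨i.1, e i, he i, fun z hz h1 h2 h3 =>
      (le_csSup (hb i) ⟨z, hz, h1, h2, h3, rfl⟩).trans hi.le⟩

theorem gena_sq_le {y : H →L[ℂ] H} (h0 : 0 ≤ y) (h1 : y ≤ 1) : y * y ≤ y := by
  have h := Commute.mul_nonneg h0 (sub_nonneg.2 h1)
    ((Commute.one_right y).sub_right (Commute.refl y))
  rwa [mul_sub, mul_one, sub_nonneg] at h

theorem gena_norm_one_sub {y : H →L[ℂ] H} (h0 : 0 ≤ y) (h1 : y ≤ 1) : ‖1 - y‖ ≤ 1 :=
  (CStarAlgebra.norm_le_one_iff_of_nonneg _ (sub_nonneg.2 h1)).2 (sub_le_self _ h0)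

theorem gena_conj_mem {y z : H →L[ℂ] H} (h0 : 0 ≤ y) (h1 : y ≤ 1) (hz0 : 0 ≤ z) (hz1 : z ≤ 1) :
    0 ≤ (1 - y) * z * (1 - y) ∧ (1 - y) * z * (1 - y) ≤ 1 - y := by
  have hs : IsSelfAdjoint (1 - y) := .of_nonneg (sub_nonneg.2 h1)
  refine ⟨hs.conjugate_nonneg hz0, (hs.conjugate_le_conjugate hz1).trans ?_⟩
  rw [mul_one]
  exact gena_sq_le (sub_nonneg.2 h1) (sub_le_self _ h0)

/-- The maximality property. -/
def GenaMax (M : VonNeumannAlgebra H) (ψ : (H →L[ℂ] H) →ₗ[ℂ] ℂ) (s : ℝ) : Prop :=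
  ∀ c : ℝ, 0 < c → ∃ (G : Finset H) (ε : ℝ), 0 < ε ∧
    ∀ z ∈ M, 0 ≤ z → z ≤ 1 → (∀ ξ ∈ G, ‖z ξ‖ < ε) → (ψ z).re ≤ s + c

theorem gena_tendsto_conj {I : Type*} {l : Filter I} {y : I → H →L[ℂ] H}
    (hy : ∀ i, 0 ≤ y i ∧ y i ≤ 1) (hn : ∀ ξ, Tendsto (fun i => y i ξ) l (𝓝 0)) (z : H →L[ℂ] H)
    (ξ : H) : Tendsto (fun i => ((1 - y i) * z * (1 - y i)) ξ) l (𝓝 (z ξ)) := by
  have e : ∀ i, ((1 - y i) * z * (1 - y i)) ξ
      = z ξ - y i (z ξ) - ((1 - y i) * z) (y i ξ) := fun i => by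
    simp [mul_apply_eq_comp, map_sub]
  simp only [e]
  have h1 : Tendsto (fun i => ((1 - y i) * z) (y i ξ)) l (𝓝 0) := by
    refine squeeze_zero_norm (a := fun i => ‖z‖ * ‖y i ξ‖) (fun i => ?_) ?_
    · refine (ContinuousLinearMap.le_opNorm _ _).trans ?_
      have : ‖(1 - y i) * z‖ ≤ ‖z‖ := (norm_mul_le _ _).trans
        (mul_le_of_le_one_left (norm_nonneg _) (gena_norm_one_sub (hy i).1 (hy i).2))
      gcongr
    · simpa using (hn ξ).norm.const_mul ‖z‖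
  simpa using (tendsto_const_nhds.sub (hn (z ξ))).sub h1

/-- The basic inequality. -/
theorem gena_ev {s c : ℝ} {G : Finset H} {ε : ℝ}
    (hG : ∀ z ∈ M, 0 ≤ z → z ≤ 1 → (∀ ξ ∈ G, ‖z ξ‖ < ε) → (ψ z).re ≤ s + c)
    {I : Type*} {l : Filter I} {y : I → H →L[ℂ] H} (hy : ∀ i, y i ∈ M ∧ 0 ≤ y i ∧ y i ≤ 1)
    (hn : ∀ ξ, Tendsto (fun i => y i ξ) l (𝓝 0)) {z : H →L[ℂ] H} (hz : z ∈ M) (hz0 : 0 ≤ z)
    (hz1 : z ≤ 1) (hs : ∀ ξ ∈ G, ‖z ξ‖ < ε) :
    ∀ᶠ i in l, (ψ (y i)).re + (ψ (y i - y i * y i)).re + (ψ ((1 - y i) * z * (1 - y i))).re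
      ≤ s + c := by
  have h1 : ∀ᶠ i in l, ∀ ξ ∈ G, ‖(1 - (1 - y i) * (1 - z) * (1 - y i)) ξ‖ < ε := by
    rw [eventually_all_finset]
    intro ξ hξ
    have h2 : Tendsto (fun i => (1 - (1 - y i) * (1 - z) * (1 - y i)) ξ) l (𝓝 (z ξ)) := by
      have := (tendsto_const_nhds (x := ξ)).sub
        (gena_tendsto_conj (fun i => (hy i).2) hn (1 - z) ξ)
      simpa using this
    exact h2.norm.eventually_lt_const (hs ξ hξ)
  filter_upwards [h1] with i hi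
  obtain ⟨a1, a2⟩ := gena_conj_mem (hy i).2.1 (hy i).2.2 (sub_nonneg.2 hz1) (sub_le_self _ hz0)
  have hm : 1 - y i ∈ M := sub_mem (one_mem _) (hy i).1
  have h3 := hG _ (sub_mem (one_mem _) (mul_mem (mul_mem hm (sub_mem (one_mem _) hz)) hm))
    (sub_nonneg.2 (a2.trans (sub_le_self _ (hy i).2.1))) (sub_le_self _ a1) hi
  have e : 1 - (1 - y i) * (1 - z) * (1 - y i)
      = y i + (y i - y i * y i) + (1 - y i) * z * (1 - y i) := by noncomm_ring
  rwa [e, map_add, map_add, Complex.add_re, Complex.add_re] at h3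

theorem gena_null_sq (hψ : ∀ y ∈ M, 0 ≤ ψ (star y * y)) {s : ℝ} (hmax : GenaMax M ψ s)
    {I : Type*} {l : Filter I} {y : I → H →L[ℂ] H} (hy : ∀ i, y i ∈ M ∧ 0 ≤ y i ∧ y i ≤ 1)
    (hn : ∀ ξ, Tendsto (fun i => y i ξ) l (𝓝 0)) (hs : Tendsto (fun i => (ψ (y i)).re) l (𝓝 s)) :
    Tendsto (fun i => (ψ (y i - y i * y i)).re) l (𝓝 0) := by
  have h0 : ∀ i, 0 ≤ (ψ (y i - y i * y i)).re := fun i =>
    (Complex.nonneg_iff.1 (gena_nonneg hψ (sub_mem (hy i).1 (mul_mem (hy i).1 (hy i).1))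
      (sub_nonneg.2 (gena_sq_le (hy i).2.1 (hy i).2.2)))).1
  rw [tendsto_order]
  refine ⟨fun a ha => Eventually.of_forall fun i => ha.trans_le (h0 i), fun c hc => ?_⟩
  obtain ⟨G, ε, hε, hG⟩ := hmax (c / 3) (by positivity)
  filter_upwards [gena_ev hG hy hn (zero_mem _) le_rfl zero_le_one (fun ξ _ => by simpa using hε),
    hs.eventually_const_lt (show s - c / 3 < s by linarith)] with i h1 h2
  simp only [mul_zero, zero_mul, map_zero, Complex.zero_re] at h1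
  linarith

/-- A maximal null net almost commutes with central symmetries. -/
theorem gena_sym (hψ : ∀ y ∈ M, 0 ≤ ψ (star y * y)) {s : ℝ} (hmax : GenaMax M ψ s)
    {I : Type*} {l : Filter I} {y : I → H →L[ℂ] H} (hy : ∀ i, y i ∈ M ∧ 0 ≤ y i ∧ y i ≤ 1)
    (hn : ∀ ξ, Tendsto (fun i => y i ξ) l (𝓝 0)) (hs : Tendsto (fun i => (ψ (y i)).re) l (𝓝 s))
    {u : H →L[ℂ] H} (hu : u ∈ M) (hus : IsSelfAdjoint u) (huu : u * u = 1)
    (hc : ∀ z, ψ (u * z) = ψ (z * u)) :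
    Tendsto (fun i => (ψ (star (y i - u * y i * u) * (y i - u * y i * u))).re) l (𝓝 0) := by
  have hy' : ∀ i, u * y i * u ∈ M ∧ 0 ≤ u * y i * u ∧ u * y i * u ≤ 1 := fun i =>
    ⟨mul_mem (mul_mem hu (hy i).1) hu, hus.conjugate_nonneg (hy i).2.1, by
      have := hus.conjugate_le_conjugate (hy i).2.2
      rwa [mul_one, huu] at this⟩
  let m : I → H →L[ℂ] H := fun i => (2⁻¹ : ℂ) • (y i + u * y i * u)
  have h2 : (0 : ℂ) ≤ 2⁻¹ := by positivity
  have hm : ∀ i, m i ∈ M ∧ 0 ≤ m i ∧ m i ≤ 1 := fun i =>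
    ⟨smul_mem_vn (add_mem (hy i).1 (hy' i).1) _, smul_nonneg h2 (add_nonneg (hy i).2.1 (hy' i).2.1),
      by
      have := smul_le_smul_of_nonneg_left (add_le_add (hy i).2.2 (hy' i).2.2) h2
      refine this.trans_eq ?_
      rw [← two_smul ℂ, smul_smul, inv_mul_cancel₀ two_ne_zero, one_smul]⟩
  have hmn : ∀ ξ, Tendsto (fun i => m i ξ) l (𝓝 0) := fun ξ => by
    have a1 : Tendsto (fun i => u (y i (u ξ))) l (𝓝 0) := by
      have := (u.continuous.tendsto 0).comp (hn (u ξ))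
      rwa [map_zero] at this
    simpa [m, mul_apply_eq_comp] using ((hn ξ).add a1).const_smul (2⁻¹ : ℂ)
  have hms : Tendsto (fun i => (ψ (m i)).re) l (𝓝 s) := by
    refine hs.congr fun i => ?_
    have : ψ (u * y i * u) = ψ (y i) := by rw [mul_assoc, hc, mul_assoc, huu, mul_one]
    simp only [m, map_smul, map_add, this, smul_eq_mul]
    congr 1
    ring
  have h3 := (gena_null_sq hψ hmax hm hmn hms).const_mul 4
  rw [mul_zero] at h3
  refine squeeze_zero (fun i => ?_) (fun i => ?_) h3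
  · exact (Complex.nonneg_iff.1 (hψ _ (sub_mem (hy i).1 (hy' i).1))).1
  · have hd : IsSelfAdjoint (y i - u * y i * u) :=
      (IsSelfAdjoint.of_nonneg (hy i).2.1).sub (.of_nonneg (hy' i).2.1)
    rw [hd.star_eq]
    have a1 := gena_nonneg hψ (sub_mem (hy i).1 (mul_mem (hy i).1 (hy i).1))
      (sub_nonneg.2 (gena_sq_le (hy i).2.1 (hy i).2.2))
    have a2 := gena_nonneg hψ (sub_mem (hy' i).1 (mul_mem (hy' i).1 (hy' i).1))
      (sub_nonneg.2 (gena_sq_le (hy' i).2.1 (hy' i).2.2))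
    have e : ψ ((y i - u * y i * u) * (y i - u * y i * u)) = 4 * ψ (m i - m i * m i)
        - 2 * ψ (y i - y i * y i) - 2 * ψ (u * y i * u - u * y i * u * (u * y i * u)) := by
      simp only [m]
      generalize u * y i * u = b
      generalize y i = a
      simp only [mul_sub, sub_mul, map_sub, smul_mul_assoc, mul_smul_comm, mul_add, add_mul, map_add,
        map_smul, smul_eq_mul, smul_add]
      ring
    have b1 := (Complex.nonneg_iff.1 a1).1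
    have b2 := (Complex.nonneg_iff.1 a2).1
    rw [e]
    simp only [Complex.sub_re, Complex.mul_re, Complex.re_ofNat, Complex.im_ofNat, zero_mul,
      sub_zero]
    linarith

theorem gena_small_left (hψ : ∀ y ∈ M, 0 ≤ ψ (star y * y)) {C : ℝ} (hC : ∀ z, ‖ψ z‖ ≤ C * ‖z‖)
    (hC0 : 0 ≤ C) {I : Type*} {l : Filter I} {d b : I → H →L[ℂ] H} (hd : ∀ i, d i ∈ M)
    (hb : ∀ i, b i ∈ M) {B : ℝ} (hB : ∀ i, ‖b i‖ ≤ B)
    (h : Tendsto (fun i => (ψ (star (d i) * d i)).re) l (𝓝 0)) :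
    Tendsto (fun i => ψ (b i * d i)) l (𝓝 0) ∧ Tendsto (fun i => ψ (star (d i) * b i)) l (𝓝 0) := by
  have key : ∀ {f : I → ℂ}, (∀ i, ‖f i‖ ^ 2 ≤ C * (B * B) * (ψ (star (d i) * d i)).re) →
      Tendsto f l (𝓝 0) := fun {f} hf => by
    have h1 : Tendsto (fun i => ‖f i‖ ^ 2) l (𝓝 0) :=
      squeeze_zero (fun i => by positivity) hf (by simpa using h.const_mul (C * (B * B)))
    rw [tendsto_zero_iff_norm_tendsto_zero]
    simpa using h1.sqrt
  have hbb : ∀ c : H →L[ℂ] H, ‖c‖ ≤ B → (ψ (star c * c)).re ≤ C * (B * B) := fun c hc => by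
    refine (Complex.re_le_norm _).trans ((hC _).trans ?_)
    rw [CStarRing.norm_star_mul_self]
    gcongr
    exact (norm_nonneg _).trans hc
  refine ⟨key fun i => ?_, key fun i => ?_⟩
  · have h1 := gena_cs hψ (star_mem (hb i)) (hd i)
    rw [star_star (b i)] at h1
    refine h1.trans (mul_le_mul_of_nonneg_right ?_ (Complex.nonneg_iff.1 (hψ _ (hd i))).1)
    have := hbb (star (b i)) (by rw [norm_star]; exact hB i)
    rwa [star_star] at this
  · refine (gena_cs hψ (hd i) (hb i)).trans ?_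
    rw [mul_comm]
    exact mul_le_mul_of_nonneg_right (hbb _ (hB i)) (Complex.nonneg_iff.1 (hψ _ (hd i))).1

/-- The normal part of a bounded positive functional. -/
theorem gena_normal_part {ψ₀ : (H →L[ℂ] H) →ₗ[ℂ] ℂ} (hψ : ∀ y ∈ M, 0 ≤ ψ₀ (star y * y)) {C : ℝ}
    (hC : ∀ z, ‖ψ₀ z‖ ≤ C * ‖z‖) (hC0 : 0 ≤ C) :
    ∃ (ψ : (H →L[ℂ] H) →ₗ[ℂ] ℂ) (l : Filter (Finset H × ℕ)) (_ : l.NeBot)
      (k : Finset H × ℕ → H →L[ℂ] H),
      (∀ y ∈ M, 0 ≤ ψ (star y * y)) ∧ (∀ z, ‖ψ z‖ ≤ C * ‖z‖) ∧ GenaMax M ψ 0 ∧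
      (∀ i, k i ∈ M ∧ 0 ≤ k i ∧ k i ≤ 1) ∧ (∀ ξ, Tendsto (fun i => k i ξ) l (𝓝 ξ)) ∧
      ∀ p ∈ M, IsStarProjection p → (∀ z, ψ₀ (p * z) = ψ₀ (z * p)) →
        (∀ b ∈ M, ψ (p * b) = ψ (b * p)) ∧ Tendsto (fun i => ψ₀ (p * k i * p)) l (𝓝 (ψ p)) := by
  classical
  obtain ⟨y, s, hy, hn, hs, hmax⟩ := gena_maxnull hψ
  let U : Ultrafilter (Finset H × ℕ) := Ultrafilter.of atTop
  have hU : (U : Filter (Finset H × ℕ)) ≤ atTop := Ultrafilter.of_le _
  have hn' : ∀ ξ, Tendsto (fun i => y i ξ) U (𝓝 0) := fun ξ => (hn ξ).mono_left hU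
  have hs' : Tendsto (fun i => (ψ₀ (y i)).re) U (𝓝 s) := hs.mono_left hU
  have h1 : ∀ i, ‖1 - y i‖ ≤ 1 := fun i => gena_norm_one_sub (hy i).2.1 (hy i).2.2
  have h1m : ∀ i, 1 - y i ∈ M := fun i => sub_mem (one_mem _) (hy i).1
  have h1s : ∀ i, IsSelfAdjoint (1 - y i) := fun i => .of_nonneg (sub_nonneg.2 (hy i).2.2)
  have hbd : ∀ z i, ‖ψ₀ ((1 - y i) * z * (1 - y i))‖ ≤ C * ‖z‖ := fun z i => by
    refine (hC _).trans (mul_le_mul_of_nonneg_left ?_ hC0)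
    calc ‖(1 - y i) * z * (1 - y i)‖ ≤ ‖1 - y i‖ * ‖z‖ * ‖1 - y i‖ :=
          (norm_mul_le _ _).trans (by gcongr; exact norm_mul_le _ _)
      _ ≤ 1 * ‖z‖ * 1 := by gcongr <;> exact h1 i
      _ = ‖z‖ := by ring
  have hex : ∀ z, ∃ c : ℂ, Tendsto (fun i => ψ₀ ((1 - y i) * z * (1 - y i))) U (𝓝 c) := fun z => by
    obtain ⟨c, -, hc⟩ := (isCompact_closedBall (0 : ℂ) (C * ‖z‖)).ultrafilter_le_nhds'
      (U.map fun i => ψ₀ ((1 - y i) * z * (1 - y i)))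
      (Ultrafilter.mem_map.2 (Eventually.of_forall fun i => by simpa using hbd z i))
    exact ⟨c, hc⟩
  choose L hL using hex
  let ψ : (H →L[ℂ] H) →ₗ[ℂ] ℂ :=
    { toFun := L
      map_add' := fun a b => tendsto_nhds_unique (hL (a + b)) (by
        simpa only [mul_add, add_mul, map_add] using (hL a).add (hL b))
      map_smul' := fun c a => tendsto_nhds_unique (hL (c • a)) (by
        simpa only [mul_smul_comm, smul_mul_assoc, map_smul, RingHom.id_apply] using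
          (hL a).const_smul c) }
  have hψL : ∀ z, Tendsto (fun i => ψ₀ ((1 - y i) * z * (1 - y i))) U (𝓝 (ψ z)) := hL
  refine ⟨ψ, U, inferInstance, fun i => (1 - y i) * 1 * (1 - y i), fun b hb => ?_, fun z => ?_,
    fun c hc => ?_, fun i => ?_, fun ξ => ?_, fun p hp hp' hc => ?_⟩
  · refine ge_of_tendsto' (hψL _) fun i => ?_
    have := hψ _ (mul_mem hb (h1m i))
    rwa [star_mul, (h1s i).star_eq, ← mul_assoc, mul_assoc (1 - y i)] at this
  · exact le_of_tendsto' (hψL z).norm (hbd z)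
  · obtain ⟨G, ε, hε, hG⟩ := hmax c hc
    refine ⟨G, ε, hε, fun z hz hz0 hz1 hsm => ?_⟩
    have a1 := hs'.add ((Complex.continuous_re.tendsto _).comp (hψL z))
    have a2 : s + (ψ z).re ≤ s + c := by
      refine le_of_tendsto a1 ?_
      filter_upwards [gena_ev hG hy hn' hz hz0 hz1 hsm] with i hi
      have := (Complex.nonneg_iff.1 (gena_nonneg hψ (sub_mem (hy i).1 (mul_mem (hy i).1 (hy i).1))
        (sub_nonneg.2 (gena_sq_le (hy i).2.1 (hy i).2.2)))).1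
      simp only [comp_apply]
      linarith
    linarith
  · obtain ⟨a1, a2⟩ := gena_conj_mem (hy i).2.1 (hy i).2.2 zero_le_one le_rfl
    exact ⟨mul_mem (mul_mem (h1m i) (one_mem _)) (h1m i), a1, a2.trans (sub_le_self _ (hy i).2.1)⟩
  · exact gena_tendsto_conj (fun i => (hy i).2) hn' 1 ξ
  have hpp : p * p = p := hp'.isIdempotentElem
  obtain ⟨u, hu⟩ : ∃ u : H →L[ℂ] H, u = 1 - (p + p) := ⟨_, rfl⟩
  have huM : u ∈ M := hu ▸ sub_mem (one_mem _) (add_mem hp hp)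
  have hus : IsSelfAdjoint u :=
    hu ▸ (IsSelfAdjoint.one _).sub (hp'.isSelfAdjoint.add hp'.isSelfAdjoint)
  have huu : u * u = 1 := by
    simp only [hu, mul_sub, sub_mul, mul_add, add_mul, mul_one, one_mul, hpp]
    abel
  have hun : ‖u‖ ≤ 1 := by
    have := CStarRing.norm_star_mul_self (x := u)
    rw [hus.star_eq, huu] at this
    have h2 : ‖(1 : H →L[ℂ] H)‖ ≤ 1 := ContinuousLinearMap.norm_id_le
    nlinarith [norm_nonneg u]
  have hcu : ∀ z, ψ₀ (u * z) = ψ₀ (z * u) := fun z => by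
    simp only [hu, mul_sub, sub_mul, mul_add, add_mul, mul_one, one_mul, map_sub, map_add, hc z]
  have hd := gena_sym hψ hmax hy hn' hs' huM hus huu hcu
  have hdM : ∀ i, y i - u * y i * u ∈ M := fun i =>
    sub_mem (hy i).1 (mul_mem (mul_mem huM (hy i).1) huM)
  have hds : ∀ i, star (y i - u * y i * u) = y i - u * y i * u := fun i =>
    ((IsSelfAdjoint.of_nonneg (hy i).2.1).sub (.of_nonneg (hus.conjugate_nonneg (hy i).2.1))).star_eq
  have hyu : ∀ i, (1 - y i) * u = u * (1 - u * y i * u) := fun i => by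
    rw [mul_sub, ← mul_assoc, ← mul_assoc, huu, sub_mul, one_mul, mul_one, one_mul]
  refine ⟨fun b hb => ?_, ?_⟩
  · have a1 := (gena_small_left hψ hC hC0 hdM (b := fun i => b * u * (u * (1 - y i) * u))
      (fun i => mul_mem (mul_mem hb huM) (mul_mem (mul_mem huM (h1m i)) huM)) (B := ‖b‖)
      (fun i => ?_) hd).2
    rotate_left
    · calc ‖b * u * (u * (1 - y i) * u)‖ ≤ ‖b‖ * ‖u‖ * (‖u‖ * ‖1 - y i‖ * ‖u‖) :=
            (norm_mul_le _ _).trans (mul_le_mul (norm_mul_le _ _)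
              ((norm_mul_le _ _).trans (by gcongr; exact norm_mul_le _ _)) (norm_nonneg _)
              (by positivity))
        _ ≤ ‖b‖ * 1 * (1 * 1 * 1) := by gcongr; exact h1 i
        _ = ‖b‖ := by ring
    have a2 := (gena_small_left hψ hC hC0 hdM (b := fun i => (1 - y i) * (b * u))
      (fun i => mul_mem (h1m i) (mul_mem hb huM)) (B := ‖b‖) (fun i => ?_) hd).1
    rotate_left
    · calc ‖(1 - y i) * (b * u)‖ ≤ ‖1 - y i‖ * (‖b‖ * ‖u‖) :=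
            (norm_mul_le _ _).trans (by gcongr; exact norm_mul_le _ _)
        _ ≤ 1 * (‖b‖ * 1) := by gcongr; exact h1 i
        _ = ‖b‖ := by ring
    have a3 : Tendsto (fun i => ψ₀ ((1 - y i) * (u * b) * (1 - y i))) U (𝓝 (ψ (b * u))) := by
      have := (hψL (b * u)).add (a1.add a2)
      rw [add_zero, add_zero] at this
      refine this.congr fun i => ?_
      have e1 : u * (1 - y i) * u = 1 - u * y i * u := by rw [mul_sub, sub_mul, mul_one, huu]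
      have e2 : (1 - y i) * (u * b) * (1 - y i) = u * ((1 - u * y i * u) * b * (1 - y i)) := by
        rw [← mul_assoc (1 - y i), hyu]
        simp only [mul_assoc]
      rw [hds, e1, e2, hcu, mul_assoc _ (1 - y i) u, hyu, ← map_add, ← map_add]
      congr 1
      generalize u * y i * u = y'
      noncomm_ring
    have a4 : ψ (u * b) = ψ (b * u) := tendsto_nhds_unique (hψL _) a3
    simp only [hu, mul_sub, sub_mul, mul_add, add_mul, mul_one, one_mul, map_sub, map_add] at a4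
    linear_combination (-1 / 2 : ℂ) * a4
  · have a1 := (gena_small_left hψ hC hC0 hdM (b := fun i => u * (1 - y i))
      (fun i => mul_mem huM (h1m i)) (B := 1) (fun i => ?_) hd).1
    rotate_left
    · exact (norm_mul_le _ _).trans (mul_le_one₀ hun (norm_nonneg _) (h1 i))
    have := (hψL p).add (a1.const_mul (1 / 2 : ℂ))
    rw [mul_zero, add_zero] at this
    refine this.congr fun i => ?_
    have e1 : ψ₀ (u * (1 - y i) * (y i - u * y i * u)) = ψ₀ ((1 - y i) * (y i * u - u * y i)) := by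
      rw [mul_assoc, hcu, mul_assoc, sub_mul (y i), mul_assoc _ u u, huu, mul_one]
    have e2 : ψ₀ (p * ((1 - y i) * 1 * (1 - y i)) * p) = ψ₀ ((1 - y i) * (1 - y i) * p) := by
      rw [mul_assoc p, hc, mul_assoc _ p p, hpp, mul_one]
    rw [e1, e2, hu]
    generalize y i = a
    simp only [mul_sub, sub_mul, mul_add, add_mul, mul_one, one_mul, map_sub, map_add, mul_assoc]
    ring

end

namespace Masa

variable (S : Masa X H)

theorem gena_step (F : C(X, ℂ)) {ε : ℝ} (hε : 0 < ε) :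
    ∃ (P : Part X) (c : Fin P.n → ℂ), ‖S.ι F - ∑ i, c i • S.pr (P.f ⁻¹' {i})‖ ≤ ε := by
  classical
  obtain ⟨P, hP⟩ := exists_part_osc F hε
  let c : Fin P.n → ℂ := fun i => if hi : ∃ w, P.f w = i then F hi.choose else 0
  have hc : ∀ w, ‖F w - c (P.f w)‖ ≤ ε := fun w => by
    have hi : ∃ w', P.f w' = P.f w := ⟨w, rfl⟩
    simp only [c, dif_pos hi]
    exact (hP _ _ hi.choose_spec.symm).le
  have hcc : Continuous fun w => c (P.f w) := (P.lc.comp c).continuous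
  have hind : ∀ i, Continuous ((P.f ⁻¹' {i}).indicator (1 : X → ℂ)) := fun i =>
    (P.clopen i).continuous_indicator continuous_const
  have h1 : (S.fn fun w => c (P.f w)) = ∑ i, c i • S.pr (P.f ⁻¹' {i}) := by
    simp only [pr]
    rw [Finset.sum_congr rfl fun i _ => S.fn_smul (c i) (hind i),
      S.fn_sum (F := fun i w => c i * (P.f ⁻¹' {i}).indicator 1 w) _
        fun i _ => continuous_const.mul (hind i)]
    congr 1
    funext w
    rw [Finset.sum_eq_single (P.f w)]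
    · simp
    · intro i _ hi
      simp [Ne.symm hi]
    · simp
  refine ⟨P, c, ?_⟩
  have e : S.ι F - (S.fn fun w => c (P.f w)) = S.fn fun w => F w - c (P.f w) := by
    rw [sub_eq_iff_eq_add, S.fn_add (F := fun w => F w - c (P.f w))
      (F.continuous.sub hcc) hcc, ← S.fn_coe]
    congr 1
    funext w
    ring
  rw [← h1, e]
  exact S.norm_fn_le hε.le hc

theorem gena_central {ψ : (H →L[ℂ] H) →ₗ[ℂ] ℂ} {C : ℝ} (hC : ∀ z, ‖ψ z‖ ≤ C * ‖z‖) (hC0 : 0 ≤ C)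
    {b : H →L[ℂ] H} (h : ∀ U, IsClopen U → ψ (S.pr U * b) = ψ (b * S.pr U)) (F : C(X, ℂ)) :
    ψ (S.ι F * b) = ψ (b * S.ι F) := by
  have key : ∀ ε : ℝ, 0 < ε → ‖ψ (S.ι F * b) - ψ (b * S.ι F)‖ ≤ 2 * C * ‖b‖ * ε := fun ε hε => by
    obtain ⟨P, c, hP⟩ := S.gena_step F hε
    set G := ∑ i, c i • S.pr (P.f ⁻¹' {i}) with hG
    have h2 : ψ (G * b) = ψ (b * G) := by
      rw [hG, Finset.sum_mul, Finset.mul_sum, map_sum, map_sum]
      exact Finset.sum_congr rfl fun i _ => by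
        rw [smul_mul_assoc, mul_smul_comm, map_smul, map_smul, h _ (P.clopen i)]
    have h4 : ψ (S.ι F * b) - ψ (b * S.ι F) = ψ ((S.ι F - G) * b) - ψ (b * (S.ι F - G)) := by
      rw [sub_mul, mul_sub, map_sub, map_sub, h2]; ring
    rw [h4]
    calc _ ≤ ‖ψ ((S.ι F - G) * b)‖ + ‖ψ (b * (S.ι F - G))‖ := norm_sub_le _ _
      _ ≤ C * ‖(S.ι F - G) * b‖ + C * ‖b * (S.ι F - G)‖ := add_le_add (hC _) (hC _)
      _ ≤ C * (‖S.ι F - G‖ * ‖b‖) + C * (‖b‖ * ‖S.ι F - G‖) := by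
          gcongr <;> exact norm_mul_le _ _
      _ ≤ C * (ε * ‖b‖) + C * (‖b‖ * ε) := by gcongr
      _ = _ := by ring
  rw [← sub_eq_zero, ← norm_le_zero_iff]
  refine le_of_forall_pos_le_add fun ε hε => ?_
  have hp : 0 < 2 * C * ‖b‖ + 1 := by positivity
  calc _ ≤ 2 * C * ‖b‖ * (ε / (2 * C * ‖b‖ + 1)) := key _ (by positivity)
    _ ≤ (2 * C * ‖b‖ + 1) * (ε / (2 * C * ‖b‖ + 1)) := by gcongr; linarith
    _ = _ := by field_simp; ring

theorem gena_npart (F : Finset H) : ∃ ψ : (H →L[ℂ] H) →ₗ[ℂ] ℂ,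
    (∀ y ∈ S.M, 0 ≤ ψ (star y * y)) ∧ (∀ a, ∀ y ∈ S.M, ψ (S.ι a * y) = ψ (y * S.ι a)) ∧
    (∀ U, IsClopen U → (ψ (S.pr U)).re ≤ ∑ ξ ∈ F, ‖S.pr U ξ‖ ^ 2) ∧ GenaMax S.M ψ 0 ∧
    ∀ U, IsClopen U → ψ (S.pr U) = 0 → ∀ (G : Finset H) (ε : ℝ), 0 < ε →
      ∃ k ∈ S.M, 0 ≤ k ∧ k ≤ 1 ∧ (∀ ξ ∈ G, ‖ξ - k ξ‖ < ε) ∧
        ∑ ξ ∈ F, (⟪ξ, S.EE (S.pr U * k * S.pr U) ξ⟫_ℂ).re ≤ ε := by
  let ψ₀ : (H →L[ℂ] H) →ₗ[ℂ] ℂ :=
    { toFun := fun z => ∑ ξ ∈ F, ⟪ξ, S.EE z ξ⟫_ℂ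
      map_add' := fun a b => by
        simp only [S.EE_add, add_apply, inner_add_right, Finset.sum_add_distrib]
      map_smul' := fun c a => by
        simp only [S.EE_smul, smul_apply, inner_smul_right, Finset.mul_sum, RingHom.id_apply,
          smul_eq_mul] }
  have hψ₀ : ∀ z, ψ₀ z = ∑ ξ ∈ F, ⟪ξ, S.EE z ξ⟫_ℂ := fun _ => rfl
  have hpos : ∀ y ∈ S.M, 0 ≤ ψ₀ (star y * y) := fun y _ => Finset.sum_nonneg fun ξ _ =>
    ((ContinuousLinearMap.nonneg_iff_isPositive _).1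
      (S.EE_nonneg (star_mul_self_nonneg y))).inner_nonneg_right ξ
  have hC : ∀ z, ‖ψ₀ z‖ ≤ (∑ ξ ∈ F, ‖ξ‖ ^ 2) * ‖z‖ := fun z => by
    rw [hψ₀, Finset.sum_mul]
    refine norm_sum_le_of_le _ fun ξ _ => (norm_inner_le_norm _ _).trans ?_
    calc ‖ξ‖ * ‖S.EE z ξ‖ ≤ ‖ξ‖ * (‖z‖ * ‖ξ‖) := by
          gcongr
          exact ((S.EE z).le_opNorm ξ).trans (by gcongr; exact S.norm_EE_le z)
      _ = ‖ξ‖ ^ 2 * ‖z‖ := by ring
  have hC0 : 0 ≤ ∑ ξ ∈ F, ‖ξ‖ ^ 2 := by positivity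
  have hcen : ∀ U z, ψ₀ (S.pr U * z) = ψ₀ (z * S.pr U) := fun U z => by
    rw [hψ₀, hψ₀, pr, fn, S.EE_ι_mul, S.EE_mul_ι, S.EE_comm]
  obtain ⟨ψ, l, _, k, h1, h2, h3, hk, hk', h4⟩ := gena_normal_part hpos hC hC0
  refine ⟨ψ, h1, fun a y hy => S.gena_central h2 hC0
    (fun U hU => (h4 _ (S.pr_mem U) (S.pr_proj hU) (hcen U)).1 y hy) a, fun U hU => ?_, h3,
    fun U hU h0 G ε hε => ?_⟩
  · have hp := S.pr_proj hU
    refine le_of_tendsto' ((Complex.continuous_re.tendsto _).comp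
      (h4 _ (S.pr_mem U) hp (hcen U)).2) fun i => ?_
    have a1 : S.pr U * k i * S.pr U ≤ S.pr U := by
      have := hp.isSelfAdjoint.conjugate_le_conjugate (hk i).2.2
      rwa [mul_one, hp.isIdempotentElem] at this
    refine (gena_re_mono hpos (mul_mem (mul_mem (S.pr_mem U) (hk i).1) (S.pr_mem U)) (S.pr_mem U)
      a1).trans_eq ?_
    rw [hψ₀, Complex.re_sum]
    refine Finset.sum_congr rfl fun ξ _ => ?_
    rw [norm_sq_eq_inner, hp.isSelfAdjoint.star_eq, hp.isIdempotentElem, pr, fn, S.EE_ι]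
  · have a1 := (Complex.continuous_re.tendsto _).comp (h4 _ (S.pr_mem U) (S.pr_proj hU) (hcen U)).2
    rw [h0, Complex.zero_re] at a1
    have a2 : ∀ᶠ i in l, ∀ ξ ∈ G, ‖ξ - k i ξ‖ < ε := by
      rw [eventually_all_finset]
      intro ξ _
      have := ((tendsto_const_nhds (x := ξ)).sub (hk' ξ)).norm
      rw [sub_self, norm_zero] at this
      exact this.eventually_lt_const hε
    obtain ⟨i, b1, b2⟩ := ((a1.eventually_lt_const hε).and a2).exists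
    refine ⟨k i, (hk i).1, (hk i).2.1, (hk i).2.2, b2, ?_⟩
    rw [← Complex.re_sum]
    exact b1.le

end Masa

end Crest.Agent.R109
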