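import Crest.Agent.R109.OExp
import Crest.Agent.R109.Hil
import Crest.Agent.R109.GenAuxA

/-! Row 109: the normal part of the central functional `φ ∘ EE`. -/

set_option autoImplicit false
set_option linter.unusedSectionVars false

namespace Crest.Agent.R109

open Crest.Agent.R124 Filter Topology Function
open scoped BigOperators ComplexConjugate InnerProductSpace ComplexOrder Pointwise

variable {X : Type*} [TopologicalSpace X] [CompactSpace X] [T2Space X] [TotallyDisconnectedSpace X]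
  {H : Type*} [NormedAddCommGroup H] [InnerProductSpace ℂ H] [CompleteSpace H]

/-- Cauchy-Schwarz for a functional which is positive on `M`. -/
theorem pos_cs {M : VonNeumannAlgebra H} {ψ : (H →L[ℂ] H) →ₗ[ℂ] ℂ}
    (hψ : ∀ y ∈ M, 0 ≤ ψ (star y * y)) {a b : H →L[ℂ] H} (ha : a ∈ M) (hb : b ∈ M) :
    ‖ψ (star a * b)‖ ^ 2 ≤ (ψ (star a * a)).re * (ψ (star b * b)).re :=
  gena_cs hψ ha hb

/-- Positive elements of `M` have square roots in `M` (`R124.exists_sqrt`). -/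
theorem pos_mono {M : VonNeumannAlgebra H} {ψ : (H →L[ℂ] H) →ₗ[ℂ] ℂ}
    (hψ : ∀ y ∈ M, 0 ≤ ψ (star y * y)) {a b : H →L[ℂ] H} (ha : a ∈ M) (hb : b ∈ M) (h : a ≤ b) :
    ψ a ≤ ψ b :=
  gena_mono hψ ha hb h

/-- A maximal null net.  PROOF.  `t (G, n) = sup {re ψ z | z ∈ M, 0 ≤ z ≤ 1, ‖z ξ‖ < 1 / (n + 1) on G}` is
antitone, bounded by `re ψ 1`, and tends to its infimum `s`; choose `y i` with
`re ψ (y i) > t i - 1 / (n + 1)`. -/
theorem exists_maxnull {M : VonNeumannAlgebra H} {ψ : (H →L[ℂ] H) →ₗ[ℂ] ℂ}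
    (hψ : ∀ y ∈ M, 0 ≤ ψ (star y * y)) :
    ∃ (y : Finset H × ℕ → H →L[ℂ] H) (s : ℝ), (∀ i, y i ∈ M ∧ 0 ≤ y i ∧ y i ≤ 1) ∧
      (∀ ξ, Tendsto (fun i => y i ξ) atTop (𝓝 0)) ∧ Tendsto (fun i => (ψ (y i)).re) atTop (𝓝 s) ∧
      ∀ c : ℝ, 0 < c → ∃ (G : Finset H) (ε : ℝ), 0 < ε ∧
        ∀ z ∈ M, 0 ≤ z → z ≤ 1 → (∀ ξ ∈ G, ‖z ξ‖ < ε) → (ψ z).re ≤ s + c :=
  gena_maxnull hψ

/-- Uniform normality. -/
def Nml (M : VonNeumannAlgebra H) (ψ : (H →L[ℂ] H) →ₗ[ℂ] ℂ) : Prop :=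
  ∀ c : ℝ, 0 < c → ∃ (G : Finset H) (ε : ℝ), 0 < ε ∧
    ∀ z ∈ M, 0 ≤ z → z ≤ 1 → (∀ ξ ∈ G, ‖z ξ‖ < ε) → (ψ z).re ≤ c

/-- Uniform faithfulness on `e`. -/
def Fth (M : VonNeumannAlgebra H) (ψ : (H →L[ℂ] H) →ₗ[ℂ] ℂ) (e : H →L[ℂ] H) : Prop :=
  ∀ (ξ : H) (c : ℝ), 0 < c → ∃ ε : ℝ, 0 < ε ∧
    ∀ b ∈ M, ‖b‖ ≤ 1 → (ψ (star b * b)).re ≤ ε → ‖b (e ξ)‖ ≤ c

namespace Masa

variable (S : Masa X H)

/-- The normal part. -/
structure NPart (F : Finset H) (ψ : (H →L[ℂ] H) →ₗ[ℂ] ℂ) : Prop where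
  pos : ∀ y ∈ S.M, 0 ≤ ψ (star y * y)
  central : ∀ a, ∀ y ∈ S.M, ψ (S.ι a * y) = ψ (y * S.ι a)
  le : ∀ U, IsClopen U → (ψ (S.pr U)).re ≤ ∑ ξ ∈ F, ‖S.pr U ξ‖ ^ 2
  normal : Nml S.M ψ
  sing : ∀ U, IsClopen U → ψ (S.pr U) = 0 → ∀ (G : Finset H) (ε : ℝ), 0 < ε →
    ∃ k ∈ S.M, 0 ≤ k ∧ k ≤ 1 ∧ (∀ ξ ∈ G, ‖ξ - k ξ‖ < ε) ∧
      ∑ ξ ∈ F, (⟪ξ, S.EE (S.pr U * k * S.pr U) ξ⟫_ℂ).re ≤ ε

/-- PROOF.  `ψ₀ z = ∑ ξ ∈ F, ⟪ξ, EE z ξ⟫` is linear, positive, bounded and central (`EE_ι_mul`, `EE_mul_ι`,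
`EE_comm`).  `y, s` from `exists_maxnull`, `ψ b = lim_U ψ₀ ((1 - y i) b (1 - y i))` along
`U = Ultrafilter.of atTop`.  Call a net `y'` in `[0, 1] ∩ M` null if `y' i ξ → 0`; then
`limsup re ψ₀ (y' i) ≤ s`.  If moreover `re ψ₀ (y' i) → s` then `ψ₀ (y' - y'²) → 0` (`2 y' - y'²` is null).
For `u = 1 - 2 pr V` the nets `y' = u y u` and `m = (y + y') / 2` are of this kind and
`(y - y')² / 4 ≤ m - m²`, so `ψ₀ ((y - u y u)²) → 0`; by `pos_cs`, `ψ₀ (b (y u - u y)) → 0` uniformly for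
bounded `b`.  This gives `ψ (pr V * b) = ψ (b * pr V)` (extend to `ι a` by `exists_part_osc` and boundedness)
and `ψ (pr V) = lim ψ₀ (pr V (1 - y)² pr V) ≤ ψ₀ (pr V)`, which gives `le` and `sing` (`k = (1 - y i)²`).
`normal`: for `z` small on `G`, `2 y - y² + (1 - y) z (1 - y) ∈ [0, 1]` is eventually small on `G`, so
`re ψ₀ (y) + re ψ₀ ((1 - y) z (1 - y)) ≤ s + c`. -/
theorem exists_npart (F : Finset H) : ∃ ψ, S.NPart F ψ := by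
  obtain ⟨ψ, h1, h2, h3, h4, h5⟩ := S.gena_npart F
  exact ⟨ψ, h1, h2, h3, fun c hc => by simpa only [zero_add] using h4 c hc, h5⟩

theorem _root_.Crest.Agent.R109.gen_le {a b : H →L[ℂ] H} (h : ∀ ζ, ‖a ζ‖ ≤ ‖b ζ‖) :
    star a * a ≤ star b * b := by
  have hs : IsSelfAdjoint (star b * b - star a * a) := (IsSelfAdjoint.star_mul_self b).sub (.star_mul_self a)
  rw [← sub_nonneg, ContinuousLinearMap.nonneg_iff_isPositive, ContinuousLinearMap.isPositive_def']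
  refine ⟨hs, fun ζ => ?_⟩
  rw [ContinuousLinearMap.reApplyInnerSelf_apply, inner_re_symm, _root_.sub_apply, inner_sub_right, map_sub,
    RCLike.re_to_complex, RCLike.re_to_complex, ← norm_sq_eq_inner, ← norm_sq_eq_inner, sub_nonneg]
  exact pow_le_pow_left₀ (norm_nonneg _) (h ζ) 2

theorem _root_.Crest.Agent.R109.gen_sqrt {M : VonNeumannAlgebra H} {z : H →L[ℂ] H} (hz : z ∈ M) (h0 : 0 ≤ z) :
    ∃ y ∈ M, star y * y = z := by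
  obtain ⟨R, h1, h2, -, h3⟩ := exists_sqrt h0
  exact ⟨R, mem_of_comm fun y hy => (h3 y (comm_of_mem hz hy)).eq.symm, by rw [h1.isSelfAdjoint.star_eq, h2]⟩

/-- The null projection. -/
theorem _root_.Crest.Agent.R109.gen_null {M : VonNeumannAlgebra H} {ψ : (H →L[ℂ] H) →ₗ[ℂ] ℂ}
    (hψ : ∀ y ∈ M, 0 ≤ ψ (star y * y)) (hn : Nml M ψ) :
    ψ (sp {v | ∃ b ∈ M, ψ (star b * b) = 0 ∧ ∃ η, v = star b η}) = 0 := by
  classical
  set T : Set H := {v | ∃ b ∈ M, ψ (star b * b) = 0 ∧ ∃ η, v = star b η}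
  have hg : IsStarProjection (sp T) := sp_proj T
  have hgM : sp T ∈ M := sp_mem <| by
    rintro y hy _ ⟨b, hb, hb0, η, rfl⟩
    exact ⟨b, hb, hb0, y η, congr($((comm_of_mem (star_mem hb) hy).symm) η)⟩
  have hdir : ∀ a ∈ M, ψ (star a * a) = 0 → ∀ b ∈ M, ψ (star b * b) = 0 →
      ∃ y ∈ M, ψ (star y * y) = 0 ∧ ∀ ζ, ‖a ζ‖ ≤ ‖y ζ‖ ∧ ‖b ζ‖ ≤ ‖y ζ‖ := fun a ha ha0 b hb hb0 => by
    obtain ⟨y, hy, h⟩ := gen_sqrt (add_mem (mul_mem (star_mem ha) ha) (mul_mem (star_mem hb) hb))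
      (add_nonneg (star_mul_self_nonneg a) (star_mul_self_nonneg b))
    refine ⟨y, hy, by rw [h, map_add, ha0, hb0, add_zero], fun ζ => ?_⟩
    have h1 : ‖y ζ‖ ^ 2 = ‖a ζ‖ ^ 2 + ‖b ζ‖ ^ 2 := by
      rw [norm_sq_eq_inner, h, _root_.add_apply, inner_add_right, Complex.add_re, norm_sq_eq_inner,
        norm_sq_eq_inner]
    exact ⟨le_of_sq_le_sq (by nlinarith [sq_nonneg ‖b ζ‖]) (norm_nonneg _),
      le_of_sq_le_sq (by nlinarith [sq_nonneg ‖a ζ‖]) (norm_nonneg _)⟩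
  have h1 : ∀ v ∈ Submodule.span ℂ T, ∃ y ∈ M, ψ (star y * y) = 0 ∧ ∃ C : ℝ, 0 ≤ C ∧
      ∀ ζ, ‖⟪v, ζ⟫_ℂ‖ ≤ C * ‖y ζ‖ := fun v hv => by
    induction hv using Submodule.span_induction with
    | mem v hv =>
      obtain ⟨b, hb, hb0, η, rfl⟩ := hv
      exact ⟨b, hb, hb0, ‖η‖, norm_nonneg _, fun ζ => by rw [inner_star_left]; exact norm_inner_le_norm _ _⟩
    | zero => exact ⟨0, zero_mem _, by simp, 0, le_rfl, by simp⟩
    | add u v _ _ hu hv =>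
      obtain ⟨a, ha, ha0, C, hC, hu⟩ := hu
      obtain ⟨b, hb, hb0, D, hD, hv⟩ := hv
      obtain ⟨y, hy, hy0, h⟩ := hdir a ha ha0 b hb hb0
      refine ⟨y, hy, hy0, C + D, by positivity, fun ζ => ?_⟩
      rw [inner_add_left, add_mul]
      exact norm_add_le_of_le ((hu ζ).trans (by gcongr; exact (h ζ).1)) ((hv ζ).trans (by gcongr; exact (h ζ).2))
    | smul c v _ hv =>
      obtain ⟨a, ha, ha0, C, hC, hv⟩ := hv
      refine ⟨a, ha, ha0, ‖c‖ * C, by positivity, fun ζ => ?_⟩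
      rw [inner_smul_left, norm_mul, RCLike.norm_conj, mul_assoc]
      gcongr
      exact hv ζ
  have h2 : ∀ δ : ℝ, 0 < δ → ∀ G : Finset H, ∃ y ∈ M, ψ (star y * y) = 0 ∧ ∃ C : ℝ, 0 ≤ C ∧
      ∀ ξ ∈ G, ∀ ζ, ‖⟪sp T ξ, ζ⟫_ℂ‖ ≤ δ * ‖ζ‖ + C * ‖y ζ‖ := fun δ hδ G => by
    induction G using Finset.induction_on with
    | empty => exact ⟨0, zero_mem _, by simp, 0, le_rfl, by simp⟩
    | insert ξ G _ ih =>
      obtain ⟨a, ha, ha0, C, hC, hG⟩ := ih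
      obtain ⟨v, hv, hd⟩ := Metric.mem_closure_iff.1 (sp_apply_mem T ξ) δ hδ
      obtain ⟨b, hb, hb0, D, hD, hv⟩ := h1 v hv
      obtain ⟨y, hy, hy0, h⟩ := hdir a ha ha0 b hb hb0
      refine ⟨y, hy, hy0, C + D, by positivity, fun ξ' hξ' ζ => ?_⟩
      have e1 := mul_le_mul_of_nonneg_left (h ζ).1 hC
      have e2 := mul_le_mul_of_nonneg_left (h ζ).2 hD
      have e3 := mul_nonneg hC (norm_nonneg (y ζ))
      have e4 := mul_nonneg hD (norm_nonneg (y ζ))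
      rcases Finset.mem_insert.1 hξ' with rfl | hξ'
      · have e5 := norm_inner_le_norm (𝕜 := ℂ) (sp T ξ' - v) ζ
        have e6 := mul_le_mul_of_nonneg_right hd.le (norm_nonneg ζ)
        have e7 := norm_sub_norm_le ⟪sp T ξ', ζ⟫_ℂ ⟪v, ζ⟫_ℂ
        rw [inner_sub_left] at e5
        rw [dist_eq_norm] at e6
        linarith [hv ζ]
      · linarith [hG ξ' hξ' ζ]
  have h3 : 0 ≤ ψ (sp T) := by
    have := hψ _ hgM
    rwa [hg.isSelfAdjoint.star_eq, hg.isIdempotentElem] at this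
  refine Complex.ext (le_antisymm (le_of_forall_pos_le_add fun c hc => ?_) (Complex.le_def.1 h3).1)
    (Complex.le_def.1 h3).2.symm
  obtain ⟨G, ε, hε, hG⟩ := hn c hc
  obtain ⟨y, hy, hy0, C, hC, h⟩ := h2 (ε / 2) (by positivity) G
  obtain ⟨δ, hδ, hδε⟩ : ∃ δ : ℝ, 0 < δ ∧ C * δ < ε / 2 := ⟨ε / 2 / (C + 1), by positivity, by
    rw [← mul_div_assoc, div_lt_iff₀ (by positivity)]
    nlinarith⟩
  obtain ⟨p, hpM, hp, h4, h5⟩ := exists_cut_sq hy hδ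
  have hpp : star p * p = p := by rw [hp.isSelfAdjoint.star_eq, hp.isIdempotentElem]
  have h6 : ψ p = 0 := by
    have e1 := pos_mono hψ (mul_mem (star_mem (smul_mem_vn hpM δ)) (smul_mem_vn hpM δ))
      (mul_mem (star_mem hy) hy) (gen_le fun ζ => by simpa [norm_smul, abs_of_pos hδ] using h5 ζ)
    have e2 := le_antisymm (hy0 ▸ e1) (hψ _ (smul_mem_vn hpM δ))
    rw [star_smul, smul_mul_smul_comm, hpp, map_smul, smul_eq_mul] at e2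
    simpa [hδ.ne'] using e2
  have h7 : sp T * p = p := by
    ext η
    exact sp_apply ⟨p, hpM, by rw [hpp, h6], η, by rw [hp.isSelfAdjoint.star_eq]; rfl⟩
  have h8 : p * sp T = p := by
    simpa [hp.isSelfAdjoint.star_eq, hg.isSelfAdjoint.star_eq] using congrArg star h7
  have hq := hp.sub_of_mul_eq_left hg h8
  have h9 := hG _ (sub_mem hgM hpM) hq.nonneg (sub_nonneg.1 hq.one_sub.nonneg) fun ξ hξ => by
    set ζ := (sp T - p) ξ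
    have e1 : p ζ = 0 := by
      have : p * (sp T - p) = 0 := by rw [mul_sub, h8, hp.isIdempotentElem, sub_self]
      exact congr($this ξ)
    have e2 := h4 ζ
    rw [e1, sub_zero] at e2
    have e3 : ‖ζ‖ ^ 2 = (⟪sp T ξ, ζ⟫_ℂ).re := by
      have e5 : star (sp T) * (sp T - p) = star (sp T - p) * (sp T - p) := by
        rw [hq.isSelfAdjoint.star_eq, hq.isIdempotentElem, hg.isSelfAdjoint.star_eq, mul_sub, h7,
          hg.isIdempotentElem]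
      rw [norm_sq_eq_inner, ← e5, ← inner_star_right]
      rfl
    have e4 := (Complex.re_le_norm _).trans (h ξ hξ ζ)
    have e5 := mul_le_mul_of_nonneg_left e2 hC
    by_contra e6
    push Not at e6
    nlinarith
  rw [map_sub, h6, sub_zero] at h9
  simpa using h9

/-- Weak limits of null sequences are null. -/
theorem _root_.Crest.Agent.R109.gen_wlim {M : VonNeumannAlgebra H} {ψ : (H →L[ℂ] H) →ₗ[ℂ] ℂ}
    (hψ : ∀ y ∈ M, 0 ≤ ψ (star y * y)) (hn : Nml M ψ) {l : Filter ℕ} [l.NeBot] (hl : l ≤ atTop)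
    {a : ℕ → H →L[ℂ] H} {z : H →L[ℂ] H} (ha : ∀ k, a k ∈ M) (ha1 : ∀ k, ‖a k‖ ≤ 1) (hz : z ∈ M)
    (hz1 : ‖z‖ ≤ 1)
    (h : ∀ η ξ, Tendsto (fun i => ⟪η, a i ξ⟫_ℂ) l (𝓝 ⟪η, z ξ⟫_ℂ))
    (h0 : ∀ k : ℕ, (ψ (a k)).re ≤ 1 / (k + 1 : ℝ)) : (ψ z).re ≤ 0 := by
  refine le_of_forall_pos_le_add fun c hc => ?_
  have h1 : 0 ≤ (ψ (star 1 * 1)).re := (Complex.le_def.1 (hψ 1 (one_mem _))).1
  obtain ⟨c', hc', hcc⟩ : ∃ c' : ℝ, 0 < c' ∧ (ψ (star 1 * 1)).re * c' ≤ (c / 4) ^ 2 :=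
    ⟨(c / 4) ^ 2 / ((ψ (star 1 * 1)).re + 1), by positivity, by
      rw [← mul_div_assoc, div_le_iff₀ (by positivity)]
      nlinarith [sq_nonneg (c / 4)]⟩
  obtain ⟨G, ε, hε, hG⟩ := hn c' hc'
  obtain ⟨K, hK⟩ := exists_nat_one_div_lt (half_pos hc)
  obtain ⟨n, t, lam, ht, hl0, hl1, hm⟩ := mazur h (hl (eventually_ge_atTop K)) G hε
  set w := ∑ j, (lam j : ℂ) • a (t j)
  have hwM : w ∈ M := sum_mem fun j _ => smul_mem_vn (ha _) _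
  have hw1 : ‖w‖ ≤ 1 := (norm_sum_le _ _).trans (hl1 ▸ Finset.sum_le_sum fun j _ => by
    rw [norm_smul, Complex.norm_of_nonneg (hl0 j)]
    exact mul_le_of_le_one_right (hl0 j) (ha1 _))
  have hw0 : (ψ w).re ≤ c / 2 := by
    rw [map_sum, Complex.re_sum, ← one_mul (c / 2), ← hl1, Finset.sum_mul]
    refine Finset.sum_le_sum fun j _ => ?_
    rw [map_smul, smul_eq_mul, Complex.re_ofReal_mul]
    exact mul_le_mul_of_nonneg_left ((h0 _).trans ((Nat.one_div_le_one_div (ht j)).trans hK.le)) (hl0 j)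
  set d := (1 / 2 : ℂ) • (w - z)
  have hdM : d ∈ M := smul_mem_vn (sub_mem hwM hz) _
  have hd1 : ‖d‖ ≤ 1 := by
    have := norm_sub_le w z
    rw [norm_smul]
    norm_num
    linarith
  have h2 := hG _ (mul_mem (star_mem hdM) hdM) (star_mul_self_nonneg d)
    ((CStarAlgebra.norm_le_one_iff_of_nonneg _ (star_mul_self_nonneg d)).1 (by
      rw [CStarRing.norm_star_mul_self]
      exact mul_le_one₀ hd1 (norm_nonneg _) hd1)) fun ξ hξ => by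
    have e1 := (star d).le_opNorm (d ξ)
    have e2 : ‖d ξ‖ = 1 / 2 * ‖(w - z) ξ‖ := by simp [d, norm_smul]
    rw [norm_star] at e1
    have e3 := mul_le_of_le_one_left (norm_nonneg (d ξ)) hd1
    have e4 := hm ξ hξ
    exact e1.trans_lt (by linarith)
  have h3 := (pos_cs hψ (one_mem M) hdM).trans ((mul_le_mul_of_nonneg_left h2 h1).trans hcc)
  have h4 := (Complex.abs_re_le_norm _).trans (le_of_sq_le_sq h3 (by positivity))
  rw [star_one, one_mul, map_smul, map_sub] at h4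
  have h5 := (abs_le.1 h4).1
  simp only [smul_eq_mul, one_div, Complex.mul_re, Complex.sub_re] at h5
  norm_num at h5
  linarith

/-- PROOF.  `L = {b ∈ M | ψ (b* b) = 0}`, `g = sp {b* η | b ∈ L}`.  `g ∈ M` (`sp_mem`), `g` commutes with `A`
(`ψ (a* b* b a) = ψ (b* b a a*) = 0` by `pos_cs`), so `g = pr Eᶜ`.  `ψ g = 0`: approximate `g ξ`, `ξ ∈ G`, by
sums `∑ b i* η i`, `z = ∑ b i* b i`, `h = z (z + ε)⁻¹ ≤ z / ε`, `0 ≤ h ≤ g`, `‖(1 - h) b i*‖² ≤ ε`; so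
`ψ h = 0` and `ψ (g - h) ≤ c` by normality.  Faithfulness: otherwise there are `b k` with
`ψ (b k* b k) → 0`, `‖b k e ξ‖ > c`; let `z` be a weak ultralimit of `z k = b k* b k`.  By `mazur`, normality
(for `(z - conv)²`) and `pos_cs`, `ψ z = 0`; so `√z ∈ L`, `√z e = 0`, contradicting
`⟪e ξ, z e ξ⟫ ≥ c²`. -/
theorem exists_support {ψ : (H →L[ℂ] H) →ₗ[ℂ] ℂ} (hψ : ∀ y ∈ S.M, 0 ≤ ψ (star y * y))
    (hc : ∀ a, ∀ y ∈ S.M, ψ (S.ι a * y) = ψ (y * S.ι a)) (hn : Nml S.M ψ) :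
    ∃ E, IsClopen E ∧ ψ (S.pr Eᶜ) = 0 ∧ Fth S.M ψ (S.pr E) := by
  set T : Set H := {v | ∃ b ∈ S.M, ψ (star b * b) = 0 ∧ ∃ η, v = star b η}
  have hgM : sp T ∈ S.M := sp_mem <| by
    rintro y hy _ ⟨b, hb, hb0, η, rfl⟩
    exact ⟨b, hb, hb0, y η, congr($((comm_of_mem (star_mem hb) hy).symm) η)⟩
  have hA : ∀ a, ∀ v ∈ T, S.ι a v ∈ T := by
    rintro a _ ⟨b, hb, hb0, η, rfl⟩
    refine ⟨b * star (S.ι a), mul_mem hb (star_mem (S.mem a)), ?_, η, by simp⟩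
    have h1 := pos_cs hψ hb (mul_mem hb (mul_mem (star_mem (S.mem a)) (S.mem a)))
    rw [hb0, Complex.zero_re, zero_mul] at h1
    rw [star_mul, star_star, mul_assoc, hc _ _ (mul_mem (star_mem hb) (mul_mem hb (star_mem (S.mem a)))),
      mul_assoc, mul_assoc]
    exact norm_eq_zero.1 (pow_eq_zero_iff two_ne_zero |>.1 (le_antisymm h1 (sq_nonneg _)))
  obtain ⟨F, hF⟩ := S.max _ hgM fun a => sp_comm (hA a) (by rw [← map_star]; exact hA _)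
  obtain ⟨U, hU, hUF⟩ := S.exists_pr_eq (F := F) (hF ▸ sp_proj T)
  refine ⟨Uᶜ, hU.compl, by rw [compl_compl, hUF, hF]; exact gen_null hψ hn, fun ξ c hc0 => ?_⟩
  by_contra h
  push Not at h
  choose b hb hb1 hb0 hbc using fun k : ℕ => h _ (Nat.one_div_pos_of_nat (n := k))
  have h1 : ∀ k, ‖star (b k) * b k‖ ≤ 1 := fun k => by
    rw [CStarRing.norm_star_mul_self]
    exact mul_le_one₀ (hb1 k) (norm_nonneg _) (hb1 k)
  have hM : ∀ k, star (b k) * b k ∈ S.M := fun k => mul_mem (star_mem (hb k)) (hb k)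
  obtain ⟨z, hz1, hl⟩ := R121.exists_wlim (hyperfilter ℕ) _ h1
  have hz : z ∈ S.M := mem_of_wlim (.of_forall hM) hl
  have hz0 : 0 ≤ z := R78.rn_nonneg_of_lim (fun k => star_mul_self_nonneg (b k)) hl
  have h2 := gen_wlim hψ hn Nat.hyperfilter_le_atTop hM h1 hz hz1 hl hb0
  obtain ⟨y, hy, rfl⟩ := gen_sqrt hz hz0
  have h3 := Complex.le_def.1 (hψ y hy)
  have h4 : sp T * star y = star y := by
    ext η
    exact sp_apply ⟨y, hy, Complex.ext (le_antisymm h2 h3.1) h3.2.symm, η, rfl⟩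
  have h5 : y * S.pr Uᶜ = 0 := by
    have := congrArg star h4
    rw [star_mul, star_star, (sp_proj T).isSelfAdjoint.star_eq] at this
    rw [S.pr_compl hU, hUF, hF, mul_sub, this, mul_one, sub_self]
  have h6 := ge_of_tendsto' ((Complex.continuous_re.tendsto _).comp (hl (S.pr Uᶜ ξ) (S.pr Uᶜ ξ)))
    (b := c ^ 2) fun k => by
      rw [Function.comp, ← norm_sq_eq_inner]
      exact pow_le_pow_left₀ hc0.le (hbc k).le 2
  have h7 : y (S.pr Uᶜ ξ) = 0 := congr($h5 ξ)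
  rw [← norm_sq_eq_inner, h7, norm_zero] at h6
  nlinarith

/-- PROOF.  `s = sp {a' ξ | a' ∈ S.A.commutant, ξ ∈ F} ∈ S.A` (`sp_mem`), `s = pr Zᶜ`; approximate `s ξ` by
`∑ a' i ξ i`. -/
theorem exists_carrier (F : Finset H) :
    ∃ Z, IsClopen Z ∧ (∀ ξ ∈ F, S.pr Z ξ = 0) ∧ ∀ (ξ : H) (c : ℝ), 0 < c → ∃ ε : ℝ, 0 < ε ∧
      ∀ a : C(X, ℂ), ‖a‖ ≤ 1 → (∀ ζ ∈ F, ‖S.ι a ζ‖ ≤ ε) → ‖S.ι a (S.pr Zᶜ ξ)‖ ≤ c := by
  set T : Set H := {v | ∃ a ∈ S.A.commutant, ∃ ξ ∈ F, v = a ξ}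
  have hs : sp T ∈ S.A := sp_mem <| by
    rintro y hy _ ⟨a, ha, ξ, hξ, rfl⟩
    exact ⟨y * a, mul_mem hy ha, ξ, hξ, rfl⟩
  obtain ⟨U, hU, hUs⟩ := S.exists_pr_of_mem_A hs (sp_proj T)
  refine ⟨Uᶜ, hU.compl, fun ξ hξ => ?_, fun ξ c hc => ?_⟩
  · rw [S.pr_compl hU, hUs, _root_.sub_apply, sp_apply (T := T) (v := ξ) ⟨1, one_mem _, ξ, hξ, rfl⟩]
    exact sub_self ξ
  have h1 : ∀ v ∈ Submodule.span ℂ T, ∃ C : ℝ, 0 ≤ C ∧ ∀ (a : C(X, ℂ)) (ε : ℝ),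
      (∀ ζ ∈ F, ‖S.ι a ζ‖ ≤ ε) → 0 ≤ ε → ‖S.ι a v‖ ≤ C * ε := fun v hv => by
    induction hv using Submodule.span_induction with
    | mem v hv =>
      obtain ⟨y, hy, ζ, hζ, rfl⟩ := hv
      refine ⟨‖y‖, norm_nonneg _, fun a ε h _ => ?_⟩
      have e : S.ι a (y ζ) = y (S.ι a ζ) := congr($(S.mem_A_commutant.1 hy a) ζ)
      rw [e]
      exact (y.le_opNorm _).trans (mul_le_mul_of_nonneg_left (h ζ hζ) (norm_nonneg _))
    | zero => exact ⟨0, le_rfl, by simp⟩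
    | add u v _ _ hu hv =>
      obtain ⟨C, hC, hu⟩ := hu
      obtain ⟨D, hD, hv⟩ := hv
      refine ⟨C + D, by positivity, fun a ε h hε => ?_⟩
      rw [map_add, add_mul]
      exact norm_add_le_of_le (hu a ε h hε) (hv a ε h hε)
    | smul t v _ hv =>
      obtain ⟨C, hC, hv⟩ := hv
      refine ⟨‖t‖ * C, by positivity, fun a ε h hε => ?_⟩
      rw [map_smul, norm_smul, mul_assoc]
      exact mul_le_mul_of_nonneg_left (hv a ε h hε) (norm_nonneg _)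
  obtain ⟨v, hv, hd⟩ := Metric.mem_closure_iff.1 (sp_apply_mem T ξ) _ (half_pos hc)
  obtain ⟨C, hC, h⟩ := h1 v hv
  refine ⟨c / 2 / (C + 1), by positivity, fun a ha hF => ?_⟩
  have h2 := h a _ hF (by positivity)
  have h3 : C * (c / 2 / (C + 1)) ≤ c / 2 := by
    rw [← mul_div_assoc, div_le_iff₀ (by positivity)]
    nlinarith
  have h4 := (S.ι a).le_opNorm (sp T ξ - v)
  have h5 := mul_le_of_le_one_left (norm_nonneg (sp T ξ - v)) ha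
  have h6 := norm_sub_norm_le (S.ι a (sp T ξ)) (S.ι a v)
  rw [S.norm_ι, map_sub] at h4
  rw [dist_eq_norm] at hd
  rw [compl_compl, hUs]
  linarith

/-- The conclusion on the normal part. -/
def Reg (E : Set X) : Prop :=
  ∀ x ∈ S.M, IsSelfAdjoint x → ∀ r : ℕ, 4 ≤ r → ∀ (G : Finset H) (η : ℝ), 0 < η →
    ∃ (f : X → Fin r) (a : C(X, ℂ)) (b : H →L[ℂ] H), IsLocallyConstant f ∧ IsSelfAdjoint (S.ι a) ∧
      ‖a‖ ≤ ‖x‖ ∧ b ∈ S.M ∧ IsSelfAdjoint b ∧ S.pr E * b = b ∧ S.T f b = b ∧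
      ‖S.pr E * (S.T f x - S.ι a) * S.pr E - b‖ ≤ 16000 / √r * ‖x‖ ∧ ∀ ξ ∈ G, ‖b ξ‖ ≤ η

/-- The property of the singular part. -/
def Sing (U : Set X) : Prop :=
  ∀ (G : Finset H) (η : ℝ), 0 < η → ∃ q ∈ S.M, IsStarProjection q ∧ S.pr U * q = q ∧
    (∀ ξ ∈ G, ‖(S.pr U - q) ξ‖ ≤ η) ∧
    ∃ P : Part X, ∀ i, ‖S.pr (P.f ⁻¹' {i}) * q * S.pr (P.f ⁻¹' {i})‖ ≤ η

end Masa

end Crest.Agent.R109
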