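import Crest.Agent.R109.NBasic
import Crest.Agent.R109.Rand

/-! Row 109: the `K`-functional. -/

set_option autoImplicit false
set_option linter.unusedSectionVars false

namespace Crest.Agent.R109

open Crest.Agent.R124 Filter Topology Function
open scoped BigOperators ComplexConjugate InnerProductSpace ComplexOrder Pointwise

variable {X : Type*} [TopologicalSpace X] [CompactSpace X] [T2Space X] [TotallyDisconnectedSpace X]
  {H : Type*} [NormedAddCommGroup H] [InnerProductSpace ℂ H] [CompleteSpace H]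

namespace NS

variable (S : NS X H) {K : ℝ}

private instance KN_nonempty : Nonempty {b₁ : H →L[ℂ] H // b₁ ∈ S.M ∧ IsSelfAdjoint b₁} :=
  ⟨⟨0, zero_mem _, IsSelfAdjoint.zero _⟩⟩

private theorem KN_le_of {B : ℝ} {b : H →L[ℂ] H}
    (h : ∀ b₁ ∈ S.M, IsSelfAdjoint b₁ → B ≤ ‖b₁‖ + K * ‖(b - b₁) S.Ω‖) : B ≤ S.KN K b :=
  le_ciInf fun b₁ => h b₁.1 b₁.2.1 b₁.2.2

theorem KN_le (hK : 0 ≤ K) (b : H →L[ℂ] H) {b₁ : H →L[ℂ] H} (h : b₁ ∈ S.M) (hs : IsSelfAdjoint b₁) :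
    S.KN K b ≤ ‖b₁‖ + K * ‖(b - b₁) S.Ω‖ := by
  refine ciInf_le (f := fun b₁ : {b₁ : H →L[ℂ] H // b₁ ∈ S.M ∧ IsSelfAdjoint b₁} =>
    ‖b₁.1‖ + K * ‖(b - b₁.1) S.Ω‖) ⟨0, ?_⟩ ⟨b₁, h, hs⟩
  rintro _ ⟨b₂, rfl⟩
  positivity

theorem exists_of_KN_lt {b : H →L[ℂ] H} {B : ℝ} (h : S.KN K b < B) :
    ∃ b₁ ∈ S.M, IsSelfAdjoint b₁ ∧ ‖b₁‖ + K * ‖(b - b₁) S.Ω‖ < B := by
  obtain ⟨b₁, hb₁⟩ := exists_lt_of_ciInf_lt h
  exact ⟨b₁.1, b₁.2.1, b₁.2.2, hb₁⟩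

theorem KN_le_apply (hK : 0 ≤ K) (b : H →L[ℂ] H) : S.KN K b ≤ K * ‖b S.Ω‖ := by
  simpa using S.KN_le hK b (zero_mem _) (IsSelfAdjoint.zero _)

theorem KN_add_le (hK : 0 ≤ K) (b b' : H →L[ℂ] H) : S.KN K (b + b') ≤ S.KN K b + S.KN K b' := by
  refine le_of_forall_pos_le_add fun ε hε => ?_
  obtain ⟨b₁, h1, h2, h3⟩ := S.exists_of_KN_lt (lt_add_of_pos_right (S.KN K b) (half_pos hε))
  obtain ⟨b₂, h4, h5, h6⟩ := S.exists_of_KN_lt (lt_add_of_pos_right (S.KN K b') (half_pos hε))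
  have h7 := S.KN_le hK (b + b') (add_mem h1 h4) (h2.add h5)
  have h8 : ‖(b + b' - (b₁ + b₂)) S.Ω‖ ≤ ‖(b - b₁) S.Ω‖ + ‖(b' - b₂) S.Ω‖ := by
    rw [add_sub_add_comm, add_apply]
    exact norm_add_le _ _
  have h9 := mul_le_mul_of_nonneg_left h8 hK
  linarith [norm_add_le b₁ b₂]

private theorem KN_smul_le (hK : 0 ≤ K) {t : ℝ} (ht : 0 ≤ t) (b : H →L[ℂ] H) :
    S.KN K ((t : ℂ) • b) ≤ t * S.KN K b := by
  rw [KN.eq_1 S K b, Real.mul_iInf_of_nonneg ht]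
  refine le_ciInf fun b₁ => ?_
  have hs : IsSelfAdjoint ((t : ℂ) • b₁.1) := by
    rw [IsSelfAdjoint, star_smul, b₁.2.2.star_eq, Complex.star_def, Complex.conj_ofReal]
  refine (S.KN_le hK _ (smul_mem_vn b₁.2.1 t) hs).trans (le_of_eq ?_)
  rw [← smul_sub, smul_apply, norm_smul, norm_smul, Complex.norm_real, Real.norm_of_nonneg ht]
  ring

theorem KN_smul (hK : 0 ≤ K) {t : ℝ} (ht : 0 ≤ t) (b : H →L[ℂ] H) :
    S.KN K ((t : ℂ) • b) = t * S.KN K b := by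
  refine le_antisymm (S.KN_smul_le hK ht b) ?_
  rcases ht.eq_or_lt with rfl | ht'
  · rw [zero_mul]
    exact S.KN_le_of fun _ _ _ => by positivity
  · have h := S.KN_smul_le hK (inv_nonneg.2 ht) ((t : ℂ) • b)
    rw [smul_smul, ← Complex.ofReal_mul, inv_mul_cancel₀ ht'.ne', Complex.ofReal_one,
      one_smul] at h
    rwa [← le_inv_mul_iff₀ ht']

/-- `norm_mul_ι_apply_le`. -/
theorem KN_conj_le (hK : 0 ≤ K) {F : C(X, ℂ)} (hF : ‖F‖ ≤ 1) {b : H →L[ℂ] H} (hb : b ∈ S.M) :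
    S.KN K (star (S.ι F) * b * S.ι F) ≤ S.KN K b := by
  have h1 : ‖S.ι F‖ ≤ 1 := by rwa [S.norm_ι]
  have h2 : ‖star (S.ι F)‖ ≤ 1 := by rwa [norm_star]
  refine S.KN_le_of fun b₁ hb₁ hs => (S.KN_le hK _
    (mul_mem (mul_mem (star_mem (S.mem F)) hb₁) (S.mem F)) (hs.conjugate' _)).trans
    (add_le_add ?_ (mul_le_mul_of_nonneg_left ?_ hK))
  · calc _ ≤ ‖star (S.ι F)‖ * ‖b₁‖ * ‖S.ι F‖ := norm_mul₃_le
      _ ≤ 1 * ‖b₁‖ * 1 := by gcongr
      _ = _ := by ring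
  · rw [← sub_mul, ← mul_sub, mul_assoc, mul_apply_eq_comp]
    calc _ ≤ ‖star (S.ι F)‖ * ‖((b - b₁) * S.ι F) S.Ω‖ := ContinuousLinearMap.le_opNorm _ _
      _ ≤ 1 * (‖F‖ * ‖(b - b₁) S.Ω‖) := by
          gcongr; exact S.norm_mul_ι_apply_le (sub_mem hb hb₁) F
      _ ≤ 1 * (1 * ‖(b - b₁) S.Ω‖) := by gcongr
      _ = _ := by ring

private theorem KN_clamp {A : Type*} [CStarAlgebra A] [PartialOrder A] [StarOrderedRing A] {b : A}
    (hs : IsSelfAdjoint b) {c : ℝ} (hc : 0 < c) (k : ℕ) :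
    ∃ b₁, IsSelfAdjoint b₁ ∧ ‖b₁‖ ≤ c ∧ (∀ y, Commute b y → Commute b₁ y) ∧
      (((c ^ k) ^ 2 : ℝ) : ℂ) • (star (b - b₁) * (b - b₁)) ≤ star (b ^ (k + 1)) * b ^ (k + 1) := by
  refine ⟨cfc (fun t : ℝ => max (-c) (min c t)) b, cfc_predicate _ _,
    norm_cfc_le hc.le fun t _ => ?_, fun y hy => hy.cfc_real _, ?_⟩
  · rw [Real.norm_eq_abs, abs_le]
    exact ⟨le_max_left _ _, max_le (by linarith) (min_le_left _ _)⟩
  · have e1 : b - cfc (fun t : ℝ => max (-c) (min c t)) b =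
        cfc (fun t : ℝ => t - max (-c) (min c t)) b := by
      rw [cfc_sub _ _ b, cfc_id' ℝ b]
    have e2 : IsSelfAdjoint (cfc (fun t : ℝ => t - max (-c) (min c t)) b) := cfc_predicate _ _
    rw [e1, e2.star_eq, (hs.pow _).star_eq, Complex.coe_smul, ← cfc_mul _ _ b,
      ← cfc_const_mul _ _ b, ← cfc_pow_id (R := ℝ) b (k + 1), ← cfc_mul _ _ b]
    refine cfc_mono fun t _ => ?_
    rw [← sq, ← sq, ← mul_pow, sq_le_sq, abs_mul, abs_pow, abs_pow, abs_of_pos hc, pow_succ]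
    rcases le_or_gt |t| c with h | h
    · rw [min_eq_right (abs_le.1 h).2, max_eq_right (abs_le.1 h).1, sub_self, abs_zero, mul_zero]
      positivity
    · refine mul_le_mul (pow_le_pow_left₀ hc.le h.le k) ?_ (abs_nonneg _) (by positivity)
      rcases le_total 0 t with h0 | h0
      · rw [abs_of_nonneg h0] at h ⊢
        rw [min_eq_left h.le, max_eq_right (by linarith), abs_of_nonneg (by linarith)]
        linarith
      · rw [abs_of_nonpos h0] at h ⊢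
        rw [min_eq_right (by linarith), max_eq_left (by linarith), abs_of_nonpos (by linarith)]
        linarith

/-- PROOF.  `b₁ = cfc (fun t => max (-c) (min c t)) b`; `(t - clamp t) ^ 2 ≤ t ^ (2 k) / c ^ (2 (k - 1))`. -/
theorem KN_le_pow (hK : 0 ≤ K) {b : H →L[ℂ] H} (hb : b ∈ S.M) (hs : IsSelfAdjoint b) {c : ℝ}
    (hc : 0 < c) {k : ℕ} (hk : 1 ≤ k) : S.KN K b ≤ c + K * ‖(b ^ k) S.Ω‖ / c ^ (k - 1) := by
  obtain ⟨k, rfl⟩ := Nat.exists_eq_add_of_le' hk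
  obtain ⟨b₁, h1, h2, h3, h4⟩ := KN_clamp hs hc k
  have h5 : b₁ ∈ S.M := mem_of_comm fun y hy => (h3 y (comm_of_mem hb hy)).eq.symm
  have h6 := S.ψ_mono h4
  rw [ψ_smul, Complex.re_ofReal_mul, ← norm_sq_eq_ψ, ← norm_sq_eq_ψ, ← mul_pow,
    sq_le_sq₀ (by positivity) (norm_nonneg _)] at h6
  refine (S.KN_le hK b h5 h1).trans (add_le_add h2 ?_)
  rw [Nat.add_sub_cancel, mul_div_assoc]
  refine mul_le_mul_of_nonneg_left ?_ hK
  rwa [le_div_iff₀ (by positivity), mul_comm]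

variable {C : Type} [Fintype C] [DecidableEq C] [Nonempty C]

theorem _root_.Crest.Agent.R109.Masa.Ta_congr (S : Masa X H) {f f' : X → C} {a : X → ℝ}
    (h : ∀ w, a w ≠ 0 → f w = f' w) (z : H →L[ℂ] H) : S.Ta f a z = S.Ta f' a z := by
  have e : ∀ c, (fun w => if f w = c then (a w : ℂ) else 0) =
      fun w => if f' w = c then (a w : ℂ) else 0 := fun c => funext fun w => by
    by_cases hw : a w = 0
    · simp [hw]
    · rw [h w hw]
  simp only [Masa.Ta, e]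

/-- PROOF.  With `p = pr U`, `p x p = 0`.  `Ta f a_t x = T⁰ + t T¹` where `a_t` has the value `t` on `U`, and
conjugation by `1 - 2 p` maps `T⁰ + 2 T¹` to `T⁰ - 2 T¹`; `KN_conj_le`, `KN_add_le`, `KN_smul`. -/
theorem KN_Ta_mono (hK : 0 ≤ K) {x : H →L[ℂ] H} (hx : x ∈ S.M) {P : Part X}
    (h0 : ∀ i, S.pr (P.f ⁻¹' {i}) * x * S.pr (P.f ⁻¹' {i}) = 0) (f : X → C) (a₀ a₁ a₂ : X → ℝ)
    (U : Set X) (hf : IsLocallyConstant f) (ha : IsLocallyConstant a₀) (hU : IsClopen U)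
    (hP : ∀ w ∈ U, ∀ w' ∈ U, P.f w = P.f w') (h1 : ∀ w ∈ U, a₀ w = 0 ∧ a₁ w = 1 ∧ a₂ w = 2)
    (h2 : ∀ w ∉ U, a₁ w = a₀ w ∧ a₂ w = a₀ w) :
    S.KN K (S.Ta f a₀ x) ≤ S.KN K (S.Ta f a₂ x) ∧
      2 * S.KN K (S.Ta f a₁ x) ≤ S.KN K (S.Ta f a₂ x) + S.KN K (S.Ta f a₀ x) := by
  have hu : ∀ c, Continuous fun w => if f w = c then (a₀ w : ℂ) else 0 := fun c =>
    ((hf.prodMk ha).comp fun p => if p.1 = c then (p.2 : ℂ) else 0).continuous
  have hq : ∀ c, Continuous (U.indicator fun w => if f w = c then (1 : ℂ) else 0) := fun c =>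
    hU.continuous_indicator (hf.comp fun p => if p = c then (1 : ℂ) else 0).continuous
  have hσ : Continuous fun w => (1 : ℂ) - 2 * U.indicator 1 w :=
    continuous_const.sub (continuous_const.mul (hU.continuous_indicator continuous_const))
  obtain ⟨u, hu'⟩ : ∃ u : C → C(X, ℂ), ∀ c w, u c w = if f w = c then (a₀ w : ℂ) else 0 :=
    ⟨fun c => ⟨_, hu c⟩, fun _ _ => rfl⟩
  obtain ⟨q, hq'⟩ : ∃ q : C → C(X, ℂ), ∀ c w,
      q c w = U.indicator (fun w => if f w = c then (1 : ℂ) else 0) w :=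
    ⟨fun c => ⟨_, hq c⟩, fun _ _ => rfl⟩
  obtain ⟨σ, hσ'⟩ : ∃ σ : C(X, ℂ), ∀ w, σ w = 1 - 2 * U.indicator 1 w := ⟨⟨_, hσ⟩, fun _ => rfl⟩
  have qxq : ∀ c, S.ι (q c) * x * S.ι (q c) = 0 := fun c => by
    rcases U.eq_empty_or_nonempty with h | ⟨w₀, hw₀⟩
    · have : q c = 0 := by ext w; simp [hq', h]
      rw [this, map_zero, mul_zero]
    · have e : S.pr (P.f ⁻¹' {P.f w₀}) * S.ι (q c) = S.ι (q c) := by
        rw [S.pr_mul_ι (P.clopen _), ← S.fn_coe]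
        congr 1
        funext w
        by_cases hw : w ∈ U
        · exact Set.indicator_of_mem (s := P.f ⁻¹' {P.f w₀}) (hP w hw w₀ hw₀) _
        · have : q c w = 0 := by rw [hq', Set.indicator_of_notMem hw]
          by_cases hw' : w ∈ P.f ⁻¹' {P.f w₀}
          · exact Set.indicator_of_mem hw' _
          · rw [Set.indicator_of_notMem hw', this]
      calc _ = S.ι (q c) * S.pr (P.f ⁻¹' {P.f w₀}) * x * (S.pr (P.f ⁻¹' {P.f w₀}) * S.ι (q c)) := by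
            rw [← S.pr_comm_ι, e]
        _ = S.ι (q c) * (S.pr (P.f ⁻¹' {P.f w₀}) * x * S.pr (P.f ⁻¹' {P.f w₀})) * S.ι (q c) := by
            simp only [mul_assoc]
        _ = 0 := by rw [h0, mul_zero, zero_mul]
  obtain ⟨T₀, hT₀⟩ : ∃ T₀, T₀ = ∑ c, S.ι (u c) * x * S.ι (u c) := ⟨_, rfl⟩
  obtain ⟨T₁, hT₁⟩ : ∃ T₁, T₁ = ∑ c, (S.ι (u c) * x * S.ι (q c) + S.ι (q c) * x * S.ι (u c)) :=
    ⟨_, rfl⟩
  have hTa : ∀ (a : X → ℝ) (t : ℝ), (∀ w ∈ U, a w = t) → (∀ w ∉ U, a w = a₀ w) →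
      S.Ta f a x = T₀ + (t : ℂ) • T₁ := fun a t e1 e2 => by
    have e : ∀ c, (S.fn fun w => if f w = c then (a w : ℂ) else 0) =
        S.ι (u c) + (t : ℂ) • S.ι (q c) := fun c => by
      rw [← map_smul, ← map_add, ← S.fn_coe]
      congr 1
      funext w
      by_cases hw : w ∈ U
      · by_cases hc : f w = c <;> simp [hu', hq', hw, hc, e1 w hw, (h1 w hw).1]
      · simp [hu', hq', hw, e2 w hw]
    rw [hT₀, hT₁, Masa.Ta, Finset.smul_sum, ← Finset.sum_add_distrib]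
    refine Finset.sum_congr rfl fun c _ => ?_
    simp only [e, add_mul, mul_add, smul_mul_assoc, mul_smul_comm, qxq, smul_zero, add_zero,
      smul_add]
    abel
  have e0 : S.Ta f a₀ x = T₀ := by
    rw [hTa a₀ 0 (fun w hw => (h1 w hw).1) fun _ _ => rfl]; simp
  have e1 : S.Ta f a₁ x = T₀ + T₁ := by
    rw [hTa a₁ 1 (fun w hw => (h1 w hw).2.1) fun w hw => (h2 w hw).1]; simp
  have e2 : S.Ta f a₂ x = T₀ + (2 : ℂ) • T₁ := by
    rw [hTa a₂ 2 (fun w hw => (h1 w hw).2.2) fun w hw => (h2 w hw).2]; simp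
  have hm : T₀ + (2 : ℂ) • T₁ ∈ S.M := by
    rw [hT₀, hT₁]
    exact add_mem (sum_mem fun c _ => mul_mem (mul_mem (S.mem _) hx) (S.mem _))
      (smul_mem_vn (sum_mem fun c _ => add_mem (mul_mem (mul_mem (S.mem _) hx) (S.mem _))
        (mul_mem (mul_mem (S.mem _) hx) (S.mem _))) _)
  have s0 : star σ = σ := by
    ext w
    by_cases hw : w ∈ U <;> simp [hσ', hw]
  have s1 : ∀ c, σ * u c = u c := fun c => by
    ext w
    by_cases hw : w ∈ U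
    · simp [hu', (h1 w hw).1]
    · simp [hσ', hw]
  have s2 : ∀ c, σ * q c = -q c := fun c => by
    ext w
    by_cases hw : w ∈ U
    · simp only [ContinuousMap.mul_apply, ContinuousMap.neg_apply, hσ', Set.indicator_of_mem hw,
        Pi.one_apply]
      ring
    · simp [hq', hw]
  have s3 : ‖σ‖ ≤ 1 := (ContinuousMap.norm_le _ zero_le_one).2 fun w => by
    by_cases hw : w ∈ U
    · rw [hσ', Set.indicator_of_mem hw, Pi.one_apply]; norm_num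
    · simp [hσ', hw]
  have s4 : ∀ F F' : C(X, ℂ), S.ι σ * (S.ι F * x * S.ι F') * S.ι σ =
      S.ι (σ * F) * x * S.ι (σ * F') := fun F F' => by
    rw [mul_comm σ F', map_mul, map_mul]; simp only [mul_assoc]
  have s5 : star (S.ι σ) * (T₀ + (2 : ℂ) • T₁) * S.ι σ = T₀ - (2 : ℂ) • T₁ := by
    rw [← map_star, s0, hT₀, hT₁, mul_add, add_mul, mul_smul_comm, smul_mul_assoc, sub_eq_add_neg,
      ← smul_neg, ← Finset.sum_neg_distrib]
    simp only [Finset.mul_sum, Finset.sum_mul, mul_add, add_mul, s4, s1, s2, map_neg, mul_neg,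
      neg_mul, neg_add]
  have k1 := S.KN_conj_le hK s3 hm
  have k2 := S.KN_add_le hK (T₀ + (2 : ℂ) • T₁) (T₀ - (2 : ℂ) • T₁)
  have k3 := S.KN_smul hK zero_le_two T₀
  have k4 := S.KN_add_le hK (T₀ + (2 : ℂ) • T₁) T₀
  have k5 := S.KN_smul hK zero_le_two (T₀ + T₁)
  rw [s5] at k1
  rw [show T₀ + (2 : ℂ) • T₁ + (T₀ - (2 : ℂ) • T₁) = ((2 : ℝ) : ℂ) • T₀ by
    rw [Complex.ofReal_ofNat]; module] at k2
  rw [show T₀ + (2 : ℂ) • T₁ + T₀ = ((2 : ℝ) : ℂ) • (T₀ + T₁) by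
    rw [Complex.ofReal_ofNat]; module] at k4
  rw [e0, e1, e2]
  constructor <;> linarith

private theorem le_of_sq_le_sq' {a b : ℝ} (hb : 0 ≤ b) (h : a ^ 2 ≤ b ^ 2) : a ≤ b :=
  (abs_le_of_sq_le_sq' h hb).2

/-- PROOF.  `Ta_const`, `pr_comp`, `KN_le_pow`, `rp` (blocks of the refinement are compressions of blocks of
`P`; empty atoms have `pr = 0`), and `𝔼 Z ≤ (𝔼 Z²) ^ (1/2)`. -/
theorem expect_KN_le (hK : 0 ≤ K) {x : H →L[ℂ] H} (hx : x ∈ S.M) (hs : IsSelfAdjoint x) {P : Part X}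
    {η : ℝ} (hη : 0 ≤ η) (h : ∀ i j, ‖S.pr (P.f ⁻¹' {i}) * x * S.pr (P.f ⁻¹' {j})‖ ≤ η) {c : ℝ}
    (hc : 0 < c) {k : ℕ} (hk : 1 ≤ k) (ι : Type) [Fintype ι] [DecidableEq ι] (P' : X → ι)
    (hP' : IsLocallyConstant P') (hPP : ∀ w w', P' w = P' w' → P.f w = P.f w') :
    𝔼 g : ι → C, S.KN K (S.Ta (fun w => g (P' w)) (fun _ => 2) x)
      ≤ c + K * (4 * (2 * ‖x‖ / √(Fintype.card C) + k * η)) ^ k / c ^ (k - 1) := by
  have hcl : ∀ i, IsClopen (P' ⁻¹' {i}) := fun i => hP'.isClopen_fiber i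
  have hsub : ∀ i, S.pr (P' ⁻¹' {i}) = 0 ∨
      ∃ j, S.pr (P.f ⁻¹' {j}) * S.pr (P' ⁻¹' {i}) = S.pr (P' ⁻¹' {i}) := fun i => by
    rcases (P' ⁻¹' {i}).eq_empty_or_nonempty with h | ⟨w₀, hw₀⟩
    · exact .inl (by rw [h, S.pr_empty])
    · exact .inr ⟨P.f w₀, S.pr_mul_of_subset (P.clopen _) (hcl i) fun w hw =>
        hPP w w₀ (Eq.trans hw (Eq.symm hw₀))⟩
  have hb : ∀ i j, ‖S.pr (P' ⁻¹' {i}) * x * S.pr (P' ⁻¹' {j})‖ ≤ η := fun i j => by
    rcases hsub i with hi | ⟨i', hi⟩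
    · simpa [hi] using hη
    rcases hsub j with hj | ⟨j', hj⟩
    · simpa [hj] using hη
    calc _ = ‖S.pr (P' ⁻¹' {i}) * (S.pr (P.f ⁻¹' {i'}) * x * S.pr (P.f ⁻¹' {j'})) *
          S.pr (P' ⁻¹' {j})‖ := by
          rw [← mul_assoc, ← mul_assoc, ← S.pr_comm, hi, 
            mul_assoc (S.pr (P' ⁻¹' {i}) * x) (S.pr (P.f ⁻¹' {j'})), hj]
      _ ≤ _ := norm_mul₃_le
      _ ≤ 1 * η * 1 := by
          gcongr
          exacts [(S.pr_proj (hcl i)).norm_le, h _ _, (S.pr_proj (hcl j)).norm_le]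
      _ = η := by ring
  have h1 := rp (C := C) (fun i => S.pr_proj (hcl i))
    (fun i j hij => (S.pr_fibre_mul hP' i j).trans (if_neg hij)) (S.sum_pr hP') x hη hb S.Ω hk
  simp only [← S.pr_comp hP'] at h1
  obtain ⟨B, hB⟩ : ∃ B, B = 2 * ‖x‖ / √(Fintype.card C) + k * η := ⟨_, rfl⟩
  have hB0 : 0 ≤ B := by rw [hB]; positivity
  rw [← hB] at h1 ⊢
  have h2 : 𝔼 g : ι → C, ‖(S.T (fun w => g (P' w)) x ^ k) S.Ω‖ ≤ B ^ k := by
    have h3 := Finset.expect_mul_sq_le_sq_mul_sq Finset.univ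
      (fun g : ι → C => ‖(S.T (fun w => g (P' w)) x ^ k) S.Ω‖) fun _ => 1
    simp only [mul_one, one_pow, Fintype.expect_const] at h3
    refine le_of_sq_le_sq' (by positivity) (h3.trans (h1.trans ?_))
    rw [← pow_mul, mul_comm k]
    exact mul_le_of_le_one_right (by positivity) (pow_le_one₀ (norm_nonneg _) S.norm_le)
  have h4 : ∀ g : ι → C, S.KN K (S.Ta (fun w => g (P' w)) (fun _ => 2) x) ≤
      c + K * 4 ^ k / c ^ (k - 1) * ‖(S.T (fun w => g (P' w)) x ^ k) S.Ω‖ := fun g => by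
    have hg : IsLocallyConstant fun w => g (P' w) := hP'.comp g
    have hs' : IsSelfAdjoint ((((2 : ℝ) : ℂ) ^ 2) • S.T (fun w => g (P' w)) x) := by
      rw [IsSelfAdjoint, star_smul, (S.T_sa hg hs).star_eq]
      simp
    rw [S.Ta_const hg]
    refine (S.KN_le_pow hK (smul_mem_vn (S.T_mem _ hx) _) hs' hc hk).trans (le_of_eq ?_)
    rw [smul_pow, smul_apply, norm_smul]
    simp only [norm_pow, Complex.norm_real, Real.norm_ofNat]
    norm_num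
    ring
  refine (Finset.expect_le_expect fun g _ => h4 g).trans ?_
  rw [Finset.expect_add_distrib, Fintype.expect_const, ← Finset.mul_expect, mul_pow]
  calc _ ≤ c + K * 4 ^ k / c ^ (k - 1) * B ^ k := by gcongr
    _ = _ := by ring

end NS

end Crest.Agent.R109
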