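import Crest.Agent.R109.FDefs
import Crest.Agent.R332.Klein

/-! Row 109: `Fb` as a difference of traces; monotonicity and the eigenvalue lower bound. -/

set_option autoImplicit false

namespace Crest.Agent.R109

open scoped BigOperators

variable {J : Type} [Fintype J] [DecidableEq J]

/-- The arrow matrix. -/
noncomputable def arrow (b μ : J → ℝ) : Matrix (Option J) (Option J) ℂ :=
  Matrix.of fun i j => match i, j with
    | none, none => 0
    | none, some j => (√(b j) : ℝ)
    | some i, none => (√(b i) : ℝ)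
    | some i, some j => if i = j then (μ i : ℝ) else 0

theorem arrow_herm (b μ : J → ℝ) : (arrow b μ).IsHermitian := by
  ext i j
  rcases i with _ | i <;> rcases j with _ | j <;> simp [arrow, Matrix.conjTranspose_apply]
  by_cases h : i = j
  · simp [h]
  · simp [h, Ne.symm h]

/-- The arrow matrix over `ℝ`. -/
private noncomputable def arrowR (b μ : J → ℝ) : Matrix (Option J) (Option J) ℝ :=
  Matrix.of fun i j => match i, j with
    | none, none => 0
    | none, some j => √(b j)
    | some i, none => √(b i)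
    | some i, some j => if i = j then μ i else 0

omit [Fintype J] in
private theorem arrow_eq (b μ : J → ℝ) : arrow b μ = (arrowR b μ).map Complex.ofRealHom := by
  ext i j
  rcases i with _ | i <;> rcases j with _ | j <;> simp [arrow, arrowR]
  split_ifs <;> simp

private theorem trace_arrow_pow (b μ : J → ℝ) (N : ℕ) :
    (Matrix.trace (arrow b μ ^ N)).re = Matrix.trace (arrowR b μ ^ N) := by
  rw [arrow_eq, ← RingHom.mapMatrix_apply, ← map_pow, RingHom.mapMatrix_apply]
  simp [Matrix.trace]

open PowerSeries in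
private theorem keyM_res_left {ι : Type} [Fintype ι] [DecidableEq ι] (A : Matrix ι ι ℝ) (i j : ι) :
    (mk fun k => (A ^ k) i j) =
      C ((1 : Matrix ι ι ℝ) i j) + X * ∑ l, C (A i l) * mk fun k => (A ^ k) l j := by
  ext n
  rcases n with _ | n
  · simp
  · simp [coeff_succ_X_mul, pow_succ', Matrix.mul_apply]

open PowerSeries in
private theorem keyM_res_right {ι : Type} [Fintype ι] [DecidableEq ι] (A : Matrix ι ι ℝ) (i j : ι) :
    (mk fun k => (A ^ k) i j) =
      C ((1 : Matrix ι ι ℝ) i j) + X * ∑ l, (mk fun k => (A ^ k) i l) * C (A l j) := by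
  ext n
  rcases n with _ | n
  · simp
  · simp [coeff_succ_X_mul, pow_succ, Matrix.mul_apply]

open PowerSeries in
private theorem keyM_geom (x : ℝ) : (mk fun n => x ^ n) * (1 - C x * X) = 1 := by
  have h : (mk fun n => x ^ n) = 1 + X * (C x * mk fun n => x ^ n) := by
    ext n
    rcases n with _ | n
    · simp
    · simp [coeff_succ_X_mul, pow_succ', coeff_one]
  linear_combination h

open PowerSeries in
private theorem Fb_eq_traceR {b : J → ℝ} (hb : ∀ j, 0 ≤ b j) (μ : J → ℝ) {N : ℕ} (hN : 1 ≤ N) :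
    Fb b μ N = Matrix.trace (arrowR b μ ^ N) - ∑ j, μ j ^ N := by
  obtain ⟨R, hR⟩ : ∃ R : Option J → Option J → ℝ⟦X⟧,
      R = fun i j => mk fun k => (arrowR b μ ^ k) i j := ⟨_, rfl⟩
  obtain ⟨g, hg⟩ : ∃ g : J → ℝ⟦X⟧, g = fun j => mk fun n => μ j ^ n := ⟨_, rfl⟩
  obtain ⟨c, hc⟩ : ∃ c : J → ℝ⟦X⟧, c = fun j => C √(b j) := ⟨_, rfl⟩
  have hcc : ∀ j, c j * c j = C (b j) := fun j => by
    rw [hc, ← map_mul, Real.mul_self_sqrt (hb j)]
  have hg1 : ∀ j, g j * (1 - C (μ j) * X) = 1 := fun j => by rw [hg]; exact keyM_geom _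
  have hL : ∀ i j, R i j = C ((1 : Matrix _ _ ℝ) i j) + X * ∑ l, C (arrowR b μ i l) * R l j :=
    fun i j => by rw [hR]; exact keyM_res_left _ i j
  have hR' : ∀ i j, R i j = C ((1 : Matrix _ _ ℝ) i j) + X * ∑ l, R i l * C (arrowR b μ l j) :=
    fun i j => by rw [hR]; exact keyM_res_right _ i j
  have a1 : ∀ j, R none (some j) = g j * X * c j * R none none := fun j => by
    have h := hR' none (some j)
    simp only [Fintype.sum_option, arrowR, Matrix.of_apply, apply_ite C, map_zero, mul_ite,
      mul_zero, Finset.sum_ite_eq', Finset.mem_univ, if_true, Matrix.one_apply, reduceCtorEq,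
      if_false] at h
    rw [hc]
    linear_combination g j * h - R none (some j) * hg1 j
  have a2 : R none none = 1 + X * ∑ j, R none (some j) * c j := by
    have h := hR' none none
    simpa only [Fintype.sum_option, arrowR, Matrix.of_apply, map_zero, mul_zero, zero_add,
      Matrix.one_apply_eq, map_one, hc] using h
  have a3 : ∀ j, R (some j) (some j) = g j + g j * X * c j * R none (some j) := fun j => by
    have h := hL (some j) (some j)
    simp only [Fintype.sum_option, arrowR, Matrix.of_apply, apply_ite C, map_zero, ite_mul,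
      zero_mul, Finset.sum_ite_eq, Finset.mem_univ, if_true, Matrix.one_apply_eq, map_one] at h
    rw [hc]
    linear_combination g j * h - R (some j) (some j) * hg1 j
  have hu : X * rs b μ = ∑ j, C (b j) * (X * X * g j) := by
    have : rs b μ = X * ∑ j, C (b j) * g j := by
      ext n
      rcases n with _ | n
      · simp [rs]
      · simp [rs, coeff_succ_X_mul, hg]
    rw [this, Finset.mul_sum, Finset.mul_sum]
    exact Finset.sum_congr rfl fun j _ => by ring
  have a4 : R none none * (1 - X * rs b μ) = 1 := by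
    have : X * ∑ j, R none (some j) * c j = R none none * (X * rs b μ) := by
      rw [hu, Finset.mul_sum, Finset.mul_sum]
      refine Finset.sum_congr rfl fun j _ => ?_
      rw [a1, ← hcc]; ring
    rw [this] at a2
    linear_combination a2
  have a5 : (1 - X * rs b μ)⁻¹ = R none none := by
    rw [PowerSeries.inv_eq_iff_mul_eq_one (by simp), a4]
  have a6 : ∀ j, d⁄dX ℝ (g j) = C (μ j) * g j * g j := fun j => by
    have h := congrArg (d⁄dX ℝ) (hg1 j)
    simp only [Derivation.leibniz, map_sub, Derivation.map_one_eq_zero, derivative_C,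
      derivative_X, smul_eq_mul, mul_one, mul_zero, add_zero, zero_sub] at h
    linear_combination g j * h - d⁄dX ℝ (g j) * hg1 j
  have a7 : X * d⁄dX ℝ (X * rs b μ) = X * rs b μ + ∑ j, C (b j) * (X * X * (g j * g j)) := by
    rw [hu, map_sum, Finset.mul_sum, ← Finset.sum_add_distrib]
    refine Finset.sum_congr rfl fun j _ => ?_
    simp only [Derivation.leibniz, derivative_C, derivative_X, smul_eq_mul, a6]
    linear_combination (-C (b j) * X * X * g j) * hg1 j
  have a8 : X * d⁄dX ℝ (X * rs b μ) * (1 - X * rs b μ)⁻¹ = ∑ i, R i i - ∑ j, g j - 1 := by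
    have : ∑ j, R (some j) (some j) =
        ∑ j, g j + (∑ j, C (b j) * (X * X * (g j * g j))) * R none none := by
      rw [Finset.sum_mul, ← Finset.sum_add_distrib]
      refine Finset.sum_congr rfl fun j _ => ?_
      rw [a3, a1, ← hcc]; ring
    rw [a5, a7, Fintype.sum_option, this]
    linear_combination -a4
  rw [Fb, Fs, a8, map_sub, map_sub, map_sum, map_sum, coeff_one, if_neg (by omega), sub_zero]
  simp [hR, hg, Matrix.trace]

/-- PROOF.  With `u = X * rs b μ`, `r = (1 - u)⁻¹`: `(M ^ k) none none = r_k`,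
`(M ^ k) none j = √b_j ∑_{i + l + 1 = k} r_i μ_j ^ l`,
`(M ^ k) i j = δ μ ^ k + √b_i √b_j ∑_{a + l + c + 2 = k} μ_i ^ a r_l μ_j ^ c` (induction on `k`, or
invert `1 - X M` over power series), and `tr M ^ N - ∑ μ ^ N = r_N + ∑ (n - 1) u_n r_{N-n}`. -/
theorem Fb_eq_trace {b : J → ℝ} (hb : ∀ j, 0 ≤ b j) (μ : J → ℝ) {N : ℕ} (hN : 1 ≤ N) :
    Fb b μ N = (Matrix.trace (arrow b μ ^ N)).re - ∑ j, μ j ^ N := by
  rw [trace_arrow_pow, Fb_eq_traceR hb μ hN]

private theorem keyM_tangent {N : ℕ} (hE : Even N) (x y : ℝ) :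
    y ^ N + N * y ^ (N - 1) * (x - y) ≤ x ^ N := by
  have hc : ConvexOn ℝ Set.univ fun t : ℝ => t ^ N := hE.convexOn_pow
  rcases lt_trichotomy x y with h | h | h
  · have h1 := hc.slope_le_of_hasDerivAt (Set.mem_univ x) (Set.mem_univ y) h (hasDerivAt_pow N y)
    rw [slope_def_field, div_le_iff₀ (sub_pos.2 h)] at h1
    linarith
  · simp [h]
  · have h1 := hc.le_slope_of_hasDerivAt (Set.mem_univ y) (Set.mem_univ x) h (hasDerivAt_pow N y)
    rw [slope_def_field, le_div_iff₀ (sub_pos.2 h)] at h1
    linarith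

private theorem keyM_cfc_pow {ι : Type} [Fintype ι] [DecidableEq ι] {A : Matrix ι ι ℂ}
    (hA : A.IsHermitian) (n : ℕ) : cfc (fun t : ℝ => t ^ n) A = A ^ n := by
  induction n with
  | zero => simpa using R332.cfc_one'' hA
  | succ n ih => simp only [pow_succ]; rw [← R332.cfc_mul_self hA, ih]

/-- Dropping atoms.  PROOF.  `R332.klein` with `f = t ^ N`, `g = N t ^ (N-1)`, `c = 0`,
`B = arrow b' μ`; `tr (B ^ (N-1) (A - B)) = 0` since `B` commutes with the sign matrix `σ` (`-1` at the
dropped atoms) and `σ (A - B) σ = -(A - B)`. -/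
theorem Fb_drop {b : J → ℝ} (hb : ∀ j, 0 ≤ b j) (μ : J → ℝ) {N : ℕ} (hN : 1 ≤ N) (hE : Even N)
    (p : J → Prop) [DecidablePred p] : Fb (fun j => if p j then b j else 0) μ N ≤ Fb b μ N := by
  have hb' : ∀ j, 0 ≤ (if p j then b j else 0) := fun j => by split_ifs; exacts [hb j, le_rfl]
  rw [Fb_eq_trace hb' μ hN, Fb_eq_trace hb μ hN]
  have hA := arrow_herm b μ
  have hB := arrow_herm (fun j => if p j then b j else 0) μ
  have h := R332.klein hA hB (fun t => t ^ N) (fun t => N * t ^ (N - 1)) 0 fun i j => by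
    simpa using keyM_tangent hE _ _
  rw [R332.cfc_const_mul' hB, keyM_cfc_pow hA, keyM_cfc_pow hB, keyM_cfc_pow hB, Matrix.smul_mul,
    R332.rt_smul] at h
  obtain ⟨σ, hσ⟩ : ∃ σ : Matrix (Option J) (Option J) ℂ,
      σ = Matrix.diagonal fun i => i.elim 1 fun j => if p j then 1 else -1 := ⟨_, rfl⟩
  have s1 : σ * σ = 1 := by
    rw [hσ, Matrix.diagonal_mul_diagonal, ← Matrix.diagonal_one]
    congr 1
    funext i
    rcases i with _ | i
    · simp
    · by_cases hi : p i <;> simp [hi]
  have s2 : Commute σ (arrow (fun j => if p j then b j else 0) μ) := by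
    rw [hσ]
    ext i j
    rw [Matrix.diagonal_mul, Matrix.mul_diagonal]
    rcases i with _ | i <;> rcases j with _ | j
    · simp [arrow]
    · by_cases hj : p j <;> simp [arrow, hj]
    · by_cases hi : p i <;> simp [arrow, hi]
    · by_cases hij : i = j
      · subst hij; simp [arrow, mul_comm]
      · simp [arrow, hij]
  have s3 : σ * (arrow b μ - arrow (fun j => if p j then b j else 0) μ) =
      -((arrow b μ - arrow (fun j => if p j then b j else 0) μ) * σ) := by
    rw [hσ]
    ext i j
    rw [Matrix.neg_apply, Matrix.diagonal_mul, Matrix.mul_diagonal]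
    rcases i with _ | i <;> rcases j with _ | j
    · simp [arrow]
    · by_cases hj : p j <;> simp [arrow, hj]
    · by_cases hi : p i <;> simp [arrow, hi]
    · simp [arrow]
  generalize arrow b μ = A at *
  generalize arrow (fun j => if p j then b j else 0) μ = B at *
  have s4 : R332.rt (B ^ (N - 1) * (A - B)) = -R332.rt (B ^ (N - 1) * (A - B)) := by
    calc _ = R332.rt (B ^ (N - 1) * (A - B) * σ * σ) := by rw [mul_assoc _ σ σ, s1, mul_one]
      _ = R332.rt (σ * (B ^ (N - 1) * (A - B) * σ)) := R332.rt_mul_comm _ _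
      _ = R332.rt (B ^ (N - 1) * (σ * (A - B)) * σ) := by
          rw [← mul_assoc, ← mul_assoc, (s2.pow_right _).eq, mul_assoc _ σ]
      _ = _ := by
          rw [s3, mul_neg, neg_mul, R332.rt_neg, mul_assoc, mul_assoc, s1, mul_one]
  have s5 : R332.rt (B ^ (N - 1) * (A - B)) = 0 := by linarith
  rw [s5] at h
  simp only [R332.rt] at h
  linarith

/-- Counting dominance gives the inequality of power sums (Hall's theorem gives an injection `φ` on
`{k | 0 < y k}` with `y k ≤ x (φ k)`). -/
theorem sum_pow_le_of_card {ι κ : Type*} [Fintype ι] [Fintype κ] (x : ι → ℝ) (y : κ → ℝ)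
    (hy : ∀ k, 0 ≤ y k)
    (h : ∀ t, 0 < t → (Finset.univ.filter fun k => t ≤ y k).card
      ≤ (Finset.univ.filter fun i => t ≤ x i).card) {N : ℕ} (hN : 1 ≤ N) (hE : Even N) :
    ∑ k, y k ^ N ≤ ∑ i, x i ^ N := by
  classical
  obtain ⟨f, hf, hft⟩ := (Finset.all_card_le_biUnion_card_iff_exists_injective
    (fun k : {k // 0 < y k} => Finset.univ.filter fun i => y k ≤ x i)).1 fun s => by
      rcases s.eq_empty_or_nonempty with rfl | hs
      · simp
      obtain ⟨k₀, hk₀, hmin⟩ := s.exists_min_image (fun k => y k) hs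
      calc s.card = (s.map (Function.Embedding.subtype _)).card := (Finset.card_map _).symm
        _ ≤ (Finset.univ.filter fun k => y k₀ ≤ y k).card := Finset.card_le_card fun k hk => by
            obtain ⟨k', hk', rfl⟩ := Finset.mem_map.1 hk
            exact Finset.mem_filter.2 ⟨Finset.mem_univ _, hmin k' hk'⟩
        _ ≤ _ := h _ k₀.2
        _ ≤ _ := Finset.card_le_card (Finset.subset_biUnion_of_mem
            (fun k : {k // 0 < y k} => Finset.univ.filter fun i => y k ≤ x i) hk₀)
  calc ∑ k, y k ^ N = ∑ k ∈ Finset.univ.filter fun k => 0 < y k, y k ^ N := by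
        refine (Finset.sum_filter_of_ne fun k _ hk => lt_of_le_of_ne (hy k) fun h0 => hk ?_).symm
        rw [← h0, zero_pow (by omega)]
    _ = ∑ k : {k // 0 < y k}, y k ^ N := Finset.sum_subtype _ (by simp) _
    _ ≤ ∑ k : {k // 0 < y k}, x (f k) ^ N := Finset.sum_le_sum fun k _ =>
        pow_le_pow_left₀ (hy k) (Finset.mem_filter.1 (hft k)).2 N
    _ = ∑ i ∈ Finset.univ.image f, x i ^ N :=
        (Finset.sum_image (f := fun i => x i ^ N) fun _ _ _ _ h => hf h).symm
    _ ≤ _ := Finset.sum_le_sum_of_subset_of_nonneg (Finset.subset_univ _)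
        fun i _ _ => hE.pow_nonneg _

open Matrix in
private theorem keyM_spec {ι : Type} [Fintype ι] [DecidableEq ι] {A : Matrix ι ι ℝ}
    (hA : A.IsHermitian) : ∃ (U : Matrix ι ι ℝ) (l : ι → ℝ), Uᵀ * U = 1 ∧ U * Uᵀ = 1 ∧
      A = U * diagonal l * Uᵀ := by
  refine ⟨hA.eigenvectorUnitary, hA.eigenvalues, ?_, ?_, ?_⟩
  · simpa [star_eq_conjTranspose] using Unitary.coe_star_mul_self hA.eigenvectorUnitary
  · simpa [star_eq_conjTranspose] using Unitary.coe_mul_star_self hA.eigenvectorUnitary
  · conv_lhs => rw [hA.spectral_theorem, Unitary.conjStarAlgAut_apply]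
    simp [star_eq_conjTranspose]

open Matrix in
private theorem keyM_trace_pow {ι : Type} [Fintype ι] [DecidableEq ι] {U : Matrix ι ι ℝ}
    {l : ι → ℝ} (h1 : Uᵀ * U = 1) (h2 : U * Uᵀ = 1) (N : ℕ) :
    trace ((U * diagonal l * Uᵀ) ^ N) = ∑ i, l i ^ N := by
  have h : (U * diagonal l * Uᵀ) ^ N = U * diagonal l ^ N * Uᵀ := by
    induction N with
    | zero => simp [h2]
    | succ n ih =>
      rw [pow_succ, ih, pow_succ]
      calc _ = U * diagonal l ^ n * (Uᵀ * U) * diagonal l * Uᵀ := by simp only [Matrix.mul_assoc]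
        _ = _ := by rw [h1]; simp only [Matrix.mul_one, Matrix.mul_assoc]
  rw [h, trace_mul_cycle, h1, Matrix.one_mul, diagonal_pow, trace_diagonal]
  rfl

open Matrix in
private theorem keyM_card_le {ι κ : Type} [Fintype ι] [DecidableEq ι] [Fintype κ]
    {U : Matrix ι ι ℝ} {l : ι → ℝ} (h2 : U * Uᵀ = 1) (t : ℝ) (V : (κ → ℝ) →ₗ[ℝ] (ι → ℝ))
    (hV : ∀ c, V c = 0 → c = 0)
    (h : ∀ c, t * (V c ⬝ᵥ V c) ≤ V c ⬝ᵥ (U * diagonal l * Uᵀ) *ᵥ V c) :
    Fintype.card κ ≤ (Finset.univ.filter fun i => t ≤ l i).card := by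
  by_contra hlt
  let F : (κ → ℝ) →ₗ[ℝ] ({i // t ≤ l i} → ℝ) :=
    (LinearMap.funLeft ℝ ℝ Subtype.val).comp ((Matrix.mulVecLin Uᵀ).comp V)
  have hF : LinearMap.ker F ≠ ⊥ := F.ker_ne_bot_of_finrank_lt (by
    rw [Module.finrank_fintype_fun_eq_card, Module.finrank_fintype_fun_eq_card,
      Fintype.card_subtype]
    exact not_le.1 hlt)
  obtain ⟨c, hc, hc0⟩ := Submodule.exists_mem_ne_zero_of_ne_bot hF
  have hw : ∀ i, t ≤ l i → (Uᵀ *ᵥ V c) i = 0 := fun i hi => congrFun hc ⟨i, hi⟩
  have hv : U *ᵥ (Uᵀ *ᵥ V c) = V c := by rw [mulVec_mulVec, h2, one_mulVec]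
  have e1 : V c ⬝ᵥ V c = ∑ i, (Uᵀ *ᵥ V c) i ^ 2 := by
    conv_lhs => rw [← hv]; enter [1]; rw [hv]
    rw [dotProduct_mulVec, ← mulVec_transpose]
    simp only [dotProduct, sq]
  have e2 : V c ⬝ᵥ (U * diagonal l * Uᵀ) *ᵥ V c = ∑ i, l i * (Uᵀ *ᵥ V c) i ^ 2 := by
    rw [← mulVec_mulVec, ← mulVec_mulVec, dotProduct_mulVec, ← mulVec_transpose]
    simp only [dotProduct, mulVec_diagonal]
    exact Finset.sum_congr rfl fun i _ => by ring
  have h3 := h c
  rw [e1, e2, Finset.mul_sum] at h3
  have hne : ∃ i, (Uᵀ *ᵥ V c) i ≠ 0 := by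
    by_contra hz
    push Not at hz
    refine hc0 (hV c ?_)
    rw [← hv, (funext hz : Uᵀ *ᵥ V c = 0), mulVec_zero]
  obtain ⟨i₀, hi₀⟩ := hne
  refine absurd h3 (not_le.2 (Finset.sum_lt_sum (fun i _ => ?_) ⟨i₀, Finset.mem_univ _, ?_⟩))
  · by_cases hi : t ≤ l i
    · simp [hw i hi]
    · exact mul_le_mul_of_nonneg_right (not_le.1 hi).le (sq_nonneg _)
  · exact mul_lt_mul_of_pos_right (not_le.1 fun hi => hi₀ (hw i₀ hi)) (by positivity)

private theorem arrowR_form (b μ : J → ℝ) (v : Option J → ℝ) :
    v ⬝ᵥ (arrowR b μ).mulVec v =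
      2 * v none * ∑ j, √(b j) * v (some j) + ∑ j, μ j * v (some j) ^ 2 := by
  simp only [dotProduct, Matrix.mulVec, Fintype.sum_option, arrowR, Matrix.of_apply, zero_mul,
    zero_add, ite_mul, Finset.sum_ite_eq, Finset.mem_univ, if_true]
  rw [Finset.mul_sum, Finset.mul_sum, ← Finset.sum_add_distrib, ← Finset.sum_add_distrib]
  exact Finset.sum_congr rfl fun j _ => by ring

/-- PROOF.  Dimension count: a subspace `W` on which the form of `M` is `≥ t ‖v‖²` meets the span of
the eigenvectors with eigenvalue `< t` trivially.  `W = span {e_j : t ≤ μ j}` and the test vector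
`(1, √b_j / (t₀ - μ j))` (Rayleigh quotient `≥ t₀`) show that the eigenvalues dominate the family
`μ` with a largest entry replaced by `t₀`.  (If `J` is empty the hypothesis `hG` fails.) -/
theorem Fb_ge {b μ : J → ℝ} (hb : ∀ j, 0 ≤ b j) {m t₀ : ℝ} (hμ : ∀ j, 0 ≤ μ j ∧ μ j ≤ m)
    (hm : 0 ≤ m) (ht : m < t₀) (hG : t₀ ≤ ∑ j, b j / (t₀ - μ j)) {N : ℕ} (hN : 1 ≤ N)
    (hE : Even N) : t₀ ^ N - m ^ N ≤ Fb b μ N := by
  classical
  have hA : (arrowR b μ).IsHermitian := by
    ext i j
    rcases i with _ | i <;> rcases j with _ | j <;> simp [arrowR, Matrix.conjTranspose_apply]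
    by_cases h : i = j
    · simp [h]
    · simp [h, Ne.symm h]
  obtain ⟨U, l, h1, h2, hU⟩ := keyM_spec hA
  rw [Fb_eq_traceR hb μ hN, hU, keyM_trace_pow h1 h2]
  have hne : (Finset.univ : Finset J).Nonempty := by
    by_contra h0
    rw [Finset.not_nonempty_iff_eq_empty.1 h0, Finset.sum_empty] at hG
    linarith
  obtain ⟨j₀, -, hj₀⟩ := Finset.univ.exists_max_image μ hne
  have hpos : ∀ j, 0 < t₀ - μ j := fun j => by linarith [(hμ j).2]
  have key := sum_pow_le_of_card l (Function.update μ j₀ t₀) (fun j => by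
    by_cases hj : j = j₀
    · subst hj; simp; linarith
    · simp [hj, (hμ j).1]) (fun t _ => by
    rcases le_or_gt t (μ j₀) with hle | hlt
    · have e : (Finset.univ.filter fun k => t ≤ Function.update μ j₀ t₀ k).card =
          Fintype.card {j // t ≤ μ j} := by
        rw [Fintype.card_subtype]
        congr 1
        refine Finset.filter_congr fun j _ => ?_
        by_cases hj : j = j₀
        · subst hj
          simp only [Function.update_self, hle, iff_true]
          linarith [hpos j]
        · simp [hj]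
      rw [e]
      refine keyM_card_le h2 t (LinearMap.pi fun i : Option J => i.elim 0 fun j =>
        if h : t ≤ μ j then LinearMap.proj ⟨j, h⟩ else 0) (fun c hc => ?_) fun c => ?_
      · funext j
        simpa [j.2] using congrFun hc (some j)
      · rw [← hU, arrowR_form]
        simp only [dotProduct, Fintype.sum_option, LinearMap.pi_apply, Option.elim_none,
          Option.elim_some, LinearMap.zero_apply, mul_zero, zero_mul, zero_add]
        rw [Finset.mul_sum]
        refine Finset.sum_le_sum fun j _ => ?_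
        by_cases hj : t ≤ μ j
        · rw [← sq]
          exact mul_le_mul_of_nonneg_right hj (sq_nonneg _)
        · simp [hj]
    · rcases le_or_gt t t₀ with hle | hlt'
      · have e : (Finset.univ.filter fun k => t ≤ Function.update μ j₀ t₀ k).card ≤
            Fintype.card Unit := by
          rw [Fintype.card_unit, ← Finset.card_singleton j₀]
          refine Finset.card_le_card fun j hj => ?_
          by_contra hj'
          rw [Finset.mem_filter, Function.update_of_ne (by simpa using hj')] at hj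
          linarith [hj.2, hj₀ j (Finset.mem_univ j)]
        refine e.trans (keyM_card_le h2 t (LinearMap.pi fun i : Option J =>
          (i.elim 1 fun j => √(b j) / (t₀ - μ j)) • LinearMap.proj ()) (fun c hc => ?_) fun c => ?_)
        · funext j
          simpa using congrFun hc none
        · rw [← hU, arrowR_form]
          simp only [dotProduct, Fintype.sum_option, LinearMap.pi_apply, Option.elim_none,
            Option.elim_some, LinearMap.smul_apply, LinearMap.proj_apply, smul_eq_mul, one_mul]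
          have hq : 0 ≤ c () * c () +
              ∑ j, √(b j) / (t₀ - μ j) * c () * (√(b j) / (t₀ - μ j) * c ()) :=
            add_nonneg (mul_self_nonneg _) (Finset.sum_nonneg fun j _ => mul_self_nonneg _)
          refine (mul_le_mul_of_nonneg_right hle hq).trans ?_
          have e1 : ∑ j, √(b j) * (√(b j) / (t₀ - μ j) * c ()) =
              c () * ∑ j, b j / (t₀ - μ j) := by
            rw [Finset.mul_sum]
            refine Finset.sum_congr rfl fun j _ => ?_
            rw [← mul_assoc, ← mul_div_assoc, Real.mul_self_sqrt (hb j), mul_comm]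
          have e2 : t₀ * ∑ j, √(b j) / (t₀ - μ j) * c () * (√(b j) / (t₀ - μ j) * c ()) =
              ∑ j, μ j * (√(b j) / (t₀ - μ j) * c ()) ^ 2 + c () ^ 2 * ∑ j, b j / (t₀ - μ j) := by
            rw [Finset.mul_sum, Finset.mul_sum, ← Finset.sum_add_distrib]
            refine Finset.sum_congr rfl fun j _ => ?_
            have := (hpos j).ne'
            rw [← sq, mul_pow, div_pow, Real.sq_sqrt (hb j)]
            field_simp
            ring
          rw [mul_add, e1, e2]
          nlinarith [mul_le_mul_of_nonneg_left hG (sq_nonneg (c ()))]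
      · have e : (Finset.univ.filter fun k => t ≤ Function.update μ j₀ t₀ k) = ∅ := by
          refine Finset.filter_eq_empty_iff.2 fun j _ => ?_
          by_cases hj : j = j₀
          · subst hj; simpa using hlt'
          · rw [Function.update_of_ne hj]
            linarith [hj₀ j (Finset.mem_univ j)]
        simp [e]) hN hE
  have e3 : ∑ k, Function.update μ j₀ t₀ k ^ N = t₀ ^ N + (∑ j, μ j ^ N - μ j₀ ^ N) := by
    rw [← Finset.add_sum_erase _ _ (Finset.mem_univ j₀),
      ← Finset.add_sum_erase _ (fun j => μ j ^ N) (Finset.mem_univ j₀), Function.update_self,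
      add_sub_cancel_left]
    congr 1
    exact Finset.sum_congr rfl fun j hj => by
      rw [Function.update_of_ne (Finset.ne_of_mem_erase hj)]
  have e4 : μ j₀ ^ N ≤ m ^ N := pow_le_pow_left₀ (hμ j₀).1 (hμ j₀).2 N
  linarith

end Crest.Agent.R109
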