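import Crest.Agent.R109.EN
import Crest.Agent.R109.GLoc

/-! Row 109: the kernel of an operator of finite propagation and its moments. -/

set_option autoImplicit false
set_option linter.unusedSectionVars false

namespace Crest.Agent.R109

open Crest.Agent.R124 Filter Topology Function
open scoped BigOperators ComplexConjugate InnerProductSpace ComplexOrder Pointwise

variable {X : Type*} [TopologicalSpace X] [CompactSpace X] [T2Space X] [TotallyDisconnectedSpace X]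
  {H : Type*} [NormedAddCommGroup H] [InnerProductSpace ℂ H] [CompleteSpace H]

namespace NS

variable {S : NS X H} [DecidableEq S.Γ] {G : Gd X S.Γ} {Γ₀ : Finset S.Γ}

/-- The kernel. -/
noncomputable def ker (S : NS X H) (y : H →L[ℂ] H) (γ γ' : S.Γ) (w : X) : ℂ :=
  S.cE (star (S.op γ) * y * S.op γ') w

theorem IsGd.ι_mul_op (hG : S.IsGd G) (γ : S.Γ) (F : C(X, ℂ)) :
    S.ι F * S.op γ = S.op γ * S.fn fun w => F (G.act γ w) := by
  rw [← hG.act, ← mul_assoc, ← mul_assoc, op_mul_star, one_mul]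

/-- `EE_conj`. -/
theorem IsGd.cE_conj (hG : S.IsGd G) (γ : S.Γ) {z : H →L[ℂ] H} (hz : z ∈ S.M) (w : X) :
    S.cE (star (S.op γ) * z * S.op γ) w = S.cE z (G.act γ w) := by
  have e1 := S.EE_conj (op_mem γ⁻¹) (star_op_mul _) (op_mul_star _) (op_nrm _).left
    (op_nrm _).right hz
  rw [op_inv, star_star, ← S.ι_cE hz, hG.act,
    ← S.ι_cE (mul_mem (mul_mem (star_mem (op_mem γ)) hz) (op_mem γ))] at e1
  rw [S.inj e1]
  exact cfn_apply (F := fun w => S.cE z (G.act γ w)) ((map_continuous _).comp (G.act_cont γ)) w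

/-- `cE (t h) 1_U = cE (t * EE h) = cE t * cE h` with `U` from `exists_EE_op`; `w ∈ U`. -/
theorem IsGd.cE_mul_op (hG : S.IsGd G) {t : H →L[ℂ] H} (ht : t ∈ S.M) {h : S.Γ} {w : X}
    (hw : G.c h w ≠ 0) : S.cE (t * S.op h) w = S.cE t w * G.c h w := by
  rw [hG.c] at hw ⊢
  obtain ⟨k, h1, -, -, -, h5⟩ := ngrp_ind h
  have e1 : t * S.op h * S.ι k = t * S.ι (S.cE (S.op h)) := by
    rw [S.ι_cE (op_mem h), h1, mul_assoc]
  have e2 := congrArg S.cE e1
  rw [S.cE_mul_ι _ (mul_mem ht (op_mem _)), S.cE_mul_ι _ ht] at e2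
  simpa only [ContinuousMap.mul_apply, h5 w hw, mul_one] using congrArg (fun F : C(X, ℂ) => F w) e2

private theorem mu_mem {y : H →L[ℂ] H} (hy : y ∈ S.M) (γ γ' : S.Γ) :
    star (S.op γ) * y * S.op γ' ∈ S.M :=
  mul_mem (mul_mem (star_mem (op_mem γ)) hy) (op_mem γ')

private theorem mu_zero : S.cE 0 = 0 := by simpa using S.cE_ι 0

private theorem mu_add {y y' : H →L[ℂ] H} (hy : y ∈ S.M) (hy' : y' ∈ S.M) (γ γ' : S.Γ) (w : X) :
    S.ker (y + y') γ γ' w = S.ker y γ γ' w + S.ker y' γ γ' w := by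
  rw [ker, mul_add, add_mul, S.cE_add (mu_mem hy γ γ') (mu_mem hy' γ γ')]
  rfl

private theorem mu_conj (hG : S.IsGd G) {y : H →L[ℂ] H} (hy : y ∈ S.M) (F F' : C(X, ℂ))
    (γ γ' : S.Γ) (w : X) :
    S.ker (S.ι F * y * S.ι F') γ γ' w = F (G.act γ w) * S.ker y γ γ' w * F' (G.act γ' w) := by
  have e : star (S.op γ) * S.ι F = (S.fn fun w => F (G.act γ w)) * star (S.op γ) := by
    rw [← hG.act, mul_assoc, op_mul_star, mul_one]
  have e' : star (S.op γ) * (S.ι F * y * S.ι F') * S.op γ' = (S.fn fun w => F (G.act γ w)) *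
      (star (S.op γ) * y * S.op γ') * S.fn fun w => F' (G.act γ' w) := by
    rw [← mul_assoc, ← mul_assoc, e, mul_assoc _ (S.ι F'), hG.ι_mul_op]
    simp only [mul_assoc]
  rw [ker, e', Masa.fn, Masa.fn, S.cE_mul_ι _ (mul_mem (S.mem _) (mu_mem hy γ γ')),
    S.cE_ι_mul _ (mu_mem hy γ γ'), ContinuousMap.mul_apply, ContinuousMap.mul_apply,
    cfn_apply (F := fun w => F (G.act γ w)) ((map_continuous F).comp (G.act_cont γ)),
    cfn_apply (F := fun w => F' (G.act γ' w)) ((map_continuous F').comp (G.act_cont γ'))]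
  rfl

private theorem mu_one (hG : S.IsGd G) {w : X} {s : Finset S.Γ} (hs : G.Free w s) (i j : s) :
    S.cE (star (S.op i) * S.op j) w = if i = j then 1 else 0 := by
  split_ifs with h
  · rw [h, star_op_mul, S.cE_one, ContinuousMap.one_apply]
  · by_contra h'
    exact h (Subtype.ext (hs i i.2 j j.2 (by rwa [Gd.E, hG.c])))

private theorem mu_form (w : X) (s : Finset S.Γ) (ξ : s → ℂ) {y : H →L[ℂ] H} (hy : y ∈ S.M)
    (h : 0 ≤ y) : 0 ≤ ∑ i : s, ∑ j : s, conj (ξ i) * S.ker y i j w * ξ j := by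
  have hm : ∀ i j : s, (conj (ξ i) * ξ j) • (star (S.op i) * y * S.op j) ∈ S.M := fun i j =>
    smul_mem_vn (mu_mem hy _ _) _
  have e : star (∑ j : s, ξ j • S.op j) * y * ∑ j : s, ξ j • S.op j =
      ∑ i : s, ∑ j : s, (conj (ξ i) * ξ j) • (star (S.op i) * y * S.op j) := by
    simp only [star_sum, star_smul, Finset.sum_mul, Finset.mul_sum, smul_mul_assoc, mul_smul_comm,
      Finset.smul_sum, smul_smul, Complex.star_def]
    rw [Finset.sum_comm]
    simp only [mul_comm]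
  have h1 := S.cE_nonneg (e ▸ sum_mem fun i _ => sum_mem fun j _ => hm i j)
    (star_left_conjugate_nonneg h _) w
  rw [e, S.cE_sum _ fun i _ => sum_mem fun j _ => hm i j, ContinuousMap.sum_apply] at h1
  refine h1.trans_eq (Finset.sum_congr rfl fun i _ => ?_)
  rw [S.cE_sum _ fun j _ => hm i j, ContinuousMap.sum_apply]
  refine Finset.sum_congr rfl fun j _ => ?_
  rw [S.cE_smul _ (mu_mem hy _ _), ContinuousMap.smul_apply, smul_eq_mul, mul_right_comm]
  rfl

/-- PROOF of `ctr`: with `z = ∑ ξ j • op j` the form is `cE (z* y z) w`, `-z* z ≤ z* y z ≤ z* z`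
(`cE_nonneg`) and `cE (z* z) w = ∑ |ξ j|²` as `s` is free. -/
theorem IsGd.ker (hG : S.IsGd G) {y : H →L[ℂ] H} (hy : S.FP Γ₀ y) (hs : IsSelfAdjoint y)
    (hn : ‖y‖ ≤ 1) (h0 : S.cE y = 0) : G.Ker Γ₀ (S.ker y) := by
  have hm := hy.mem
  refine ⟨fun γ γ' => map_continuous _, fun γ γ' w => ?_, fun γ γ' g w => ?_,
    fun γ γ' h w hw => ?_, fun γ w => ?_, fun γ γ' w => ?_, fun w s hs' ξ => ?_⟩
  · have := S.cE_star (mu_mem hm γ γ')
    rw [star_mul, star_mul, star_star, hs.star_eq, ← mul_assoc] at this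
    rw [NS.ker, this]
    rfl
  · rw [NS.ker, NS.ker, ← hG.cE_conj g (mu_mem hm γ γ'), op_mul, op_mul, star_mul]
    simp only [mul_assoc]
  · rw [NS.ker, NS.ker, ← hG.cE_mul_op (mu_mem hm γ γ') hw, op_mul]
    simp only [mul_assoc]
  · rw [NS.ker, hG.cE_conj γ hm, h0, ContinuousMap.zero_apply]
  · contrapose!
    intro h
    refine (en_ind hy (p := fun y => y ∈ S.M ∧ S.ker y γ γ' w = 0)
      ⟨zero_mem _, by simp [NS.ker, mu_zero]⟩
      (fun a b ha hb => ⟨add_mem ha.1 hb.1, by rw [mu_add ha.1 hb.1, ha.2, hb.2, add_zero]⟩)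
      fun g hg F => ⟨mul_mem (op_mem g) (S.mem F), ?_⟩).2
    have h1 := mu_conj hG (op_mem g) 1 F γ γ' w
    have h2 := h g hg
    rw [Gd.E, not_not, hG.c, op_mul, op_mul, op_inv, ← mul_assoc] at h2
    rw [map_one, one_mul] at h1
    rw [h1, NS.ker, h2, mul_zero, zero_mul]
  · have e : ∀ c : ℂ, ∑ i : s, ∑ j : s, conj (ξ i) * S.ker (1 + c • y) i j w * ξ j =
        (∑ i, ‖ξ i‖ ^ 2 : ℝ) + c * ∑ i : s, ∑ j : s, conj (ξ i) * S.ker y i j w * ξ j := fun c => by
      have e1 : ∀ i j : s, S.ker (1 + c • y) i j w = (if i = j then 1 else 0) + c * S.ker y i j w :=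
        fun i j => by
          rw [mu_add (one_mem _) (smul_mem_vn hm c), NS.ker, mul_one, mu_one hG hs', NS.ker,
            mul_smul_comm, smul_mul_assoc, S.cE_smul _ (mu_mem hm _ _)]
          rfl
      simp only [e1, mul_add, add_mul, Finset.sum_add_distrib, mul_ite, ite_mul, mul_one, mul_zero,
        zero_mul, Finset.sum_ite_eq, Finset.mem_univ, if_true, Complex.conj_mul', Finset.mul_sum]
      push_cast
      congr 1
      exact Finset.sum_congr rfl fun i _ => Finset.sum_congr rfl fun j _ => by ring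
    have hy1 : ∀ y : H →L[ℂ] H, IsSelfAdjoint y → ‖y‖ ≤ 1 → 0 ≤ 1 + (-1 : ℂ) • y := fun y h1 h2 => by
      rw [neg_one_smul, ← sub_eq_add_neg, sub_nonneg]
      refine h1.le_algebraMap_norm_self.trans ?_
      rw [← map_one (algebraMap ℝ (H →L[ℂ] H))]
      exact algebraMap_mono _ h2
    have h1 := mu_form w s ξ (add_mem (one_mem _) (smul_mem_vn hm 1))
      (by simpa using hy1 (-y) hs.neg (by simpa using hn))
    have h2 := mu_form w s ξ (add_mem (one_mem _) (smul_mem_vn hm (-1))) (hy1 y hs hn)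
    rw [e] at h1 h2
    generalize ∑ i : s, ∑ j : s, conj (ξ i) * S.ker y i j w * ξ j = a at h1 h2 ⊢
    generalize ∑ i, ‖ξ i‖ ^ 2 = b at h1 h2 ⊢
    rw [Complex.nonneg_iff] at h1 h2
    simp only [Complex.add_re, Complex.add_im, Complex.ofReal_re, Complex.ofReal_im, one_mul, neg_mul,
      Complex.neg_re, Complex.neg_im, zero_add] at h1 h2
    rw [← Complex.abs_re_eq_norm.2 h1.2.symm, abs_le]
    constructor <;> linarith [h1.1, h2.1]

theorem IsGd.fp_mul (hG : S.IsGd G) {B B' : Finset S.Γ} {y y' : H →L[ℂ] H} (hy : S.FP B y)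
    (hy' : S.FP B' y') : S.FP (B * B') (y * y') := by
  refine en_ind hy (p := fun a => S.FP (B * B') (a * y')) (by simpa using S.en_zero _)
    (fun a a' h h' => by simpa [add_mul] using en_add h h') fun g hg F => ?_
  refine en_ind hy' (p := fun b => S.FP (B * B') (S.op g * S.ι F * b)) (by simpa using S.en_zero _)
    (fun a a' h h' => by simpa [mul_add] using en_add h h') fun g' hg' F' => ?_
  obtain ⟨F'', h''⟩ := en_swap g' F
  have := en_single (Finset.mul_mem_mul hg hg') (F'' * F')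
  rwa [op_mul, map_mul, ← mul_assoc, mul_assoc (S.op g), ← h'', ← mul_assoc, mul_assoc] at this

theorem IsGd.fp_pow (hG : S.IsGd G) {y : H →L[ℂ] H} (hy : S.FP Γ₀ y) (k : ℕ) :
    S.FP (Γ₀ ^ k) (y ^ k) := by
  induction k with
  | zero => simpa using en_single (Finset.one_mem_one (α := S.Γ)) 1
  | succ k ih => rw [pow_succ, pow_succ]; exact hG.fp_mul ih hy

theorem IsGd.fp_conj (hG : S.IsGd G) {y : H →L[ℂ] H} (hy : S.FP Γ₀ y) (F F' : C(X, ℂ)) :
    S.FP Γ₀ (S.ι F * y * S.ι F') := by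
  refine en_ind hy (p := fun a => S.FP Γ₀ (S.ι F * a * S.ι F')) (by simpa using S.en_zero _)
    (fun a a' h h' => by simpa [add_mul, mul_add] using en_add h h') fun g hg F₁ => ?_
  obtain ⟨F'', h''⟩ := en_swap g F
  have := en_single hg (F'' * F₁ * F')
  rwa [map_mul, map_mul, ← mul_assoc, ← mul_assoc, ← h'', mul_assoc (S.ι F)] at this

theorem FP.add {y y' : H →L[ℂ] H} (hy : S.FP Γ₀ y) (hy' : S.FP Γ₀ y') : S.FP Γ₀ (y + y') := by
  exact en_add hy hy'

theorem FP.smul {y : H →L[ℂ] H} (hy : S.FP Γ₀ y) (c : ℂ) : S.FP Γ₀ (c • y) := by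
  obtain ⟨a, rfl⟩ := hy
  exact ⟨c • a, by simp [Finset.smul_sum]⟩

theorem fp_ι (h : 1 ∈ Γ₀) (F : C(X, ℂ)) : S.FP Γ₀ (S.ι F) := by
  simpa using en_single h F

theorem IsGd.fp_T (hG : S.IsGd G) {y : H →L[ℂ] H} (hy : S.FP Γ₀ y) {κ : Type*} [Fintype κ]
    (f : X → κ) : S.FP Γ₀ (S.T f y) := by
  exact Finset.sum_induction _ (S.FP Γ₀) (fun _ _ => en_add) (S.en_zero _)
    fun i _ => hG.fp_conj hy _ _

/-- Resolution of the identity at `w`.  PROOF.  For `z = op g * ι a` and `j₀ ∈ s` with `E w j₀ g` write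
`g = j₀ * h`, `c h w ≠ 0`; both sides are `cE (t op j₀) w * c h w * a w` (`cE_mul_op`). -/
theorem IsGd.resolve (hG : S.IsGd G) {w : X} {s B : Finset S.Γ} (hs : G.Free w s) (hc : G.Cov w s B)
    {z t : H →L[ℂ] H} (hz : S.FP B z) (ht : t ∈ S.M) :
    S.cE (t * z) w = ∑ j : s, S.cE (t * S.op j) w * S.cE (star (S.op j) * z) w := by
  have hm : ∀ j : s, star (S.op j) ∈ S.M := fun j => star_mem (op_mem _)
  refine (en_ind hz (p := fun z => z ∈ S.M ∧
    S.cE (t * z) w = ∑ j : s, S.cE (t * S.op j) w * S.cE (star (S.op j) * z) w)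
    ⟨zero_mem _, by simp [mu_zero]⟩ (fun a b ha hb => ⟨add_mem ha.1 hb.1, ?_⟩)
    fun g hg F => ⟨mul_mem (op_mem g) (S.mem F), ?_⟩).2
  · rw [mul_add, S.cE_add (mul_mem ht ha.1) (mul_mem ht hb.1), ContinuousMap.add_apply, ha.2, hb.2,
      ← Finset.sum_add_distrib]
    refine Finset.sum_congr rfl fun j _ => ?_
    rw [mul_add, S.cE_add (mul_mem (hm j) ha.1) (mul_mem (hm j) hb.1), ContinuousMap.add_apply,
      mul_add]
  · obtain ⟨j₀, hj₀, hE⟩ := hc g hg
    have e : ∀ j : S.Γ, S.cE (star (S.op j) * (S.op g * S.ι F)) w = G.c (j⁻¹ * g) w * F w :=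
      fun j => by
        rw [← mul_assoc, S.cE_mul_ι _ (mul_mem (star_mem (op_mem _)) (op_mem _)), hG.c]; rfl
    rw [Finset.sum_eq_single ⟨j₀, hj₀⟩ (fun j _ hj => ?_) (by simp), e, ← mul_assoc, ← mul_assoc,
      ← hG.cE_mul_op (mul_mem ht (op_mem _)) hE, mul_assoc t (S.op j₀), ← op_mul,
      mul_inv_cancel_left, S.cE_mul_ι _ (mul_mem ht (op_mem _)), ContinuousMap.mul_apply]
    have : G.c ((j : S.Γ)⁻¹ * g) w = 0 := by
      by_contra h
      exact hj (Subtype.ext (hs j j.2 j₀ hj₀ (Gd.E.trans h hE.symm)))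
    rw [e, this, zero_mul, mul_zero]

variable {C : Type} [Fintype C] [DecidableEq C] [Nonempty C]

theorem IsGd.ker_T (hG : S.IsGd G) {y : H →L[ℂ] H} (hy : y ∈ S.M) {f : X → C}
    (hf : IsLocallyConstant f) (γ γ' : S.Γ) (w : X) :
    S.ker (S.T f y) γ γ' w = if f (G.act γ w) = f (G.act γ' w) then S.ker y γ γ' w else 0 := by
  have e : S.ker (S.T f y) γ γ' w =
      ∑ c, S.ker (S.pr (f ⁻¹' {c}) * y * S.pr (f ⁻¹' {c})) γ γ' w := by
    rw [NS.ker, Masa.T, Finset.mul_sum, Finset.sum_mul, S.cE_sum _ fun c _ =>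
      mu_mem (mul_mem (mul_mem (S.pr_mem _) hy) (S.pr_mem _)) γ γ', ContinuousMap.sum_apply]
    rfl
  have hc : ∀ c w, cfn ((f ⁻¹' {c}).indicator 1) w = if f w = c then 1 else 0 := fun c w => by
    rw [cfn_apply (IsClopen.continuous_indicator (s := f ⁻¹' {c}) (hf.isClopen_fiber c)
      continuous_one)]
    by_cases h : f w = c <;> simp [h]
  simp only [e, Masa.pr, Masa.fn, mu_conj hG hy, hc]
  simp [eq_comm]

/-- PROOF.  `s = fam (Γ₀ ^ m) w`, `b = T f y`, `Y = cm (ker y) (f ∘ act)` on `s`.  By induction on `k ≤ m`,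
`cE ((op i)* b ^ k) w = (Y ^ k) i 1` (`resolve`, `fp_pow`, `ker_T`); `mom_full`. -/
theorem IsGd.mult (hG : S.IsGd G) (hΓ : Sym Γ₀) {y : H →L[ℂ] H} (hy : S.FP Γ₀ y)
    (hK : G.Ker Γ₀ (S.ker y)) {f : X → C} (hf : IsLocallyConstant f) (m : ℕ) (w : X) :
    (S.cE (S.T f y ^ m) w).re
      = G.mm Γ₀ (S.ker y) m w (fun _ => 1) fun γ => some (f (G.act γ w)) := by
  have hb := hG.fp_T hy f
  have key : ∀ (s : Finset S.Γ) (h1 : 1 ∈ s), G.Free w s → G.Cov w s (Γ₀ ^ m) →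
      ∀ Y : Matrix s s ℂ, (∀ i j, Y i j = S.ker (S.T f y) i j w) →
      ∀ k ≤ m, ∀ i : s, S.cE (star (S.op i) * S.T f y ^ k) w = (Y ^ k) i ⟨1, h1⟩ := by
    intro s h1 hs hc Y hY k
    induction k with
    | zero =>
      intro _ i
      rw [pow_zero, pow_zero, Matrix.one_apply, ← mu_one hG hs, op_one]
    | succ k ih =>
      intro hk i
      rw [pow_succ', pow_succ', Matrix.mul_apply, ← mul_assoc, hG.resolve hs hc
        ((hG.fp_pow hb k).mono S (hΓ.pow_mono (by omega))) (mul_mem (star_mem (op_mem _)) hb.mem)]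
      refine Finset.sum_congr rfl fun j _ => ?_
      rw [ih (by omega), hY, NS.ker]
  rw [Gd.mm, Gd.md, mom_full (hK.hz w _), ← key _ _ (G.fam_free _ w) (G.fam_cov _ w) _
    (fun i j => ?_) m le_rfl, op_one, star_one, one_mul]
  rw [hG.ker_T hy.mem hf, Matrix.of_apply, Complex.ofReal_one, one_mul, cm, Matrix.of_apply]

/-- `‖b ^ k Ω‖² = ψ (b ^ (2 k)) = ψ (ι (cE (b ^ (2 k))))`, and `cE (b ^ (2 k))` is real. -/
theorem IsGd.norm_pow_sq (hG : S.IsGd G) (hΓ : Sym Γ₀) {y : H →L[ℂ] H} (hy : S.FP Γ₀ y)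
    (hs : IsSelfAdjoint y) (hK : G.Ker Γ₀ (S.ker y)) {f : X → C} (hf : IsLocallyConstant f) (k : ℕ) :
    ‖(S.T f y ^ k) S.Ω‖ ^ 2
      = G.I fun w => G.mm Γ₀ (S.ker y) (2 * k) w (fun _ => 1) fun γ => some (f (G.act γ w)) := by
  have hb : S.T f y ^ (2 * k) ∈ S.M := pow_mem (S.T_mem f hy.mem) _
  have hs' := S.T_sa hf hs
  simp only [← hG.mult hΓ hy hK hf]
  rw [hG.I _ (by fun_prop), norm_sq_eq_ψ, (hs'.pow k).star_eq, ← pow_add, ← two_mul, ← S.ψ_EE hb,
    ← S.ι_cE hb, S.ngrp_fn_eq]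
  intro w
  have h := S.cE_star hb
  rw [(hs'.pow _).star_eq] at h
  exact (Complex.conj_eq_iff_re.1 (congrArg (fun F : C(X, ℂ) => F w) h).symm)

end NS

end Crest.Agent.R109
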