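import Crest.Agent.R109.OExp
import Crest.Agent.R109.Hil

/-! Row 109: elementary facts in the normal case. -/

set_option autoImplicit false
set_option linter.unusedSectionVars false

namespace Crest.Agent.R109

open Crest.Agent.R124 Filter Topology Function
open scoped BigOperators ComplexConjugate InnerProductSpace ComplexOrder Pointwise

variable {X : Type*} [TopologicalSpace X] [CompactSpace X] [T2Space X] [TotallyDisconnectedSpace X]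
  {H : Type*} [NormedAddCommGroup H] [InnerProductSpace ℂ H] [CompleteSpace H]

namespace NS

variable (S : NS X H)

/-- `sp (M' Ω) ∈ M` (`sp_mem`) fixes `Ω`, so it is `1` by `sep`. -/
theorem dense (ξ : H) {ε : ℝ} (hε : 0 < ε) : ∃ m ∈ S.M.commutant, ‖ξ - m S.Ω‖ < ε := by
  let T : Set H := {v | ∃ m ∈ S.M.commutant, v = m S.Ω}
  have h1 : sp T ∈ S.M := sp_mem (by
    rintro y hy _ ⟨m, hm, rfl⟩
    exact ⟨y * m, mul_mem hy hm, rfl⟩)
  have h2 : sp T S.Ω = S.Ω := sp_apply ⟨1, one_mem _, rfl⟩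
  have h3 : sp T = 1 := by
    refine (sub_eq_zero.1 (S.sep _ (sub_mem (one_mem _) h1) ?_)).symm
    simp [h2]
  have h4 := sp_apply_mem T ξ
  rw [h3] at h4
  obtain ⟨v, hv, hd⟩ := Metric.mem_closure_iff.1 h4 ε hε
  have h5 : ∀ v ∈ Submodule.span ℂ T, v ∈ T := fun v hv => by
    induction hv using Submodule.span_induction with
    | mem v hv => exact hv
    | zero => exact ⟨0, zero_mem _, rfl⟩
    | add u v _ _ hu hv =>
      obtain ⟨m, hm, rfl⟩ := hu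
      obtain ⟨m', hm', rfl⟩ := hv
      exact ⟨m + m', add_mem hm hm', rfl⟩
    | smul c v _ hv =>
      obtain ⟨m, hm, rfl⟩ := hv
      exact ⟨c • m, smul_mem_vn hm c, rfl⟩
  obtain ⟨m, hm, rfl⟩ := h5 v hv
  exact ⟨m, hm, by rwa [dist_eq_norm] at hd⟩

/-- Uniform faithfulness. -/
theorem uf (ξ : H) {ε : ℝ} (hε : 0 < ε) :
    ∃ δ : ℝ, 0 < δ ∧ ∀ b ∈ S.M, ‖b‖ ≤ 1 → ‖b S.Ω‖ ≤ δ → ‖b ξ‖ ≤ ε := by
  obtain ⟨m, hm, hd⟩ := S.dense ξ (half_pos hε)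
  refine ⟨ε / 2 / (‖m‖ + 1), by positivity, fun b hb hb1 hδ => ?_⟩
  have e : b ξ = b (ξ - m S.Ω) + m (b S.Ω) := by
    have := congr($(comm_of_mem hb hm) S.Ω)
    simp only [mul_apply_eq_comp] at this
    rw [map_sub, this, sub_add_cancel]
  have h1 : ‖b (ξ - m S.Ω)‖ ≤ ε / 2 :=
    (b.le_opNorm _).trans (by nlinarith [norm_nonneg (ξ - m S.Ω), norm_nonneg b])
  have h2 : ‖m (b S.Ω)‖ ≤ ε / 2 := by
    refine (m.le_opNorm _).trans ?_
    rw [le_div_iff₀ (by positivity)] at hδ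
    nlinarith [norm_nonneg (b S.Ω)]
  rw [e]
  exact (norm_add_le _ _).trans (by linarith)

theorem ψ_add (y y' : H →L[ℂ] H) : S.ψ (y + y') = S.ψ y + S.ψ y' := by simp [ψ, inner_add_right]

theorem ψ_sub (y y' : H →L[ℂ] H) : S.ψ (y - y') = S.ψ y - S.ψ y' := by simp [ψ, inner_sub_right]

theorem ψ_smul (c : ℂ) (y : H →L[ℂ] H) : S.ψ (c • y) = c * S.ψ y := by simp [ψ, inner_smul_right]

theorem ψ_sum {κ : Type*} (s : Finset κ) (y : κ → H →L[ℂ] H) :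
    S.ψ (∑ i ∈ s, y i) = ∑ i ∈ s, S.ψ (y i) := by simp [ψ, inner_sum]

theorem ψ_star_mul (y z : H →L[ℂ] H) : S.ψ (star y * z) = ⟪y S.Ω, z S.Ω⟫_ℂ := by
  rw [ψ, mul_apply_eq_comp, ContinuousLinearMap.star_eq_adjoint,
    ContinuousLinearMap.adjoint_inner_right]

theorem ψ_star (y : H →L[ℂ] H) : S.ψ (star y) = conj (S.ψ y) := by
  rw [ψ, ψ, ContinuousLinearMap.star_eq_adjoint, ContinuousLinearMap.adjoint_inner_right,
    inner_conj_symm]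

theorem norm_sq_eq_ψ (y : H →L[ℂ] H) : ‖y S.Ω‖ ^ 2 = (S.ψ (star y * y)).re := by
  rw [ψ_star_mul, inner_self_eq_norm_sq_to_K]
  norm_cast

theorem ψ_mono {y z : H →L[ℂ] H} (h : y ≤ z) : (S.ψ y).re ≤ (S.ψ z).re := by
  have h1 := ((ContinuousLinearMap.le_def _ _).1 h).re_inner_nonneg_right S.Ω
  have h2 : (S.ψ (z - y)).re = (S.ψ z).re - (S.ψ y).re := by rw [ψ_sub, Complex.sub_re]
  rw [← sub_nonneg, ← h2]
  exact h1

theorem norm_ψ_le (y : H →L[ℂ] H) : ‖S.ψ y‖ ≤ ‖y S.Ω‖ := by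
  exact (norm_inner_le_norm _ _).trans (mul_le_of_le_one_left (norm_nonneg _) S.norm_le)

theorem norm_apply_le (y : H →L[ℂ] H) : ‖y S.Ω‖ ≤ ‖y‖ := by
  exact (y.le_opNorm _).trans (mul_le_of_le_one_right (norm_nonneg _) S.norm_le)

theorem ψ_comm (F : C(X, ℂ)) {y : H →L[ℂ] H} (hy : y ∈ S.M) : S.ψ (S.ι F * y) = S.ψ (y * S.ι F) :=
  S.central F y hy

theorem ψ_EE {z : H →L[ℂ] H} (hz : z ∈ S.M) : S.ψ (S.EE z) = S.ψ z := S.inner_EE S.central hz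

theorem ψ_ι_mul (F : C(X, ℂ)) {z : H →L[ℂ] H} (hz : z ∈ S.M) :
    S.ψ (S.ι F * z) = S.ψ (S.ι (F * S.cE z)) := by
  rw [← S.ψ_EE (mul_mem (S.mem F) hz), S.EE_ι_mul, map_mul, S.ι_cE hz]

/-- Take `F = star (D - D')`. -/
theorem ext_ψ {D D' : C(X, ℂ)} (h : ∀ F, S.ψ (S.ι (F * D)) = S.ψ (S.ι (F * D'))) : D = D' := by
  have h1 : ‖S.ι (D - D') S.Ω‖ ^ 2 = 0 := by
    rw [norm_sq_eq_ψ, ← map_star, ← map_mul, mul_sub, map_sub, ψ_sub, h, sub_self, Complex.zero_re]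
  have h2 := S.sep _ (S.mem _) (norm_eq_zero.1 (pow_eq_zero_iff two_ne_zero |>.1 h1))
  exact sub_eq_zero.1 (S.inj (h2.trans (map_zero _).symm))

theorem cE_unique {z : H →L[ℂ] H} (hz : z ∈ S.M) {D : C(X, ℂ)}
    (h : ∀ F, S.ψ (S.ι F * z) = S.ψ (S.ι (F * D))) : S.cE z = D := by
  exact S.ext_ψ fun F => by rw [← S.ψ_ι_mul F hz, h]

theorem ψ_fn_mono {F F' : X → ℝ} (h : Continuous F) (h' : Continuous F') (hle : ∀ w, F w ≤ F' w) :
    (S.ψ (S.fn fun w => F w)).re ≤ (S.ψ (S.fn fun w => F' w)).re := by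
  refine S.ψ_mono (sub_nonneg.1 ?_)
  rw [Masa.fn, Masa.fn, ← map_sub, Masa.ι_nonneg_iff]
  intro w
  rw [ContinuousMap.sub_apply, cfn_apply (by fun_prop), cfn_apply (by fun_prop),
    ← Complex.ofReal_sub]
  exact Complex.zero_le_real.2 (sub_nonneg.2 (hle w))

theorem ψ_fn_pos {F : X → ℝ} (h : Continuous F) (h0 : ∀ w, 0 ≤ F w) {w : X} (hw : F w ≠ 0) :
    0 < (S.ψ (S.fn fun w => F w)).re := by
  have hc : Continuous fun w => ((√(F w) : ℝ) : ℂ) := by fun_prop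
  have e : (S.fn fun w => F w) = star (S.fn fun w => (√(F w) : ℝ)) * S.fn fun w => (√(F w) : ℝ) := by
    rw [S.star_fn hc, S.fn_mul (by fun_prop) hc]
    congr 1
    funext w
    rw [Complex.conj_ofReal, ← Complex.ofReal_mul, Real.mul_self_sqrt (h0 w)]
  rw [e, ← norm_sq_eq_ψ]
  refine pow_pos (norm_pos_iff.2 fun hz => hw ?_) 2
  have h2 := S.inj ((S.sep _ (S.fn_mem _) hz).trans (map_zero _).symm)
  have h3 := congr($h2 w)
  rw [cfn_apply hc, ContinuousMap.zero_apply, Complex.ofReal_eq_zero,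
    Real.sqrt_eq_zero (h0 w)] at h3
  exact h3

/-- Right multiplication by `A` is bounded: `‖y a Ω‖² = ψ (a a* y* y)`. -/
theorem norm_mul_ι_apply_le {y : H →L[ℂ] H} (hy : y ∈ S.M) (F : C(X, ℂ)) :
    ‖(y * S.ι F) S.Ω‖ ≤ ‖F‖ * ‖y S.Ω‖ := by
  have hc : Continuous fun w => ((√(‖F‖ ^ 2 - ‖F w‖ ^ 2) : ℝ) : ℂ) := by fun_prop
  obtain ⟨G, hG⟩ : ∃ G : C(X, ℂ), ∀ w, G w = ((√(‖F‖ ^ 2 - ‖F w‖ ^ 2) : ℝ) : ℂ) :=
    ⟨⟨_, hc⟩, fun _ => rfl⟩
  have e : F * star F + G * star G = ((‖F‖ ^ 2 : ℝ) : ℂ) • 1 := by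
    ext w
    have h1 : ‖F w‖ ^ 2 ≤ ‖F‖ ^ 2 := pow_le_pow_left₀ (norm_nonneg _) (F.norm_coe_le_norm w) 2
    simp only [ContinuousMap.add_apply, ContinuousMap.mul_apply, ContinuousMap.star_apply,
      ContinuousMap.smul_apply, ContinuousMap.one_apply, smul_eq_mul, mul_one, hG,
      Complex.star_def, Complex.conj_ofReal, Complex.mul_conj']
    rw [← Complex.ofReal_mul, Real.mul_self_sqrt (sub_nonneg.2 h1)]
    push_cast
    ring
  have key : ∀ F : C(X, ℂ),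
      ‖(y * S.ι F) S.Ω‖ ^ 2 = (S.ψ (star y * y * S.ι (F * star F))).re := fun F => by
    rw [norm_sq_eq_ψ, star_mul, ← map_star, mul_assoc,
      S.ψ_comm _ (mul_mem (star_mem hy) (mul_mem hy (S.mem F))), map_mul]
    simp only [mul_assoc]
  have h1 : ‖(y * S.ι F) S.Ω‖ ^ 2 + ‖(y * S.ι G) S.Ω‖ ^ 2 = (‖F‖ * ‖y S.Ω‖) ^ 2 := by
    rw [key, key, ← Complex.add_re, ← ψ_add, ← mul_add, ← map_add, e, map_smul, map_one,
      mul_smul_comm, mul_one, ψ_smul, Complex.re_ofReal_mul, ← norm_sq_eq_ψ, mul_pow]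
  refine (sq_le_sq₀ (norm_nonneg _) (by positivity)).1 ?_
  linarith [sq_nonneg ‖(y * S.ι G) S.Ω‖]

section
variable {κ : Type*} [Fintype κ] {P : X → κ}

omit [Fintype κ] in
private theorem NBasic_clopen (hP : IsLocallyConstant P) (i : κ) : IsClopen (P ⁻¹' {i}) :=
  hP.isClopen_fiber i

private theorem NBasic_sq (y : H →L[ℂ] H) : ((‖y S.Ω‖ ^ 2 : ℝ) : ℂ) = S.ψ (star y * y) := by
  rw [ψ_star_mul, inner_self_eq_norm_sq_to_K]
  norm_cast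

private theorem NBasic_pr_sa {U : Set X} (hU : IsClopen U) : star (S.pr U) = S.pr U :=
  (S.pr_proj hU).isSelfAdjoint.star_eq

private theorem NBasic_ψ_pr (U : Set X) {y : H →L[ℂ] H} (hy : y ∈ S.M) :
    S.ψ (S.pr U * y) = S.ψ (y * S.pr U) := S.ψ_comm _ hy

private theorem NBasic_add_id : Add' (id : Set X → Set X) :=
  ⟨fun _ h => h, fun _ _ _ _ => rfl, fun _ _ _ _ h => h⟩

theorem ψ_T (hP : IsLocallyConstant P) {z : H →L[ℂ] H} (hz : z ∈ S.M) : S.ψ (S.T P z) = S.ψ z := by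
  rw [Masa.T, ψ_sum]
  calc _ = ∑ i, S.ψ (z * S.pr (P ⁻¹' {i})) := Finset.sum_congr rfl fun i _ => by
        rw [mul_assoc, S.NBasic_ψ_pr _ (mul_mem hz (S.pr_mem _)), mul_assoc,
          (S.pr_proj (NBasic_clopen hP i)).isIdempotentElem.eq]
    _ = _ := by rw [← ψ_sum, ← Finset.mul_sum, S.sum_pr hP, mul_one]

/-- `Q θ P` is self-adjoint for the inner product `ψ (z* x)`. -/
theorem ψ_star_mul_Q {θ : Set X → Set X} (hθ : Add' θ) (hP : IsLocallyConstant P) {z x : H →L[ℂ] H}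
    (hz : z ∈ S.M) (hx : x ∈ S.M) : S.ψ (star z * S.Q θ P x) = S.ψ (star (S.Q θ P z) * x) := by
  simp only [Masa.Q, star_sum, Finset.mul_sum, Finset.sum_mul, ψ_sum]
  refine Finset.sum_congr rfl fun i _ => ?_
  rw [star_mul, star_mul, S.NBasic_pr_sa (NBasic_clopen hP i),
    S.NBasic_pr_sa (hθ.clopen _ (NBasic_clopen hP i)), mul_assoc (S.pr (θ _)),
    S.NBasic_ψ_pr _ (mul_mem (mul_mem (star_mem hz) (S.pr_mem _)) hx)]
  simp only [mul_assoc]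

private theorem NBasic_Q_Q {θ : Set X → Set X} (hθ : Add' θ) (hP : IsLocallyConstant P)
    (x : H →L[ℂ] H) : S.Q θ P (S.Q θ P x) = S.Q θ P x := by
  classical
  refine Finset.sum_congr rfl fun i _ => ?_
  have h1 : S.pr (P ⁻¹' {i}) * S.Q θ P x = S.pr (P ⁻¹' {i}) * x * S.pr (θ (P ⁻¹' {i})) := by
    simp only [Masa.Q, Finset.mul_sum, ← mul_assoc, S.pr_fibre_mul hP, ite_mul, zero_mul,
      Finset.sum_ite_eq, Finset.mem_univ, if_true]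
  rw [h1, mul_assoc, (S.pr_proj (hθ.clopen _ (NBasic_clopen hP i))).isIdempotentElem.eq]

theorem norm_sq_Q {θ : Set X → Set X} (hθ : Add' θ) (hP : IsLocallyConstant P) {x : H →L[ℂ] H}
    (hx : x ∈ S.M) : ((‖S.Q θ P x S.Ω‖ ^ 2 : ℝ) : ℂ) = S.ψ (star x * S.Q θ P x) := by
  rw [NBasic_sq, ← S.ψ_star_mul_Q hθ hP hx (S.Q_mem θ P hx), S.NBasic_Q_Q hθ hP]

theorem norm_sq_Q' {θ : Set X → Set X} (hθ : Add' θ) (hP : IsLocallyConstant P) {x : H →L[ℂ] H}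
    (hx : x ∈ S.M) : ((‖S.Q θ P x S.Ω‖ ^ 2 : ℝ) : ℂ)
      = ∑ i, S.ψ (S.pr (θ (P ⁻¹' {i})) * S.ι (S.cE (star x * S.pr (P ⁻¹' {i}) * x))) := by
  rw [S.norm_sq_Q hθ hP hx, Masa.Q, Finset.mul_sum, ψ_sum]
  refine Finset.sum_congr rfl fun i _ => ?_
  have hm : star x * S.pr (P ⁻¹' {i}) * x ∈ S.M := mul_mem (mul_mem (star_mem hx) (S.pr_mem _)) hx
  rw [← mul_assoc, ← mul_assoc, ← S.NBasic_ψ_pr _ hm]
  exact (S.ψ_ι_mul _ hm).trans (by rw [map_mul]; rfl)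

theorem norm_T_apply_le (hP : IsLocallyConstant P) {z : H →L[ℂ] H} (hz : z ∈ S.M) :
    ‖S.T P z S.Ω‖ ≤ ‖z S.Ω‖ := by
  have h1 : ((‖S.T P z S.Ω‖ ^ 2 : ℝ) : ℂ) = S.ψ (star z * S.T P z) :=
    S.norm_sq_Q NBasic_add_id hP hz
  have h2 := norm_inner_le_norm (𝕜 := ℂ) (z S.Ω) (S.T P z S.Ω)
  rw [← ψ_star_mul, ← h1, Complex.norm_real, Real.norm_of_nonneg (by positivity), sq] at h2
  rcases (norm_nonneg (S.T P z S.Ω)).eq_or_lt with h | h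
  · rw [← h]; exact norm_nonneg _
  · exact le_of_mul_le_mul_right h2 h

end

private theorem NBasic_EE_sq {z : H →L[ℂ] H} (hz : z ∈ S.M) :
    ((‖S.EE z S.Ω‖ ^ 2 : ℝ) : ℂ) = ⟪z S.Ω, S.EE z S.Ω⟫_ℂ := by
  rw [NBasic_sq, ← ψ_star_mul, ← S.EE_star, ← S.ι_cE hz, ← S.EE_mul_ι, S.ψ_EE (mul_mem (star_mem hz) (S.mem _))]

/-- `‖T P z Ω‖² = ψ (z* T P z) → ψ (z* EE z) = ‖EE z Ω‖²`. -/
theorem tendsto_norm_T {z : H →L[ℂ] H} (hz : z ∈ S.M) :
    Tendsto (fun P : Part X => ‖S.T P.f z S.Ω‖ ^ 2) (UP X) (𝓝 (‖S.EE z S.Ω‖ ^ 2)) := by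
  have h := (Complex.continuous_re.tendsto _).comp (S.EE_tendsto z (z S.Ω) S.Ω)
  rw [← S.NBasic_EE_sq hz, Complex.ofReal_re] at h
  refine h.congr fun P => ?_
  have h1 : ((‖S.T P.f z S.Ω‖ ^ 2 : ℝ) : ℂ) = S.ψ (star z * S.T P.f z) :=
    S.norm_sq_Q NBasic_add_id P.lc hz
  rw [Function.comp_apply, ← ψ_star_mul, ← h1, Complex.ofReal_re]

theorem norm_EE_apply_le {z : H →L[ℂ] H} (hz : z ∈ S.M) : ‖S.EE z S.Ω‖ ≤ ‖z S.Ω‖ := by
  have h2 := norm_inner_le_norm (𝕜 := ℂ) (z S.Ω) (S.EE z S.Ω)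
  rw [← S.NBasic_EE_sq hz, Complex.norm_real, Real.norm_of_nonneg (by positivity), sq] at h2
  rcases (norm_nonneg (S.EE z S.Ω)).eq_or_lt with h | h
  · rw [← h]; exact norm_nonneg _
  · exact le_of_mul_le_mul_right h2 h

/-- PROOF.  The vector `u* Ω` is central, so `inner_EE` applies to it; `cE_unique`. -/
theorem EE_conj {u : H →L[ℂ] H} (hu : u ∈ S.M) (hu1 : star u * u = 1) (hu2 : u * star u = 1)
    (hl : ∀ F, ∃ F', star u * S.ι F * u = S.ι F') (hr : ∀ F, ∃ F', u * S.ι F * star u = S.ι F')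
    {z : H →L[ℂ] H} (hz : z ∈ S.M) : S.EE (u * z * star u) = u * S.EE z * star u := by
  have hin : ∀ y : H →L[ℂ] H, ⟪star u S.Ω, y (star u S.Ω)⟫_ℂ = S.ψ (u * y * star u) := fun y => by
    rw [mul_assoc, ← star_star u, ψ_star_mul, star_star]
    rfl
  have hcan : ∀ y : H →L[ℂ] H, star u * (u * y) = y := fun y => by rw [← mul_assoc, hu1, one_mul]
  have hcan' : ∀ y : H →L[ℂ] H, u * (star u * y) = y := fun y => by rw [← mul_assoc, hu2, one_mul]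
  have hcen : ∀ F, ∀ y ∈ S.M, ⟪star u S.Ω, (S.ι F * y) (star u S.Ω)⟫_ℂ =
      ⟪star u S.Ω, (y * S.ι F) (star u S.Ω)⟫_ℂ := fun F y hy => by
    obtain ⟨F', hF'⟩ := hr F
    have h := S.ψ_comm F' (mul_mem (mul_mem hu hy) (star_mem hu))
    rw [← hF'] at h
    rw [hin, hin]
    simpa only [mul_assoc, hcan] using h
  obtain ⟨D, hD⟩ := hr (S.cE z)
  have hm : u * z * star u ∈ S.M := mul_mem (mul_mem hu hz) (star_mem hu)
  rw [← S.ι_cE hm, ← S.ι_cE hz, hD]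
  congr 1
  refine S.cE_unique hm fun F => ?_
  obtain ⟨F', hF'⟩ := hl F
  have h := S.inner_EE hcen (mul_mem (S.mem F') hz)
  rw [hin, hin, S.EE_ι_mul, ← S.ι_cE hz, ← hF'] at h
  rw [map_mul, ← hD]
  simpa only [mul_assoc, hcan'] using h.symm

end NS

end Crest.Agent.R109
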