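import Crest.Agent.R109.Mult
import Crest.Agent.R109.KN
import Crest.Agent.R109.Atom
import Crest.Agent.R109.GStep
import Crest.Agent.R109.GInit
import Crest.Agent.R109.Game

/-! Row 109: the normal case. -/

set_option autoImplicit false
set_option linter.unusedSectionVars false

namespace Crest.Agent.R109

open Crest.Agent.R124 Filter Topology Function
open scoped BigOperators ComplexConjugate InnerProductSpace ComplexOrder Pointwise

variable {X : Type*} [TopologicalSpace X] [CompactSpace X] [T2Space X] [TotallyDisconnectedSpace X]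
  {H : Type*} [NormedAddCommGroup H] [InnerProductSpace ℂ H] [CompleteSpace H]

namespace NS

variable (S : NS X H) {C : Type} [Fintype C] [DecidableEq C] [Nonempty C]

private theorem nc_exists_pow (a : ℝ) {t : ℝ} (ht : 0 < t) : ∃ k : ℕ, 1 ≤ k ∧ a / 2 ^ k ≤ t := by
  obtain ⟨k, hk⟩ := pow_unbounded_of_one_lt (a / t) (show (1 : ℝ) < 2 by norm_num)
  refine ⟨k + 1, by omega, ?_⟩
  rw [div_le_iff₀ (by positivity)]
  rw [div_lt_iff₀ ht] at hk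
  have h2 : (0 : ℝ) < 2 ^ k := by positivity
  rw [pow_succ]
  nlinarith

private theorem nc_EE_sub (z z' : H →L[ℂ] H) : S.EE (z - z') = S.EE z - S.EE z' := by
  have h := S.EE_add (z - z') z'
  rw [sub_add_cancel] at h
  rw [h, add_sub_cancel_right]

private theorem nc_EE_mem {z : H →L[ℂ] H} (hz : z ∈ S.M) : S.EE z ∈ S.M := by
  rw [← S.ι_cE hz]
  exact S.mem _

private theorem nc_EE_sa {z : H →L[ℂ] H} (hs : IsSelfAdjoint z) : IsSelfAdjoint (S.EE z) := by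
  rw [IsSelfAdjoint, ← S.EE_star, hs.star_eq]

/-- Cutting away a clopen set which is small at `Ω`. -/
private theorem nc_cut {y : H →L[ℂ] H} (hn : ‖y‖ ≤ 1) {U : Set X} (hU : IsClopen U) {ε : ℝ}
    (h1 : ‖S.pr U S.Ω‖ ≤ ε) (h2 : ‖S.pr U (y S.Ω)‖ ≤ ε) :
    ‖(y - S.pr Uᶜ * y * S.pr Uᶜ) S.Ω‖ ≤ 2 * ε := by
  have hq : ‖S.pr Uᶜ‖ ≤ 1 := (S.pr_proj hU.compl).norm_le _
  have e : y - S.pr Uᶜ * y * S.pr Uᶜ = S.pr U * y + S.pr Uᶜ * y * S.pr U := by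
    rw [S.pr_compl hU]
    noncomm_ring
  rw [e]
  have h3 : ‖(S.pr Uᶜ * y * S.pr U) S.Ω‖ ≤ ε := by
    rw [mul_apply_eq_comp]
    refine ((S.pr Uᶜ * y).le_opNorm _).trans ?_
    have h4 : ‖S.pr Uᶜ * y‖ ≤ 1 :=
      (norm_mul_le _ _).trans (mul_le_one₀ hq (norm_nonneg _) hn)
    calc ‖S.pr Uᶜ * y‖ * ‖S.pr U S.Ω‖ ≤ 1 * ‖S.pr U S.Ω‖ := by gcongr
      _ ≤ ε := by rwa [one_mul]
  calc ‖(S.pr U * y + S.pr Uᶜ * y * S.pr U) S.Ω‖
      ≤ ‖(S.pr U * y) S.Ω‖ + ‖(S.pr Uᶜ * y * S.pr U) S.Ω‖ := norm_add_le _ _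
    _ ≤ ε + ε := add_le_add h2 h3
    _ = 2 * ε := by ring

private theorem nc_ker_zero [DecidableEq S.Γ] {G : Gd X S.Γ} (hG : S.IsGd G) {y : H →L[ℂ] H}
    (hy : y ∈ S.M) {U : Set X} (hU : IsClopen U) (γ γ' : S.Γ) {w : X} (hw : G.act γ w ∈ U) :
    S.ker (S.pr Uᶜ * y * S.pr Uᶜ) γ γ' w = 0 := by
  set F : C(X, ℂ) := cfn ((Uᶜ).indicator 1) with hF
  have hc : Continuous ((Uᶜ).indicator (1 : X → ℂ)) := hU.compl.continuous_indicator continuous_const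
  have hp : S.pr Uᶜ = S.ι F := rfl
  have hc' : Continuous fun w => F (G.act γ w) := F.continuous.comp (G.act_cont γ)
  have h1 : star (S.op γ) * S.ι F = S.ι (cfn fun w => F (G.act γ w)) * star (S.op γ) := by
    have h := hG.act γ F
    rw [Masa.fn] at h
    rw [← h, mul_assoc, op_mul_star, mul_one]
  have hm : star (S.op γ) * y * S.ι F * S.op γ' ∈ S.M :=
    mul_mem (mul_mem (mul_mem (star_mem (op_mem γ)) hy) (S.mem F)) (op_mem γ')
  have e : star (S.op γ) * (S.ι F * y * S.ι F) * S.op γ'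
      = S.ι (cfn fun w => F (G.act γ w)) * (star (S.op γ) * y * S.ι F * S.op γ') := by
    simp only [← mul_assoc]
    rw [h1]
  rw [ker, hp, e, S.cE_ι_mul _ hm, ContinuousMap.mul_apply, cfn_apply hc', hF, cfn_apply hc,
    Set.indicator_of_notMem (by simpa using hw), zero_mul]

/-- PROOF.  `c = 3840 / √r = 24 cA / √r`.  `exists_gd`.  Choose `k ≥ 1` with `K * 3 * 2 c / 2 ^ k ≤ τ / 2`,
`m = 2 k`, `dfinal` with `κ = c ^ m`, an even `N ≥ N₀, m`, `exists_cls` for `Γ₀ ^ (2 N)` with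
`p = pr (cls ⁻¹' {0})` so small at `Ω` that `y₁ = (1 - p) y (1 - p)` has `K ‖(y - y₁) Ω‖ ≤ τ / 2` (`uf`).
`IsGd.ker` for `y₁` (`fp_conj`; the kernel vanishes if `cls (act γ w) = 0` by `ι_mul_op`).  `game` with
`Ψ = Psi`, `J η = c ^ N` (`dstep`, `dinit`) gives `Ψ (some ∘ f) ≤ 3 c ^ N`, so
`‖(T f y₁) ^ k Ω‖² ≤ 5 c ^ m` (`norm_pow_sq`), and `KN_le_pow` with `2 c`; `KN_add_le`, `KN_le_apply`,
`norm_T_apply_le`. -/
theorem nc_game [DecidableEq S.Γ] {Γ₀ : Finset S.Γ} (hΓ : Sym Γ₀) {y : H →L[ℂ] H} (hy : S.FP Γ₀ y)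
    (hs : IsSelfAdjoint y) (hn : ‖y‖ ≤ 1) (h0 : S.cE y = 0) (hr : 4 ≤ Fintype.card C) {K τ : ℝ}
    (hK : 0 ≤ K) (hτ : 0 < τ)
    (Φ : (X → C) → (X → ℝ) → ℝ) {ι₀ : Type} [Fintype ι₀] {P₀ : X → ι₀} (hP₀ : IsLocallyConstant P₀)
    (h1 : ∀ (f f' : X → C) (a : X → ℝ), IsLocallyConstant f → IsLocallyConstant f' →
      IsLocallyConstant a → (∀ w, a w ≠ 0 → f w = f' w) → Φ f a = Φ f' a)
    (h2 : ∀ (f : X → C) (a₀ a₁ a₂ : X → ℝ) (U : Set X), IsLocallyConstant f → IsLocallyConstant a₀ →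
      IsClopen U → (∀ w ∈ U, ∀ w' ∈ U, P₀ w = P₀ w') → (∀ w ∈ U, a₀ w = 0 ∧ a₁ w = 1 ∧ a₂ w = 2) →
      (∀ w ∉ U, a₁ w = a₀ w ∧ a₂ w = a₀ w) → Φ f a₀ ≤ Φ f a₂ ∧ 2 * Φ f a₁ ≤ Φ f a₂ + Φ f a₀)
    {B : ℝ} (h3 : ∀ (ι : Type) [Fintype ι] [DecidableEq ι] (P : X → ι), IsLocallyConstant P →
      (∀ w w', P w = P w' → P₀ w = P₀ w') → 𝔼 g : ι → C, Φ (fun w => g (P w)) (fun _ => 2) ≤ B) :
    ∃ f : X → C, IsLocallyConstant f ∧ Φ f (fun _ => 1) ≤ B ∧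
      S.KN K (S.T f y) ≤ 7680 / √(Fintype.card C) + τ := by
  have hr0 : (0 : ℝ) < √(Fintype.card C) := Real.sqrt_pos.2 (by exact_mod_cast (by omega))
  set c : ℝ := 24 * cA / √(Fintype.card C) with hc
  have hc0 : 0 < c := by rw [hc, cA]; positivity
  have hc2 : 2 * c = 7680 / √(Fintype.card C) := by rw [hc, cA]; ring
  obtain ⟨G, hG⟩ := S.exists_gd
  obtain ⟨k, hk1, hk⟩ := nc_exists_pow (K * 3 * (2 * c)) (half_pos hτ)
  obtain ⟨N₀, hN₀⟩ := Gd.dfinal (C := C) G hΓ (m := 2 * k) (even_two_mul k)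
    (κ := c ^ (2 * k)) (by positivity)
  set N : ℕ := 2 * (N₀ + k) with hN
  have hNe : Even N := even_two_mul _
  have hN2 : 2 ≤ N := by omega
  have hyM : y ∈ S.M := hy.mem
  set ε : ℝ := τ / (4 * (K + 1)) with hε
  have hε0 : 0 < ε := by positivity
  obtain ⟨δ, hδ, hδ'⟩ := S.uf (y S.Ω) hε0
  obtain ⟨cls, hcls, hsm⟩ := hG.exists_cls (Γ₀ ^ (2 * N)) (lt_min hδ hε0)
  set U : Set X := cls ⁻¹' {0} with hU
  have hUc : IsClopen U := hcls.lc.isClopen_fiber 0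
  set y₁ : H →L[ℂ] H := S.pr Uᶜ * y * S.pr Uᶜ with hy₁
  have hq := S.pr_proj hUc.compl
  have hcut : ‖(y - y₁) S.Ω‖ ≤ 2 * ε :=
    S.nc_cut hn hUc (hsm.trans (min_le_right _ _))
      (hδ' _ (S.pr_mem U) ((S.pr_proj hUc).norm_le _) (hsm.trans (min_le_left _ _)))
  have hy₁F : S.FP Γ₀ y₁ := hG.fp_conj hy _ _
  have hy₁M : y₁ ∈ S.M := hy₁F.mem
  have hy₁s : IsSelfAdjoint y₁ := by
    rw [IsSelfAdjoint, hy₁, star_mul, star_mul, hq.isSelfAdjoint.star_eq, hs.star_eq, mul_assoc]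
  have hy₁n : ‖y₁‖ ≤ 1 :=
    (norm_mul_le _ _).trans (mul_le_one₀
      ((norm_mul_le _ _).trans (mul_le_one₀ (hq.norm_le _) (norm_nonneg _) hn)) (norm_nonneg _)
      (hq.norm_le _))
  have hy₁0 : S.cE y₁ = 0 := by
    have hp : S.pr Uᶜ = S.ι (cfn ((Uᶜ).indicator 1)) := rfl
    rw [hy₁, hp, S.cE_mul_ι _ (mul_mem (S.mem _) hyM), S.cE_ι_mul _ hyM, h0, mul_zero, zero_mul]
  have hker := hG.ker hy₁F hy₁s hy₁n hy₁0
  obtain ⟨J₀, hJ₀⟩ := hcls.lc.range_finite.bddAbove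
  have hJ : ∀ w, cls w < J₀ + 1 := fun w => Nat.lt_succ_of_le (hJ₀ ⟨w, rfl⟩)
  have hJ0 : (0 : ℝ) < ((J₀ + 1 : ℕ) : ℝ) := by positivity
  obtain ⟨f, hf, hΦ, hΨ⟩ := game hcls.lc hJ (G.Psi Γ₀ (S.ker y₁) cls N)
    (η := c ^ N / ((J₀ + 1 : ℕ) : ℝ))
    (fun σ hσ j hj => Gd.dstep hΓ hker hN2 hNe hcls hσ j hj (by positivity)) Φ hP₀ h1 h2 h3
  refine ⟨f, hf, hΦ, ?_⟩
  have hinit := Gd.dinit (C := C) hΓ hker hr hN2 hcls
  rw [mul_div_cancel₀ _ hJ0.ne'] at hΨ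
  have hΨ3 : G.Psi Γ₀ (S.ker y₁) cls N (fun w => some (f w)) ≤ 3 * c ^ N := by
    rw [← hc] at hinit
    linarith
  have hfin := hN₀ N (by omega) (by omega) hNe (S.ker y₁) cls hker hcls.lc
    (fun γ γ' w hw => S.nc_ker_zero hG hyM hUc γ γ' hw) f hf c hc0
  rw [← hG.norm_pow_sq hΓ hy₁F hy₁s hker hf k] at hfin
  have hsq : ‖(S.T f y₁ ^ k) S.Ω‖ ^ 2 ≤ (3 * c ^ k) ^ 2 := by
    have e1 : c ^ (2 * k) / c ^ N * G.Psi Γ₀ (S.ker y₁) cls N (fun w => some (f w))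
        ≤ c ^ (2 * k) / c ^ N * (3 * c ^ N) := by gcongr
    have e2 : c ^ (2 * k) / c ^ N * (3 * c ^ N) = 3 * c ^ (2 * k) := by field_simp
    have e3 : (3 * c ^ k) ^ 2 = 9 * c ^ (2 * k) := by ring
    have e4 : 0 < c ^ (2 * k) := by positivity
    linarith
  have hle : ‖(S.T f y₁ ^ k) S.Ω‖ ≤ 3 * c ^ k := by
    exact (pow_le_pow_iff_left₀ (norm_nonneg _) (by positivity) two_ne_zero).1 hsq
  have hKN1 : S.KN K (S.T f y₁) ≤ 2 * c + τ / 2 := by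
    refine (S.KN_le_pow hK (S.T_mem f hy₁M) (S.T_sa hf hy₁s) (c := 2 * c) (by positivity) hk1).trans
      ?_
    have e1 : K * ‖(S.T f y₁ ^ k) S.Ω‖ / (2 * c) ^ (k - 1) ≤ K * (3 * c ^ k) / (2 * c) ^ (k - 1) := by
      gcongr
    have e2 : K * (3 * c ^ k) / (2 * c) ^ (k - 1) = K * 3 * (2 * c) / 2 ^ k := by
      obtain ⟨j, rfl⟩ : ∃ j, k = j + 1 := ⟨k - 1, by omega⟩
      rw [Nat.add_sub_cancel, mul_pow]
      field_simp
      ring
    linarith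
  have hKN2 : S.KN K (S.T f (y - y₁)) ≤ τ / 2 := by
    refine (S.KN_le_apply hK _).trans ?_
    have e1 : K * ‖S.T f (y - y₁) S.Ω‖ ≤ (K + 1) * (2 * ε) := by
      have := (S.norm_T_apply_le hf (sub_mem hyM hy₁M)).trans hcut
      gcongr
      linarith
    have e2 : (K + 1) * (2 * ε) = τ / 2 := by rw [hε]; field_simp; ring
    linarith
  have e : S.T f y = S.T f y₁ + S.T f (y - y₁) := by rw [← S.T_add, add_sub_cancel]
  rw [e, ← hc2]
  linarith [S.KN_add_le hK (S.T f y₁) (S.T f (y - y₁))]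

/-- PROOF.  `s = ‖x‖ > 0`, `β = 1 / √r`.  `en` gives `y`; `x₁ = x - y` is diffuse (`dif_of_orth`),
`EE x = EE y` (`γ = 1`).  Choose `k ≥ 1` with `K * 40 s β / 2 ^ k ≤ s β`, then `η₁` small with
`2 (2 s + η₁) β + k η₁ ≤ 5 s β`, `K η₁ ≤ s β`; `exists_blocks` gives `P, x'`.  `Φ f a = KN K (Ta f a x')`,
`B = 41 s β` (`Ta_congr`, `KN_Ta_mono`, `expect_KN_le` with `c = 40 s β`).  `y'` from `en` with `η₁`,
`y₀ = (2 s)⁻¹ (y' - EE y')`, `nc_game` with the constant `2 s K`-scaling (`KN_smul`).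
`T f x - EE x = 2 s T f y₀ + T f x' + [T f (y - y') + T f (x₁ - x') - EE (y - y')]` (`T_ι`), and the bracket is
at most `3 η₁` at `Ω`. -/
theorem nc_KN (hr : 4 ≤ Fintype.card C) {x : H →L[ℂ] H} (hx : x ∈ S.M) (hs : IsSelfAdjoint x)
    {K : ℝ} (hK : 0 ≤ K) :
    ∃ f : X → C, IsLocallyConstant f ∧
      S.KN K (S.T f x - S.EE x) ≤ 15500 / √(Fintype.card C) * ‖x‖ := by
  classical
  have hr2 : (2 : ℝ) ≤ √(Fintype.card C) := by
    refine Real.le_sqrt_of_sq_le ?_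
    exact_mod_cast hr
  have hr0 : (0 : ℝ) < √(Fintype.card C) := by linarith
  by_cases hx0 : x = 0
  · refine ⟨fun _ => Classical.arbitrary C, IsLocallyConstant.const _, ?_⟩
    refine (S.KN_le_apply hK _).trans ?_
    have e1 : S.T (fun _ => Classical.arbitrary C) x = 0 :=
      norm_le_zero_iff.1 ((S.norm_T_le (IsLocallyConstant.const _) x).trans (by simp [hx0]))
    have e2 : S.EE x = 0 := norm_le_zero_iff.1 ((S.norm_EE_le x).trans (by simp [hx0]))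
    rw [e1, e2]
    simp [hx0]
  set s : ℝ := ‖x‖ with hsd
  have hs0 : 0 < s := norm_pos_iff.2 hx0
  set β : ℝ := 1 / √(Fintype.card C) with hβ
  have hβ0 : 0 < β := by positivity
  have hβ1 : β ≤ 1 / 2 := by rw [hβ]; gcongr
  obtain ⟨y, hyM, hys, hyn, hyo, hap⟩ := S.en hx hs
  have hx₁M : x - y ∈ S.M := sub_mem hx hyM
  have hx₁s : IsSelfAdjoint (x - y) := hs.sub hys
  have hx₁n : ‖x - y‖ ≤ 2 * s := (norm_sub_le _ _).trans (by linarith)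
  have hdif : S.Dif (x - y) := S.dif_of_orth hx₁M hyo
  have hEE : S.EE x = S.EE y := by
    have h := hyo 1
    rw [op_one, star_one, one_mul] at h
    have h' := S.ι_cE hx₁M
    rw [h, map_zero, S.nc_EE_sub] at h'
    exact sub_eq_zero.1 h'.symm
  obtain ⟨k, hk1, hk⟩ := nc_exists_pow (K * 40) one_pos
  set η : ℝ := s * β / (k + 1 + K) with hη
  have hden : (0 : ℝ) < k + 1 + K := by positivity
  have hη0 : 0 < η := by positivity
  have hηe : (k + 1 + K) * η = s * β := by rw [hη]; field_simp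
  have hKη : K * η ≤ s * β := by
    have : (0 : ℝ) ≤ (k + 1) * η := by positivity
    linarith
  have hkη : (k + 1) * η ≤ s * β := by
    have : (0 : ℝ) ≤ K * η := by positivity
    linarith
  obtain ⟨P, x', hx'M, hx's, hx'n, hx'0, hx'b, hx'a⟩ := S.exists_blocks hx₁M hx₁s hdif hη0
  obtain ⟨Γ₀, y', hΓ, hy'F, hy's, hy'n, hy'a⟩ := hap η hη0
  obtain ⟨G, hG⟩ := S.exists_gd
  have hy'M : y' ∈ S.M := hy'F.mem
  have h2s : ((2 * s : ℝ) : ℂ) ≠ 0 := by exact_mod_cast (by positivity : 2 * s ≠ 0)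
  set y₀ : H →L[ℂ] H := ((2 * s : ℝ) : ℂ)⁻¹ • (y' - S.EE y') with hy₀
  have hy₀F : S.FP Γ₀ y₀ := by
    refine FP.smul ?_ _
    rw [← S.ι_cE hy'M, sub_eq_add_neg, ← map_neg]
    exact hy'F.add (fp_ι hΓ.one _)
  have hy₀s : IsSelfAdjoint y₀ := by
    refine IsSelfAdjoint.smul ?_ (hy's.sub (S.nc_EE_sa hy's))
    rw [← Complex.ofReal_inv]
    exact Complex.conj_ofReal _
  have hy₀n : ‖y₀‖ ≤ 1 := by
    rw [hy₀, norm_smul, norm_inv, Complex.norm_real, Real.norm_of_nonneg (by positivity),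
      inv_mul_le_one₀ (by positivity)]
    linarith [norm_sub_le y' (S.EE y'), S.norm_EE_le y']
  have hy₀0 : S.cE y₀ = 0 := by
    have hm := S.nc_EE_mem hy'M
    rw [hy₀, S.cE_smul _ (sub_mem hy'M hm), S.cE_sub hy'M hm]
    conv_lhs => rw [← S.ι_cE hy'M, S.cE_ι]
    simp
  obtain ⟨f, hf, hΦ, hKN⟩ := S.nc_game hΓ hy₀F hy₀s hy₀n hy₀0 hr hK hβ0
    (fun f a => S.KN K (S.Ta f a x')) P.lc
    (fun f f' a _ _ _ h => by rw [S.Ta_congr h])
    (fun f a₀ a₁ a₂ U hf ha hU hP h1 h2 => S.KN_Ta_mono hK hx'M hx'0 f a₀ a₁ a₂ U hf ha hU hP h1 h2)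
    (B := 41 * (s * β)) (fun ι _ _ P' hP' hPP => by
      refine (S.expect_KN_le hK hx'M hx's hη0.le hx'b (c := 40 * (s * β)) (by positivity) hk1 ι P'
        hP' hPP).trans ?_
      have e1 : 4 * (2 * ‖x'‖ / √(Fintype.card C) + k * η) ≤ 20 * (s * β) := by
        have e0 : 2 * ‖x'‖ / √(Fintype.card C) = 2 * ‖x'‖ * β := by rw [hβ]; ring
        have e2 : ‖x'‖ * β ≤ (2 * s + η) * β := by gcongr; linarith
        have e3 : η * β ≤ η * (1 / 2) := by gcongr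
        rw [e0]
        nlinarith
      have e4 : K * (4 * (2 * ‖x'‖ / √(Fintype.card C) + k * η)) ^ k / (40 * (s * β)) ^ (k - 1)
          ≤ K * (20 * (s * β)) ^ k / (40 * (s * β)) ^ (k - 1) := by gcongr
      have e5 : K * (20 * (s * β)) ^ k / (40 * (s * β)) ^ (k - 1) = K * 40 / 2 ^ k * (s * β) := by
        obtain ⟨j, rfl⟩ : ∃ j, k = j + 1 := ⟨k - 1, by omega⟩
        rw [Nat.add_sub_cancel, show 40 * (s * β) = 2 * (20 * (s * β)) by ring, mul_pow 2]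
        field_simp
        ring
      have e6 : K * 40 / 2 ^ k * (s * β) ≤ 1 * (s * β) := by gcongr
      linarith)
  refine ⟨f, hf, ?_⟩
  have hΦ' : S.KN K (S.T f x') ≤ 41 * (s * β) := by
    have h := S.Ta_const hf 1 x'
    simp only [Complex.ofReal_one, one_pow, one_smul] at h
    rwa [← h]
  have hT : S.T f y' = ((2 * s : ℝ) : ℂ) • S.T f y₀ + S.EE y' := by
    rw [← S.T_smul, hy₀, smul_inv_smul₀ h2s, S.T_sub]
    conv_rhs => rw [← S.ι_cE hy'M, S.T_ι hf]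
    abel
  have e : S.T f x - S.EE x = ((2 * s : ℝ) : ℂ) • S.T f y₀ + (S.T f x' +
      (S.T f (y - y') + S.T f (x - y - x') - S.EE (y - y'))) := by
    rw [S.nc_EE_sub, hEE, S.T_sub, S.T_sub, S.T_sub, hT]
    abel
  have hA : S.KN K (((2 * s : ℝ) : ℂ) • S.T f y₀) ≤ 2 * s * (7680 * β + β) := by
    rw [S.KN_smul hK (by positivity)]
    have e0 : 7680 / √(Fintype.card C) = 7680 * β := by rw [hβ]; ring
    rw [e0] at hKN
    gcongr
  have hB : S.KN K (S.T f (y - y') + S.T f (x - y - x') - S.EE (y - y')) ≤ 3 * (s * β) := by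
    refine (S.KN_le_apply hK _).trans ?_
    have a1 := (S.norm_T_apply_le hf (sub_mem hyM hy'M)).trans hy'a
    have a2 := (S.norm_T_apply_le hf (sub_mem hx₁M hx'M)).trans hx'a
    have a3 := (S.norm_EE_apply_le (sub_mem hyM hy'M)).trans hy'a
    have a4 : ‖(S.T f (y - y') + S.T f (x - y - x') - S.EE (y - y')) S.Ω‖ ≤ η + η + η := by
      refine (norm_sub_le _ _).trans (add_le_add ((norm_add_le _ _).trans (add_le_add a1 a2)) a3)
    have a5 : K * ‖(S.T f (y - y') + S.T f (x - y - x') - S.EE (y - y')) S.Ω‖ ≤ K * (η + η + η) := by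
      gcongr
    linarith
  have e0 : 15500 / √(Fintype.card C) * s = 15500 * (s * β) := by rw [hβ]; ring
  have hsβ : 0 < s * β := by positivity
  rw [e, e0]
  refine (S.KN_add_le hK _ _).trans ?_
  have := S.KN_add_le hK (S.T f x') (S.T f (y - y') + S.T f (x - y - x') - S.EE (y - y'))
  nlinarith

/-- `nc_KN` with large `K`, `exists_of_KN_lt`; `x = 0` is trivial. -/
theorem nc (hr : 4 ≤ Fintype.card C) {x : H →L[ℂ] H} (hx : x ∈ S.M) (hs : IsSelfAdjoint x)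
    {η : ℝ} (hη : 0 < η) :
    ∃ f : X → C, IsLocallyConstant f ∧ ∃ b ∈ S.M, IsSelfAdjoint b ∧
      ‖S.T f x - S.EE x - b‖ ≤ 16000 / √(Fintype.card C) * ‖x‖ ∧ ‖b S.Ω‖ ≤ η := by
  have hr0 : (0 : ℝ) < √(Fintype.card C) := Real.sqrt_pos.2 (by exact_mod_cast (by omega))
  by_cases hx0 : x = 0
  · refine ⟨fun _ => Classical.arbitrary C, IsLocallyConstant.const _, 0, zero_mem _,
      IsSelfAdjoint.zero _, ?_, by simpa using hη.le⟩
    have e1 : S.T (fun _ => Classical.arbitrary C) x = 0 :=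
      norm_le_zero_iff.1 ((S.norm_T_le (IsLocallyConstant.const _) x).trans (by simp [hx0]))
    have e2 : S.EE x = 0 := norm_le_zero_iff.1 ((S.norm_EE_le x).trans (by simp [hx0]))
    rw [e1, e2]
    simp [hx0]
  have hs0 : 0 < ‖x‖ := norm_pos_iff.2 hx0
  set A : ℝ := 16000 / √(Fintype.card C) * ‖x‖ with hA
  have hA0 : 0 < A := by positivity
  obtain ⟨f, hf, h⟩ := S.nc_KN hr hx hs (K := A / η) (by positivity)
  have hlt : 15500 / √(Fintype.card C) * ‖x‖ < A := by rw [hA]; gcongr; norm_num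
  obtain ⟨b₁, hb₁, hb₁s, hb⟩ := S.exists_of_KN_lt (h.trans_lt hlt)
  have h0 : 0 ≤ A / η * ‖(S.T f x - S.EE x - b₁) S.Ω‖ := by positivity
  refine ⟨f, hf, S.T f x - S.EE x - b₁, sub_mem (sub_mem (S.T_mem f hx) (S.nc_EE_mem hx)) hb₁,
    ((S.T_sa hf hs).sub (S.nc_EE_sa hs)).sub hb₁s, ?_, ?_⟩
  · rw [sub_sub_cancel]
    linarith
  · have h1 : A / η * ‖(S.T f x - S.EE x - b₁) S.Ω‖ ≤ A := by linarith [norm_nonneg b₁]
    rw [div_mul_eq_mul_div, div_le_iff₀ hη] at h1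
    exact le_of_mul_le_mul_left h1 hA0

end NS

end Crest.Agent.R109
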