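import Crest.Agent.R109.NBasic

/-! Row 109: the normaliser group and its groupoid data. -/

set_option autoImplicit false
set_option linter.unusedSectionVars false

namespace Crest.Agent.R109

open Crest.Agent.R124 Filter Topology Function
open scoped BigOperators ComplexConjugate InnerProductSpace ComplexOrder Pointwise

variable {X : Type*} [TopologicalSpace X] [CompactSpace X] [T2Space X] [TotallyDisconnectedSpace X]
  {H : Type*} [NormedAddCommGroup H] [InnerProductSpace ℂ H] [CompleteSpace H]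

/-- Unital `*`-endomorphisms of `C(X)` are compositions (`WeakDual.CharacterSpace.homeoEval`). -/
theorem exists_comp_of_hom (φ : C(X, ℂ) →⋆ₐ[ℂ] C(X, ℂ)) :
    ∃ τ : X → X, Continuous τ ∧ ∀ F w, φ F w = F (τ w) := by
  let e := WeakDual.CharacterSpace.homeoEval X ℂ
  refine ⟨fun w => e.symm (WeakDual.CharacterSpace.compContinuousMap φ (e w)), by fun_prop,
    fun F w => ?_⟩
  have h := e.apply_symm_apply (WeakDual.CharacterSpace.compContinuousMap φ (e w))
  exact (congrArg (fun χ : WeakDual.characterSpace ℂ C(X, ℂ) => χ F) h).symm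

/-- `C(X)` separates points. -/
theorem eq_of_forall_apply {w w' : X} (h : ∀ F : C(X, ℂ), F w = F w') : w = w' := by
  exact (WeakDual.CharacterSpace.homeoEval X ℂ).injective (WeakDual.CharacterSpace.ext h)

namespace NS

variable (S : NS X H)

theorem ngrp_fn_eq {F : X → ℂ} {F' : C(X, ℂ)} (h : ∀ w, F w = F' w) : S.fn F = S.ι F' := by
  rw [← S.fn_coe]; exact congrArg _ (funext h)

theorem ngrp_exists_act {u : H →L[ℂ] H} (hu1 : star u * u = 1) (hu2 : u * star u = 1)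
    (hl : ∀ F, ∃ F', star u * S.ι F * u = S.ι F') :
    ∃ τ : C(X, X), ∀ F : C(X, ℂ), star u * S.ι F * u = S.ι (F.comp τ) := by
  choose φ hφ using hl
  let Φ : C(X, ℂ) →⋆ₐ[ℂ] C(X, ℂ) :=
    { toFun := φ
      map_one' := S.inj (by rw [← hφ, map_one, mul_one, hu1])
      map_mul' := fun F F' => S.inj (by
        rw [map_mul, ← hφ, ← hφ, ← hφ, map_mul]
        simp only [mul_assoc]
        rw [← mul_assoc u (star u), hu2, one_mul])
      map_zero' := S.inj (by rw [← hφ]; simp)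
      map_add' := fun F F' => S.inj (by
        rw [map_add, ← hφ, ← hφ, ← hφ, map_add, mul_add, add_mul])
      commutes' := fun c => S.inj (by
        rw [← hφ, AlgHomClass.commutes, Algebra.algebraMap_eq_smul_one, mul_smul_comm, mul_one,
          smul_mul_assoc, hu1])
      map_star' := fun F => S.inj (by
        rw [map_star, ← hφ, ← hφ, map_star]
        simp [mul_assoc]) }
  obtain ⟨τ, hτ, h⟩ := exists_comp_of_hom Φ
  refine ⟨⟨τ, hτ⟩, fun F => ?_⟩
  rw [hφ]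
  exact congrArg _ (ContinuousMap.ext fun w => h F w)

theorem ngrp_rn_mul {u v : H →L[ℂ] H} (hv2 : v * star v = 1) {τ : C(X, X)}
    (hτ : ∀ F : C(X, ℂ), star v * S.ι F * v = S.ι (F.comp τ))
    (hr : ∀ F, ∃ F', v * S.ι F * star v = S.ι F') {D D' : C(X, ℂ)}
    (hD : ∀ F, S.ψ (u * S.ι F * star u) = S.ψ (S.ι (F * D)))
    (hD' : ∀ F, S.ψ (v * S.ι F * star v) = S.ψ (S.ι (F * D'))) (F : C(X, ℂ)) :
    S.ψ (u * v * S.ι F * star (u * v)) = S.ψ (S.ι (F * (D.comp τ * D'))) := by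
  obtain ⟨F', hF'⟩ := hr F
  have e1 : u * v * S.ι F * star (u * v) = u * S.ι F' * star u := by
    rw [← hF', star_mul]; simp only [mul_assoc]
  have e2 : S.ι (F' * D) = v * S.ι (F * D.comp τ) * star v := by
    rw [map_mul, map_mul, ← hF', ← hτ]
    simp only [mul_assoc]
    rw [hv2, mul_one]
  rw [e1, hD, e2, hD', mul_assoc]

theorem exists_act {u : H →L[ℂ] H} (hu1 : star u * u = 1) (hu2 : u * star u = 1)
    (hl : ∀ F, ∃ F', star u * S.ι F * u = S.ι F') :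
    ∃ τ : X → X, Continuous τ ∧ ∀ F : C(X, ℂ), star u * S.ι F * u = S.fn fun w => F (τ w) := by
  obtain ⟨τ, hτ⟩ := S.ngrp_exists_act hu1 hu2 hl
  exact ⟨τ, τ.continuous, fun F => (hτ F).trans (S.ngrp_fn_eq fun _ => rfl).symm⟩

theorem Nrm.one : S.Nrm 1 := by
  exact ⟨one_mem _, fun F => ⟨F, by simp⟩, fun F => ⟨F, by simp⟩, 1, by simp, fun F => by simp⟩

variable {S} in
/-- The derivative is `(D_u ∘ τ_v) * D_v` (`exists_act`). -/
theorem Nrm.mul {u v : unitary (H →L[ℂ] H)} (hu : S.Nrm u) (hv : S.Nrm v) :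
    S.Nrm ((u * v : unitary (H →L[ℂ] H)) : H →L[ℂ] H) := by
  obtain ⟨τ, hτ⟩ := S.ngrp_exists_act v.2.1 v.2.2 hv.left
  obtain ⟨D, hD0, hD⟩ := hu.rn
  obtain ⟨D', hD0', hD'⟩ := hv.rn
  refine ⟨mul_mem hu.mem hv.mem, fun F => ?_, fun F => ?_, D.comp τ * D', fun w => ?_,
    S.ngrp_rn_mul v.2.2 hτ hv.right hD hD'⟩
  · obtain ⟨F₁, h₁⟩ := hu.left F
    obtain ⟨F₂, h₂⟩ := hv.left F₁
    refine ⟨F₂, ?_⟩
    rw [← h₂, ← h₁, Submonoid.coe_mul, star_mul]; simp only [mul_assoc]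
  · obtain ⟨F₁, h₁⟩ := hv.right F
    obtain ⟨F₂, h₂⟩ := hu.right F₁
    refine ⟨F₂, ?_⟩
    rw [← h₂, ← h₁, Submonoid.coe_mul, star_mul]; simp only [mul_assoc]
  · simp only [ContinuousMap.mul_apply, ContinuousMap.comp_apply, Complex.mul_re, Complex.mul_im,
      (hD0 _).2, (hD0' _).2, mul_zero, zero_mul, sub_zero, add_zero, and_true]
    exact mul_pos (hD0 _).1 (hD0' _).1

variable {S} in
/-- The derivative is `1 / (D_u ∘ τ_{u*})`. -/
theorem Nrm.inv {u : unitary (H →L[ℂ] H)} (hu : S.Nrm u) :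
    S.Nrm ((u⁻¹ : unitary (H →L[ℂ] H)) : H →L[ℂ] H) := by
  have hu1 : star (u : H →L[ℂ] H) * u = 1 := u.2.1
  have hu2 : (u : H →L[ℂ] H) * star (u : H →L[ℂ] H) = 1 := u.2.2
  obtain ⟨σ, hσ⟩ := S.ngrp_exists_act (u := star (u : H →L[ℂ] H)) (by simp)
    (by simp) (by simpa using hu.right)
  simp only [star_star] at hσ
  obtain ⟨D, hD0, hD⟩ := hu.rn
  have hne : ∀ w, D w ≠ 0 := fun w h => by simpa [h] using (hD0 w).1
  let Di : C(X, ℂ) := ⟨fun w => (D w)⁻¹, D.continuous.inv₀ hne⟩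
  have hDi : Di * D = 1 := ContinuousMap.ext fun w => inv_mul_cancel₀ (hne w)
  change S.Nrm (star (u : H →L[ℂ] H))
  refine ⟨star_mem hu.mem, by simpa using hu.right, by simpa using hu.left, Di.comp σ,
    fun w => ?_, fun F => ?_⟩
  · have h1 := (hD0 (σ w)).1
    have h2 := (hD0 (σ w)).2
    have h3 : 0 < Complex.normSq (D (σ w)) := Complex.normSq_pos.mpr (hne _)
    simp only [ContinuousMap.comp_apply, Di, ContinuousMap.coe_mk, Complex.inv_re, Complex.inv_im,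
      h2, neg_zero, zero_div, and_true]
    exact div_pos h1 h3
  · obtain ⟨F', hF'⟩ := hu.left F
    have e1 : (u : H →L[ℂ] H) * S.ι (F' * Di) * star (u : H →L[ℂ] H) = S.ι (F * Di.comp σ) := by
      rw [map_mul, map_mul, ← hF', ← hσ]
      simp only [← mul_assoc]
      rw [hu2, one_mul]
    rw [star_star, hF', ← e1, hD, mul_assoc, hDi, mul_one]

/-- The group. -/
def Γ : Subgroup (unitary (H →L[ℂ] H)) where
  carrier := {u | S.Nrm u}
  one_mem' := Nrm.one S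
  mul_mem' := Nrm.mul
  inv_mem' := Nrm.inv

/-- The operator of a group element. -/
def op (γ : S.Γ) : H →L[ℂ] H := γ.1.1

variable {S}

theorem op_nrm (γ : S.Γ) : S.Nrm (S.op γ) := γ.2

theorem op_mem (γ : S.Γ) : S.op γ ∈ S.M := (op_nrm γ).mem

@[simp] theorem op_one : S.op 1 = 1 := rfl

@[simp] theorem op_mul (γ γ' : S.Γ) : S.op (γ * γ') = S.op γ * S.op γ' := rfl

@[simp] theorem op_inv (γ : S.Γ) : S.op γ⁻¹ = star (S.op γ) := rfl

theorem star_op_mul (γ : S.Γ) : star (S.op γ) * S.op γ = 1 := γ.1.2.1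

theorem op_mul_star (γ : S.Γ) : S.op γ * star (S.op γ) = 1 := γ.1.2.2

/-- PROOF.  `d = EE u` satisfies `d a = (u a u*) d` for `a ∈ A`, so `k = u* d` commutes with `A` and lies in
`A`; `u k = d = EE (u k) = d k = u k k`, so `k` is an idempotent of `C(X)`. -/
theorem exists_EE_op (γ : S.Γ) : ∃ U, IsClopen U ∧ S.EE (S.op γ) = S.op γ * S.pr U := by
  have hm := op_mem γ
  obtain ⟨K, hK⟩ := S.max (star (S.op γ) * S.EE (S.op γ))
    (mul_mem (star_mem hm) (S.ι_cE hm ▸ S.mem _)) fun F => by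
      obtain ⟨F', hF'⟩ := (op_nrm γ).right F
      have e1 : S.op γ * S.ι F = S.ι F' * S.op γ := by
        rw [← hF', mul_assoc, star_op_mul, mul_one]
      have e2 := congrArg S.EE e1
      rw [S.EE_mul_ι, S.EE_ι_mul] at e2
      rw [mul_assoc, e2, ← hF']
      simp only [← mul_assoc]
      rw [star_op_mul, one_mul]
  have e1 : S.op γ * S.ι K = S.EE (S.op γ) := by rw [hK, ← mul_assoc, op_mul_star, one_mul]
  have e2 : S.EE (S.op γ) * S.ι K = S.EE (S.op γ) := by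
    rw [← S.EE_mul_ι, e1, ← S.ι_cE hm, S.EE_ι]
  have e3 : K * K = K := S.inj (by rw [map_mul]; nth_rewrite 1 [hK]; rw [mul_assoc, e2, hK])
  have e4 : IsStarProjection (S.ι K) := by
    refine ⟨by rw [IsIdempotentElem, ← map_mul, e3], (S.ι_sa_iff K).mpr fun w => ?_⟩
    have h : K w * K w = K w := congrArg (fun F : C(X, ℂ) => F w) e3
    rcases eq_or_ne (K w) 0 with h0 | h0
    · simp [h0]
    · rw [(mul_eq_left₀ h0).mp h]; simp
  obtain ⟨U, hU, hU'⟩ := S.exists_pr_eq e4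
  exact ⟨U, hU, by rw [hU', e1]⟩

variable (S)

/-- The groupoid data of `S`. -/
structure IsGd (G : Gd X S.Γ) : Prop where
  act : ∀ (γ : S.Γ) (F : C(X, ℂ)), star (S.op γ) * S.ι F * S.op γ = S.fn fun w => F (G.act γ w)
  c : ∀ γ w, G.c γ w = S.cE (S.op γ) w
  I : ∀ F : X → ℝ, Continuous F → G.I F = (S.ψ (S.fn fun w => F w)).re

variable {S} in
theorem ngrp_ind (γ : S.Γ) : ∃ k : C(X, ℂ), S.EE (S.op γ) = S.op γ * S.ι k ∧
    star (S.cE (S.op γ)) * S.cE (S.op γ) = k ∧ k * k = k ∧ star k = k ∧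
    ∀ w, S.cE (S.op γ) w ≠ 0 → k w = 1 := by
  obtain ⟨U, hU, h⟩ := exists_EE_op γ
  have hp := S.pr_proj hU
  have e1 : cfn (U.indicator 1) * cfn (U.indicator 1) = cfn (U.indicator (1 : X → ℂ)) :=
    S.inj (by rw [map_mul]; exact hp.isIdempotentElem)
  have e2 : star (cfn (U.indicator 1)) = cfn (U.indicator (1 : X → ℂ)) :=
    S.inj (by rw [map_star]; exact hp.isSelfAdjoint)
  have e3 : star (S.cE (S.op γ)) * S.cE (S.op γ) = cfn (U.indicator 1) := S.inj (by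
    rw [map_mul, map_star, S.ι_cE (op_mem γ), h, star_mul, hp.isSelfAdjoint.star_eq, mul_assoc,
      ← mul_assoc (star _), star_op_mul, one_mul]
    exact hp.isIdempotentElem)
  refine ⟨cfn (U.indicator 1), h, e3, e1, e2, fun w hw => ?_⟩
  have h1 : cfn (U.indicator (1 : X → ℂ)) w ≠ 0 := by
    rw [← e3]; simpa using hw
  have h2 := congrArg (fun F : C(X, ℂ) => F w) e1
  exact (mul_eq_left₀ h1).mp h2

/-- PROOF.  `act` from `exists_act`, `Δ γ` the real part of the derivative in `Nrm.rn`.  With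
`EE h = h * pr U` (`exists_EE_op`): `|cE h|² = 1_U`; `cE (g h) 1_U = cE (g * EE h) = cE g * cE h`;
`cE h * F = cE h * (F ∘ act h)` gives `c_fix`; `EE_conj` gives `c_conj`; `ext_ψ` gives `Δ_mul` and `Δ_fix`
(`h F h* = F` for `F` supported in `U`). -/
theorem exists_gd : ∃ G : Gd X S.Γ, S.IsGd G := by
  choose τ hτ using fun γ : S.Γ => S.ngrp_exists_act (star_op_mul γ) (op_mul_star γ) (op_nrm γ).left
  choose D hD0 hD using fun γ : S.Γ => (op_nrm γ).rn
  have hDre : ∀ γ w, (((D γ w).re : ℝ) : ℂ) = D γ w := fun γ w =>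
    Complex.ext (by simp) (by simp [(hD0 γ w).2])
  have ev : ∀ {F F' : C(X, ℂ)}, S.ι F = S.ι F' → ∀ w, F w = F' w := fun h w => by rw [S.inj h]
  refine ⟨{ act := fun γ => τ γ
            act_one := fun w => eq_of_forall_apply fun F => ?_
            act_mul := fun g h w => eq_of_forall_apply fun F => ?_
            act_cont := fun g => (τ g).continuous
            c := fun γ => S.cE (S.op γ)
            c_cont := fun γ => (S.cE (S.op γ)).continuous
            c_norm := fun g w hw => ?_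
            c_one := fun w => by rw [op_one, S.cE_one]; rfl
            c_fix := fun h w hw => eq_of_forall_apply fun F => ?_
            c_mul := fun g h w hw => ?_
            c_inv := fun g w => by rw [op_inv, S.cE_star (op_mem g)]; rfl
            c_conj := fun g h w => ?_
            Δ := fun γ w => (D γ w).re
            Δ_cont := fun γ => by fun_prop
            Δ_pos := fun γ w => (hD0 γ w).1
            Δ_mul := fun g h w => ?_
            Δ_fix := fun h w hw => ?_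
            I := fun F => (S.ψ (S.fn fun w => F w)).re
            I_add := fun F F' hF hF' => ?_
            I_smul := fun t F hF => ?_
            I_mono := fun F F' hF hF' h => S.ψ_fn_mono hF hF' h
            I_one := ?_
            I_tr := fun g F hF => ?_ },
    ⟨fun γ F => (hτ γ F).trans (S.ngrp_fn_eq fun _ => rfl).symm, fun _ _ => rfl, fun _ _ => rfl⟩⟩
  · have := hτ 1 F
    simp only [op_one, star_one, one_mul, mul_one] at this
    exact (ev this w).symm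
  · have h1 := hτ (g * h) F
    have h2 := hτ h (F.comp (τ g))
    rw [← hτ g F] at h2
    rw [op_mul, star_mul] at h1
    simp only [mul_assoc] at h1 h2
    exact ev (h1.symm.trans h2) w
  · obtain ⟨k, -, h2, -, -, h5⟩ := ngrp_ind g
    have h1 := congrArg (fun F : C(X, ℂ) => ‖F w‖) h2
    simp only [ContinuousMap.mul_apply, ContinuousMap.star_apply, norm_mul, norm_star, h5 w hw,
      norm_one] at h1
    nlinarith [norm_nonneg (S.cE (S.op g) w)]
  · have e1 : S.ι F * S.op h = S.op h * S.ι (F.comp (τ h)) := by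
      rw [← hτ]; simp only [← mul_assoc]; rw [op_mul_star, one_mul]
    have e2 := congrArg S.cE e1
    rw [S.cE_ι_mul _ (op_mem h), S.cE_mul_ι _ (op_mem h)] at e2
    have e3 := congrArg (fun F : C(X, ℂ) => F w) e2
    simp only [ContinuousMap.mul_apply, ContinuousMap.comp_apply] at e3
    rw [mul_comm] at e3
    exact (mul_left_cancel₀ hw e3).symm
  · obtain ⟨k, h1, -, -, -, h5⟩ := ngrp_ind h
    have e1 : S.op (g * h) * S.ι k = S.op g * S.ι (S.cE (S.op h)) := by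
      rw [S.ι_cE (op_mem h), h1, op_mul, mul_assoc]
    have e2 := congrArg S.cE e1
    rw [S.cE_mul_ι _ (op_mem _), S.cE_mul_ι _ (op_mem _)] at e2
    have e3 := congrArg (fun F : C(X, ℂ) => F w) e2
    simpa only [ContinuousMap.mul_apply, h5 w hw, mul_one] using e3
  · have e1 := S.EE_conj (op_mem g) (star_op_mul g) (op_mul_star g) (op_nrm g).left
      (op_nrm g).right (op_mem h)
    have e2 := hτ g (S.cE (S.op (g * h * g⁻¹)))
    rw [S.ι_cE (op_mem _), op_mul, op_mul, op_inv, e1, ← S.ι_cE (op_mem h)] at e2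
    simp only [← mul_assoc] at e2
    rw [star_op_mul, one_mul, mul_assoc, star_op_mul, mul_one] at e2
    exact (ev e2 w).symm
  · have e1 : D (g * h) = (D g).comp (τ h) * D h := S.ext_ψ fun F => by
      rw [← hD, op_mul]
      exact S.ngrp_rn_mul (op_mul_star h) (hτ h) (op_nrm h).right (hD g) (hD h) F
    simp only [e1, ContinuousMap.mul_apply, ContinuousMap.comp_apply, Complex.mul_re,
      (hD0 _ _).2, mul_zero, sub_zero]
  · obtain ⟨k, h1, h2, h3, h4, h5⟩ := ngrp_ind h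
    have e1 : k * D h = k := S.ext_ψ fun F => by
      rw [← mul_assoc, ← hD]
      congr 1
      have e2 : S.op h * S.ι (F * k) * star (S.op h)
          = (S.op h * S.ι k) * S.ι F * star (S.op h * S.ι k) := by
        rw [star_mul, ← map_star, h4]
        simp only [mul_assoc]
        congr 1
        simp only [← mul_assoc, ← map_mul]
        congr 2
        rw [mul_comm k F, mul_assoc, h3]
      rw [e2, ← h1, ← S.ι_cE (op_mem h), ← map_star, ← map_mul, ← map_mul, ← h2]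
      congr 1
      ring
    have e3 := congrArg (fun F : C(X, ℂ) => F w) e1
    simp only [ContinuousMap.mul_apply, h5 w hw, one_mul] at e3
    simp [e3]
  · have := S.fn_add (F := fun w => (F w : ℂ)) (F' := fun w => (F' w : ℂ)) (by fun_prop)
      (by fun_prop)
    simp only [Complex.ofReal_add, ← this, S.ψ_add, Complex.add_re]
  · have := S.fn_smul (t : ℂ) (F := fun w => (F w : ℂ)) (by fun_prop)
    simp only [Complex.ofReal_mul, ← this, S.ψ_smul, Complex.re_ofReal_mul]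
  · have h1 := S.norm_sq_eq_ψ 1
    simp only [Complex.ofReal_one, S.fn_one]
    simp only [star_one, mul_one, one_apply_eq_self] at h1
    rw [← h1]
    exact pow_le_one₀ (norm_nonneg _) S.norm_le
  · let F' : C(X, ℂ) := ⟨fun w => (F w : ℂ), by fun_prop⟩
    have e1 : S.op g * S.ι (F'.comp (τ g)) * star (S.op g) = S.ι F' := by
      rw [← hτ]; simp only [← mul_assoc]
      rw [op_mul_star, one_mul, mul_assoc, op_mul_star, mul_one]
    have e2 := hD g (F'.comp (τ g))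
    rw [e1] at e2
    have e3 : S.fn (fun w => (F w : ℂ)) = S.ι F' := S.ngrp_fn_eq fun _ => rfl
    have e4 : S.fn (fun w => ((F (τ g w) * (D g w).re : ℝ) : ℂ)) = S.ι (F'.comp (τ g) * D g) :=
      S.ngrp_fn_eq fun w => by simp [F', hDre]
    rw [e3, e2, e4]

private theorem ngB_move {G : Gd X S.Γ} (hG : S.IsGd G) (γ : S.Γ) {V : Set X} (hV : IsClopen V)
    (hne : V.Nonempty) (hc : ∀ w ∈ V, G.c γ w = 0) : ∃ w ∈ V, G.act γ w ≠ w := by
  by_contra hcon
  push Not at hcon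
  have h1 : ∀ F : C(X, ℂ), S.ι F * (S.op γ * S.pr V) = S.op γ * S.pr V * S.ι F := fun F => by
    have h2 : S.fn (fun w => F (G.act γ w)) * S.pr V = S.pr V * S.ι F := by
      rw [S.pr_mul_ι hV, Masa.pr, S.fn_mul (F := fun w => F (G.act γ w))
        (F.continuous.comp (G.act_cont γ))
        (hV.continuous_indicator continuous_one)]
      congr 1
      funext w
      by_cases hw : w ∈ V <;> simp [hw, hcon]
    rw [mul_assoc, ← h2, ← hG.act, ← mul_assoc, ← mul_assoc, ← mul_assoc, ← mul_assoc,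
      op_mul_star, one_mul]
  obtain ⟨K, hK⟩ := S.max _ (mul_mem (op_mem γ) (S.pr_mem V)) h1
  have h2 : S.EE (S.op γ * S.pr V) = 0 := by
    rw [Masa.pr, Masa.fn, S.EE_mul_ι, ← S.ι_cE (op_mem γ), S.ι_comm]
    change S.pr V * _ = 0
    rw [S.pr_mul_ι hV, ← S.fn_zero]
    congr 1
    funext w
    by_cases hw : w ∈ V
    · rw [Set.indicator_of_mem hw, ← hG.c, hc w hw]
    · rw [Set.indicator_of_notMem hw]
  rw [← hK, S.EE_ι, hK] at h2
  have h3 : S.pr V = 0 := by rw [← one_mul (S.pr V), ← star_op_mul γ, mul_assoc, h2, mul_zero]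
  exact hne.ne_empty ((S.pr_eq_zero_iff hV).1 h3)

private theorem ngB_shrink {G : Gd X S.Γ} (hG : S.IsGd G) (γ : S.Γ) {V : Set X} (hV : IsClopen V)
    (hne : V.Nonempty) : ∃ W, IsClopen W ∧ W.Nonempty ∧ W ⊆ V ∧
      ((∀ w ∈ W, G.c γ w ≠ 0) ∨ ∀ w ∈ W, G.act γ w ∉ W) ∧
      ∀ w ∈ W, ∀ w' ∈ W, SignType.sign (G.Δ γ w - 1) = SignType.sign (G.Δ γ w' - 1) := by
  obtain ⟨V₁, h1, h2, h3, h4⟩ : ∃ W, IsClopen W ∧ W.Nonempty ∧ W ⊆ V ∧
      ∀ w ∈ W, ∀ w' ∈ W, SignType.sign (G.Δ γ w - 1) = SignType.sign (G.Δ γ w' - 1) := by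
    by_cases h : ∀ w ∈ V, G.Δ γ w = 1
    · exact ⟨V, hV, hne, subset_rfl, fun w hw w' hw' => by rw [h w hw, h w' hw']⟩
    · push Not at h
      obtain ⟨w, hw, hw'⟩ := h
      rcases lt_or_gt_of_ne hw' with h | h
      · obtain ⟨W, k1, k2, k3⟩ := exists_clopen_nhds
          (hV.isOpen.inter (isOpen_lt (G.Δ_cont γ) continuous_const)) ⟨hw, h⟩
        exact ⟨W, k1, ⟨w, k2⟩, fun a ha => (k3 ha).1, fun a ha b hb => by
          rw [sign_neg (sub_neg.2 (k3 ha).2), sign_neg (sub_neg.2 (k3 hb).2)]⟩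
      · obtain ⟨W, k1, k2, k3⟩ := exists_clopen_nhds
          (hV.isOpen.inter (isOpen_lt continuous_const (G.Δ_cont γ))) ⟨hw, h⟩
        exact ⟨W, k1, ⟨w, k2⟩, fun a ha => (k3 ha).1, fun a ha b hb => by
          rw [sign_pos (sub_pos.2 (k3 ha).2), sign_pos (sub_pos.2 (k3 hb).2)]⟩
  obtain ⟨W, k1, k2, k3, k4⟩ : ∃ W, IsClopen W ∧ W.Nonempty ∧ W ⊆ V₁ ∧
      ((∀ w ∈ W, G.c γ w ≠ 0) ∨ ∀ w ∈ W, G.act γ w ∉ W) := by
    by_cases h : ∀ w ∈ V₁, G.c γ w = 0
    · obtain ⟨w, hw, hw'⟩ := ngB_move S hG γ h1 h2 h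
      obtain ⟨O₁, O₂, o1, o2, m1, m2, hd⟩ := t2_separation hw'
      obtain ⟨W, k1, k2, k3⟩ := exists_clopen_nhds
        (h1.isOpen.inter (o2.inter (o1.preimage (G.act_cont γ)))) ⟨hw, m2, m1⟩
      exact ⟨W, k1, ⟨w, k2⟩, fun a ha => (k3 ha).1, Or.inr fun a ha ha' =>
        Set.disjoint_left.1 hd (k3 ha).2.2 (k3 ha').2.1⟩
    · push Not at h
      obtain ⟨w, hw, hw'⟩ := h
      obtain ⟨W, k1, k2, k3⟩ := exists_clopen_nhds
        (h1.isOpen.inter (isOpen_ne_fun (G.c_cont γ) continuous_const)) ⟨hw, hw'⟩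
      exact ⟨W, k1, ⟨w, k2⟩, fun a ha => (k3 ha).1, Or.inl fun a ha => (k3 ha).2⟩
  exact ⟨W, k1, k2, k3.trans h3, k4, fun a ha b hb => h4 a (k3 ha) b (k3 hb)⟩

variable {S} in
/-- PROOF.  `exhaust`; `V` is good if for all `γ ∈ B`: (`c γ ≠ 0` on `V` or `act γ '' V` is disjoint from
`V`) and `sign (Δ γ - 1)` is constant on `V`.  Shrink `V` for one `γ` after the other.  If `c γ = 0` on
`V` then `γ` moves a point of `V`: otherwise `op γ * pr V` commutes with `A`, lies in `A`, and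
`op γ * pr V = EE (op γ) * pr V = 0`. -/
theorem IsGd.exists_cls {G : Gd X S.Γ} (hG : S.IsGd G) (B : Finset S.Γ) {η : ℝ} (hη : 0 < η) :
    ∃ cls : X → ℕ, G.Cls B cls ∧ ‖S.pr (cls ⁻¹' {0}) S.Ω‖ ≤ η := by
  classical
  obtain ⟨cls, h1, h2, h3⟩ := S.exhaust (fun W => ∀ γ ∈ B,
      ((∀ w ∈ W, G.c γ w ≠ 0) ∨ ∀ w ∈ W, G.act γ w ∉ W) ∧
      ∀ w ∈ W, ∀ w' ∈ W, SignType.sign (G.Δ γ w - 1) = SignType.sign (G.Δ γ w' - 1))
    (fun V hV hne => by
      induction B using Finset.induction_on with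
      | empty => exact ⟨V, hV, hne, subset_rfl, by simp⟩
      | insert γ B _ ih =>
        obtain ⟨W, k1, k2, k3, k4⟩ := ih
        obtain ⟨W', l1, l2, l3, l4⟩ := ngB_shrink S hG γ k1 k2
        refine ⟨W', l1, l2, l3.trans k3, fun γ' hγ' => ?_⟩
        rcases Finset.mem_insert.1 hγ' with rfl | hγ'
        · exact l4
        · exact ⟨(k4 γ' hγ').1.imp (fun h w hw => h w (l3 hw))
            fun h w hw hw' => h w (l3 hw) (l3 hw'),
            fun a ha b hb => (k4 γ' hγ').2 a (l3 ha) b (l3 hb)⟩) S.Ω hη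
  refine ⟨cls, ⟨h1, fun γ hγ w hw hw' => ?_, fun γ hγ => ?_⟩, h3⟩
  · rcases (h2 (cls w) hw ⟨w, rfl⟩ γ hγ).1 with h | h
    · exact h w rfl
    · exact absurd hw' (h w rfl)
  · refine (IsLocallyConstant.iff_exists_open _).2 fun w =>
      ⟨cls ⁻¹' {cls w}, h1 _, rfl, fun w' hw' => ?_⟩
    have e : cls w' = cls w := hw'
    rw [e]
    split_ifs with h
    · rfl
    · exact (h2 (cls w) h ⟨w, rfl⟩ γ hγ).2 w' hw' w rfl

private theorem ngB_norm_sq (y : H →L[ℂ] H) (a : H) : ‖y a‖ ^ 2 = (⟪a, (star y * y) a⟫_ℂ).re := by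
  rw [ContinuousLinearMap.mul_apply, ContinuousLinearMap.star_eq_adjoint,
    ContinuousLinearMap.adjoint_inner_right, inner_self_eq_norm_sq_to_K]
  norm_cast

private theorem ngB_dom {a b : H} {c : ℝ} (hc : 0 ≤ c)
    (h : ∀ U, IsClopen U → ‖S.pr U a‖ ^ 2 ≤ c * ‖S.pr U b‖ ^ 2) (F : C(X, ℂ)) :
    ‖S.ι F a‖ ^ 2 ≤ c * ‖S.ι F b‖ ^ 2 := by
  classical
  have hp : ∀ U, IsClopen U → ∀ v : H, (⟪v, S.pr U v⟫_ℂ).re = ‖S.pr U v‖ ^ 2 := fun U hU v => by
    rw [ngB_norm_sq, (S.pr_proj hU).isSelfAdjoint.star_eq, (S.pr_proj hU).isIdempotentElem.eq]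
  rw [ngB_norm_sq, ngB_norm_sq, ← map_star, ← map_mul]
  set G : C(X, ℂ) := star F * F with hG
  refine le_of_forall_pos_le_add fun ε hε => ?_
  have hpos : 0 < ‖a‖ ^ 2 + c * ‖b‖ ^ 2 + 1 := by positivity
  obtain ⟨P, hP⟩ := exists_part_osc G (div_pos hε hpos)
  set δ := ε / (‖a‖ ^ 2 + c * ‖b‖ ^ 2 + 1) with hδ
  have hδ0 : 0 < δ := div_pos hε hpos
  obtain ⟨g, hg0, hg⟩ : ∃ g : Fin P.n → ℝ, (∀ i, 0 ≤ g i) ∧ ∀ w, ‖G w - g (P.f w)‖ ≤ δ := by
    have key : ∀ i : Fin P.n, ∃ t : ℝ, 0 ≤ t ∧ ∀ w, P.f w = i → ‖G w - t‖ ≤ δ := fun i => by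
      by_cases hi : ∃ w, P.f w = i
      · obtain ⟨w, hw⟩ := hi
        refine ⟨Complex.normSq (F w), Complex.normSq_nonneg _, fun w' hw' => ?_⟩
        have : ((Complex.normSq (F w) : ℝ) : ℂ) = G w := by
          simp [hG, Complex.normSq_eq_conj_mul_self]
        rw [this]
        exact (hP w' w (hw'.trans hw.symm)).le
      · exact ⟨0, le_rfl, fun w hw => absurd ⟨w, hw⟩ hi⟩
    choose g h1 h2 using key
    exact ⟨g, h1, fun w => h2 _ w rfl⟩
  have hcont : Continuous fun w => (g (P.f w) : ℂ) := (P.lc.comp fun i => (g i : ℂ)).continuous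
  have h1 : S.fn (fun w => (g (P.f w) : ℂ)) = ∑ i, (g i : ℂ) • S.pr (P.f ⁻¹' {i}) := by
    have : ∀ i, (g i : ℂ) • S.pr (P.f ⁻¹' {i})
        = S.fn fun w => (g i : ℂ) * (P.f ⁻¹' {i}).indicator 1 w := fun i =>
      S.fn_smul _ ((P.clopen i).continuous_indicator continuous_one)
    simp only [this]
    rw [S.fn_sum (F := fun i w => (g i : ℂ) * (P.f ⁻¹' {i}).indicator 1 w) _ fun i _ =>
      continuous_const.mul ((P.clopen i).continuous_indicator continuous_one)]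
    congr 1
    funext w
    rw [Finset.sum_eq_single (P.f w) (fun i _ hi => by simp [Ne.symm hi]) (by simp)]
    simp
  have h2 : S.ι G = S.fn (fun w => (g (P.f w) : ℂ)) + S.fn fun w => G w - g (P.f w) := by
    rw [S.fn_add (F' := fun w => G w - g (P.f w)) hcont (G.continuous.sub hcont), ← S.fn_coe]
    congr 1
    funext w
    ring
  have h3 : ‖S.fn fun w => G w - g (P.f w)‖ ≤ δ := S.norm_fn_le hδ0.le hg
  have h4 : ∀ v : H, |(⟪v, (S.fn fun w => G w - g (P.f w)) v⟫_ℂ).re| ≤ δ * ‖v‖ ^ 2 := fun v => by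
    refine (Complex.abs_re_le_norm _).trans ((norm_inner_le_norm _ _).trans ?_)
    have := ContinuousLinearMap.le_of_opNorm_le _ h3 v
    nlinarith [norm_nonneg v]
  have h5 : ∀ v : H, (⟪v, S.fn (fun w => (g (P.f w) : ℂ)) v⟫_ℂ).re
      = ∑ i, g i * ‖S.pr (P.f ⁻¹' {i}) v‖ ^ 2 := fun v => by
    rw [h1, ContinuousLinearMap.sum_apply, inner_sum, Complex.re_sum]
    refine Finset.sum_congr rfl fun i _ => ?_
    rw [ContinuousLinearMap.smul_apply, inner_smul_right, Complex.re_ofReal_mul, hp _ (P.clopen i)]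
  have h6 : ∑ i, g i * ‖S.pr (P.f ⁻¹' {i}) a‖ ^ 2 ≤ c * ∑ i, g i * ‖S.pr (P.f ⁻¹' {i}) b‖ ^ 2 := by
    rw [Finset.mul_sum]
    refine Finset.sum_le_sum fun i _ => ?_
    rw [mul_left_comm]
    exact mul_le_mul_of_nonneg_left (h _ (P.clopen i)) (hg0 i)
  rw [h2]
  simp only [ContinuousLinearMap.add_apply, inner_add_right, Complex.add_re, h5]
  have h7 := (abs_le.1 (h4 a)).2
  have h8 := mul_le_mul_of_nonneg_left (abs_le.1 (h4 b)).1 hc
  have h9 : δ * (‖a‖ ^ 2 + c * ‖b‖ ^ 2 + 1) = ε := div_mul_cancel₀ _ hpos.ne'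
  nlinarith

private theorem ngB_ext {a : H} {c : ℝ} (h : ∀ F, ‖S.ι F a‖ ≤ c * ‖S.ι F S.Ω‖) (hc : 0 ≤ c) :
    ∃ R : H →L[ℂ] H, (∀ F, S.ι F * R = R * S.ι F) ∧ R S.Ω = a := by
  set s := sp (Set.range fun F : C(X, ℂ) => S.ι F S.Ω) with hs
  have hs1 : ∀ F, S.ι F * s = s * S.ι F := fun F => sp_comm
    (by rintro _ ⟨K, rfl⟩; exact ⟨F * K, by simp⟩)
    (by rintro _ ⟨K, rfl⟩; exact ⟨star F * K, by simp [map_star]⟩)
  have hs2 : ∀ F, s (S.ι F S.Ω) = S.ι F S.Ω := fun F => sp_apply ⟨F, rfl⟩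
  have hs3 : ∀ v, s (s v) = s v := fun v => congr($((sp_proj _).isIdempotentElem.eq) v)
  let ev : H → C(X, ℂ) →ₗ[ℂ] H := fun v =>
    { toFun := fun F => S.ι F v
      map_add' := fun F K => by simp
      map_smul' := fun t F => by simp }
  let e : (C(X, ℂ) × H) →ₗ[ℂ] H := (ev S.Ω).coprod (1 - s : H →L[ℂ] H).toLinearMap
  let f : (C(X, ℂ) × H) →ₗ[ℂ] H := (ev a).coprod 0
  have he : ∀ F v, e (F, v) = S.ι F S.Ω + (v - s v) := fun F v => rfl
  have hf : ∀ F v, f (F, v) = S.ι F a := fun F v => add_zero _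
  have hd : DenseRange e := fun v => by
    have h1 : s v ∈ closure (Set.range e) := by
      refine closure_mono ?_ (sp_apply_mem _ v)
      change _ ⊆ (LinearMap.range e : Set H)
      exact Submodule.span_le.2 (by rintro _ ⟨F, rfl⟩; exact ⟨(F, 0), by simp [he]⟩)
    have h2 : v - s v ∈ closure (Set.range e) := subset_closure ⟨(0, v), by simp [he]⟩
    have h3 := (LinearMap.range e).topologicalClosure.add_mem h1 h2
    rwa [add_sub_cancel] at h3
  have hb : ∃ C, ∀ x, ‖f x‖ ≤ C * ‖e x‖ := ⟨c, fun ⟨F, v⟩ => by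
    rw [hf]
    refine (h F).trans (mul_le_mul_of_nonneg_left ?_ hc)
    have h1 : s (e (F, v)) = S.ι F S.Ω := by rw [he, map_add, map_sub, hs2, hs3, sub_self, add_zero]
    rw [← h1]
    simpa using s.le_of_opNorm_le (sp_proj _).norm_le (e (F, v))⟩
  refine ⟨f.extendOfNorm e, fun K => ?_, ?_⟩
  · refine ContinuousLinearMap.ext fun v => ?_
    refine congrFun (hd.equalizer (g := S.ι K * f.extendOfNorm e) (h := f.extendOfNorm e * S.ι K)
      (by fun_prop) (by fun_prop) (funext fun ⟨F, v⟩ => ?_)) v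
    have h1 : S.ι K (e (F, v)) = e (K * F, S.ι K v) := by
      have := congr($(hs1 K) v)
      simp only [ContinuousLinearMap.mul_apply] at this
      rw [he, he, map_add, map_sub, this, map_mul, ContinuousLinearMap.mul_apply]
    simp only [comp_apply, ContinuousLinearMap.mul_apply]
    rw [h1, LinearMap.extendOfNorm_eq hd hb, LinearMap.extendOfNorm_eq hd hb, hf, hf, map_mul,
      ContinuousLinearMap.mul_apply]
  · have h1 : e (1, 0) = S.Ω := by simp [he]
    rw [← h1, LinearMap.extendOfNorm_eq hd hb, hf]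
    simp

private theorem ngB_sub {V : Set X} (hV : IsClopen V) {a b : H} (h : S.pr V b ≠ 0) :
    ∃ W, IsClopen W ∧ W.Nonempty ∧ W ⊆ V ∧ ∃ c : ℝ, 0 < c ∧
      ∀ U, IsClopen U → U ⊆ W → ‖S.pr U a‖ ^ 2 ≤ c * ‖S.pr U b‖ ^ 2 := by
  have h1 : 0 < ‖S.pr V b‖ ^ 2 := by positivity
  obtain ⟨e, he, he', he0, hee, hdom⟩ := exists_dominated (P := S.A) (e₀ := S.pr V) (S.mem_A.2 ⟨_, rfl⟩)
    (S.pr_proj hV) b a ((‖S.pr V a‖ ^ 2 + 1) / ‖S.pr V b‖ ^ 2)
    (by rw [div_mul_cancel₀ _ h1.ne']; linarith)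
  obtain ⟨W, hW, rfl⟩ := S.exists_pr_of_mem_A he he'
  refine ⟨W, hW, Set.nonempty_iff_ne_empty.2 fun h => he0 ((S.pr_eq_zero_iff hW).2 h),
    (S.pr_mul_eq_iff hV hW).1 hee, _, by positivity, fun U hU hUW =>
    hdom _ (S.mem_A.2 ⟨_, rfl⟩) (S.pr_proj hU) (S.pr_mul_of_subset hW hU hUW)⟩

/-- Local Radon-Nikodym theorem.  PROOF.  `R124.exists_dominated` twice in `S.A` gives a nonempty clopen
`W ⊆ V` with `‖p ζ‖² ≤ c ‖p Ω‖²` and `‖p Ω‖² ≤ c' ‖p ζ‖²` for `p ≤ pr W`.  Then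
`‖ι F (pr W ζ)‖² ≤ c ‖ι F Ω‖²` (step functions, `exists_part_osc`), so `ι F Ω ↦ ι F (pr W ζ)` extends to
`R ∈ A'` (zero on the orthogonal complement of `A Ω`; `LinearMap.extendOfNorm`).  `R78.exists_rn_pos` for
`S.A` and `z = c⁻¹ R* R` gives `D`; `D ≥ 1 / c'` on `W`. -/
theorem rn_local {V : Set X} (hV : IsClopen V) (hne : V.Nonempty) {ζ : H}
    (h : ∀ W, IsClopen W → W.Nonempty → W ⊆ V → S.pr W ζ ≠ 0) :
    ∃ W, IsClopen W ∧ W.Nonempty ∧ W ⊆ V ∧ ∃ D : C(X, ℂ), (∀ w ∈ W, 0 < (D w).re ∧ (D w).im = 0) ∧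
      ∀ F, ⟪ζ, (S.pr W * S.ι F) ζ⟫_ℂ = S.ψ (S.pr W * S.ι (F * D)) := by
  obtain ⟨W₁, a1, a2, a3, c, hc, a4⟩ := ngB_sub S hV (a := ζ) (b := S.Ω) fun h0 =>
    hne.ne_empty ((S.pr_eq_zero_iff hV).1 (S.sep _ (S.pr_mem V) h0))
  obtain ⟨W, b1, b2, b3, c', hc', b4⟩ := ngB_sub S a1 (a := S.Ω) (h W₁ a1 a2 a3)
  have hpp : ∀ U U', IsClopen U → IsClopen U' → ∀ v, S.pr U (S.pr U' v) = S.pr (U ∩ U') v :=
    fun U U' hU hU' v => congr($(S.pr_mul_pr hU hU') v)
  have h1 := ngB_dom S (a := S.pr W ζ) (b := S.Ω) hc.le fun U hU => by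
    rw [hpp U W hU b1]
    refine (a4 _ (hU.inter b1) (Set.inter_subset_right.trans b3)).trans ?_
    rw [Set.inter_comm, ← hpp W U b1 hU]
    have : ‖S.pr W (S.pr U S.Ω)‖ ≤ ‖S.pr U S.Ω‖ := by
      simpa using (S.pr W).le_of_opNorm_le (S.pr_proj b1).norm_le (S.pr U S.Ω)
    gcongr
  obtain ⟨R, hR, hRΩ⟩ := ngB_ext S (a := S.pr W ζ) (c := √c) (fun F => by
    refine (abs_le_of_sq_le_sq' ?_ (by positivity)).2
    rw [mul_pow, Real.sq_sqrt hc.le]
    exact h1 F) (Real.sqrt_nonneg _)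
  have hRA : R ∈ S.A.commutant := S.mem_A_commutant.2 hR
  obtain ⟨y, hy0, hyA, -, hy⟩ := R78.exists_sol_pos (M := S.A) (Ω := S.Ω)
    (mul_mem (star_mem hRA) hRA) (star_mul_self_nonneg R)
  obtain ⟨D, rfl⟩ := S.mem_A.1 hyA
  have hD0 := (S.ι_nonneg_iff D).1 hy0
  have key : ∀ F, S.ψ (S.ι (F * D)) = ⟪S.pr W ζ, S.ι F (S.pr W ζ)⟫_ℂ := fun F => by
    have h2 := hy _ (S.mem_A.2 ⟨F, rfl⟩)
    rw [S.ι_comm D F, ← map_mul, ← two_mul, ← mul_assoc,
      S.mem_A_commutant.1 (star_mem hRA) F, mul_assoc, hR F] at h2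
    have h3 := mul_left_cancel₀ two_ne_zero h2
    rw [ψ, h3, ← hR F, ContinuousLinearMap.mul_apply, ContinuousLinearMap.star_eq_adjoint,
      ContinuousLinearMap.adjoint_inner_right, ContinuousLinearMap.mul_apply, hRΩ]
  have key' : ∀ U, IsClopen U → U ⊆ W → ∀ F,
      ⟪ζ, (S.pr U * S.ι F) ζ⟫_ℂ = S.ψ (S.pr U * S.ι (F * D)) := fun U hU hUW F => by
    have h2 := key (cfn (U.indicator 1) * F)
    rw [mul_assoc, map_mul, map_mul S.ι (cfn _) F] at h2
    change S.ψ (S.pr U * _) = ⟪_, (S.pr U * _) _⟫_ℂ at h2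
    have h3 : S.pr W * (S.pr U * S.ι F) * S.pr W = S.pr U * S.ι F := by
      rw [← mul_assoc, S.pr_mul_of_subset b1 hU hUW, mul_assoc, ← S.pr_comm_ι, ← mul_assoc,
        S.pr_comm U W, S.pr_mul_of_subset b1 hU hUW]
    rw [h2, ← ContinuousLinearMap.adjoint_inner_right, ← ContinuousLinearMap.star_eq_adjoint,
      (S.pr_proj b1).isSelfAdjoint.star_eq]
    conv_lhs => rw [← h3]
    rfl
  refine ⟨W, b1, b2, b3.trans a3, D, fun w hw => ⟨?_, (Complex.nonneg_iff.1 (hD0 w)).2.symm⟩,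
    key' W b1 subset_rfl⟩
  refine lt_of_le_of_ne (Complex.nonneg_iff.1 (hD0 w)).1 fun h0 => ?_
  have hcont : Continuous fun a => 1 - c' * (D a).re := by fun_prop
  obtain ⟨U, u1, u2, u3⟩ := exists_clopen_nhds
    (b1.isOpen.inter (isOpen_lt continuous_const hcont)) (w := w)
    ⟨hw, show (0 : ℝ) < 1 - c' * (D w).re by rw [← h0]; norm_num⟩
  have hUW : U ⊆ W := fun a ha => (u3 ha).1
  have h2 := S.ψ_fn_pos (F := U.indicator fun a => 1 - c' * (D a).re)
    (u1.continuous_indicator hcont)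
    (fun a => Set.indicator_nonneg (fun a ha => (show (0 : ℝ) < _ from (u3 ha).2).le) a) (w := w)
    (by rw [Set.indicator_of_mem u2, ← h0]; norm_num)
  have h3 : (S.fn fun a => ((U.indicator (fun a => 1 - c' * (D a).re) a : ℝ) : ℂ))
      = S.pr U + (-c' : ℂ) • (S.pr U * S.ι (1 * D)) := by
    rw [S.pr_mul_ι u1, S.fn_smul _ (u1.continuous_indicator (1 * D).continuous), Masa.pr,
      S.fn_add (F' := fun w => (-c' : ℂ) * U.indicator (1 * D : C(X, ℂ)) w)
        (u1.continuous_indicator continuous_one)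
        (continuous_const.mul (u1.continuous_indicator (1 * D).continuous))]
    congr 1
    funext a
    by_cases ha : a ∈ U
    · have : ((D a).re : ℂ) = D a :=
        Complex.ext rfl (by simpa using (Complex.nonneg_iff.1 (hD0 a)).2)
      simp [ha, this, sub_eq_add_neg]
    · simp [ha]
  have hp : ∀ v : H, (⟪v, S.pr U v⟫_ℂ).re = ‖S.pr U v‖ ^ 2 := fun v => by
    rw [ngB_norm_sq, (S.pr_proj u1).isSelfAdjoint.star_eq, (S.pr_proj u1).isIdempotentElem.eq]
  rw [h3, S.ψ_add, S.ψ_smul, ← key' U u1 hUW, map_one, mul_one, ψ, Complex.add_re, hp,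
    ← Complex.ofReal_neg, Complex.re_ofReal_mul, hp] at h2
  linarith [b4 U u1 hUW]

/-- Finite propagation. -/
def FP (Γ₀ : Finset S.Γ) (y : H →L[ℂ] H) : Prop :=
  ∃ a : S.Γ → C(X, ℂ), y = ∑ g ∈ Γ₀, S.op g * S.ι (a g)

end NS

end Crest.Agent.R109
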