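import Crest.Agent.R109.ODefs

/-! Row 109: elementary facts on `Masa`. -/

set_option autoImplicit false
set_option linter.unusedSectionVars false

namespace Crest.Agent.R109

open Crest.Agent.R124 Filter Topology Function
open scoped BigOperators ComplexConjugate InnerProductSpace ComplexOrder

variable {X : Type*} [TopologicalSpace X] [CompactSpace X] [T2Space X] [TotallyDisconnectedSpace X]
  {H : Type*} [NormedAddCommGroup H] [InnerProductSpace ℂ H] [CompleteSpace H]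

theorem exists_clopen_nhds {U : Set X} (hU : IsOpen U) {w : X} (hw : w ∈ U) :
    ∃ V, IsClopen V ∧ w ∈ V ∧ V ⊆ U :=
  compact_exists_isClopen_in_isOpen hU hw

/-- Locally constant functions are dense (`exists_clopen_partition`-type compactness argument, or
`ContinuousMap` / `LocallyConstant` density). -/
theorem exists_part_osc (F : C(X, ℂ)) {ε : ℝ} (hε : 0 < ε) :
    ∃ P : Part X, ∀ w w', P.f w = P.f w' → ‖F w - F w'‖ < ε := by
  classical
  choose V hV hw hsub using fun w : X => exists_clopen_nhds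
    (Metric.isOpen_ball.preimage F.continuous) (w := w)
    (show w ∈ F ⁻¹' Metric.ball (F w) (ε / 2) from Metric.mem_ball_self (half_pos hε))
  obtain ⟨t, ht⟩ := isCompact_univ.elim_finite_subcover V (fun w => (hV w).isOpen)
    fun w _ => Set.mem_iUnion.2 ⟨w, hw w⟩
  have hlc : IsLocallyConstant fun (w : X) (x : t) => (V x).boolIndicator w :=
    (IsLocallyConstant.iff_continuous _).2 (continuous_pi fun x =>
      (continuous_boolIndicator_iff_isClopen _).2 (hV x))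
  refine ⟨Part.of _ hlc, fun w w' h => ?_⟩
  obtain ⟨x, hx, hwx⟩ := Set.mem_iUnion₂.1 (ht (Set.mem_univ w))
  have h1 := congrFun ((Part.of_eq hlc w w').1 h) ⟨x, hx⟩
  have h2 : w' ∈ V x := by
    rw [Set.mem_iff_boolIndicator] at hwx ⊢
    exact h1 ▸ hwx
  have h3 := Metric.mem_ball.1 (hsub x hwx)
  have h4 := Metric.mem_ball.1 (hsub x h2)
  rw [← dist_eq_norm]
  linarith [dist_triangle_right (F w) (F w') (F x)]

theorem Part.clopen (P : Part X) (i : Fin P.n) : IsClopen (P.f ⁻¹' {i}) := P.lc.isClopen_fiber i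

/-- The partition into `U` and its complement. -/
theorem exists_part_clopen {U : Set X} (hU : IsClopen U) :
    ∃ P : Part X, ∀ w w', P.f w = P.f w' → (w ∈ U ↔ w' ∈ U) := by
  have hlc : IsLocallyConstant U.boolIndicator :=
    (IsLocallyConstant.iff_continuous _).2 ((continuous_boolIndicator_iff_isClopen _).2 hU)
  refine ⟨Part.of _ hlc, fun w w' h => ?_⟩
  rw [Set.mem_iff_boolIndicator, Set.mem_iff_boolIndicator, (Part.of_eq hlc w w').1 h]

namespace Masa

variable (S : Masa X H)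

theorem fn_coe (F : C(X, ℂ)) : S.fn F = S.ι F := by rw [fn, cfn_coe]

theorem fn_mem (F : X → ℂ) : S.fn F ∈ S.M := S.mem _

theorem pr_mem (U : Set X) : S.pr U ∈ S.M := S.mem _

theorem ι_comm (F F' : C(X, ℂ)) : S.ι F * S.ι F' = S.ι F' * S.ι F := by
  rw [← map_mul, ← map_mul, mul_comm]

private theorem fn_eq {F : X → ℂ} {G : C(X, ℂ)} (h : ∀ w, G w = F w) : S.ι G = S.fn F := by
  rw [← S.fn_coe]
  exact congrArg S.fn (funext h)

private theorem cont_ind {U : Set X} (hU : IsClopen U) : Continuous (U.indicator (1 : X → ℂ)) :=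
  hU.continuous_indicator continuous_const

private theorem fn_inj {F F' : X → ℂ} (h : Continuous F) (h' : Continuous F')
    (e : S.fn F = S.fn F') (w : X) : F w = F' w := by
  rw [← cfn_apply h, ← cfn_apply h', S.inj e]

theorem fn_mul {F F' : X → ℂ} (h : Continuous F) (h' : Continuous F') :
    S.fn F * S.fn F' = S.fn fun w => F w * F' w := by
  rw [fn, fn, ← map_mul]
  exact S.fn_eq fun w => by simp [cfn_apply h, cfn_apply h']

theorem fn_add {F F' : X → ℂ} (h : Continuous F) (h' : Continuous F') :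
    S.fn F + S.fn F' = S.fn fun w => F w + F' w := by
  rw [fn, fn, ← map_add]
  exact S.fn_eq fun w => by simp [cfn_apply h, cfn_apply h']

theorem fn_smul (c : ℂ) {F : X → ℂ} (h : Continuous F) : c • S.fn F = S.fn fun w => c * F w := by
  rw [fn, ← map_smul]
  exact S.fn_eq fun w => by simp [cfn_apply h]

theorem fn_sum {κ : Type*} (s : Finset κ) {F : κ → X → ℂ} (h : ∀ i ∈ s, Continuous (F i)) :
    ∑ i ∈ s, S.fn (F i) = S.fn fun w => ∑ i ∈ s, F i w := by
  simp only [fn]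
  rw [← map_sum]
  refine S.fn_eq fun w => ?_
  rw [ContinuousMap.sum_apply]
  exact Finset.sum_congr rfl fun i hi => cfn_apply (h i hi) w

theorem star_fn {F : X → ℂ} (h : Continuous F) : star (S.fn F) = S.fn fun w => conj (F w) := by
  rw [fn, ← map_star]
  exact S.fn_eq fun w => by simp [cfn_apply h]

theorem fn_one : S.fn (fun _ => 1) = 1 := by
  exact (S.fn_coe 1).trans (map_one S.ι)

theorem fn_zero : S.fn (fun _ => 0) = 0 := by
  exact (S.fn_coe 0).trans (map_zero S.ι)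

/-- `NonUnitalStarAlgHom.isometry`. -/
theorem norm_ι (F : C(X, ℂ)) : ‖S.ι F‖ = ‖F‖ := by
  exact NonUnitalStarAlgHom.norm_map S.ι S.inj F

theorem norm_fn_le {F : X → ℂ} {c : ℝ} (hc : 0 ≤ c) (h : ∀ w, ‖F w‖ ≤ c) : ‖S.fn F‖ ≤ c := by
  rw [fn, norm_ι, ContinuousMap.norm_le _ hc]
  intro w
  by_cases hF : Continuous F
  · rw [cfn_apply hF]; exact h w
  · simpa [cfn, hF] using hc

theorem ι_sa_iff (F : C(X, ℂ)) : IsSelfAdjoint (S.ι F) ↔ ∀ w, (F w).im = 0 := by
  rw [IsSelfAdjoint, ← map_star, S.inj.eq_iff, ContinuousMap.ext_iff]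
  exact forall_congr' fun w => Complex.conj_eq_iff_im

theorem ι_nonneg_iff (F : C(X, ℂ)) : 0 ≤ S.ι F ↔ ∀ w, 0 ≤ F w := by
  refine ⟨fun h w => ?_, fun h => ?_⟩
  · have him := (S.ι_sa_iff F).1 h.isSelfAdjoint
    have hsa : IsSelfAdjoint F := ContinuousMap.ext fun w => Complex.conj_eq_iff_im.2 (him w)
    have h1 : (F w).re ∈ spectrum ℝ F := by
      rw [← spectrum.algebraMap_mem_iff ℂ, ContinuousMap.spectrum_eq_range]
      exact ⟨w, Complex.ext (by simp) (by simp [him w])⟩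
    have h2 := (Set.ext_iff.1 (hsa.map_spectrum_real S.ι S.inj) _).2 h1
    exact Complex.nonneg_iff.2 ⟨spectrum_nonneg_of_nonneg h h2, (him w).symm⟩
  · have hc : Continuous fun w => ((√(F w).re : ℝ) : ℂ) := by fun_prop
    have h1 : S.ι F = star (S.fn fun w => ((√(F w).re : ℝ) : ℂ)) *
        S.fn fun w => ((√(F w).re : ℝ) : ℂ) := by
      rw [S.star_fn hc, S.fn_mul (by fun_prop) hc]
      refine S.fn_eq fun w => ?_
      obtain ⟨h2, h3⟩ := Complex.nonneg_iff.1 (h w)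
      rw [Complex.conj_ofReal, ← Complex.ofReal_mul, Real.mul_self_sqrt h2]
      exact Complex.ext (by simp) (by simp [← h3])
    rw [h1]
    exact star_mul_self_nonneg _

theorem pr_mul_pr {U V : Set X} (hU : IsClopen U) (hV : IsClopen V) :
    S.pr U * S.pr V = S.pr (U ∩ V) := by
  rw [pr, pr, pr, S.fn_mul (cont_ind hU) (cont_ind hV), Set.inter_indicator_one]
  rfl

theorem pr_proj {U : Set X} (hU : IsClopen U) : IsStarProjection (S.pr U) := by
  refine ⟨?_, ?_⟩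
  · rw [IsIdempotentElem, S.pr_mul_pr hU hU, Set.inter_self]
  · rw [IsSelfAdjoint, pr, S.star_fn (cont_ind hU)]
    refine congrArg S.fn (funext fun w => ?_)
    by_cases hw : w ∈ U <;> simp [hw]

theorem pr_empty : S.pr ∅ = 0 := by
  rw [pr, Set.indicator_empty]
  exact S.fn_zero

theorem pr_mul_of_disjoint {U V : Set X} (hU : IsClopen U) (hV : IsClopen V) (h : Disjoint U V) :
    S.pr U * S.pr V = 0 := by
  rw [S.pr_mul_pr hU hV, h.inter_eq, pr_empty]

theorem pr_mul_of_subset {U V : Set X} (hU : IsClopen U) (hV : IsClopen V) (h : V ⊆ U) :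
    S.pr U * S.pr V = S.pr V := by
  rw [S.pr_mul_pr hU hV, Set.inter_eq_right.2 h]

theorem pr_union {U V : Set X} (hU : IsClopen U) (hV : IsClopen V) (h : Disjoint U V) :
    S.pr (U ∪ V) = S.pr U + S.pr V := by
  rw [pr, pr, pr, S.fn_add (cont_ind hU) (cont_ind hV), Set.indicator_union_of_disjoint h]

theorem pr_univ : S.pr Set.univ = 1 := by
  rw [pr, Set.indicator_univ]
  exact S.fn_one

theorem pr_compl {U : Set X} (hU : IsClopen U) : S.pr Uᶜ = 1 - S.pr U := by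
  rw [eq_sub_iff_add_eq, ← S.pr_union hU.compl hU disjoint_compl_left, Set.compl_union_self, pr_univ]

theorem pr_eq_zero_iff {U : Set X} (hU : IsClopen U) : S.pr U = 0 ↔ U = ∅ := by
  refine ⟨fun h => Set.eq_empty_of_forall_notMem fun w hw => ?_, fun h => by rw [h, pr_empty]⟩
  rw [← S.fn_zero] at h
  simpa [hw] using S.fn_inj (cont_ind hU) continuous_const h w

theorem pr_mul_eq_iff {U V : Set X} (hU : IsClopen U) (hV : IsClopen V) :
    S.pr U * S.pr V = S.pr V ↔ V ⊆ U := by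
  refine ⟨fun h w hw => ?_, S.pr_mul_of_subset hU hV⟩
  rw [S.pr_mul_pr hU hV] at h
  have := S.fn_inj (cont_ind (hU.inter hV)) (cont_ind hV) h w
  by_contra hc
  simp [hw, hc] at this

theorem pr_comm_ι (U : Set X) (F : C(X, ℂ)) : S.pr U * S.ι F = S.ι F * S.pr U := S.ι_comm _ _

theorem pr_comm (U V : Set X) : S.pr U * S.pr V = S.pr V * S.pr U := S.ι_comm _ _

theorem pr_mul_ι {U : Set X} (hU : IsClopen U) (F : C(X, ℂ)) :
    S.pr U * S.ι F = S.fn (U.indicator F) := by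
  rw [pr, ← S.fn_coe, S.fn_mul (cont_ind hU) F.continuous]
  refine congrArg S.fn (funext fun w => ?_)
  by_cases hw : w ∈ U <;> simp [hw]

theorem sum_pr {κ : Type*} [Fintype κ] {P : X → κ} (hP : IsLocallyConstant P) :
    ∑ i, S.pr (P ⁻¹' {i}) = 1 := by
  classical
  simp only [pr]
  rw [S.fn_sum _ fun i _ => cont_ind (U := P ⁻¹' {i}) (hP.isClopen_fiber i), ← S.fn_one]
  refine congrArg S.fn (funext fun w => ?_)
  simp [Set.indicator_apply]

theorem pr_fibre_mul {κ : Type*} [DecidableEq κ] {P : X → κ} (hP : IsLocallyConstant P) (i j : κ) :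
    S.pr (P ⁻¹' {i}) * S.pr (P ⁻¹' {j}) = if i = j then S.pr (P ⁻¹' {i}) else 0 := by
  split_ifs with h
  · rw [← h]; exact (S.pr_proj (hP.isClopen_fiber i)).isIdempotentElem
  · exact S.pr_mul_of_disjoint (hP.isClopen_fiber i) (hP.isClopen_fiber j)
      (Set.disjoint_left.2 fun w hi hj => h (Eq.trans (Eq.symm hi) hj))

/-- The projection of a union of fibres. -/
theorem pr_comp {κ κ' : Type*} [Fintype κ] [DecidableEq κ'] {P : X → κ} (hP : IsLocallyConstant P)
    (g : κ → κ') (c : κ') :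
    S.pr ((fun w => g (P w)) ⁻¹' {c}) = ∑ i ∈ Finset.univ.filter fun i => g i = c, S.pr (P ⁻¹' {i}) := by
  classical
  simp only [pr]
  rw [S.fn_sum _ fun i _ => cont_ind (U := P ⁻¹' {i}) (hP.isClopen_fiber i)]
  refine congrArg S.fn (funext fun w => ?_)
  simp [Set.indicator_apply]

theorem exists_pr_eq {F : C(X, ℂ)} (h : IsStarProjection (S.ι F)) :
    ∃ U, IsClopen U ∧ S.pr U = S.ι F := by
  have h1 : F * F = F := S.inj (by rw [map_mul]; exact h.isIdempotentElem)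
  have h2 : ∀ w, F w = 0 ∨ F w = 1 := fun w =>
    IsIdempotentElem.iff_eq_zero_or_one.1 (ContinuousMap.congr_fun h1 w)
  have h3 : F ⁻¹' {1} = (F ⁻¹' {0})ᶜ := by
    ext w
    rcases h2 w with h | h <;> simp [h]
  refine ⟨F ⁻¹' {1}, ⟨isClosed_singleton.preimage F.continuous, ?_⟩, (S.fn_eq fun w => ?_).symm⟩
  · rw [h3]; exact (isClosed_singleton.preimage F.continuous).isOpen_compl
  · rcases h2 w with h | h <;> simp [h]

/-- `exists_part_osc`. -/
theorem comm_ι_of_pr {y : H →L[ℂ] H} (h : ∀ U, IsClopen U → S.pr U * y = y * S.pr U) (F : C(X, ℂ)) :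
    S.ι F * y = y * S.ι F := by
  have key : ∀ ε : ℝ, 0 < ε → ‖S.ι F * y - y * S.ι F‖ ≤ 2 * ‖y‖ * ε := fun ε hε => by
    classical
    obtain ⟨P, hP⟩ := exists_part_osc F hε
    let c : Fin P.n → ℂ := fun i => if hi : ∃ w, P.f w = i then F hi.choose else 0
    have hc : ∀ w, ‖F w - c (P.f w)‖ ≤ ε := fun w => by
      have hi : ∃ w', P.f w' = P.f w := ⟨w, rfl⟩
      simp only [c, dif_pos hi]
      exact (hP _ _ hi.choose_spec.symm).le
    have hcc : Continuous fun w => c (P.f w) := (P.lc.comp c).continuous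
    set G : H →L[ℂ] H := S.fn fun w => c (P.f w) with hG
    have hind : ∀ i, Continuous ((P.f ⁻¹' {i}).indicator (1 : X → ℂ)) := fun i =>
      (P.clopen i).continuous_indicator continuous_const
    have h1 : G = ∑ i, c i • S.pr (P.f ⁻¹' {i}) := by
      simp only [pr]
      rw [Finset.sum_congr rfl fun i _ => S.fn_smul (c i) (hind i),
        S.fn_sum (F := fun i w => c i * (P.f ⁻¹' {i}).indicator 1 w) _
          fun i _ => continuous_const.mul (hind i), hG]
      congr 1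
      funext w
      rw [Finset.sum_eq_single (P.f w)]
      · simp
      · intro i _ hi
        simp [Ne.symm hi]
      · simp
    have h2 : G * y = y * G := by
      rw [h1, Finset.sum_mul, Finset.mul_sum]
      exact Finset.sum_congr rfl fun i _ => by
        rw [smul_mul_assoc, mul_smul_comm, h _ (P.clopen i)]
    have h3 : ‖S.ι F - G‖ ≤ ε := by
      have e : S.ι F - G = S.fn fun w => F w - c (P.f w) := by
        rw [sub_eq_iff_eq_add, hG, S.fn_add (F := fun w => F w - c (P.f w))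
          (F.continuous.sub hcc) hcc, ← S.fn_coe]
        congr 1
        funext w
        ring
      rw [e]
      exact S.norm_fn_le hε.le hc
    have h4 : S.ι F * y - y * S.ι F = (S.ι F - G) * y - y * (S.ι F - G) := by
      rw [sub_mul, mul_sub, h2]; abel
    rw [h4]
    calc _ ≤ ‖(S.ι F - G) * y‖ + ‖y * (S.ι F - G)‖ := norm_sub_le _ _
      _ ≤ ‖S.ι F - G‖ * ‖y‖ + ‖y‖ * ‖S.ι F - G‖ := add_le_add (norm_mul_le _ _) (norm_mul_le _ _)
      _ ≤ ε * ‖y‖ + ‖y‖ * ε := by gcongr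
      _ = _ := by ring
  rw [← sub_eq_zero, ← norm_le_zero_iff]
  refine le_of_forall_pos_le_add fun ε hε => ?_
  have hp : 0 < 2 * ‖y‖ + 1 := by positivity
  calc _ ≤ 2 * ‖y‖ * (ε / (2 * ‖y‖ + 1)) := key _ (by positivity)
    _ ≤ (2 * ‖y‖ + 1) * (ε / (2 * ‖y‖ + 1)) := by gcongr; linarith
    _ = _ := by field_simp; ring

theorem exists_ι_of_pr {y : H →L[ℂ] H} (hy : y ∈ S.M)
    (h : ∀ U, IsClopen U → S.pr U * y = y * S.pr U) : ∃ F, S.ι F = y :=
  S.max y hy (S.comm_ι_of_pr h)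

/-- `A'' ⊆ M` since `M' ⊆ A'`, and `A''` commutes with `A ⊆ A'`. -/
theorem mem_A {y : H →L[ℂ] H} : y ∈ S.A ↔ ∃ F, S.ι F = y := by
  have h0 : ∀ z, (∀ F, S.ι F * z = z * S.ι F) → z ∈ cent (Set.range S.ι) := fun z hz =>
    mem_cent.mpr (by rintro _ ⟨F, rfl⟩; exact ⟨hz F, by rw [← map_star]; exact hz _⟩)
  constructor
  · intro hy
    have hy' := VonNeumannAlgebra.mem_commutant_iff.mp hy
    refine S.max y (mem_of_comm fun z hz => hy' z (h0 z fun F => comm_of_mem (S.mem F) hz))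
      fun F => hy' _ (h0 _ fun F' => S.ι_comm F' F)
  · rintro ⟨F, rfl⟩
    exact VonNeumannAlgebra.mem_commutant_iff.mpr fun z hz =>
      ((mem_cent.mp hz _ ⟨F, rfl⟩).1).symm

theorem mem_A_commutant {y : H →L[ℂ] H} : y ∈ S.A.commutant ↔ ∀ F, S.ι F * y = y * S.ι F := by
  rw [VonNeumannAlgebra.mem_commutant_iff]
  constructor
  · exact fun h F => h _ (S.mem_A.mpr ⟨F, rfl⟩)
  · intro h g hg
    obtain ⟨F, rfl⟩ := S.mem_A.mp hg
    exact h F

theorem exists_pr_of_mem_A {p : H →L[ℂ] H} (hp : p ∈ S.A) (hp' : IsStarProjection p) :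
    ∃ U, IsClopen U ∧ S.pr U = p := by
  obtain ⟨F, rfl⟩ := S.mem_A.mp hp
  exact S.exists_pr_eq hp'

/-- `exists_sum_proj` in `S.A`. -/
theorem exists_sup {κ : Type*} {U : κ → Set X} (hU : ∀ i, IsClopen (U i))
    (hd : Pairwise fun i j => Disjoint (U i) (U j)) :
    ∃ V, IsClopen V ∧ (∀ i, U i ⊆ V) ∧ (∀ ζ, HasSum (fun i => S.pr (U i) ζ) (S.pr V ζ)) ∧
      ∀ ζ, HasSum (fun i => ‖S.pr (U i) ζ‖ ^ 2) (‖S.pr V ζ‖ ^ 2) := by
  have hor : Pairwise fun i j => S.pr (U i) * S.pr (U j) = 0 := fun i j hij =>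
    S.pr_mul_of_disjoint (hU i) (hU j) (hd hij)
  obtain ⟨s, hs, hs', h1, h2⟩ := exists_sum_proj (P := S.A) (fun i => S.pr (U i))
    (fun i => S.mem_A.mpr ⟨_, rfl⟩) (fun i => S.pr_proj (hU i)) hor
  obtain ⟨V, hV, rfl⟩ := S.exists_pr_of_mem_A hs hs'
  refine ⟨V, hV, fun i => (S.pr_mul_eq_iff hV (hU i)).mp ?_, h1, h2⟩
  ext ζ
  refine (h1 (S.pr (U i) ζ)).unique ?_
  have h3 : S.pr (U i) (S.pr (U i) ζ) = S.pr (U i) ζ :=
    congr($((S.pr_proj (hU i)).isIdempotentElem) ζ)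
  rw [← h3]
  convert hasSum_single (f := fun j => S.pr (U j) (S.pr (U i) ζ)) i fun j hj => ?_ using 1
  · rw [h3]
  · exact congr($(hor hj) ζ)

/-- Exhaustion.  PROOF.  A maximal family of pairwise disjoint nonempty good clopen sets
(`exists_maximal_pairwise`) has supremum `univ` (`exists_sup`); take a large finite subfamily. -/
theorem exhaust (good : Set X → Prop)
    (h : ∀ V, IsClopen V → V.Nonempty → ∃ W, IsClopen W ∧ W.Nonempty ∧ W ⊆ V ∧ good W) (ζ : H)
    {η : ℝ} (hη : 0 < η) :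
    ∃ cls : X → ℕ, IsLocallyConstant cls ∧ (∀ j, j ≠ 0 → (cls ⁻¹' {j}).Nonempty → good (cls ⁻¹' {j})) ∧
      ‖S.pr (cls ⁻¹' {0}) ζ‖ ≤ η := by
  classical
  obtain ⟨T, hT, hTd, hmax⟩ := exists_maximal_pairwise
    (fun W : Set X => IsClopen W ∧ W.Nonempty ∧ good W) Disjoint
  obtain ⟨V, hV, hTV, h1, -⟩ := S.exists_sup (U := fun W : T => (W : Set X))
    (fun W => (hT W W.2).1) fun W W' hne => hTd W.2 W'.2 (Subtype.coe_injective.ne hne)
  have hVu : V = Set.univ := by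
    by_contra hne
    obtain ⟨W, hW, hWn, hWV, hWg⟩ := h Vᶜ hV.compl (Set.nonempty_compl.mpr hne)
    have hdis : ∀ v ∈ T, Disjoint v W := fun v hv =>
      Set.disjoint_left.mpr fun x hx hx' => hWV hx' (hTV ⟨v, hv⟩ hx)
    have hWT := hmax W ⟨hW, hWn, hWg⟩ fun v hv => ⟨hdis v hv, (hdis v hv).symm⟩
    obtain ⟨x, hx⟩ := hWn
    exact hWV hx (hTV ⟨W, hWT⟩ hx)
  subst hVu
  have h2 := h1 ζ
  rw [S.pr_univ] at h2
  obtain ⟨s, hs⟩ := (Metric.tendsto_nhds.mp h2 η hη).exists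
  let e : s ≃ Fin (Fintype.card s) := Fintype.equivFin s
  let cls : X → ℕ := fun x => if hx : ∃ W : s, x ∈ ((W : T) : Set X) then e hx.choose + 1 else 0
  have huniq : ∀ (W W' : s) (x : X), x ∈ ((W : T) : Set X) → x ∈ ((W' : T) : Set X) → W = W' := by
    intro W W' x hx hx'
    by_contra hne
    exact Set.disjoint_left.mp (hTd W.1.2 W'.1.2
      fun h' => hne (Subtype.ext (Subtype.ext h'))) hx hx'
  have hcls : ∀ (W : s) (x : X), x ∈ ((W : T) : Set X) → cls x = e W + 1 := fun W x hx => by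
    have hx' : ∃ W : s, x ∈ ((W : T) : Set X) := ⟨W, hx⟩
    simp only [cls, dif_pos hx']
    rw [huniq _ _ x hx'.choose_spec hx]
  have hcls0 : ∀ x : X, (¬ ∃ W : s, x ∈ ((W : T) : Set X)) → cls x = 0 := fun x hx => by
    simp only [cls, dif_neg hx]
  have hfib : ∀ W : s, cls ⁻¹' {(e W : ℕ) + 1} = ((W : T) : Set X) := fun W => by
    ext x
    refine ⟨fun hx => ?_, fun hx => hcls W x hx⟩
    by_cases hx' : ∃ W : s, x ∈ ((W : T) : Set X)
    · obtain ⟨W', hW'⟩ := hx'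
      have h3 : (e W' : ℕ) + 1 = e W + 1 := (hcls W' x hW').symm.trans hx
      rwa [← e.injective (Fin.ext (Nat.succ_injective h3))]
    · exact absurd ((hcls0 x hx').symm.trans hx) (by omega)
  have hU : IsClopen (⋃ W : s, ((W : T) : Set X)) :=
    isClopen_iUnion_of_finite fun W => (hT _ W.1.2).1
  have hz : cls ⁻¹' {0} = (⋃ W : s, ((W : T) : Set X))ᶜ := by
    ext x
    simp only [Set.mem_preimage, Set.mem_singleton_iff, Set.mem_compl_iff, Set.mem_iUnion]
    refine ⟨fun hx ⟨W, hW⟩ => ?_, hcls0 x⟩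
    rw [hcls W x hW] at hx
    omega
  refine ⟨cls, ?_, fun j hj ⟨x, hx⟩ => ?_, ?_⟩
  · rw [IsLocallyConstant.iff_exists_open]
    intro x
    by_cases hx' : ∃ W : s, x ∈ ((W : T) : Set X)
    · obtain ⟨W, hW⟩ := hx'
      exact ⟨_, (hT _ W.1.2).1.isOpen, hW, fun y hy => (hcls W y hy).trans (hcls W x hW).symm⟩
    · refine ⟨_, hU.compl.isOpen, by simpa using hx', fun y hy => ?_⟩
      rw [hcls0 x hx', hcls0 y (by simpa using hy)]
  · by_cases hx' : ∃ W : s, x ∈ ((W : T) : Set X)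
    · obtain ⟨W, hW⟩ := hx'
      have h3 : j = e W + 1 := (Set.mem_singleton_iff.mp hx).symm.trans (hcls W x hW)
      rw [h3, hfib]
      exact (hT _ W.1.2).2.2
    · exact absurd ((Set.mem_singleton_iff.mp hx).symm.trans (hcls0 x hx')) hj
  · have h5 : ∀ t : Finset T, IsClopen (⋃ W ∈ t, (W : Set X)) := fun t =>
      t.finite_toSet.isClopen_biUnion fun W _ => (hT _ W.2).1
    have h3 : ∀ t : Finset T, IsClopen (⋃ W ∈ t, (W : Set X)) ∧
        S.pr (⋃ W ∈ t, (W : Set X)) = ∑ W ∈ t, S.pr W := fun t => by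
      refine ⟨h5 t, ?_⟩
      induction t using Finset.induction_on with
      | empty => simpa using S.pr_empty
      | insert W t hW ih =>
        rw [Finset.sum_insert hW, Finset.set_biUnion_insert, S.pr_union (hT _ W.2).1 (h5 t), ih]
        simp only [Set.disjoint_iUnion_right]
        intro W' hW'
        exact hTd W.2 W'.2 fun h' => hW (by rwa [Subtype.ext h'])
    have h4 : (⋃ W : s, ((W : T) : Set X)) = ⋃ W ∈ s, (W : Set X) := by
      ext x; simp
    rw [hz, h4, S.pr_compl (h3 s).1, (h3 s).2]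
    rw [dist_comm, dist_eq_norm] at hs
    simpa using hs.le

/-- `‖∑ p i z q i‖ ≤ ‖z‖` for two orthogonal families of projections; more generally: -/
theorem _root_.Crest.Agent.R109.norm_sum_block_le {κ : Type*} [Fintype κ] {p q z : κ → H →L[ℂ] H}
    (hp : ∀ i, IsStarProjection (p i)) (hq : ∀ i, IsStarProjection (q i))
    (hpp : Pairwise fun i j => p i * p j = 0) (hqq : Pairwise fun i j => q i * q j = 0) {c : ℝ}
    (hc : 0 ≤ c) (h : ∀ i, ‖p i * z i * q i‖ ≤ c) : ‖∑ i, p i * z i * q i‖ ≤ c := by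
  have bessel : ∀ {p : κ → H →L[ℂ] H}, (∀ i, IsStarProjection (p i)) →
      (Pairwise fun i j => p i * p j = 0) → ∀ ξ, ∑ i, ‖p i ξ‖ ^ 2 ≤ ‖ξ‖ ^ 2 := by
    intro p hp hpp ξ
    obtain ⟨s, -, hs, -, h2⟩ := exists_sum_proj (P := cent (∅ : Set (H →L[ℂ] H))) p
      (fun i => mem_cent.mpr (by simp)) hp hpp
    rw [← (h2 ξ).unique (hasSum_fintype _)]
    have : ‖s ξ‖ ≤ ‖ξ‖ := by simpa using s.le_of_opNorm_le hs.norm_le ξ
    gcongr
  refine ContinuousLinearMap.opNorm_le_bound _ hc fun ξ => ?_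
  set v := (∑ i, p i * z i * q i) ξ with hv
  have h1 : ∀ i, (⟪v, (p i * z i * q i) ξ⟫_ℂ).re ≤ c * (‖p i v‖ * ‖q i ξ‖) := fun i => by
    have e : p i * z i * q i = star (p i) * (p i * z i * q i) * q i := by
      rw [(hp i).isSelfAdjoint.star_eq, ← mul_assoc, ← mul_assoc, (hp i).isIdempotentElem.eq,
        mul_assoc _ (q i), (hq i).isIdempotentElem.eq]
    rw [e, ContinuousLinearMap.mul_apply, ContinuousLinearMap.mul_apply, inner_star_right]
    refine (Complex.re_le_norm _).trans ((norm_inner_le_norm _ _).trans ?_)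
    calc _ ≤ ‖p i v‖ * (c * ‖q i ξ‖) := by
          gcongr
          exact ContinuousLinearMap.le_of_opNorm_le _ (h i) _
      _ = _ := by ring
  have h2 : ‖v‖ ^ 2 ≤ c * ∑ i, ‖p i v‖ * ‖q i ξ‖ := by
    have e : ‖v‖ ^ 2 = ∑ i, (⟪v, (p i * z i * q i) ξ⟫_ℂ).re := by
      rw [← Complex.re_sum, ← inner_sum, ← ContinuousLinearMap.sum_apply, ← hv,
        inner_self_eq_norm_sq_to_K]
      norm_cast
    rw [e, Finset.mul_sum]
    exact Finset.sum_le_sum fun i _ => h1 i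
  have h3 : ∑ i, ‖p i v‖ * ‖q i ξ‖ ≤ ‖v‖ * ‖ξ‖ := by
    refine le_of_sq_le_sq ((Finset.sum_mul_sq_le_sq_mul_sq _ _ _).trans ?_) (by positivity)
    rw [mul_pow]
    exact mul_le_mul (bessel hp hpp v) (bessel hq hqq ξ) (by positivity) (by positivity)
  rcases (norm_nonneg v).eq_or_lt with h0 | h0
  · rw [← h0]; positivity
  · refine le_of_mul_le_mul_left ?_ h0
    calc ‖v‖ * ‖v‖ = ‖v‖ ^ 2 := by ring
      _ ≤ c * (‖v‖ * ‖ξ‖) := h2.trans (by gcongr)
      _ = _ := by ring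

section T
variable {κ : Type*} [Fintype κ] {P : X → κ}

private theorem obT_cl {κ : Type*} {P : X → κ} (hP : IsLocallyConstant P) (i : κ) :
    IsClopen (P ⁻¹' {i}) := hP.isClopen_fiber i

omit [Fintype κ] in
private theorem obT_pair (hP : IsLocallyConstant P) :
    Pairwise fun i j => S.pr (P ⁻¹' {i}) * S.pr (P ⁻¹' {j}) = 0 := by
  classical
  intro i j hij
  simp only [S.pr_fibre_mul hP, if_neg hij]

private theorem obT_norm {p q : H →L[ℂ] H} (hp : IsStarProjection p) (hq : IsStarProjection q)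
    (z : H →L[ℂ] H) : ‖p * z * q‖ ≤ ‖z‖ :=
  calc ‖p * z * q‖ ≤ ‖p‖ * ‖z‖ * ‖q‖ := norm_mul₃_le
    _ ≤ 1 * ‖z‖ * 1 := by
        gcongr
        exacts [hp.norm_le, hq.norm_le]
    _ = ‖z‖ := by rw [one_mul, mul_one]

theorem T_mem (P : X → κ) {z : H →L[ℂ] H} (hz : z ∈ S.M) : S.T P z ∈ S.M := by
  exact sum_mem fun i _ => mul_mem (mul_mem (S.pr_mem _) hz) (S.pr_mem _)

theorem T_add (P : X → κ) (z z' : H →L[ℂ] H) : S.T P (z + z') = S.T P z + S.T P z' := by
  simp only [T, mul_add, add_mul, Finset.sum_add_distrib]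

theorem T_sub (P : X → κ) (z z' : H →L[ℂ] H) : S.T P (z - z') = S.T P z - S.T P z' := by
  simp only [T, mul_sub, sub_mul, Finset.sum_sub_distrib]

theorem T_smul (P : X → κ) (c : ℂ) (z : H →L[ℂ] H) : S.T P (c • z) = c • S.T P z := by
  simp only [T, mul_smul_comm, smul_mul_assoc, Finset.smul_sum]

theorem T_star (hP : IsLocallyConstant P) (z : H →L[ℂ] H) : star (S.T P z) = S.T P (star z) := by
  simp only [T, star_sum, star_mul, mul_assoc,
    (S.pr_proj (obT_cl hP _)).isSelfAdjoint.star_eq]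

theorem T_sa (hP : IsLocallyConstant P) {z : H →L[ℂ] H} (hz : IsSelfAdjoint z) :
    IsSelfAdjoint (S.T P z) := by
  rw [IsSelfAdjoint, S.T_star hP, hz.star_eq]

theorem T_nonneg (hP : IsLocallyConstant P) {z : H →L[ℂ] H} (hz : 0 ≤ z) : 0 ≤ S.T P z := by
  exact Finset.sum_nonneg fun i _ =>
    (S.pr_proj (obT_cl hP i)).isSelfAdjoint.conjugate_nonneg hz

theorem norm_T_le_of (hP : IsLocallyConstant P) {z : H →L[ℂ] H} {c : ℝ} (hc : 0 ≤ c)
    (h : ∀ i, ‖S.pr (P ⁻¹' {i}) * z * S.pr (P ⁻¹' {i})‖ ≤ c) : ‖S.T P z‖ ≤ c := by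
  exact norm_sum_block_le (z := fun _ => z) (fun i => S.pr_proj (obT_cl hP i))
    (fun i => S.pr_proj (obT_cl hP i)) (obT_pair S hP) (obT_pair S hP) hc h

theorem norm_T_le (hP : IsLocallyConstant P) (z : H →L[ℂ] H) : ‖S.T P z‖ ≤ ‖z‖ := by
  exact S.norm_T_le_of hP (norm_nonneg z) fun i =>
    obT_norm (S.pr_proj (obT_cl hP i)) (S.pr_proj (obT_cl hP i)) z

theorem T_ι_mul (P : X → κ) (F : C(X, ℂ)) (z : H →L[ℂ] H) : S.T P (S.ι F * z) = S.ι F * S.T P z := by
  simp only [T, Finset.mul_sum]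
  refine Finset.sum_congr rfl fun i _ => ?_
  rw [← mul_assoc, S.pr_comm_ι, mul_assoc (S.ι F), mul_assoc (S.ι F)]

theorem T_mul_ι (P : X → κ) (F : C(X, ℂ)) (z : H →L[ℂ] H) : S.T P (z * S.ι F) = S.T P z * S.ι F := by
  simp only [T, Finset.sum_mul]
  refine Finset.sum_congr rfl fun i _ => ?_
  rw [mul_assoc _ (S.pr _) (S.ι F), S.pr_comm_ι, ← mul_assoc, ← mul_assoc]

theorem T_ι (hP : IsLocallyConstant P) (F : C(X, ℂ)) : S.T P (S.ι F) = S.ι F := by
  have h : ∀ i, S.pr (P ⁻¹' {i}) * S.ι F * S.pr (P ⁻¹' {i}) = S.ι F * S.pr (P ⁻¹' {i}) :=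
    fun i => by
      rw [S.pr_comm_ι, mul_assoc, (S.pr_proj (obT_cl hP i)).isIdempotentElem.eq]
  simp only [T, h]
  rw [← Finset.mul_sum, S.sum_pr hP, mul_one]

/-- `T P z` commutes with the projections of unions of fibres. -/
theorem pr_mul_T (hP : IsLocallyConstant P) {U : Set X} (hU : ∀ w w', P w = P w' → (w ∈ U ↔ w' ∈ U))
    (z : H →L[ℂ] H) : S.pr U * S.T P z = S.T P z * S.pr U := by
  have hUc : IsClopen U := by
    have e : U = P ⁻¹' (P '' U) := by
      ext w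
      exact ⟨fun hw => ⟨w, hw, rfl⟩, fun ⟨w', hw', e⟩ => (hU w' w e).1 hw'⟩
    rw [e]
    exact ⟨⟨hP (P '' U)ᶜ⟩, hP _⟩
  simp only [T, Finset.mul_sum, Finset.sum_mul]
  refine Finset.sum_congr rfl fun i _ => ?_
  by_cases hi : P ⁻¹' {i} ⊆ U
  · have h1 := S.pr_mul_of_subset hUc (obT_cl hP i) hi
    rw [← mul_assoc, ← mul_assoc, h1, mul_assoc _ _ (S.pr U), ← S.pr_comm U, h1]
  · have h0 : Disjoint U (P ⁻¹' {i}) := by
      obtain ⟨w, hw, hwU⟩ := Set.not_subset.1 hi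
      exact Set.disjoint_left.2 fun w' hw' hw'' =>
        hwU ((hU w' w (Eq.trans hw'' (Eq.symm hw))).1 hw')
    have h1 := S.pr_mul_of_disjoint hUc (obT_cl hP i) h0
    rw [← mul_assoc, ← mul_assoc, h1, mul_assoc _ _ (S.pr U), ← S.pr_comm U, h1, zero_mul,
      zero_mul, mul_zero]

theorem pr_mul_T_fibre (hP : IsLocallyConstant P) (i : κ) (z : H →L[ℂ] H) :
    S.pr (P ⁻¹' {i}) * S.T P z = S.pr (P ⁻¹' {i}) * z * S.pr (P ⁻¹' {i}) := by
  rw [T, Finset.mul_sum, Finset.sum_eq_single i]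
  · rw [← mul_assoc, ← mul_assoc, (S.pr_proj (obT_cl hP i)).isIdempotentElem.eq]
  · intro j _ hj
    rw [← mul_assoc, ← mul_assoc, obT_pair S hP hj.symm, zero_mul, zero_mul]
  · exact fun h => absurd (Finset.mem_univ i) h

theorem T_of_comm (hP : IsLocallyConstant P) {z : H →L[ℂ] H}
    (h : ∀ i, S.pr (P ⁻¹' {i}) * z = z * S.pr (P ⁻¹' {i})) : S.T P z = z := by
  have h' : ∀ i, S.pr (P ⁻¹' {i}) * z * S.pr (P ⁻¹' {i}) = z * S.pr (P ⁻¹' {i}) := fun i => by
    rw [h, mul_assoc, (S.pr_proj (obT_cl hP i)).isIdempotentElem.eq]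
  simp only [T, h']
  rw [← Finset.mul_sum, S.sum_pr hP, mul_one]

/-- Refinement. -/
theorem T_T {κ' : Type*} [Fintype κ'] {P' : X → κ'} (hP : IsLocallyConstant P)
    (hP' : IsLocallyConstant P') (h : ∀ w w', P' w = P' w' → P w = P w') (z : H →L[ℂ] H) :
    S.T P' (S.T P z) = S.T P' z ∧ S.T P (S.T P' z) = S.T P' z := by
  refine ⟨Finset.sum_congr rfl fun j _ => ?_, S.T_of_comm hP fun i => S.pr_mul_T hP'
    (fun w w' e => by simp only [Set.mem_preimage, Set.mem_singleton_iff, h w w' e]) z⟩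
  rcases (P' ⁻¹' {j}).eq_empty_or_nonempty with h0 | ⟨w, hw⟩
  · rw [h0, S.pr_empty, mul_zero, mul_zero]
  · have h1 : S.pr (P ⁻¹' {P w}) * S.pr (P' ⁻¹' {j}) = S.pr (P' ⁻¹' {j}) :=
      S.pr_mul_of_subset (obT_cl hP _) (obT_cl hP' j) fun w' hw' =>
        h w' w (Eq.trans hw' (Eq.symm hw))
    have h2 : S.pr (P' ⁻¹' {j}) * S.pr (P ⁻¹' {P w}) = S.pr (P' ⁻¹' {j}) := by
      rw [S.pr_comm, h1]
    calc S.pr (P' ⁻¹' {j}) * S.T P z * S.pr (P' ⁻¹' {j})
        = S.pr (P' ⁻¹' {j}) * (S.pr (P ⁻¹' {P w}) * S.T P z) * S.pr (P' ⁻¹' {j}) := by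
          rw [← mul_assoc, h2]
      _ = S.pr (P' ⁻¹' {j}) * S.pr (P ⁻¹' {P w}) * z *
            (S.pr (P ⁻¹' {P w}) * S.pr (P' ⁻¹' {j})) := by
          rw [S.pr_mul_T_fibre hP]
          simp only [mul_assoc]
      _ = _ := by rw [h1, h2]

theorem T_congr {κ' : Type*} [Fintype κ'] {P' : X → κ'} (hP : IsLocallyConstant P)
    (hP' : IsLocallyConstant P') (h : ∀ w w', P' w = P' w' ↔ P w = P w') (z : H →L[ℂ] H) :
    S.T P' z = S.T P z := by
  exact (S.T_T hP hP' (fun w w' => (h w w').1) z).2.symm.trans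
    (S.T_T hP' hP (fun w w' => (h w w').2) z).1

theorem Ta_const [DecidableEq κ] (hP : IsLocallyConstant P) (t : ℝ) (z : H →L[ℂ] H) :
    S.Ta P (fun _ => t) z = ((t : ℂ) ^ 2) • S.T P z := by
  have h : ∀ c, S.fn (fun w => if P w = c then (t : ℂ) else 0) = (t : ℂ) • S.pr (P ⁻¹' {c}) := by
    intro c
    rw [pr, S.fn_smul _ ((obT_cl hP c).continuous_indicator continuous_one)]
    congr 1
    funext w
    by_cases hw : P w = c <;> simp [Set.indicator, hw]
  simp only [Ta, T, h, mul_smul_comm, smul_mul_assoc, smul_smul, Finset.smul_sum, sq]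

theorem norm_Q_le {θ : Set X → Set X} (hθ : Add' θ) (hP : IsLocallyConstant P) (z : H →L[ℂ] H) :
    ‖S.Q θ P z‖ ≤ ‖z‖ := by
  refine norm_sum_block_le (z := fun _ => z) (fun i => S.pr_proj (obT_cl hP i))
    (fun i => S.pr_proj (hθ.clopen _ (obT_cl hP i))) (obT_pair S hP) (fun i j hij => ?_)
    (norm_nonneg z) fun i =>
      obT_norm (S.pr_proj (obT_cl hP i)) (S.pr_proj (hθ.clopen _ (obT_cl hP i))) z
  refine S.pr_mul_of_disjoint (hθ.clopen _ (obT_cl hP i))
    (hθ.clopen _ (obT_cl hP j))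
    (hθ.disj _ _ (obT_cl hP i) (obT_cl hP j) ?_)
  exact Set.disjoint_left.2 fun w h1 h2 => hij (Eq.trans (Eq.symm h1) h2)

theorem Q_mem (θ : Set X → Set X) (P : X → κ) {z : H →L[ℂ] H} (hz : z ∈ S.M) : S.Q θ P z ∈ S.M := by
  exact sum_mem fun i _ => mul_mem (mul_mem (S.pr_mem _) hz) (S.pr_mem _)

end T

end Masa

end Crest.Agent.R109
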