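import Crest.Agent.R109.GDefs
import Crest.Agent.R121.WL
import Crest.Agent.R124.Trace
import Crest.Agent.R124.Kap
import Crest.Agent.R78.RN

/-! Row 109: a MASA given by its spectrum; partitions, pinchings, the conditional expectation. -/

set_option autoImplicit false
set_option linter.unusedSectionVars false

namespace Crest.Agent.R109

open Crest.Agent.R124 Filter Topology Function
open scoped BigOperators ComplexConjugate InnerProductSpace

/-- Finite clopen partitions (atoms may be empty). -/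
structure Part (X : Type*) [TopologicalSpace X] where
  n : ℕ
  f : X → Fin n
  lc : IsLocallyConstant f

section
variable {X : Type*} [TopologicalSpace X]

/-- `P ≤ Q` if `Q` refines `P`. -/
instance : Preorder (Part X) where
  le P Q := ∀ w w', Q.f w = Q.f w' → P.f w = P.f w'
  le_refl _ _ _ h := h
  le_trans _ _ _ h h' w w' e := h w w' (h' w w' e)

theorem Part.le_def {P Q : Part X} : P ≤ Q ↔ ∀ w w', Q.f w = Q.f w' → P.f w = P.f w' := Iff.rfl

/-- The partition into the fibres of a locally constant map. -/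
noncomputable def Part.of {κ : Type*} [Fintype κ] (f : X → κ) (hf : IsLocallyConstant f) : Part X :=
  ⟨Fintype.card κ, fun w => Fintype.equivFin κ (f w), hf.comp _⟩

theorem Part.of_eq {κ : Type*} [Fintype κ] {f : X → κ} (hf : IsLocallyConstant f) (w w' : X) :
    (Part.of f hf).f w = (Part.of f hf).f w' ↔ f w = f w' :=
  (Fintype.equivFin κ).apply_eq_iff_eq

instance : Nonempty (Part X) := ⟨⟨1, fun _ => 0, IsLocallyConstant.const _⟩⟩

instance : IsDirectedOrder (Part X) :=
  ⟨fun P Q => ⟨Part.of (fun w => (P.f w, Q.f w)) (P.lc.prodMk Q.lc),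
    fun w w' h => (Prod.ext_iff.mp ((Part.of_eq _ w w').mp h)).1,
    fun w w' h => (Prod.ext_iff.mp ((Part.of_eq _ w w').mp h)).2⟩⟩

/-- A cofinal ultrafilter of partitions. -/
noncomputable def UP (X : Type*) [TopologicalSpace X] : Ultrafilter (Part X) := Ultrafilter.of atTop

theorem UP_le : (UP X : Filter (Part X)) ≤ atTop := Ultrafilter.of_le _

theorem eventually_UP (P : Part X) : ∀ᶠ Q in (UP X : Filter (Part X)), P ≤ Q :=
  UP_le (eventually_ge_atTop P)

open Classical in
/-- A function as a continuous map (junk value `0`). -/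
noncomputable def cfn (F : X → ℂ) : C(X, ℂ) := if h : Continuous F then ⟨F, h⟩ else 0

theorem cfn_apply {F : X → ℂ} (h : Continuous F) (w : X) : cfn F w = F w := by simp [cfn, h]

theorem cfn_coe (F : C(X, ℂ)) : cfn F = F :=
  ContinuousMap.ext fun w => cfn_apply F.continuous w

/-- Finitely additive maps on clopen sets. -/
structure Add' (θ : Set X → Set X) : Prop where
  clopen : ∀ U, IsClopen U → IsClopen (θ U)
  union : ∀ U V, IsClopen U → IsClopen V → θ (U ∪ V) = θ U ∪ θ V
  disj : ∀ U V, IsClopen U → IsClopen V → Disjoint U V → Disjoint (θ U) (θ V)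

end

/-- A MASA `A = ι (C(X))` of the von Neumann algebra `M`. -/
structure Masa (X : Type*) [TopologicalSpace X] (H : Type*) [NormedAddCommGroup H]
    [InnerProductSpace ℂ H] [CompleteSpace H] where
  M : VonNeumannAlgebra H
  ι : C(X, ℂ) →⋆ₐ[ℂ] (H →L[ℂ] H)
  inj : Injective ι
  mem : ∀ F, ι F ∈ M
  max : ∀ y ∈ M, (∀ F, ι F * y = y * ι F) → ∃ F, ι F = y

/-- The normal case: a separating vector whose state has `A` in its centraliser. -/
structure NS (X : Type*) [TopologicalSpace X] (H : Type*) [NormedAddCommGroup H]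
    [InnerProductSpace ℂ H] [CompleteSpace H] extends Masa X H where
  Ω : H
  norm_le : ‖Ω‖ ≤ 1
  central : ∀ F, ∀ y ∈ M, ⟪Ω, (ι F * y) Ω⟫_ℂ = ⟪Ω, (y * ι F) Ω⟫_ℂ
  sep : ∀ y ∈ M, y Ω = 0 → y = 0

variable {X : Type*} [TopologicalSpace X] {H : Type*} [NormedAddCommGroup H]
  [InnerProductSpace ℂ H] [CompleteSpace H]

namespace Masa

variable (S : Masa X H)

/-- The operator of a (continuous) function. -/
noncomputable def fn (F : X → ℂ) : H →L[ℂ] H := S.ι (cfn F)

/-- The projection of a (clopen) set. -/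
noncomputable def pr (U : Set X) : H →L[ℂ] H := S.fn (U.indicator 1)

/-- The MASA as a von Neumann algebra. -/
noncomputable def A : VonNeumannAlgebra H := (cent (Set.range S.ι)).commutant

/-- Pinching. -/
noncomputable def T {κ : Type*} [Fintype κ] (P : X → κ) (z : H →L[ℂ] H) : H →L[ℂ] H :=
  ∑ i, S.pr (P ⁻¹' {i}) * z * S.pr (P ⁻¹' {i})

/-- Pinching with amplitudes. -/
noncomputable def Ta {κ : Type*} [Fintype κ] [DecidableEq κ] (f : X → κ) (a : X → ℝ)
    (z : H →L[ℂ] H) : H →L[ℂ] H :=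
  ∑ c, S.fn (fun w => if f w = c then (a w : ℂ) else 0) * z *
    S.fn fun w => if f w = c then (a w : ℂ) else 0

/-- Compression to the neighbourhood of a graph. -/
noncomputable def Q (θ : Set X → Set X) {κ : Type*} [Fintype κ] (P : X → κ) (z : H →L[ℂ] H) :
    H →L[ℂ] H :=
  ∑ i, S.pr (P ⁻¹' {i}) * z * S.pr (θ (P ⁻¹' {i}))

/-- The weak limit of the pinchings. -/
noncomputable def EE (z : H →L[ℂ] H) : H →L[ℂ] H :=
  Classical.epsilon fun b : H →L[ℂ] H =>
    ∀ η ξ, Tendsto (fun P : Part X => ⟪η, S.T P.f z ξ⟫_ℂ) (UP X) (𝓝 ⟪η, b ξ⟫_ℂ)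

/-- The conditional expectation (for `z ∈ M`, `ι (cE z) = EE z`). -/
noncomputable def cE (z : H →L[ℂ] H) : C(X, ℂ) := invFun S.ι (S.EE z)

end Masa

namespace NS

variable (S : NS X H)

/-- The state. -/
noncomputable def ψ (y : H →L[ℂ] H) : ℂ := ⟪S.Ω, y S.Ω⟫_ℂ

/-- Normalising elements with a continuous positive Radon-Nikodym derivative. -/
structure Nrm (u : H →L[ℂ] H) : Prop where
  mem : u ∈ S.M
  left : ∀ F, ∃ F', star u * S.ι F * u = S.ι F'
  right : ∀ F, ∃ F', u * S.ι F * star u = S.ι F'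
  rn : ∃ D : C(X, ℂ), (∀ w, 0 < (D w).re ∧ (D w).im = 0) ∧
    ∀ F, S.ψ (u * S.ι F * star u) = S.ψ (S.ι (F * D))

/-- Diffuse elements. -/
def Dif (x : H →L[ℂ] H) : Prop :=
  ∀ η : ℝ, 0 < η → ∃ P : Part X,
    ∑ i, ‖S.ι (S.cE (star x * S.pr (P.f ⁻¹' {i}) * x)) S.Ω‖ ^ 2 ≤ η

/-- The `K`-functional. -/
noncomputable def KN (K : ℝ) (b : H →L[ℂ] H) : ℝ :=
  ⨅ b₁ : {b₁ : H →L[ℂ] H // b₁ ∈ S.M ∧ IsSelfAdjoint b₁}, ‖b₁.1‖ + K * ‖(b - b₁.1) S.Ω‖

end NS

end Crest.Agent.R109
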