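import Crest.Agent.R109.OBasic

/-! Row 109: the conditional expectation along the ultrafilter `UP`, and graph limits. -/

set_option autoImplicit false
set_option linter.unusedSectionVars false

namespace Crest.Agent.R109

open Crest.Agent.R124 Filter Topology Function
open scoped BigOperators ComplexConjugate InnerProductSpace ComplexOrder

variable {X : Type*} [TopologicalSpace X] [CompactSpace X] [T2Space X] [TotallyDisconnectedSpace X]
  {H : Type*} [NormedAddCommGroup H] [InnerProductSpace ℂ H] [CompleteSpace H]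

namespace OExp

/-- weak operator convergence -/
def WL {I : Type*} (l : Filter I) (a : I → H →L[ℂ] H) (b : H →L[ℂ] H) : Prop :=
  ∀ η ξ, Tendsto (fun i => ⟪η, a i ξ⟫_ℂ) l (𝓝 ⟪η, b ξ⟫_ℂ)

variable {I : Type*} {l : Filter I} {a a' : I → H →L[ℂ] H} {b b' : H →L[ℂ] H}

theorem WL.unique [l.NeBot] (h : WL l a b) (h' : WL l a' b') (e : ∀ᶠ i in l, a i = a' i) :
    b = b' := by
  ext ξ
  exact ext_inner_left ℂ fun η =>
    tendsto_nhds_unique ((h η ξ).congr' (e.mono fun i hi => by simp only [hi])) (h' η ξ)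

theorem WL.const (b : H →L[ℂ] H) : WL l (fun _ => b) b := fun _ _ => tendsto_const_nhds

theorem WL.add (h : WL l a b) (h' : WL l a' b') : WL l (fun i => a i + a' i) (b + b') := by
  intro η ξ
  simpa [inner_add_right] using (h η ξ).add (h' η ξ)

theorem WL.smul (h : WL l a b) (c : ℂ) : WL l (fun i => c • a i) (c • b) := by
  intro η ξ
  simpa [inner_smul_right] using (h η ξ).const_mul c

theorem WL.mul_left (h : WL l a b) (x : H →L[ℂ] H) : WL l (fun i => x * a i) (x * b) := by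
  intro η ξ
  simpa [ContinuousLinearMap.adjoint_inner_left] using h (ContinuousLinearMap.adjoint x η) ξ

theorem WL.mul_right (h : WL l a b) (x : H →L[ℂ] H) : WL l (fun i => a i * x) (b * x) := by
  intro η ξ
  simpa using h η (x ξ)

theorem WL.star (h : WL l a b) : WL l (fun i => star (a i)) (star b) := by
  intro η ξ
  simp only [ContinuousLinearMap.star_eq_adjoint, ContinuousLinearMap.adjoint_inner_right]
  simpa only [inner_conj_symm, Function.comp_def] using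
    (Complex.continuous_conj.tendsto _).comp (h ξ η)

end OExp

/-- Weak limits stay in the von Neumann algebra (`mem_of_comm`). -/
theorem mem_of_wlim {M : VonNeumannAlgebra H} {I : Type*} {l : Filter I} [l.NeBot]
    {a : I → H →L[ℂ] H} {b : H →L[ℂ] H} (ha : ∀ᶠ i in l, a i ∈ M)
    (h : ∀ η ξ, Tendsto (fun i => ⟪η, a i ξ⟫_ℂ) l (𝓝 ⟪η, b ξ⟫_ℂ)) : b ∈ M := by
  refine mem_of_comm fun y hy => ?_
  exact (OExp.WL.mul_left h y).unique (OExp.WL.mul_right h y)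
    (ha.mono fun i hi => (comm_of_mem hi hy).symm)

namespace Masa

variable (S : Masa X H)

/-- `R121.exists_wlim`, `Classical.epsilon_spec`. -/
theorem EE_tendsto (z : H →L[ℂ] H) (η ξ : H) :
    Tendsto (fun P : Part X => ⟪η, S.T P.f z ξ⟫_ℂ) (UP X) (𝓝 ⟪η, S.EE z ξ⟫_ℂ) := by
  obtain ⟨b, -, hb⟩ := R121.exists_wlim (UP X) (fun P : Part X => S.T P.f z)
    fun P => S.norm_T_le P.lc z
  exact Classical.epsilon_spec (p := fun b : H →L[ℂ] H =>
    ∀ η ξ, Tendsto (fun P : Part X => ⟪η, S.T P.f z ξ⟫_ℂ) (UP X) (𝓝 ⟪η, b ξ⟫_ℂ)) ⟨b, hb⟩ η ξ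

theorem EE_wl (z : H →L[ℂ] H) : OExp.WL (UP X) (fun P : Part X => S.T P.f z) (S.EE z) :=
  S.EE_tendsto z

theorem EE_add (z z' : H →L[ℂ] H) : S.EE (z + z') = S.EE z + S.EE z' := by
  exact (S.EE_wl _).unique ((S.EE_wl z).add (S.EE_wl z')) (.of_forall fun P => S.T_add _ _ _)

theorem EE_smul (c : ℂ) (z : H →L[ℂ] H) : S.EE (c • z) = c • S.EE z := by
  exact (S.EE_wl _).unique ((S.EE_wl z).smul c) (.of_forall fun P => S.T_smul _ _ _)

theorem EE_star (z : H →L[ℂ] H) : S.EE (star z) = star (S.EE z) := by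
  exact (S.EE_wl _).unique (S.EE_wl z).star (.of_forall fun P => (S.T_star P.lc _).symm)

theorem EE_nonneg {z : H →L[ℂ] H} (hz : 0 ≤ z) : 0 ≤ S.EE z := by
  rw [ContinuousLinearMap.nonneg_iff_isPositive, ContinuousLinearMap.isPositive_iff']
  refine ⟨?_, fun ξ => ?_⟩
  · rw [IsSelfAdjoint, ← S.EE_star, (IsSelfAdjoint.of_nonneg hz).star_eq]
  · have h := (Complex.continuous_conj.tendsto _).comp (S.EE_tendsto z ξ ξ)
    simp only [inner_conj_symm, Function.comp_def] at h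
    refine ge_of_tendsto' h fun P => ?_
    exact ((ContinuousLinearMap.isPositive_iff' _).1
      ((ContinuousLinearMap.nonneg_iff_isPositive _).1 (S.T_nonneg P.lc hz))).2 ξ

theorem norm_EE_le (z : H →L[ℂ] H) : ‖S.EE z‖ ≤ ‖z‖ := by
  obtain ⟨b, hb, hb'⟩ := R121.exists_wlim (UP X) (fun P : Part X => S.T P.f z)
    fun P => S.norm_T_le P.lc z
  rwa [(S.EE_wl z).unique hb' (.of_forall fun _ => rfl)]

theorem EE_ι_mul (F : C(X, ℂ)) (z : H →L[ℂ] H) : S.EE (S.ι F * z) = S.ι F * S.EE z := by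
  exact (S.EE_wl _).unique ((S.EE_wl z).mul_left _) (.of_forall fun P => S.T_ι_mul _ _ _)

theorem EE_mul_ι (F : C(X, ℂ)) (z : H →L[ℂ] H) : S.EE (z * S.ι F) = S.EE z * S.ι F := by
  exact (S.EE_wl _).unique ((S.EE_wl z).mul_right _) (.of_forall fun P => S.T_mul_ι _ _ _)

theorem EE_ι (F : C(X, ℂ)) : S.EE (S.ι F) = S.ι F := by
  exact (S.EE_wl _).unique (OExp.WL.const _) (.of_forall fun P => S.T_ι P.lc _)

/-- `pr_mul_T`, `exists_part_clopen`, `eventually_UP`, `comm_ι_of_pr`. -/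
theorem EE_comm (F : C(X, ℂ)) (z : H →L[ℂ] H) : S.ι F * S.EE z = S.EE z * S.ι F := by
  refine S.comm_ι_of_pr (fun U hU => ?_) F
  obtain ⟨P, hP⟩ := exists_part_clopen hU
  exact ((S.EE_wl z).mul_left _).unique ((S.EE_wl z).mul_right _)
    ((eventually_UP P).mono fun Q hQ => S.pr_mul_T Q.lc (fun w w' h => hP w w' (hQ w w' h)) z)

theorem EE_mem {z : H →L[ℂ] H} (hz : z ∈ S.M) : S.EE z ∈ S.M :=
  mem_of_wlim (.of_forall fun P : Part X => S.T_mem P.f hz) (S.EE_tendsto z)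

theorem ι_cE {z : H →L[ℂ] H} (hz : z ∈ S.M) : S.ι (S.cE z) = S.EE z := by
  exact invFun_eq (S.max _ (S.EE_mem hz) fun F => S.EE_comm F z)

theorem cE_add {z z' : H →L[ℂ] H} (hz : z ∈ S.M) (hz' : z' ∈ S.M) :
    S.cE (z + z') = S.cE z + S.cE z' := by
  apply S.inj
  rw [map_add, S.ι_cE hz, S.ι_cE hz', S.ι_cE (add_mem hz hz'), S.EE_add]

theorem cE_sub {z z' : H →L[ℂ] H} (hz : z ∈ S.M) (hz' : z' ∈ S.M) :
    S.cE (z - z') = S.cE z - S.cE z' := by
  rw [eq_sub_iff_add_eq, ← S.cE_add (sub_mem hz hz') hz', sub_add_cancel]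

theorem cE_smul (c : ℂ) {z : H →L[ℂ] H} (hz : z ∈ S.M) : S.cE (c • z) = c • S.cE z := by
  apply S.inj
  rw [map_smul, S.ι_cE hz, S.ι_cE (S.M.toStarSubalgebra.smul_mem hz c), S.EE_smul]

theorem cE_sum {κ : Type*} (s : Finset κ) {z : κ → H →L[ℂ] H} (hz : ∀ i ∈ s, z i ∈ S.M) :
    S.cE (∑ i ∈ s, z i) = ∑ i ∈ s, S.cE (z i) := by
  classical
  induction s using Finset.induction_on with
  | empty => simpa using S.cE_smul 0 (zero_mem S.M)
  | insert i s hi ih =>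
    have h : ∀ j ∈ s, z j ∈ S.M := fun j hj => hz j (Finset.mem_insert_of_mem hj)
    rw [Finset.sum_insert hi, Finset.sum_insert hi,
      S.cE_add (hz i (Finset.mem_insert_self _ _)) (sum_mem h), ih h]

theorem cE_star {z : H →L[ℂ] H} (hz : z ∈ S.M) : S.cE (star z) = star (S.cE z) := by
  apply S.inj
  rw [map_star, S.ι_cE hz, S.ι_cE (star_mem hz), S.EE_star]

theorem cE_nonneg {z : H →L[ℂ] H} (hz : z ∈ S.M) (h : 0 ≤ z) (w : X) : 0 ≤ S.cE z w := by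
  refine (S.ι_nonneg_iff _).1 ?_ w
  rw [S.ι_cE hz]
  exact S.EE_nonneg h

theorem norm_cE_le {z : H →L[ℂ] H} (hz : z ∈ S.M) : ‖S.cE z‖ ≤ ‖z‖ := by
  rw [← S.norm_ι, S.ι_cE hz]
  exact S.norm_EE_le z

theorem cE_ι_mul (F : C(X, ℂ)) {z : H →L[ℂ] H} (hz : z ∈ S.M) : S.cE (S.ι F * z) = F * S.cE z := by
  apply S.inj
  rw [map_mul, S.ι_cE hz, S.ι_cE (mul_mem (S.mem F) hz), S.EE_ι_mul]

theorem cE_mul_ι (F : C(X, ℂ)) {z : H →L[ℂ] H} (hz : z ∈ S.M) : S.cE (z * S.ι F) = S.cE z * F := by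
  apply S.inj
  rw [map_mul, S.ι_cE hz, S.ι_cE (mul_mem hz (S.mem F)), S.EE_mul_ι]

theorem cE_ι (F : C(X, ℂ)) : S.cE (S.ι F) = F := by
  apply S.inj
  rw [S.ι_cE (S.mem F), S.EE_ι]

theorem cE_one : S.cE 1 = 1 := by
  simpa using S.cE_ι 1

/-- Central vector functionals factor through `EE`: `⟪η, T P z ξ⟫ = ⟪η, z ξ⟫` for all `P`. -/
theorem inner_EE {η ξ : H} (h : ∀ F, ∀ y ∈ S.M, ⟪η, (S.ι F * y) ξ⟫_ℂ = ⟪η, (y * S.ι F) ξ⟫_ℂ)
    {z : H →L[ℂ] H} (hz : z ∈ S.M) : ⟪η, S.EE z ξ⟫_ℂ = ⟪η, z ξ⟫_ℂ := by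
  refine tendsto_nhds_unique (S.EE_tendsto z η ξ) (tendsto_const_nhds.congr fun P => ?_)
  have e : ∀ i, ⟪η, (S.pr (P.f ⁻¹' {i}) * z * S.pr (P.f ⁻¹' {i})) ξ⟫_ℂ =
      ⟪η, (z * S.pr (P.f ⁻¹' {i})) ξ⟫_ℂ := fun i => by
    rw [mul_assoc]
    refine (h _ _ (mul_mem hz (S.pr_mem _))).trans ?_
    rw [mul_assoc]
    exact congrArg (fun y : H →L[ℂ] H => ⟪η, (z * y) ξ⟫_ℂ) (S.pr_proj (P.clopen i)).isIdempotentElem
  rw [T, sum_apply, inner_sum]
  simp only [e]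
  rw [← inner_sum, ← sum_apply, ← Finset.mul_sum, S.sum_pr P.lc, mul_one]

/-- The graph limit.  PROOF.  `R121.exists_wlim`, `norm_Q_le`; if `P` refines `{U, Uᶜ}` then
`pr U * Q θ P x = Q θ P x * pr (θ U)` (`θ` is monotone and preserves disjointness). -/
theorem exists_graph {θ : Set X → Set X} (hθ : Add' θ) {x : H →L[ℂ] H} (hx : x ∈ S.M) :
    ∃ y ∈ S.M, (∀ U, IsClopen U → S.pr U * y = y * S.pr (θ U)) ∧
      ∀ η ξ, Tendsto (fun P : Part X => ⟪η, S.Q θ P.f x ξ⟫_ℂ) (UP X) (𝓝 ⟪η, y ξ⟫_ℂ) := by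
  obtain ⟨y, -, hy⟩ := R121.exists_wlim (UP X) (fun P : Part X => S.Q θ P.f x)
    fun P => S.norm_Q_le hθ P.lc x
  refine ⟨y, mem_of_wlim (.of_forall fun P : Part X => S.Q_mem θ P.f hx) hy, fun U hU => ?_, hy⟩
  obtain ⟨P, hP⟩ := exists_part_clopen hU
  refine (OExp.WL.mul_left hy _).unique (OExp.WL.mul_right hy _)
    ((eventually_UP P).mono fun Q hQ => ?_)
  simp only [Masa.Q, Finset.mul_sum, Finset.sum_mul]
  refine Finset.sum_congr rfl fun i _ => ?_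
  have hi := Q.clopen i
  rw [← mul_assoc, ← mul_assoc, mul_assoc _ (S.pr (θ _)), S.pr_comm (θ _)]
  by_cases h : Q.f ⁻¹' {i} ⊆ U
  · have h' : θ (Q.f ⁻¹' {i}) ⊆ θ U := by
      have := hθ.union _ _ hi hU
      rw [Set.union_eq_self_of_subset_left h] at this
      rw [this]
      exact Set.subset_union_left
    rw [S.pr_mul_of_subset hU hi h, S.pr_mul_of_subset (hθ.clopen _ hU) (hθ.clopen _ hi) h']
  · obtain ⟨w, hw, hw'⟩ := Set.not_subset.1 h
    have h' : Disjoint U (Q.f ⁻¹' {i}) := Set.disjoint_left.2 fun w' h1 h2 =>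
      hw' ((hP w w' (hQ w w' ((show Q.f w = i from hw).trans (show Q.f w' = i from h2).symm))).2 h1)
    rw [S.pr_mul_of_disjoint hU hi h',
      S.pr_mul_of_disjoint (hθ.clopen _ hU) (hθ.clopen _ hi) (hθ.disj _ _ hU hi h')]
    simp

end Masa

end Crest.Agent.R109
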