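import Crest.Agent.R109.FDefs

/-! Row 109: rational Pick functions. -/

set_option autoImplicit false

namespace Crest.Agent.R109

open scoped BigOperators
open Polynomial

private theorem Pick_aeval_real (p : ℝ[X]) (x : ℝ) : aeval (x : ℂ) p = ((p.eval x : ℝ) : ℂ) :=
  aeval_ofReal (K := ℂ) p x

private theorem Pick_splits {q : ℝ[X]} (h : ∀ z : ℂ, 0 < z.im → aeval z q ≠ 0) : q.Splits := by
  refine Splits.of_splits_map (algebraMap ℝ ℂ) (IsAlgClosed.splits _) fun a ha => ?_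
  have h1 : aeval a q = 0 := by
    rw [← eval_map_algebraMap]
    exact (mem_roots'.1 ha).2
  refine ⟨a.re, Complex.ext rfl ?_⟩
  rcases lt_trichotomy a.im 0 with h2 | h2 | h2
  · refine absurd ?_ (h (starRingEnd ℂ a) (by simpa using h2))
    rw [aeval_conj, h1, map_zero]
  · simpa using h2.symm
  · exact absurd h1 (h a h2)

/-- The leading term at a real pole. -/
private theorem Pick_ray {q₁ g : ℝ[X]} {μ : ℝ} {k : ℕ} (h1 : q₁.eval μ ≠ 0)
    (h : ∀ z : ℂ, 0 < z.im → (aeval z g / aeval z ((X - C μ) ^ k * q₁)).im ≤ 0) {ω : ℂ} (hω : 0 < ω.im) :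
    (((g.eval μ / q₁.eval μ : ℝ) : ℂ) / ω ^ k).im ≤ 0 := by
  have hω0 : ω ≠ 0 := fun h0 => by simp [h0] at hω
  have hc : ContinuousAt (fun ε : ℝ => (aeval (μ + ε * ω) g / (aeval (μ + ε * ω) q₁ * ω ^ k)).im) 0 := by
    refine Complex.continuous_im.continuousAt.comp (ContinuousAt.div (by fun_prop) (by fun_prop) ?_)
    simp only [Complex.ofReal_zero, zero_mul, add_zero, Pick_aeval_real]
    exact mul_ne_zero (by exact_mod_cast h1) (pow_ne_zero _ hω0)
  have h2 := le_of_tendsto (tendsto_nhdsWithin_of_tendsto_nhds (s := Set.Ioi 0) hc.tendsto) (b := 0)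
    (Filter.eventually_of_mem self_mem_nhdsWithin fun ε (hε : 0 < ε) => by
      have h3 := h (μ + ε * ω) (by simpa using mul_pos hε hω)
      have h4 : aeval (μ + ε * ω) g / (aeval (μ + ε * ω) q₁ * ω ^ k) =
          ((ε ^ k : ℝ) : ℂ) * (aeval (μ + ε * ω) g / aeval (μ + ε * ω) ((X - C μ) ^ k * q₁)) := by
        have h5 : (ε : ℂ) ≠ 0 := by exact_mod_cast hε.ne'
        simp only [map_mul, map_pow, map_sub, aeval_X, aeval_C, Complex.coe_algebraMap, add_sub_cancel_left,
          mul_pow, Complex.ofReal_pow]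
        field_simp
      rw [h4, Complex.im_ofReal_mul]
      exact mul_nonpos_of_nonneg_of_nonpos (by positivity) h3)
  simp only [Complex.ofReal_zero, zero_mul, add_zero, Pick_aeval_real] at h2
  rwa [Complex.ofReal_div, div_div]

private theorem Pick_nonneg {q₁ g : ℝ[X]} {μ : ℝ} (h1 : q₁.eval μ ≠ 0)
    (h : ∀ z : ℂ, 0 < z.im → (aeval z g / aeval z ((X - C μ) * q₁)).im ≤ 0) : 0 ≤ g.eval μ / q₁.eval μ := by
  have := Pick_ray (k := 1) h1 (by simpa only [pow_one] using h) (ω := Complex.I) (by simp)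
  generalize g.eval μ / q₁.eval μ = c at this
  simpa using this

private theorem Pick_simple {q₁ g : ℝ[X]} {μ : ℝ} {k : ℕ} (h1 : q₁.eval μ ≠ 0) (h2 : g.eval μ ≠ 0)
    (h : ∀ z : ℂ, 0 < z.im → (aeval z g / aeval z ((X - C μ) ^ k * q₁)).im ≤ 0) : k ≤ 1 := by
  by_contra hk
  have hk' : (2 : ℝ) ≤ k := by exact_mod_cast (by omega : 2 ≤ k)
  have key : ∀ φ : ℝ, 0 < φ → φ < 2 * Real.pi → 0 ≤ g.eval μ / q₁.eval μ * Real.sin φ := fun φ p1 p2 => by
    have h3 := Pick_ray h1 h (ω := Complex.exp ((φ / k : ℝ) * Complex.I)) (by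
      rw [Complex.exp_ofReal_mul_I_im]
      refine Real.sin_pos_of_pos_of_lt_pi (by positivity) ?_
      rw [div_lt_iff₀ (by positivity)]
      nlinarith [Real.pi_pos])
    have h4 : (k : ℂ) * (((φ / k : ℝ) : ℂ) * Complex.I) = φ * Complex.I := by
      have : (k : ℂ) ≠ 0 := by exact_mod_cast (by omega : k ≠ 0)
      push_cast
      field_simp
    rw [← Complex.exp_nat_mul, h4, div_eq_mul_inv, ← Complex.exp_neg, ← neg_mul, ← Complex.ofReal_neg,
      Complex.im_ofReal_mul, Complex.exp_ofReal_mul_I_im, Real.sin_neg] at h3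
    linarith
  have a1 := key (Real.pi / 2) (by positivity) (by linarith [Real.pi_pos])
  have a2 := key (Real.pi / 2 + Real.pi) (by positivity) (by linarith [Real.pi_pos])
  rw [Real.sin_add_pi, Real.sin_pi_div_two] at a2
  rw [Real.sin_pi_div_two] at a1
  exact div_ne_zero h2 h1 (by linarith)

private theorem Pick_coprime (q g : ℝ[X]) (hq : q.Monic) (hg : g.degree < q.degree)
    (h : ∀ z : ℂ, 0 < z.im → aeval z q ≠ 0 ∧ (aeval z g / aeval z q).im ≤ 0)
    (hc : ∀ μ ∈ q.roots, g.eval μ ≠ 0) :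
    ∃ b : ℝ → ℝ, (∀ μ, 0 ≤ b μ) ∧ ∀ z : ℂ, aeval z q ≠ 0 →
      aeval z g / aeval z q = ∑ μ ∈ q.roots.toFinset, (b μ : ℂ) / (z - μ) := by
  have hs : q.Splits := Pick_splits fun z hz => (h z hz).1
  have hnd : q.roots.Nodup := Multiset.nodup_iff_count_le_one.2 fun μ => by
    by_cases hμ : μ ∈ q.roots
    · obtain ⟨q₁, e, h1⟩ := exists_eq_pow_rootMultiplicity_mul_and_not_dvd q hq.ne_zero μ
      rw [count_roots]
      exact Pick_simple (mt dvd_iff_isRoot.2 h1) (hc μ hμ) fun z hz => e ▸ (h z hz).2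
    · rw [Multiset.count_eq_zero.2 hμ]
      exact zero_le_one
  set R := q.roots.toFinset with hR
  have hqR : q = ∏ μ ∈ R, (X - C μ) := by
    rw [Finset.prod_eq_multiset_prod, hR, Multiset.toFinset_val, hnd.dedup]
    exact hs.eq_prod_roots_of_monic hq
  have hcard : g.degree < R.card := by
    rw [hR, Multiset.toFinset_card_of_nodup hnd, ← hs.natDegree_eq_card_roots, ← degree_eq_natDegree hq.ne_zero]
    exact hg
  have hfac : ∀ μ ∈ R, q = (X - C μ) * ∏ ν ∈ R.erase μ, (X - C ν) := fun μ hμ => by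
    rw [Finset.mul_prod_erase R (fun ν => X - C ν) hμ]
    exact hqR
  have hint := Lagrange.eq_interpolate (s := R) (v := id) (Set.injOn_id _) hcard
  rw [Lagrange.interpolate_eq_sum] at hint
  refine ⟨fun μ => if μ ∈ R then g.eval μ / ∏ ν ∈ R.erase μ, (μ - ν) else 0, fun μ => ?_, fun z hz => ?_⟩
  · beta_reduce
    split_ifs with hμ
    · have h1 : (∏ ν ∈ R.erase μ, (X - C ν)).eval μ = ∏ ν ∈ R.erase μ, (μ - ν) := by simp [eval_prod]
      rw [← h1]
      refine Pick_nonneg ?_ fun z hz => hfac μ hμ ▸ (h z hz).2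
      rw [h1]
      exact Finset.prod_ne_zero_iff.2 fun ν hν => sub_ne_zero.2 (Finset.ne_of_mem_erase hν).symm
    · exact le_rfl
  · conv_lhs => rw [hint, map_sum, Finset.sum_div]
    refine Finset.sum_congr rfl fun μ hμ => ?_
    have h1 := congrArg (aeval z) (hfac μ hμ)
    rw [h1, map_mul] at hz
    simp only [id]
    rw [if_pos hμ, h1, map_mul, map_mul, mul_div_mul_right _ _ (right_ne_zero_of_mul hz)]
    simp

private theorem Pick_reflect (q : ℝ[X]) {n : ℕ} (hn : q.natDegree ≤ n) {z : ℂ} (hz : z ≠ 0) :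
    aeval z (reflect n q) * z⁻¹ ^ n = aeval z⁻¹ q := by
  let _ := invertibleOfNonzero (inv_ne_zero hz)
  have := eval₂_reflect_mul_pow (algebraMap ℝ ℂ) z⁻¹ n q hn
  rwa [invOf_eq_inv, inv_inv] at this

private theorem Pick_monic {q : ℝ[X]} {n : ℕ} (hq : q.coeff 0 = 1) (hn : q.natDegree ≤ n) :
    (reflect n q).Monic ∧ (reflect n q).natDegree = n := by
  have h1 : (reflect n q).natDegree ≤ n := natDegree_reflect_le.trans (max_le le_rfl hn)
  have h2 : (reflect n q).coeff n = 1 := by simp [hq]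
  exact ⟨monic_of_natDegree_le_of_coeff_eq_one n h1 h2,
    le_antisymm h1 (le_natDegree_of_ne_zero (by rw [h2]; exact one_ne_zero))⟩

private theorem Pick_inv_im {z : ℂ} (hz : 0 < z.im) : z ≠ 0 ∧ z⁻¹.im < 0 := by
  have h0 : z ≠ 0 := fun h0 => by simp [h0] at hz
  refine ⟨h0, ?_⟩
  rw [Complex.inv_im]
  exact div_neg_of_neg_of_pos (by linarith) (Complex.normSq_pos.2 h0)

/-- PROOF.  All complex roots of `q` are real (conjugation).  For a root `μ` of multiplicity `k` of `q`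
and `l < k` of `g`, `(z - μ) ^ (k - l) * g / q → c ≠ 0` real as `z → μ`; along the rays
`z = μ + ε e^{iφ}`, `0 < φ < π`, we get `Im (c e^{-i (k-l) φ}) ≤ 0`, which forces `k - l = 1`, `c > 0`.
Hence `q ∣ g * ∏_{μ ∈ R} (X - μ)` with `R` the set of roots, `g / q = g₁ / ∏ (X - μ)`,
`natDegree g₁ < card R`, and Lagrange interpolation gives the partial fractions with `b μ = c` or `0`. -/
theorem pick (q g : ℝ[X]) (hq : q.Monic) (hg : g.degree < q.degree)
    (h : ∀ z : ℂ, 0 < z.im → aeval z q ≠ 0 ∧ (aeval z g / aeval z q).im ≤ 0) :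
    ∃ b : ℝ → ℝ, (∀ μ, 0 ≤ b μ) ∧ ∀ z : ℂ, aeval z q ≠ 0 →
      aeval z g / aeval z q = ∑ μ ∈ q.roots.toFinset, (b μ : ℂ) / (z - μ) := by
  induction hn : q.natDegree using Nat.strong_induction_on generalizing q g with
  | _ n ih =>
  by_cases hc : ∀ μ ∈ q.roots, g.eval μ ≠ 0
  · exact Pick_coprime q g hq hg h hc
  push Not at hc
  obtain ⟨μ, hμ, h0⟩ := hc
  obtain ⟨q₁, rfl⟩ := dvd_iff_isRoot.2 (mem_roots'.1 hμ).2
  obtain ⟨g₁, rfl⟩ := dvd_iff_isRoot.2 h0
  have hq₁ : q₁.Monic := (monic_X_sub_C μ).of_mul_monic_left hq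
  have hdiv : ∀ z : ℂ, aeval z ((X - C μ) * q₁) ≠ 0 → aeval z q₁ ≠ 0 ∧
      aeval z ((X - C μ) * g₁) / aeval z ((X - C μ) * q₁) = aeval z g₁ / aeval z q₁ := fun z hz => by
    rw [map_mul] at hz
    exact ⟨right_ne_zero_of_mul hz, by rw [map_mul, map_mul, mul_div_mul_left _ _ (left_ne_zero_of_mul hz)]⟩
  obtain ⟨b, hb, hs⟩ := ih q₁.natDegree (by
      rw [← hn, (monic_X_sub_C μ).natDegree_mul hq₁, natDegree_X_sub_C]
      omega) q₁ g₁ hq₁ (by
      rw [degree_mul, degree_mul, degree_X_sub_C] at hg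
      exact lt_of_add_lt_add_left hg)
    (fun z hz => ⟨(hdiv z (h z hz).1).1, (hdiv z (h z hz).1).2 ▸ (h z hz).2⟩) rfl
  refine ⟨fun ν => if ν ∈ q₁.roots.toFinset then b ν else 0, fun ν => ?_, fun z hz => ?_⟩
  · beta_reduce
    split_ifs
    exacts [hb ν, le_rfl]
  · have hsub : q₁.roots.toFinset ⊆ ((X - C μ) * q₁).roots.toFinset :=
      Multiset.toFinset_subset.2 (Multiset.subset_of_le (roots.le_of_dvd hq.ne_zero (dvd_mul_left _ _)))
    rw [(hdiv z hz).2, hs z (hdiv z hz).1, ← Finset.sum_subset hsub fun ν _ hν => by simp only [if_neg hν]; simp]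
    exact Finset.sum_congr rfl fun ν hν => by simp only [if_pos hν]

/-- The form in the variable `s = 1 / z`.  PROOF.  `pick` for `reflect n q`, `reflect n g` with `n` at
least both degrees and `n ≥ 1`; the polynomial identity `g * ∏ (1 - μ X) = q * ∑ b μ X ∏_{others}` holds
since it holds at infinitely many points. -/
theorem pick' (q g : ℝ[X]) (hq : q.coeff 0 = 1) (hg : g.coeff 0 = 0)
    (h : ∀ s : ℂ, s.im < 0 → aeval s q ≠ 0 ∧ (aeval s g / aeval s q).im ≤ 0) :
    ∃ (J : Type) (_ : Fintype J) (b μ : J → ℝ), (∀ j, 0 ≤ b j) ∧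
      (∀ j, μ j = 0 ∨ q.eval (μ j)⁻¹ = 0) ∧ (g : PowerSeries ℝ) = (q : PowerSeries ℝ) * rs b μ ∧
      ∀ s : ℝ, q.eval s ≠ 0 → g.eval s / q.eval s = ∑ j, b j * s / (1 - μ j * s) := by
  set n := max q.natDegree g.natDegree
  have hqn : q.natDegree ≤ n := le_max_left _ _
  have hgn : g.natDegree ≤ n := le_max_right _ _
  obtain ⟨hm, hd⟩ := Pick_monic hq hqn
  have hdiv : ∀ z : ℂ, z ≠ 0 → (aeval z⁻¹ q ≠ 0 ↔ aeval z (reflect n q) ≠ 0) ∧
      aeval z (reflect n g) / aeval z (reflect n q) = aeval z⁻¹ g / aeval z⁻¹ q := fun z hz => by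
    have h1 : z⁻¹ ^ n ≠ 0 := pow_ne_zero _ (inv_ne_zero hz)
    rw [← Pick_reflect q hqn hz, ← Pick_reflect g hgn hz, mul_div_mul_right _ _ h1]
    exact ⟨mul_ne_zero_iff_right h1, rfl⟩
  obtain ⟨b, hb, hs⟩ := pick (reflect n q) (reflect n g) hm (by
      rw [degree_eq_natDegree hm.ne_zero, hd, degree_lt_iff_coeff_zero]
      intro m hm
      rcases hm.eq_or_lt with rfl | hm
      · simp [hg]
      · exact coeff_eq_zero_of_natDegree_lt ((natDegree_reflect_le.trans (max_le le_rfl hgn)).trans_lt hm))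
    fun z hz => by
      obtain ⟨h1, h2⟩ := Pick_inv_im hz
      exact ⟨(hdiv z h1).1.1 (h _ h2).1, (hdiv z h1).2 ▸ (h _ h2).2⟩
  set R := (reflect n q).roots.toFinset with hR
  have hreal : ∀ s : ℝ, q.eval s ≠ 0 → g.eval s / q.eval s = ∑ j : R, b j * s / (1 - j * s) := fun s hs0 => by
    rcases eq_or_ne s 0 with rfl | h0
    · simp [← coeff_zero_eq_eval_zero, hg]
    have h1 : (s : ℂ)⁻¹ ≠ 0 := inv_ne_zero (by exact_mod_cast h0)
    obtain ⟨h2, h3⟩ := hdiv _ h1
    rw [inv_inv, Pick_aeval_real] at h2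
    rw [hs _ (h2.1 (by exact_mod_cast hs0)), inv_inv, Pick_aeval_real, Pick_aeval_real] at h3
    rw [Finset.sum_coe_sort R fun μ => b μ * s / (1 - μ * s)]
    have h4 : g.eval s / q.eval s = ∑ μ ∈ R, b μ / (s⁻¹ - μ) := by exact_mod_cast h3.symm
    rw [h4]
    refine Finset.sum_congr rfl fun μ _ => ?_
    rw [← mul_div_mul_right _ _ h0, sub_mul, inv_mul_cancel₀ h0]
  refine ⟨R, inferInstance, fun j => b j, fun j => j, fun j => hb j, fun j => ?_, ?_, hreal⟩
  · rw [or_iff_not_imp_left]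
    intro h0
    have h1 : aeval ((j : ℝ) : ℂ) (reflect n q) = 0 := by
      rw [Pick_aeval_real, (mem_roots'.1 (Multiset.mem_toFinset.1 j.2)).2, Complex.ofReal_zero]
    have h2 := Pick_reflect q hqn (z := ((j : ℝ) : ℂ)) (by exact_mod_cast h0)
    rw [h1, zero_mul, ← Complex.ofReal_inv, Pick_aeval_real] at h2
    exact_mod_cast h2.symm
  · set P : ℝ[X] := ∏ j : R, (1 - C (j : ℝ) * X) with hP
    set S : ℝ[X] := ∑ j : R, C (b j) * X * ∏ i ∈ Finset.univ.erase j, (1 - C (i : ℝ) * X) with hS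
    have hq0 : q ≠ 0 := fun h0 => by simp [h0] at hq
    have hP0 : P ≠ 0 := fun h0 => by
      have := congrArg (eval 0) h0
      simp [hP, eval_prod] at this
    have e1 : g * P = q * S := by
      refine mul_right_cancel₀ (mul_ne_zero hq0 hP0) (Polynomial.funext fun s => ?_)
      simp only [eval_mul]
      rcases eq_or_ne (q.eval s * P.eval s) 0 with h0 | h0
      · rw [h0, mul_zero, mul_zero]
      congr 1
      have h1 := left_ne_zero_of_mul h0
      have h2 := right_ne_zero_of_mul h0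
      rw [(div_eq_iff h1).1 (hreal s h1), mul_right_comm, mul_comm, Finset.sum_mul, hS, eval_finsetSum]
      congr 1
      refine Finset.sum_congr rfl fun j _ => ?_
      rw [hP, ← Finset.mul_prod_erase _ _ (Finset.mem_univ j), eval_mul] at h2 ⊢
      have h3 := left_ne_zero_of_mul h2
      simp only [eval_mul, eval_sub, eval_one, eval_C, eval_X] at h3 ⊢
      rw [← mul_assoc, div_mul_cancel₀ _ h3]
    have e2 : ∀ j : R, ((1 - C (j : ℝ) * X : ℝ[X]) : PowerSeries ℝ) *
        rs (fun _ : Unit => b j) (fun _ => (j : ℝ)) = ((C (b j) * X : ℝ[X]) : PowerSeries ℝ) := fun j => by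
      ext m
      simp only [coe_sub, coe_one, coe_mul, coe_C, coe_X, sub_mul, one_mul, mul_assoc, map_sub,
        PowerSeries.coeff_C_mul, PowerSeries.coeff_X]
      rcases m with _ | _ | m <;> simp [PowerSeries.coeff_succ_X_mul, rs, pow_succ]
      ring
    have e3 : rs (fun j : R => b j) (fun j => (j : ℝ)) =
        ∑ j : R, rs (fun _ : Unit => b j) (fun _ => (j : ℝ)) := by
      ext m
      simp only [map_sum, rs, PowerSeries.coeff_mk]
      split_ifs <;> simp
    have e4 : (P : PowerSeries ℝ) * rs (fun j : R => b j) (fun j => (j : ℝ)) = (S : PowerSeries ℝ) := by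
      rw [e3, Finset.mul_sum, hS, ← coeToPowerSeries.ringHom_apply (φ := ∑ j : R, _), map_sum]
      refine Finset.sum_congr rfl fun j _ => ?_
      rw [hP, ← Finset.mul_prod_erase _ _ (Finset.mem_univ j), coe_mul, mul_right_comm, e2,
        coeToPowerSeries.ringHom_apply, ← coe_mul]
    refine mul_right_cancel₀ (mt coe_eq_zero_iff.1 hP0) ?_
    rw [← coe_mul, e1, coe_mul, ← e4]
    ring

/-- Real rooted polynomials in the variable `s = 1 / z` (`reflect n q` is monic of degree `n` and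
splits over `ℝ`). -/
theorem real_factor (q : ℝ[X]) (n : ℕ) (hq : q.coeff 0 = 1) (hn : q.natDegree ≤ n)
    (h : ∀ s : ℂ, s.im < 0 → aeval s q ≠ 0) :
    ∃ α : Fin n → ℝ, q = ∏ j, (1 - C (α j) * X) := by
  obtain ⟨hm, hd⟩ := Pick_monic hq hn
  have hs : (reflect n q).Splits := Pick_splits fun z hz h0 => by
    obtain ⟨h1, h2⟩ := Pick_inv_im hz
    exact h _ h2 (by rw [← Pick_reflect q hn h1, h0, zero_mul])
  have h1 := hs.eq_prod_roots_of_monic hm
  have h2 := hs.natDegree_eq_card_roots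
  rw [hd] at h2
  obtain ⟨l, hl⟩ := Quot.exists_rep (reflect n q).roots
  rw [← hl, Multiset.quot_mk_to_coe''] at h1 h2
  rw [Multiset.coe_card] at h2
  subst h2
  refine ⟨l.get, mul_left_cancel₀ X_ne_zero (Polynomial.funext fun s => ?_)⟩
  rcases eq_or_ne s 0 with rfl | h0
  · simp
  have h3 := Pick_reflect q hn (z := ((s⁻¹ : ℝ) : ℂ)) (by exact_mod_cast inv_ne_zero h0)
  rw [← Complex.ofReal_inv, inv_inv, Pick_aeval_real, Pick_aeval_real, h1, Multiset.map_coe, Multiset.prod_coe,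
    ← List.ofFn_get l, List.map_ofFn, List.prod_ofFn] at h3
  have h4 : q.eval s = (∏ j, (s⁻¹ - l.get j)) * ∏ _j : Fin l.length, s := by
    simp only [Function.comp_def, eval_prod, eval_sub, eval_X, eval_C, List.ofFn_get] at h3
    rw [Finset.prod_const, Finset.card_univ, Fintype.card_fin]
    exact_mod_cast h3.symm
  rw [eval_mul, eval_mul, h4, ← Finset.prod_mul_distrib, eval_prod]
  congr 1
  refine Finset.prod_congr rfl fun j _ => ?_
  simp [sub_mul, h0]

end Crest.Agent.R109
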