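import Crest.Agent.R109.Cf
import Crest.Agent.R109.Pick

/-! Row 109: real stability of `Qf`. -/

set_option autoImplicit false
set_option linter.unusedSectionVars false

namespace Crest.Agent.R109

open scoped BigOperators ComplexConjugate
open Function

variable {I : Type*} [Fintype I] [DecidableEq I] {C : Type} [Fintype C] [DecidableEq C] [Nonempty C]
  {Y : I → I → ℂ} {π : I → Option C}

/-- The return function: `Q t = Q (t[i := 0]) * (1 - t i * ret t i)`. -/
noncomputable def ret {R : Type*} [Field R] [Algebra ℝ R] (Y : I → I → ℂ) (π : I → Option C)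
    (t : I → R) (i : I) : R :=
  (Qf Y π (update t i 0) - Qf Y π (update t i 1)) / Qf Y π (update t i 0)

theorem Qf_eq_ret {R : Type*} [Field R] [Algebra ℝ R] (t : I → R) (i : I)
    (h : Qf Y π (update t i 0) ≠ 0) : Qf Y π t = Qf Y π (update t i 0) * (1 - t i * ret Y π t i) := by
  rw [Qf_affine t i, ret]
  field_simp
  ring

private theorem ret_update {R : Type*} [Field R] [Algebra ℝ R] (t : I → R) (i : I) (z : R) :
    ret Y π (update t i z) i = ret Y π t i := by
  simp only [ret, update_idem]

private theorem ret_of_stab {t : I → ℂ} {i : I}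
    (h : ∀ z : ℂ, z.im < 0 ∨ z = 0 → Qf Y π (update t i z) ≠ 0) : (ret Y π t i).im ≤ 0 := by
  by_contra hr
  push Not at hr
  have h0 : ret Y π t i ≠ 0 := fun h0 => by rw [h0] at hr; simp at hr
  have h1 : (ret Y π t i)⁻¹.im < 0 := by
    rw [Complex.inv_im]
    exact div_neg_of_neg_of_pos (by linarith) (Complex.normSq_pos.2 h0)
  refine h _ (Or.inl h1) ?_
  rw [Qf_eq_ret _ i (by rw [update_idem]; exact h 0 (Or.inr rfl)), ret_update, update_self,
    inv_mul_cancel₀ h0, sub_self, mul_zero]

private theorem ne_of_ret {t : I → ℂ} {i : I} (h0 : Qf Y π (update t i 0) ≠ 0)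
    (hr : (ret Y π t i).im ≤ 0) (ht : (t i).im < 0 ∨ t i = 0) : Qf Y π t ≠ 0 := by
  rw [Qf_eq_ret t i h0]
  refine mul_ne_zero h0 fun h1 => ?_
  rcases ht with ht | ht
  · have h2 : t i ≠ 0 := fun h2 => by rw [h2] at ht; simp at ht
    have h3 : ret Y π t i = (t i)⁻¹ := eq_inv_of_mul_eq_one_right (sub_eq_zero.1 h1).symm
    rw [h3, Complex.inv_im] at hr
    have := div_pos (neg_pos.2 ht) (Complex.normSq_pos.2 h2)
    linarith
  · rw [ht] at h1
    simp at h1

private theorem stab_full (h : HZ Y) (g : I → C) {t : I → ℂ} (ht : ∀ i, (t i).im < 0 ∨ t i = 0) :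
    Qf Y (fun i => some (g i)) t ≠ 0 := by
  rw [Qf_det h g t]
  intro hdet
  obtain ⟨ξ, hξ0, hξ⟩ := Matrix.exists_mulVec_eq_zero_iff.2 hdet
  set η : I → ℂ := fun i => ∑ j, cm Y g i j * ξ j with hη
  have h1 : ∀ i, ξ i = t i * η i := fun i => by
    have := congrFun hξ i
    rw [Matrix.sub_mulVec, Matrix.one_mulVec] at this
    simp only [Pi.sub_apply, Pi.zero_apply, Matrix.mulVec, dotProduct, Matrix.of_apply,
      Algebra.algebraMap_self, RingHom.id_apply] at this
    rw [sub_eq_zero.1 this, hη, Finset.mul_sum]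
    exact Finset.sum_congr rfl fun j _ => by ring
  have hcm : ∀ i j, conj (cm Y g i j) = cm Y g j i := fun i j => by
    simp only [cm, Matrix.of_apply]
    by_cases hij : g i = g j
    · rw [if_pos hij, if_pos hij.symm, h.herm i j]
    · rw [if_neg hij, if_neg fun h' => hij h'.symm, map_zero]
  have h2 : conj (∑ i, conj (ξ i) * η i) = ∑ i, conj (ξ i) * η i := by
    simp only [hη, map_sum, map_mul, Complex.conj_conj, Finset.mul_sum, hcm]
    rw [Finset.sum_comm]
    exact Finset.sum_congr rfl fun i _ => Finset.sum_congr rfl fun j _ => by ring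
  have h3 : ∑ i, -(t i).im * Complex.normSq (η i) = 0 := by
    have h4 := Complex.conj_eq_iff_im.1 h2
    rw [Complex.im_sum] at h4
    rw [← h4]
    refine Finset.sum_congr rfl fun i _ => ?_
    rw [h1 i, map_mul, mul_assoc, ← Complex.normSq_eq_conj_mul_self]
    simp
  have h5 : ∀ i ∈ (Finset.univ : Finset I), 0 ≤ -(t i).im * Complex.normSq (η i) := fun i _ => by
    refine mul_nonneg ?_ (Complex.normSq_nonneg _)
    rcases ht i with h6 | h6
    · linarith
    · simp [h6]
  refine hξ0 (funext fun i => ?_)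
  have h6 := (Finset.sum_eq_zero_iff_of_nonneg h5).1 h3 i (Finset.mem_univ i)
  rw [h1 i, Pi.zero_apply]
  rcases ht i with h7 | h7
  · rcases mul_eq_zero.1 h6 with h8 | h8
    · linarith
    · rw [Complex.normSq_eq_zero.1 h8, mul_zero]
  · rw [h7, zero_mul]

private theorem update_adm {t : I → ℂ} {i : I} (ht : ∀ j, j ≠ i → (t j).im < 0 ∨ t j = 0) {z : ℂ}
    (hz : z.im < 0 ∨ z = 0) (j : I) : (update t i z j).im < 0 ∨ update t i z j = 0 := by
  by_cases hj : j = i
  · rw [hj, update_self]; exact hz
  · rw [update_of_ne hj]; exact ht j hj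

/-- PROOF.  Induction on the number of uncoloured indices.  Full colourings (`Qf_det`): if
`ξ = diag t * M ξ` then `⟪ξ, M ξ⟫ = ∑_{t i ≠ 0} |ξ i|² / t i` is real, so `ξ = 0`.  If `π i = none`:
`Q₀ = Qf π (t[i := 0]) = Qf π_c (t[i := 0]) ≠ 0` for `π_c = update π i (some c)` (`Qf_congr`);
`ret π_c` has imaginary part `≤ 0` (else `t i := 1 / ret` is a root), `ret π` is their average
(`Qf_avg`), so `1 - t i * ret π ≠ 0`. -/
theorem stab (h : HZ Y) (π : I → Option C) {t : I → ℂ} (ht : ∀ i, (t i).im < 0 ∨ t i = 0) :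
    Qf Y π t ≠ 0 := by
  induction hn : (Finset.univ.filter fun i => π i = none).card generalizing π t with
  | zero =>
    have hπ : π = fun i => some ((π i).getD (Classical.arbitrary C)) := by
      funext i
      cases hi : π i with
      | none =>
        have : i ∈ Finset.univ.filter fun i => π i = none := by simp [hi]
        rw [Finset.card_eq_zero.1 hn] at this
        simp at this
      | some c => rfl
    rw [hπ]
    exact stab_full h _ ht
  | succ n ih =>
    obtain ⟨i, hi⟩ := Finset.card_pos.1 (show 0 < (Finset.univ.filter fun i => π i = none).card by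
      omega)
    have hi' : π i = none := (Finset.mem_filter.1 hi).2
    have hc : ∀ c : C, (Finset.univ.filter fun j => update π i (some c) j = none).card = n := by
      intro c
      have : (Finset.univ.filter fun j => update π i (some c) j = none) =
          (Finset.univ.filter fun j => π j = none).erase i := by
        ext j
        by_cases hj : j = i
        · simp [hj]
        · simp [hj]
      rw [this, Finset.card_erase_of_mem hi, hn]
      rfl
    have h0 : ∀ c : C, Qf Y π (update t i 0) = Qf Y (update π i (some c)) (update t i 0) := by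
      intro c
      refine Qf_congr (fun _ _ _ _ => rfl) fun j hj => ?_
      by_cases hji : j = i
      · rw [hji, update_self] at hj; exact absurd rfl hj
      · rw [update_of_ne hji]
    have hst : ∀ (c : C) (z : ℂ), z.im < 0 ∨ z = 0 →
        Qf Y (update π i (some c)) (update t i z) ≠ 0 :=
      fun c z hz => ih _ (update_adm (fun j _ => ht j) hz) (hc c)
    have hQ0 : Qf Y π (update t i 0) ≠ 0 := by
      rw [h0 (Classical.arbitrary C)]
      exact hst _ 0 (Or.inr rfl)
    have hcard : (Fintype.card C : ℂ) ≠ 0 := by exact_mod_cast Fintype.card_ne_zero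
    have hret : ret Y π t i =
        ((Fintype.card C : ℝ)⁻¹ : ℝ) * ∑ c, ret Y (update π i (some c)) t i := by
      simp only [ret, ← h0]
      rw [Qf_avg hi' (update t i 1), ← Finset.sum_div, Finset.sum_sub_distrib, Finset.sum_const,
        Finset.card_univ, nsmul_eq_mul]
      push_cast
      field_simp
    refine ne_of_ret hQ0 ?_ (ht i)
    rw [hret, Complex.im_ofReal_mul, Complex.im_sum]
    exact mul_nonpos_of_nonneg_of_nonpos (by positivity)
      (Finset.sum_nonpos fun c _ => ret_of_stab (hst c))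

theorem stab_ret (h : HZ Y) (π : I → Option C) {t : I → ℂ} (i : I)
    (ht : ∀ j, j ≠ i → (t j).im < 0 ∨ t j = 0) : (ret Y π t i).im ≤ 0 := by
  exact ret_of_stab fun z hz => stab h π (update_adm ht hz)

private theorem ret_closed (h : HZ Y) {t : I → ℂ} (i : I) (ht : ∀ j, (t j).im ≤ 0)
    (h0 : Qf Y π (update t i 0) ≠ 0) : (ret Y π t i).im ≤ 0 := by
  let p : ℝ → I → ℂ := fun ε j => t j - ε * Complex.I
  have hp : Continuous p := by fun_prop
  have hp0 : p 0 = t := by funext j; simp [p]
  have hu : ∀ z : ℂ, Continuous fun ε => Qf Y π (update (p ε) i z) := fun z =>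
    (continuous_Qf Y π).comp (hp.update i continuous_const)
  have hc : ContinuousAt (fun ε => (ret Y π (p ε) i).im) 0 := by
    refine Complex.continuous_im.continuousAt.comp ?_
    exact ((hu 0).sub (hu 1)).continuousAt.div (hu 0).continuousAt (by rw [hp0]; exact h0)
  have hl := hc.tendsto.mono_left (nhdsWithin_le_nhds (s := Set.Ioi (0 : ℝ)))
  rw [hp0] at hl
  refine le_of_tendsto hl (Filter.eventually_of_mem self_mem_nhdsWithin fun ε hε => ?_)
  refine stab_ret h π i fun j _ => Or.inl ?_
  have : (0 : ℝ) < ε := hε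
  have h1 := ht j
  simp only [p, Complex.sub_im, Complex.mul_im, Complex.ofReal_re, Complex.I_im, Complex.ofReal_im,
    Complex.I_re]
  linarith

/-- Mixed real / complex points.  PROOF.  Induction on the number of non-real coordinates; for `u` with
`Im t u < 0`, `Q (t[u := 0]) ≠ 0` by induction and `Im (ret t u) ≤ 0` by continuity from the points
`t - i ε` (`stab_ret`, `continuous_Qf`). -/
theorem mix (h : HZ Y) {τ : I → ℝ} (hτ : ∀ i, 0 ≤ τ i)
    (hpos : ∀ t : I → ℝ, (∀ i, 0 ≤ t i ∧ t i ≤ τ i) → 0 < Qf Y π t) {t : I → ℂ}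
    (ht : ∀ i, (t i).im < 0 ∨ ((t i).im = 0 ∧ 0 ≤ (t i).re ∧ (t i).re ≤ τ i)) :
    Qf Y π t ≠ 0 ∧ ∀ i, (ret Y π t i).im ≤ 0 := by
  have hup : ∀ {t : I → ℂ},
      (∀ i, (t i).im < 0 ∨ ((t i).im = 0 ∧ 0 ≤ (t i).re ∧ (t i).re ≤ τ i)) → ∀ u i,
      (update t u 0 i).im < 0 ∨ ((update t u 0 i).im = 0 ∧ 0 ≤ (update t u 0 i).re ∧
        (update t u 0 i).re ≤ τ i) := by
    intro t ht u i
    by_cases hi : i = u
    · rw [hi, update_self]
      exact Or.inr ⟨rfl, le_rfl, hτ u⟩
    · rw [update_of_ne hi]; exact ht i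
  have hle : ∀ {t : I → ℂ},
      (∀ i, (t i).im < 0 ∨ ((t i).im = 0 ∧ 0 ≤ (t i).re ∧ (t i).re ≤ τ i)) → ∀ i, (t i).im ≤ 0 :=
    fun ht i => (ht i).elim le_of_lt fun h => h.1.le
  have key : ∀ (n : ℕ) (t : I → ℂ),
      (∀ i, (t i).im < 0 ∨ ((t i).im = 0 ∧ 0 ≤ (t i).re ∧ (t i).re ≤ τ i)) →
      (Finset.univ.filter fun i => (t i).im < 0).card = n → Qf Y π t ≠ 0 := by
    intro n
    induction n with
    | zero =>
      intro t ht hn
      have h1 : ∀ i, (t i).im = 0 ∧ 0 ≤ (t i).re ∧ (t i).re ≤ τ i := fun i => by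
        refine (ht i).resolve_left fun hi => ?_
        have : i ∈ Finset.univ.filter fun i => (t i).im < 0 := by simp [hi]
        rw [Finset.card_eq_zero.1 hn] at this
        simp at this
      have h2 : t = fun i => (((t i).re : ℝ) : ℂ) :=
        funext fun i => Complex.ext (by simp) (by simp [(h1 i).1])
      rw [h2, Qf_ofReal]
      exact_mod_cast (hpos _ fun i => (h1 i).2).ne'
    | succ n ih =>
      intro t ht hn
      obtain ⟨u, hu⟩ := Finset.card_pos.1
        (show 0 < (Finset.univ.filter fun i => (t i).im < 0).card by omega)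
      have h0 : Qf Y π (update t u 0) ≠ 0 := by
        refine ih _ (hup ht u) ?_
        have : (Finset.univ.filter fun j => (update t u 0 j).im < 0) =
            (Finset.univ.filter fun j => (t j).im < 0).erase u := by
          ext j
          by_cases hj : j = u
          · simp [hj]
          · simp [hj]
        rw [this, Finset.card_erase_of_mem hu, hn]
        rfl
      exact ne_of_ret h0 (ret_closed h u (hle ht) h0) (Or.inl (Finset.mem_filter.1 hu).2)
  exact ⟨key _ t ht rfl, fun i => ret_closed h i (hle ht) (key _ _ (hup ht i) rfl)⟩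

private theorem Qf_single (h : HZ Y) (i : I) : Qf Y π (update (fun _ => (0 : ℝ)) i 1) = 1 := by
  unfold Qf
  rw [← Finset.sum_subset (Finset.subset_univ (Finset.powerset {i}))]
  · have : Finset.powerset {i} = {∅, {i}} := by
      ext S
      simp [Finset.subset_singleton_iff]
    rw [this, Finset.sum_pair (Finset.singleton_ne_empty i).symm, cf_empty, cf_single h]
    simp
  · intro S _ hS
    rw [Finset.mem_powerset, Finset.not_subset] at hS
    obtain ⟨j, hj, hji⟩ := hS
    rw [Finset.prod_eq_zero hj (update_of_ne (by simpa using hji) _ _), mul_zero]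

/-- The return function along a ray.  PROOF.  `pick'` for the polynomials (`Qf` over `ℝ[X]`, `map_Qf`
with `aeval`) `q = Q (X a[i := 0])`, `g = q - Q ((X a)[i := 1])`; `g 0 = 0` by `cf_single`. -/
theorem ret_rep (h : HZ Y) (π : I → Option C) {a : I → ℝ} (ha : ∀ i, 0 ≤ a i) (i : I) :
    ∃ (J : Type) (_ : Fintype J) (b μ : J → ℝ), (∀ j, 0 ≤ b j) ∧
      (∀ j, μ j = 0 ∨ Qf Y π (fun k => (μ j)⁻¹ * update a i 0 k) = 0) ∧
      Qs Y π a = Qs Y π (update a i 0) * (1 - PowerSeries.C (a i) * (PowerSeries.X * rs b μ)) ∧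
      ∀ s : ℝ, Qf Y π (fun k => s * update a i 0 k) ≠ 0 →
        ret Y π (fun k => s * a k) i = ∑ j, b j * s / (1 - μ j * s) := by
  let P : I → Polynomial ℝ := fun k => Polynomial.X * Polynomial.C (a k)
  let q : Polynomial ℝ := Qf Y π (update P i 0)
  let q₁ : Polynomial ℝ := Qf Y π (update P i 1)
  have hmap : ∀ {R : Type} [CommRing R] [Algebra ℝ R] (φ : Polynomial ℝ →ₐ[ℝ] R),
      φ q = Qf Y π (update (fun k => φ Polynomial.X * algebraMap ℝ R (a k)) i 0) ∧
      φ q₁ = Qf Y π (update (fun k => φ Polynomial.X * algebraMap ℝ R (a k)) i 1) := by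
    intro R _ _ φ
    have h1 : ∀ z : Polynomial ℝ, (fun k => φ (update P i z k)) =
        update (fun k => φ Polynomial.X * algebraMap ℝ R (a k)) i (φ z) := by
      intro z
      funext k
      by_cases hk : k = i
      · rw [hk, update_self, update_self]
      · rw [update_of_ne hk, update_of_ne hk, map_mul, Polynomial.C_eq_algebraMap, φ.commutes]
    refine ⟨?_, ?_⟩
    · rw [map_Qf, h1, map_zero]
    · rw [map_Qf, h1, map_one]
  have hupd : ∀ s : ℝ, update (fun k => s * a k) i 0 = fun k => s * update a i 0 k := by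
    intro s
    funext k
    by_cases hk : k = i
    · rw [hk, update_self, update_self, mul_zero]
    · rw [update_of_ne hk, update_of_ne hk]
  have hev : ∀ s : ℝ, q.eval s = Qf Y π (update (fun k => s * a k) i 0) ∧
      q₁.eval s = Qf Y π (update (fun k => s * a k) i 1) := fun s => by
    simpa using hmap (Polynomial.aeval s)
  obtain ⟨J, hJ, b, μ, hb, hμ, hps, hval⟩ := pick' q (q - q₁)
    (by
      rw [Polynomial.coeff_zero_eq_eval_zero, (hev 0).1, hupd]
      simp only [zero_mul]
      exact Qf_zero)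
    (by
      rw [Polynomial.coeff_zero_eq_eval_zero, Polynomial.eval_sub, (hev 0).1, (hev 0).2, hupd]
      simp only [zero_mul]
      rw [Qf_zero, Qf_single h, sub_self])
    (by
      intro s hs
      have hadm : ∀ k, (s * algebraMap ℝ ℂ (a k)).im < 0 ∨ s * algebraMap ℝ ℂ (a k) = 0 := by
        intro k
        rcases (ha k).eq_or_lt with hk | hk
        · right; rw [← hk]; simp
        · left
          have := mul_neg_of_neg_of_pos hs hk
          simpa using this
      obtain ⟨h1, h2⟩ := hmap (Polynomial.aeval s)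
      rw [Polynomial.aeval_X] at h1 h2
      rw [map_sub, h1, h2]
      exact ⟨stab h π (update_adm (fun j _ => hadm j) (Or.inr rfl)),
        stab_ret h π i fun j _ => hadm j⟩)
  refine ⟨J, hJ, b, μ, hb, fun j => (hμ j).imp id fun h1 => ?_, ?_, fun s hs => ?_⟩
  · rw [← hupd, ← (hev _).1, h1]
  · obtain ⟨h1, h2⟩ := hmap (Polynomial.coeToPowerSeries.algHom ℝ)
    simp only [Polynomial.coeToPowerSeries.algHom_apply, Algebra.algebraMap_self,
      PowerSeries.map_id, id_eq, Polynomial.coe_X, ← PowerSeries.C_eq_algebraMap,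
      mul_comm PowerSeries.X] at h1 h2
    have h3 : Qs Y π (update a i 0) = (q : PowerSeries ℝ) := by
      rw [h1, Qs]
      congr 1
      funext k
      by_cases hk : k = i
      · rw [hk, update_self, update_self, map_zero, zero_mul]
      · rw [update_of_ne hk, update_of_ne hk]
    rw [h3, Qs, Qf_affine _ i, ← h1, ← h2]
    rw [Polynomial.coe_sub] at hps
    linear_combination (-(PowerSeries.C (a i) * PowerSeries.X)) * hps
  · rw [← hupd, ← (hev s).1] at hs
    rw [← hval s hs, Polynomial.eval_sub, (hev s).1, (hev s).2, ret]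

/-- From `ret_rep` at `s = 1`: `1 - μ j > 0` since `Q (s t[i := 0]) ≠ 0` for `s ∈ [0, 1]`. -/
theorem ret_nonneg (h : HZ Y) {t : I → ℝ} (ht : ∀ i, 0 ≤ t i) (i : I)
    (hpos : ∀ s : ℝ, 0 ≤ s → s ≤ 1 → Qf Y π (fun k => s * update t i 0 k) ≠ 0) :
    0 ≤ ret Y π t i := by
  obtain ⟨J, hJ, b, μ, hb, hμ, -, hval⟩ := ret_rep h π ht i
  have h1 := hval 1 (hpos 1 zero_le_one le_rfl)
  simp only [one_mul, mul_one] at h1
  rw [show ret Y π t i = ∑ j, b j / (1 - μ j) from h1]
  refine Finset.sum_nonneg fun j _ => div_nonneg (hb j) ?_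
  by_contra h2
  have h3 : 1 < μ j := by linarith
  rcases hμ j with h4 | h4
  · linarith
  · exact hpos _ (inv_nonneg.2 (by linarith)) (inv_le_one_of_one_le₀ h3.le) h4

end Crest.Agent.R109
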