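import Crest.Agent.R109.Gen
import Crest.Agent.Lib.CStarPure.State

/-! Row 109: the GNS image of a normal functional is a von Neumann algebra (`gns_vn`). -/

set_option autoImplicit false
set_option linter.unusedSectionVars false
set_option linter.deprecated false

namespace Crest.Agent.R109

open Crest.Agent.R124 Filter Topology Function
open scoped BigOperators ComplexConjugate InnerProductSpace ComplexOrder Pointwise

universe u

variable {H : Type u} [NormedAddCommGroup H] [InnerProductSpace ℂ H] [CompleteSpace H]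
  {H' : Type u} [NormedAddCommGroup H'] [InnerProductSpace ℂ H'] [CompleteSpace H']
  {B : VonNeumannAlgebra H} {e : H →L[ℂ] H} {ψ : (H →L[ℂ] H) →ₗ[ℂ] ℂ}
  {π : R121.Al B →⋆ₐ[ℂ] (H' →L[ℂ] H')} {Ω : H'}

theorem trA_sq (hπ : ∀ b : R121.Al B, ψ b = ⟪Ω, π b Ω⟫_ℂ) (b : R121.Al B) :
    ‖π b Ω‖ ^ 2 = (ψ (star (b : H →L[ℂ] H) * b)).re := by
  have := hπ (star b * b)
  rw [map_mul, map_star] at this
  rw [norm_sq_eq_inner, ← this]; rfl

theorem trA_scale {b : R121.Al B} {R : ℝ} (hb : ‖b‖ ≤ R) : ‖(((R + 1)⁻¹ : ℝ) : ℂ) • b‖ ≤ 1 := by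
  have hR : 0 ≤ R := (norm_nonneg _).trans hb
  rw [norm_smul, Complex.norm_real, Real.norm_of_nonneg (by positivity), inv_mul_le_one₀ (by linarith)]
  linarith

theorem trA_fth (hπ : ∀ b : R121.Al B, ψ b = ⟪Ω, π b Ω⟫_ℂ) (hf : Fth B ψ e) (ξ : H) {c R : ℝ}
    (hc : 0 < c) (hR : 0 ≤ R) : ∃ ε : ℝ, 0 < ε ∧
      ∀ b : R121.Al B, ‖b‖ ≤ R → ‖π b Ω‖ ≤ ε → ‖(b : H →L[ℂ] H) (e ξ)‖ ≤ c := by
  have ht : 0 < (R + 1)⁻¹ := by positivity
  obtain ⟨ε, hε, h⟩ := hf ξ _ (mul_pos ht hc)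
  refine ⟨√ε, Real.sqrt_pos.2 hε, fun b hb hb' => ?_⟩
  have h1 := h _ ((((R + 1)⁻¹ : ℝ) : ℂ) • b).2 (trA_scale hb) (by
    rw [← trA_sq hπ, map_smul, ContinuousLinearMap.smul_apply, norm_smul, Complex.norm_real,
      Real.norm_of_nonneg ht.le]
    refine (Real.le_sqrt (by positivity) hε.le).1 (le_trans ?_ hb')
    exact mul_le_of_le_one_left (norm_nonneg _) (inv_le_one_of_one_le₀ (by linarith)))
  rw [SetLike.val_smul, ContinuousLinearMap.smul_apply, norm_smul, Complex.norm_real,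
    Real.norm_of_nonneg ht.le] at h1
  exact le_of_mul_le_mul_left h1 ht

theorem trA_sep (hπ : ∀ b : R121.Al B, ψ b = ⟪Ω, π b Ω⟫_ℂ) (hf : Fth B ψ e) {b : R121.Al B}
    (hb : π b Ω = 0) : (b : H →L[ℂ] H) * e = 0 := by
  ext ξ
  refine norm_le_zero_iff.1 (le_of_forall_pos_le_add fun c hc => ?_)
  obtain ⟨ε, hε, h⟩ := trA_fth hπ hf ξ hc (norm_nonneg b)
  simpa using h b le_rfl (by simpa [hb] using hε.le)

theorem trA_nml1 (hπ : ∀ b : R121.Al B, ψ b = ⟪Ω, π b Ω⟫_ℂ) (hn : Nml B ψ) {I : Type*}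
    {l : Filter I} {x : I → R121.Al B} (hx : ∀ i, ‖x i‖ ≤ 1)
    (h : ∀ ξ, Tendsto (fun i => (x i : H →L[ℂ] H) ξ) l (𝓝 0)) :
    Tendsto (fun i => π (x i) Ω) l (𝓝 0) := by
  refine NormedAddGroup.tendsto_nhds_zero.2 fun c hc => ?_
  obtain ⟨G, ε, hε, hG⟩ := hn (c ^ 2 / 2) (by positivity)
  filter_upwards [(eventually_all_finset G).2 fun ξ _ =>
    NormedAddGroup.tendsto_nhds_zero.1 (h ξ) ε hε] with i hi
  have h0 : (0 : H →L[ℂ] H) ≤ star (x i : H →L[ℂ] H) * x i := star_mul_self_nonneg _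
  have hx' : ‖(x i : H →L[ℂ] H)‖ ≤ 1 := hx i
  have h1 := hG _ (star (x i) * x i).2 h0
    ((CStarAlgebra.norm_le_one_iff_of_nonneg _ h0).1 (by
      rw [CStarRing.norm_star_mul_self]; exact mul_le_one₀ hx' (norm_nonneg _) hx'))
    fun ξ hξ => lt_of_le_of_lt (((star (x i : H →L[ℂ] H)).le_opNorm _).trans
      (mul_le_of_le_one_left (norm_nonneg _) (by rwa [norm_star]))) (hi ξ hξ)
  have h2 := trA_sq hπ (x i)
  refine lt_of_pow_lt_pow_left₀ 2 hc.le (h2.trans_lt (lt_of_le_of_lt h1 ?_))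
  have := pow_pos hc 2
  linarith

theorem trA_nml (hπ : ∀ b : R121.Al B, ψ b = ⟪Ω, π b Ω⟫_ℂ) (hn : Nml B ψ) {I : Type*}
    {l : Filter I} {x : I → R121.Al B} {R : ℝ} (hR : 0 ≤ R) (hx : ∀ i, ‖x i‖ ≤ R)
    (h : ∀ ξ, Tendsto (fun i => (x i : H →L[ℂ] H) ξ) l (𝓝 0)) :
    Tendsto (fun i => π (x i) Ω) l (𝓝 0) := by
  have h1 := trA_nml1 hπ hn (fun i => trA_scale (hx i)) fun ξ => by
    simpa using (h ξ).const_smul (((R + 1)⁻¹ : ℝ) : ℂ)
  have h2 := h1.const_smul ((R + 1 : ℝ) : ℂ)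
  have h3 : ((R + 1 : ℝ) : ℂ) * (((R + 1)⁻¹ : ℝ) : ℂ) = 1 := by
    rw [← Complex.ofReal_mul, mul_inv_cancel₀ (by linarith), Complex.ofReal_one]
  simpa only [map_smul, ContinuousLinearMap.smul_apply, smul_smul, h3, one_smul, smul_zero] using h2

theorem trA_main (he : e ∈ B) (he' : IsStarProjection e)
    (hce : ∀ b ∈ B, e * b = b * e) (hψ : ∀ y ∈ B, 0 ≤ ψ (star y * y))
    (hn : Nml B ψ) (hf : Fth B ψ e) (h0 : ψ (1 - e) = 0) :
    ∃ (H' : Type u) (_ : NormedAddCommGroup H') (_ : InnerProductSpace ℂ H') (_ : CompleteSpace H')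
      (π : R121.Al B →⋆ₐ[ℂ] (H' →L[ℂ] H')) (Ω : H') (M' : VonNeumannAlgebra H'),
      (∀ z, z ∈ M' ↔ ∃ b, π b = z) ∧ (∀ b : R121.Al B, ψ b = ⟪Ω, π b Ω⟫_ℂ) ∧
      (∀ b : R121.Al B, ‖π b‖ = ‖(b : H →L[ℂ] H) * e‖) ∧ ∀ z ∈ M', z Ω = 0 → z = 0 := by
  classical
  obtain ⟨H', _, _, _, π, Ω, hd, hπ⟩ := Crest.Agent.Lib.CStarPure.exists_gns
    (ψ.comp B.toStarSubalgebra.subtype.toLinearMap) fun x => hψ x x.2
  replace hπ : ∀ b : R121.Al B, ψ b = ⟪Ω, π b Ω⟫_ℂ := hπ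
  have hext : ∀ z z' : H' →L[ℂ] H', (∀ c, z (π c Ω) = z' (π c Ω)) → z = z' := fun z z' h =>
    ContinuousLinearMap.ext fun ξ =>
      congrFun (hd.equalizer z.continuous z'.continuous (funext h)) ξ
  obtain ⟨E, hE⟩ : ∃ E : R121.Al B, (E : H →L[ℂ] H) = e := ⟨⟨e, he⟩, rfl⟩
  subst hE
  have hEE : E * E = E := Subtype.ext he'.isIdempotentElem
  have hEs : star E = E := Subtype.ext he'.isSelfAdjoint
  have hEc : ∀ b, E * b = b * E := fun b => Subtype.ext (hce b b.2)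
  have hFc : ∀ b, (1 - E) * b = b * (1 - E) := fun b => by rw [sub_mul, mul_sub, hEc]; simp
  have hFF : (1 - E) * (1 - E) = 1 - E := by rw [sub_mul, mul_sub, mul_sub, hEE]; simp
  have hFs : star (1 - E) = 1 - E := by rw [star_sub, hEs, star_one]
  have hF0 : π (1 - E) Ω = 0 := by
    have h1 := trA_sq hπ (1 - E)
    rw [show star ((1 - E : R121.Al B) : H →L[ℂ] H) * (1 - E : R121.Al B) = 1 - (E : H →L[ℂ] H) from
      congrArg Subtype.val ((congrArg (· * (1 - E)) hFs).trans hFF), h0] at h1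
    simpa using h1
  have hF : π (1 - E) = 0 := hext _ _ fun c => by
    rw [← ContinuousLinearMap.mul_apply, ← map_mul, hFc, map_mul, ContinuousLinearMap.mul_apply, hF0,
      map_zero, ContinuousLinearMap.zero_apply]
  have hπE : ∀ b, π (b * E) = π b := fun b => by
    rw [map_sub, map_one, sub_eq_zero] at hF
    rw [map_mul, ← hF, mul_one]
  have hnorm : ∀ b : R121.Al B, ‖π b‖ = ‖(b : H →L[ℂ] H) * E‖ := by
    let ρ : R121.Al B →⋆ₙₐ[ℂ] R121.Al B :=
      { toFun := fun b => b * (1 - E)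
        map_smul' := fun c b => smul_mul_assoc c b _
        map_zero' := zero_mul _
        map_add' := fun a b => add_mul a b _
        map_mul' := fun a b => by
          rw [mul_assoc a (1 - E), ← mul_assoc (1 - E), hFc b, mul_assoc b, hFF, mul_assoc]
        map_star' := fun b => by rw [star_mul, hFs, hFc] }
    let Φ := (π : R121.Al B →⋆ₙₐ[ℂ] (H' →L[ℂ] H')).prod ρ
    have hΦ : Injective Φ := (injective_iff_map_eq_zero Φ).2 fun b hb => by
      have h1 : π b = 0 := congrArg Prod.fst hb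
      have h2 : b * (1 - E) = 0 := congrArg Prod.snd hb
      have h3 : b * E = 0 := Subtype.ext (trA_sep hπ hf (by rw [h1]; rfl))
      rwa [mul_sub, h3, sub_zero, mul_one] at h2
    intro b
    have h1 := NonUnitalStarAlgHom.norm_map Φ hΦ (b * E)
    have h2 : Φ (b * E) = (π b, 0) := Prod.ext (hπE b) (by
      show b * E * (1 - E) = 0
      rw [mul_assoc, mul_sub, hEE, mul_one, sub_self, mul_zero])
    rw [h2, Prod.norm_def, norm_zero, max_eq_left (norm_nonneg _)] at h1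
    exact h1
  have hsa : ∀ z ∈ (cent (Set.range π)).commutant, IsSelfAdjoint z → ∃ b, π b = z := by
    intro z hz hs
    have h1 : ∀ i : Finset H' × ℕ, ∃ b : R121.Al B, b * E = b ∧ ‖b‖ ≤ ‖z‖ ∧
        ∀ ξ ∈ i.1, ‖π b ξ - z ξ‖ < 1 / ((i.2 : ℝ) + 1) := fun i => by
      obtain ⟨_, ⟨b, rfl⟩, -, h2, h3⟩ := kap π.range hz hs i.1 (Nat.one_div_pos_of_nat (n := i.2))
      refine ⟨b * E, by rw [mul_assoc, hEE], le_of_eq_of_le (hnorm b).symm h2, fun ξ hξ => ?_⟩
      rw [hπE]; exact h3 ξ hξ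
    choose x hx1 hx2 hx3 using h1
    let U : Ultrafilter (Finset H' × ℕ) := Ultrafilter.of atTop
    have hU : (U : Filter (Finset H' × ℕ)) ≤ atTop := Ultrafilter.of_le _
    have hz1 : ∀ ξ, Tendsto (fun i => π (x i) ξ) U (𝓝 (z ξ)) := fun ξ => by
      refine tendsto_iff_norm_sub_tendsto_zero.2 (Tendsto.mono_left ?_ hU)
      have hs2 : Tendsto (Prod.snd : Finset H' × ℕ → ℕ) atTop atTop := by
        rw [← prod_atTop_atTop_eq]; exact tendsto_snd
      refine squeeze_zero' (Eventually.of_forall fun _ => norm_nonneg _) ?_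
        (tendsto_one_div_add_atTop_nhds_zero_nat.comp hs2)
      filter_upwards [eventually_ge_atTop (({ξ}, 0) : Finset H' × ℕ)] with i hi
      exact (hx3 i ξ (hi.1 (Finset.mem_singleton_self ξ))).le
    obtain ⟨b, hb, hw⟩ := R121.exists_wt U x hx2
    have hst : ∀ ξ, Tendsto (fun i => (x i : H →L[ℂ] H) ξ) U (𝓝 ((b : H →L[ℂ] H) ξ)) := fun ξ => by
      obtain ⟨v, hv⟩ : ∃ v, Tendsto (fun i => (x i : H →L[ℂ] H) ξ) U (𝓝 v) := by
        refine cauchy_map_iff_exists_tendsto.1 (Metric.cauchy_iff.2 ⟨inferInstance, fun c hc => ?_⟩)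
        obtain ⟨ε, hε, h⟩ := trA_fth hπ hf ξ (half_pos hc) (add_nonneg (norm_nonneg z) (norm_nonneg z))
        refine ⟨_, image_mem_map (Metric.tendsto_nhds.1 (hz1 Ω) _ (half_pos hε)), ?_⟩
        rintro _ ⟨i, hi, rfl⟩ _ ⟨j, hj, rfl⟩
        have h2 := h (x i - x j) ((norm_sub_le _ _).trans (add_le_add (hx2 i) (hx2 j))) (by
          rw [map_sub, ContinuousLinearMap.sub_apply, ← dist_eq_norm]
          have hi' : dist (π (x i) Ω) (z Ω) < ε / 2 := hi
          have hj' : dist (π (x j) Ω) (z Ω) < ε / 2 := hj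
          linarith [dist_triangle_right (π (x i) Ω) (π (x j) Ω) (z Ω)])
        have h3 : ((x i - x j : R121.Al B) : H →L[ℂ] H) ((E : H →L[ℂ] H) ξ) =
            (x i : H →L[ℂ] H) ξ - (x j : H →L[ℂ] H) ξ := by
          change (((x i - x j) * E : R121.Al B) : H →L[ℂ] H) ξ = _
          rw [sub_mul, hx1, hx1]; rfl
        rw [h3] at h2
        rw [dist_eq_norm]
        exact h2.trans_lt (half_lt_self hc)
      have : v = (b : H →L[ℂ] H) ξ := ext_inner_left ℂ fun η =>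
        tendsto_nhds_unique (tendsto_const_nhds.inner hv) (hw η ξ)
      rwa [← this]
    refine ⟨b, hext _ _ fun c => tendsto_nhds_unique ?_ (hz1 (π c Ω))⟩
    have h2 := trA_nml hπ hn (l := U) (x := fun i => (x i - b) * c) (R := (‖z‖ + ‖z‖) * ‖c‖)
      (by positivity)
      (fun i => (norm_mul_le _ _).trans (mul_le_mul_of_nonneg_right
        ((norm_sub_le _ _).trans (add_le_add (hx2 i) hb)) (norm_nonneg _)))
      fun ξ => tendsto_sub_nhds_zero_iff.2 (hst ((c : H →L[ℂ] H) ξ))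
    simp only [map_mul, map_sub, ContinuousLinearMap.mul_apply, ContinuousLinearMap.sub_apply] at h2
    exact tendsto_sub_nhds_zero_iff.1 h2
  have hM : ∀ z, z ∈ (cent (Set.range π)).commutant ↔ ∃ b, π b = z := fun z => by
    refine ⟨fun hz => ?_, ?_⟩
    · obtain ⟨b₁, h₁⟩ := hsa ((2⁻¹ : ℂ) • (z + star z))
        ((cent (Set.range π)).commutant.toStarSubalgebra.smul_mem (add_mem hz (star_mem hz)) _) (by
          simp [IsSelfAdjoint, add_comm])
      obtain ⟨b₂, h₂⟩ := hsa ((2⁻¹ * Complex.I) • (star z - z))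
        ((cent (Set.range π)).commutant.toStarSubalgebra.smul_mem (sub_mem (star_mem hz) hz) _) (by
          simp only [IsSelfAdjoint, star_smul, star_sub, star_star]
          rw [← neg_sub (star z) z, smul_neg, ← neg_smul]
          simp)
      refine ⟨b₁ + Complex.I • b₂, ?_⟩
      rw [map_add, map_smul, h₁, h₂, smul_smul,
        show Complex.I * (2⁻¹ * Complex.I) = -2⁻¹ by
          rw [mul_left_comm, Complex.I_mul_I, mul_neg_one]]
      module
    · rintro ⟨b, rfl⟩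
      exact VonNeumannAlgebra.mem_commutant_iff.2 fun g hg => ((mem_cent.1 hg _ ⟨b, rfl⟩).1).symm
  refine ⟨H', inferInstance, inferInstance, inferInstance, π, Ω, _, hM, hπ, hnorm, fun z hz h => ?_⟩
  obtain ⟨b, rfl⟩ := (hM z).1 hz
  rw [← norm_eq_zero, hnorm, trA_sep hπ hf h, norm_zero]

end Crest.Agent.R109
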