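import Crest.Agent.R109.Gen
import Crest.Agent.R109.NC
import Crest.Agent.R109.Bridge
import Crest.Agent.R109.TransA

/-! Row 109: transfer of the normal case along the GNS representation. -/

set_option autoImplicit false
set_option linter.unusedSectionVars false

namespace Crest.Agent.R109

open Crest.Agent.R124 Filter Topology Function
open scoped BigOperators ComplexConjugate InnerProductSpace ComplexOrder Pointwise

universe u

variable {H : Type u} [NormedAddCommGroup H] [InnerProductSpace ℂ H] [CompleteSpace H]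

/-- The normal case for a subalgebra.  PROOF.  `bridge`, `NS.nc` with the vector `(‖Ω‖ + 1)⁻¹ Ω`,
`p c = pr (f ⁻¹' {c})`, `a = EE x`. -/
theorem nc_sub (M : VonNeumannAlgebra H) (A : StarSubalgebra ℂ (H →L[ℂ] H))
    (hAM : A ≤ M.toStarSubalgebra) (hA : ∀ a ∈ A, ∀ b ∈ A, a * b = b * a)
    (hAmax : ∀ y ∈ M, (∀ a ∈ A, a * y = y * a) → y ∈ A) (Ω : H)
    (hc : ∀ a ∈ A, ∀ y ∈ M, ⟪Ω, (a * y) Ω⟫_ℂ = ⟪Ω, (y * a) Ω⟫_ℂ) (hsep : ∀ y ∈ M, y Ω = 0 → y = 0)
    {x : H →L[ℂ] H} (hx : x ∈ M) (hs : IsSelfAdjoint x) {r : ℕ} (hr : 4 ≤ r) {η : ℝ} (hη : 0 < η) :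
    ∃ p : Fin r → H →L[ℂ] H, (∀ i, p i ∈ A ∧ IsStarProjection (p i)) ∧
      (∀ i j, i ≠ j → p i * p j = 0) ∧ ∑ i, p i = 1 ∧ ∃ a ∈ A, IsSelfAdjoint a ∧ ‖a‖ ≤ ‖x‖ ∧
        ∃ b ∈ M, IsSelfAdjoint b ∧ ‖∑ i, p i * x * p i - a - b‖ ≤ 16000 / √r * ‖x‖ ∧ ‖b Ω‖ ≤ η := by
  obtain ⟨X, _, _, _, _, S, rfl, hS⟩ := bridge M A hAM hA hAmax
  have : Nonempty (Fin r) := ⟨⟨0, by omega⟩⟩
  have h1 : 0 < ‖Ω‖ + 1 := by positivity
  set t : ℝ := (‖Ω‖ + 1)⁻¹ with ht
  have ht0 : 0 < t := inv_pos.mpr h1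
  let S' : NS X H :=
    { S with
      Ω := (t : ℂ) • Ω
      norm_le := by
        rw [norm_smul, Complex.norm_real, Real.norm_of_nonneg ht0.le, ht, inv_mul_le_iff₀ h1]
        linarith
      central := fun F y hy => by
        simp only [map_smul, inner_smul_left, inner_smul_right, hc _ ((hS _).mpr ⟨F, rfl⟩) y hy]
      sep := fun y hy h => hsep y hy (by
        rw [map_smul, smul_eq_zero] at h
        exact h.resolve_left (by exact_mod_cast ht0.ne')) }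
  obtain ⟨f, hf, b, hb, hb', h2, h3⟩ := S'.nc (C := Fin r) (by simpa using hr) hx hs
    (mul_pos ht0 hη)
  refine ⟨fun i => S.pr (f ⁻¹' {i}), fun i => ⟨(hS _).mpr ⟨_, rfl⟩, S.pr_proj (hf.isClopen_fiber i)⟩,
    fun i j h => by simpa [h] using S.pr_fibre_mul hf i j, S.sum_pr hf, S.EE x,
    (hS _).mpr ⟨_, S.ι_cE hx⟩, ?_, S.norm_EE_le x, b, hb, hb', by rw [Fintype.card_fin] at h2; exact h2, ?_⟩
  · rw [IsSelfAdjoint, ← S.EE_star, hs.star_eq]
  · change ‖b ((t : ℂ) • Ω)‖ ≤ t * η at h3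
    rw [map_smul, norm_smul, Complex.norm_real, Real.norm_of_nonneg ht0.le] at h3
    exact le_of_mul_le_mul_left h3 ht0

/-- The GNS image is a von Neumann algebra.  PROOF.  `exists_gns` for `ψ` on `R121.Al B`.  `π (1 - e) = 0`;
`b ↦ (π b, b (1 - e))` is an injective `*`-homomorphism (`Fth`), hence isometric, so `‖π b‖ = ‖b e‖`.
`M' = (cent (range π)).commutant`.  Let `z ∈ M'` be self-adjoint.  For `c ∈ B`, `kap` gives self-adjoint
`b k = b k e`, `‖b k‖ ≤ ‖z‖`, with `π (b k) Ω → z Ω` and `π (b k) π c Ω → z π c Ω`.  By `Fth` the `b k` are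
strongly Cauchy with limit `b ∈ B`, and `‖π (b k - b) π c' Ω‖² = ψ (c'* (b k - b)² c') → 0` by `Nml`.  So
`π b Ω = z Ω` (which determines `b e`) and `π b π c Ω = z π c Ω`. -/
theorem gns_vn {B : VonNeumannAlgebra H} {e : H →L[ℂ] H} (he : e ∈ B) (he' : IsStarProjection e)
    (hce : ∀ b ∈ B, e * b = b * e) {ψ : (H →L[ℂ] H) →ₗ[ℂ] ℂ} (hψ : ∀ y ∈ B, 0 ≤ ψ (star y * y))
    (hn : Nml B ψ) (hf : Fth B ψ e) (h0 : ψ (1 - e) = 0) :
    ∃ (H' : Type u) (_ : NormedAddCommGroup H') (_ : InnerProductSpace ℂ H') (_ : CompleteSpace H')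
      (π : R121.Al B →⋆ₐ[ℂ] (H' →L[ℂ] H')) (Ω : H') (M' : VonNeumannAlgebra H'),
      (∀ z, z ∈ M' ↔ ∃ b, π b = z) ∧ (∀ b : R121.Al B, ψ b = ⟪Ω, π b Ω⟫_ℂ) ∧
      (∀ b : R121.Al B, ‖π b‖ = ‖(b : H →L[ℂ] H) * e‖) ∧ ∀ z ∈ M', z Ω = 0 → z = 0 :=
  trA_main he he' hce hψ hn hf h0

theorem trans_fth_finset {M : VonNeumannAlgebra H} {ψ : (H →L[ℂ] H) →ₗ[ℂ] ℂ} {e : H →L[ℂ] H}
    (hf : Fth M ψ e) (G : Finset H) {c : ℝ} (hc : 0 < c) : ∃ ε : ℝ, 0 < ε ∧
      ∀ ξ ∈ G, ∀ b ∈ M, ‖b‖ ≤ 1 → (ψ (star b * b)).re ≤ ε → ‖b (e ξ)‖ ≤ c := by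
  classical
  induction G using Finset.induction_on with
  | empty => exact ⟨1, one_pos, by simp⟩
  | insert ξ G _ ih =>
    obtain ⟨ε, hε, h⟩ := ih
    obtain ⟨ε', hε', h'⟩ := hf ξ c hc
    refine ⟨min ε ε', lt_min hε hε', fun ζ hζ b hb h1 h2 => ?_⟩
    rcases Finset.mem_insert.mp hζ with rfl | hζ
    · exact h' b hb h1 (h2.trans (min_le_right _ _))
    · exact h ζ hζ b hb h1 (h2.trans (min_le_left _ _))

theorem trans_ψ_T {X : Type*} [TopologicalSpace X] [CompactSpace X] [T2Space X]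
    [TotallyDisconnectedSpace X] (S : Masa X H) {ψ : (H →L[ℂ] H) →ₗ[ℂ] ℂ}
    (hψ : ∀ y ∈ S.M, 0 ≤ ψ (star y * y)) (hc : ∀ a, ∀ y ∈ S.M, ψ (S.ι a * y) = ψ (y * S.ι a))
    {κ : Type*} [Fintype κ] {f : X → κ} (hf : IsLocallyConstant f) {b : H →L[ℂ] H} (hb : b ∈ S.M) :
    (ψ (star (S.T f b) * S.T f b)).re ≤ (ψ (star b * b)).re := by
  set p : κ → H →L[ℂ] H := fun i => S.pr (f ⁻¹' {i}) with hp
  have hpp : ∀ i, IsStarProjection (p i) := fun i => S.pr_proj (hf.isClopen_fiber i)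
  have hpm : ∀ i, p i ∈ S.M := fun i => S.pr_mem _
  have e1 : star (S.T f b) * S.T f b = ∑ i, star (p i * b * p i) * (p i * b * p i) := by
    rw [S.T_star hf]
    nth_rewrite 1 [Masa.T]
    rw [Finset.sum_mul]
    refine Finset.sum_congr rfl fun i _ => ?_
    rw [mul_assoc, S.pr_mul_T_fibre hf, star_mul, star_mul, (hpp i).isSelfAdjoint.star_eq]
    change _ = p i * (star b * p i) * (p i * b * p i)
    simp only [mul_assoc]
    rw [← mul_assoc (p i) (p i), (hpp i).isIdempotentElem]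
  have e2 : ψ (star b * b) = ∑ i, ψ (star (b * p i) * (b * p i)) := by
    have : star b * b = ∑ i, star b * b * p i := by rw [← Finset.mul_sum, S.sum_pr hf, mul_one]
    rw [this, map_sum]
    refine Finset.sum_congr rfl fun i _ => ?_
    have h1 := hc (cfn ((f ⁻¹' {i}).indicator 1)) (star b * b * p i)
      (mul_mem (mul_mem (star_mem hb) hb) (hpm i))
    change ψ (p i * _) = ψ (_ * p i) at h1
    rw [mul_assoc _ (p i) (p i), (hpp i).isIdempotentElem] at h1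
    rw [← h1, star_mul, (hpp i).isSelfAdjoint.star_eq]
    simp only [mul_assoc]
  rw [e1, e2, map_sum, Complex.re_sum, Complex.re_sum]
  refine Finset.sum_le_sum fun i _ => ?_
  have hm : b * p i ∈ S.M := mul_mem hb (hpm i)
  have hm' : p i * b * p i ∈ S.M := mul_mem (mul_mem (hpm i) hb) (hpm i)
  refine (Complex.le_def.mp (pos_mono hψ (mul_mem (star_mem hm') hm') (mul_mem (star_mem hm) hm)
    ?_)).1
  have h2 := star_left_conjugate_le_conjugate (hpp i).le_one (b * p i)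
  rw [mul_one] at h2
  convert h2 using 1
  rw [mul_assoc (p i) b, star_mul (p i), (hpp i).isSelfAdjoint.star_eq]
  simp only [mul_assoc]
  rw [← mul_assoc (p i) (p i), (hpp i).isIdempotentElem]

theorem trans_colour {X : Type*} [TopologicalSpace X] {E : Set X} (hE : IsClopen E) {r : ℕ}
    (c₀ : Fin r) (F : Fin r → C(X, ℂ)) (h1 : ∀ w ∈ E, ∀ c, F c w * F c w = F c w)
    (h2 : ∀ w ∈ E, ∀ c c', c ≠ c' → F c w * F c' w = 0) (h3 : ∀ w ∈ E, ∑ c, F c w = 1) :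
    ∃ f : X → Fin r, IsLocallyConstant f ∧
      ∀ w ∈ E, ∀ c, F c w = (f ⁻¹' {c}).indicator (1 : X → ℂ) w := by
  classical
  have hex : ∀ w ∈ E, ∃ c, F c w ≠ 0 := fun w hw => by
    by_contra h
    push Not at h
    simpa [h] using h3 w hw
  let f : X → Fin r := fun w => if h : w ∈ E then (hex w h).choose else c₀
  have hf : ∀ w ∈ E, ∀ c, f w = c ↔ F c w ≠ 0 := fun w hw c => by
    have h4 := (hex w hw).choose_spec
    simp only [f, dif_pos hw]
    refine ⟨fun h => h ▸ h4, fun h => ?_⟩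
    by_contra hne
    exact mul_ne_zero h4 h (h2 w hw _ _ hne)
  refine ⟨f, (IsLocallyConstant.iff_eventually_eq f).mpr fun w => ?_, fun w hw c => ?_⟩
  · by_cases hw : w ∈ E
    · have h5 : ∀ᶠ w' in 𝓝 w, F (f w) w' ≠ 0 :=
        (F (f w)).continuous.continuousAt.eventually_ne ((hf w hw _).mp rfl)
      filter_upwards [h5, hE.isOpen.mem_nhds hw] with w' h6 h7 using (hf w' h7 _).mpr h6
    · filter_upwards [hE.compl.isOpen.mem_nhds hw] with w' h7
      simp only [f, dif_neg hw, dif_neg (show w' ∉ E from h7)]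
  · by_cases h : f w = c
    · rw [Set.indicator_of_mem (show w ∈ f ⁻¹' {c} from h)]
      exact (mul_eq_left₀ ((hf w hw c).mp h)).mp (h1 w hw c)
    · rw [Set.indicator_of_notMem (show w ∉ f ⁻¹' {c} from h)]
      by_contra h'
      exact h ((hf w hw c).mpr h')

/-- PROOF.  `e = pr E`, `B = cent (M' ∪ {e})` (`b ∈ B ↔ b ∈ M ∧ e b = b e`), `gns_vn`, `A' = range (π ∘ ι)` is
a MASA of `M'` (if `π b` commutes with `A'` then `b e` commutes with `A`).  `nc_sub` for `π (e x e)` gives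
`p c = π (ι (F c))`, where on `E` the `F c` are `{0, 1}`-valued with sum `1` (`π (ι F) = 0 ↔ F = 0` on `E`);
let `f w` be the `c` with `F c w = 1` for `w ∈ E`, constant outside.  Pull back `a` and `b₀ = e b₀ e`,
and put `b = T f b₀`: `e (T f x - ι a) e - b = T f (e (T f x - ι a) e - b₀)`,
`ψ (b* b) ≤ ψ (b₀* b₀)` by centrality, `‖b‖ ≤ 8002 ‖x‖`, and `Fth` makes `b ξ = b e ξ` small. -/
theorem Masa.reg_of_fth {X : Type*} [TopologicalSpace X] [CompactSpace X] [T2Space X]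
    [TotallyDisconnectedSpace X] (S : Masa X H) {ψ : (H →L[ℂ] H) →ₗ[ℂ] ℂ}
    (hψ : ∀ y ∈ S.M, 0 ≤ ψ (star y * y)) (hc : ∀ a, ∀ y ∈ S.M, ψ (S.ι a * y) = ψ (y * S.ι a))
    (hn : Nml S.M ψ) {E : Set X} (hE : IsClopen E) (h0 : ψ (S.pr Eᶜ) = 0)
    (hf : Fth S.M ψ (S.pr E)) : S.Reg E := by
  intro x hx hs r hr G η hη
  have he' := S.pr_proj hE
  set e := S.pr E with he
  have hee : e * e = e := he'.isIdempotentElem
  let B : VonNeumannAlgebra H := cent ((S.M.commutant : Set (H →L[ℂ] H)) ∪ {e})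
  have hB : ∀ b, b ∈ B ↔ b ∈ S.M ∧ e * b = b * e := fun b => by
    rw [mem_cent]
    refine ⟨fun h => ⟨mem_of_comm fun y hy => (h y (Or.inl hy)).1, (h e (Or.inr rfl)).1⟩, ?_⟩
    rintro ⟨h1, h2⟩ g (hg | rfl)
    · exact ⟨(comm_of_mem h1 hg).symm, (comm_of_mem h1 (star_mem hg)).symm⟩
    · exact ⟨h2, by rw [he'.isSelfAdjoint.star_eq, h2]⟩
  have hιB : ∀ F, S.ι F ∈ B := fun F => (hB _).mpr ⟨S.mem F, S.pr_comm_ι E F⟩
  obtain ⟨H', _, _, _, π, Ω, M', hM', hΩ, hπ, hsep⟩ := gns_vn (B := B) (e := e) (ψ := ψ) (hιB _) he'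
    (fun b hb => ((hB b).mp hb).2) (fun y hy => hψ y ((hB y).mp hy).1)
    (fun c hc => by
      obtain ⟨G, ε, hε, h⟩ := hn c hc
      exact ⟨G, ε, hε, fun z hz => h z ((hB z).mp hz).1⟩)
    (fun ξ c hc => by
      obtain ⟨ε, hε, h⟩ := hf ξ c hc
      exact ⟨ε, hε, fun z hz => h z ((hB z).mp hz).1⟩)
    (by rw [← S.pr_compl hE, h0])
  have hπeq : ∀ b b' : R121.Al B, π b = π b' ↔ (b : H →L[ℂ] H) * e = b' * e := fun b b' => by
    rw [← sub_eq_zero, ← map_sub, ← norm_eq_zero, hπ, norm_eq_zero, AddSubgroupClass.coe_sub,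
      sub_mul, sub_eq_zero]
  have hπsa : ∀ b : R121.Al B, IsSelfAdjoint (π b) → IsSelfAdjoint ((b : H →L[ℂ] H) * e) :=
    fun b h => by
      have h1 := (hπeq (star b) b).mp (by rw [map_star, h.star_eq])
      have h2 := congrArg star ((hB b).mp b.2).2
      rw [star_mul, star_mul, he'.isSelfAdjoint.star_eq] at h2
      rw [IsSelfAdjoint, star_mul, he'.isSelfAdjoint.star_eq, ← h2]
      exact h1
  let ιB : C(X, ℂ) →⋆ₐ[ℂ] R121.Al B := S.ι.codRestrict B.toStarSubalgebra hιB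
  have hιBc : ∀ F, (ιB F : H →L[ℂ] H) = S.ι F := fun _ => rfl
  let k : C(X, ℂ) := cfn (E.indicator 1)
  have hk : S.ι k = e := rfl
  have hkc : Continuous (E.indicator (1 : X → ℂ)) :=
    hE.continuous_indicator continuous_const
  have hιeq : ∀ F F', π (ιB F) = π (ιB F') ↔ ∀ w ∈ E, F w = F' w := fun F F' => by
    rw [hπeq, hιBc, hιBc, ← hk, ← map_mul, ← map_mul, S.inj.eq_iff, ContinuousMap.ext_iff]
    refine forall_congr' fun w => ?_
    by_cases hw : w ∈ E <;> simp [k, cfn_apply hkc, hw]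
  let A' : StarSubalgebra ℂ (H' →L[ℂ] H') := (π.comp ιB).range
  have hA' : ∀ a, a ∈ A' ↔ ∃ F, π (ιB F) = a := fun a => Iff.rfl
  let x' : R121.Al B := ⟨e * x * e, (hB _).mpr ⟨mul_mem (mul_mem (S.pr_mem E) hx) (S.pr_mem E), by
    simp only [← mul_assoc, hee]; rw [mul_assoc _ e e, hee]⟩⟩
  have hconj : ∀ z : H →L[ℂ] H, ‖e * z * e‖ ≤ ‖z‖ := fun z =>
    calc ‖e * z * e‖ ≤ ‖e‖ * ‖z‖ * ‖e‖ := norm_mul₃_le
      _ ≤ 1 * ‖z‖ * 1 := by gcongr <;> exact he'.norm_le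
      _ = ‖z‖ := by ring
  have hx' : ‖π x'‖ ≤ ‖x‖ := by
    rw [hπ]
    change ‖e * x * e * e‖ ≤ _
    rw [mul_assoc _ e e, hee]
    exact hconj x
  set L : ℝ := 8002 * ‖x‖ + 1 with hL
  have hL0 : 0 < L := by positivity
  obtain ⟨ε, hε, hG⟩ := trans_fth_finset hf G (div_pos hη hL0)
  obtain ⟨p, hp, hpp, hp1, a', ha', has, han, b', hb', hbs, hD, hbΩ⟩ := nc_sub M' A'
    (fun a ha => by
      obtain ⟨F, rfl⟩ := (hA' a).mp ha
      exact (hM' _).mpr ⟨_, rfl⟩)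
    (fun a ha b hb => by
      obtain ⟨F, rfl⟩ := (hA' a).mp ha
      obtain ⟨F', rfl⟩ := (hA' b).mp hb
      rw [← map_mul, ← map_mul, ← map_mul, ← map_mul, mul_comm])
    (fun y hy h => by
      obtain ⟨b, rfl⟩ := (hM' y).mp hy
      obtain ⟨hb1, hb2⟩ := (hB b).mp b.2
      obtain ⟨F, hF⟩ := S.max (b * e) (mul_mem hb1 (S.pr_mem E)) fun F => by
        have h1 := h _ ((hA' _).mpr ⟨F, rfl⟩)
        rw [← map_mul, ← map_mul, hπeq] at h1
        change S.ι F * b * e = b * S.ι F * e at h1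
        rw [← mul_assoc, h1, mul_assoc, mul_assoc, ← S.pr_comm_ι]
      exact (hA' _).mpr ⟨F, (hπeq _ _).mpr (by rw [hιBc, hF, mul_assoc, hee])⟩)
    Ω
    (fun a ha y hy => by
      obtain ⟨F, rfl⟩ := (hA' a).mp ha
      obtain ⟨b, rfl⟩ := (hM' y).mp hy
      rw [← map_mul, ← map_mul, ← hΩ, ← hΩ]
      exact hc F b ((hB b).mp b.2).1)
    hsep (x := π x') ((hM' _).mpr ⟨_, rfl⟩)
    (by
      rw [IsSelfAdjoint, ← map_star]
      congr 1
      refine Subtype.ext ?_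
      change star (e * x * e) = e * x * e
      rw [star_mul, star_mul, he'.isSelfAdjoint.star_eq, hs.star_eq, mul_assoc])
    hr (η := L * √ε) (by positivity)
  choose F hF using fun c => (hA' _).mp (hp c).1
  obtain ⟨f, hfl, hfF⟩ := trans_colour hE ⟨0, by omega⟩ F
    (fun w hw c => (hιeq (F c * F c) (F c)).mp
      (by rw [map_mul, map_mul, hF]; exact (hp c).2.isIdempotentElem) w hw)
    (fun w hw c c' h => (hιeq (F c * F c') 0).mp
      (by rw [map_mul, map_mul, hF, hF, hpp c c' h, map_zero, map_zero]) w hw)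
    (fun w hw => by
      have := (hιeq (∑ c, F c) 1).mp (by simp only [map_sum, hF, hp1, map_one]) w hw
      simpa using this)
  have hpf : ∀ c, π (ιB (cfn ((f ⁻¹' {c}).indicator 1))) = p c := fun c => by
    rw [← hF, hιeq]
    intro w hw
    rw [hfF w hw c]
    exact cfn_apply ((hfl.isClopen_fiber c).continuous_indicator continuous_const) w
  obtain ⟨a₀, rfl⟩ := (hA' _).mp ha'
  obtain ⟨b₁, rfl⟩ := (hM' _).mp hb'
  obtain ⟨hb1, hb2⟩ := (hB b₁).mp b₁.2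
  have ha : S.ι (a₀ * k) = S.ι a₀ * e := by rw [map_mul, hk]
  have hb₀ : (b₁ : H →L[ℂ] H) * e ∈ S.M := mul_mem hb1 (S.pr_mem E)
  have hb₀s := hπsa b₁ hbs
  have han' : ‖S.ι (a₀ * k)‖ ≤ ‖x‖ := by
    rw [ha, ← hιBc, ← hπ]; exact han.trans hx'
  have hT1 : ∀ z, S.T f (e * z) = e * S.T f z := S.T_ι_mul f k
  have hT2 : ∀ z, S.T f (z * e) = S.T f z * e := S.T_mul_ι f k
  have hDn : ‖e * (S.T f x - S.ι (a₀ * k)) * e - b₁ * e‖ ≤ 16000 / √r * ‖x‖ := by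
    let d : R121.Al B := ∑ c, ιB (cfn ((f ⁻¹' {c}).indicator 1)) * x' *
      ιB (cfn ((f ⁻¹' {c}).indicator 1)) - ιB a₀ - b₁
    have h1 : π d = ∑ i, p i * π x' * p i - π (ιB a₀) - π b₁ := by
      simp only [d, map_sub, map_sum, map_mul, hpf]
    have h2 : (d : H →L[ℂ] H) = S.T f (e * x * e) - S.ι a₀ - b₁ := by
      simp only [d, AddSubgroupClass.coe_sub, AddSubmonoidClass.coe_finsetSum,
        MulMemClass.coe_mul]
      rfl
    rw [← h1, hπ, h2, hT2, hT1] at hD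
    refine le_trans (le_of_eq ?_) (hD.trans (by gcongr))
    congr 1
    have h3 : e * S.ι a₀ = S.ι a₀ * e := S.pr_comm_ι E a₀
    rw [ha]
    simp only [sub_mul, mul_sub, mul_assoc, hee]
    rw [← mul_assoc e (S.ι a₀), h3, mul_assoc, hee]
  have hsr : 16000 / √(r : ℝ) ≤ 8000 := by
    have h2 : (2 : ℝ) ≤ √r := Real.le_sqrt_of_sq_le (by exact_mod_cast hr)
    rw [div_le_iff₀ (by linarith)]; linarith
  have hb₀n : ‖(b₁ : H →L[ℂ] H) * e‖ ≤ L := by
    have h1 := hconj (S.T f x - S.ι (a₀ * k))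
    have h2 := norm_sub_le (S.T f x) (S.ι (a₀ * k))
    have h3 := S.norm_T_le hfl x
    have h4 := norm_sub_norm_le ((b₁ : H →L[ℂ] H) * e) (e * (S.T f x - S.ι (a₀ * k)) * e)
    rw [norm_sub_rev] at h4
    have h5 := mul_le_mul_of_nonneg_right hsr (norm_nonneg x)
    linarith
  have heb : e * S.T f (b₁ * e) = S.T f (b₁ * e) := by
    rw [← hT1, ← mul_assoc, hb2, mul_assoc, hee]
  have hbe : S.T f (b₁ * e) * e = S.T f (b₁ * e) := by rw [← hT2, mul_assoc, hee]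
  refine ⟨f, a₀ * k, S.T f (b₁ * e), hfl, ha ▸ hπsa (ιB a₀) has, S.norm_ι _ ▸ han',
    S.T_mem f hb₀, S.T_sa hfl hb₀s, heb, (S.T_T hfl hfl (fun _ _ h => h) _).1, ?_, fun ξ hξ => ?_⟩
  · refine le_trans (le_of_eq ?_) ((S.norm_T_le hfl _).trans hDn)
    rw [S.T_sub, hT2 (e * _), hT1, S.T_sub, (S.T_T hfl hfl (fun _ _ h => h) _).1, S.T_ι hfl]
  · have h1 := trans_ψ_T S hψ hc hfl hb₀
    have h2 : (ψ (star ((b₁ : H →L[ℂ] H) * e) * (b₁ * e))).re ≤ (L * √ε) ^ 2 := by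
      have h3 := hΩ (star (b₁ * ιB k) * (b₁ * ιB k))
      have h4 : π (b₁ * ιB k) = π b₁ := (hπeq _ _).mpr (by
        change (b₁ : H →L[ℂ] H) * e * e = _
        rw [mul_assoc, hee])
      rw [map_mul π (star _), map_star, h4] at h3
      change ψ (star ((b₁ : H →L[ℂ] H) * e) * (b₁ * e)) = _ at h3
      rw [h3, ← norm_sq_eq_inner]
      gcongr
    have hLi : ‖((L⁻¹ : ℝ) : ℂ)‖ = L⁻¹ := by
      rw [Complex.norm_real, Real.norm_of_nonneg (by positivity)]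
    have h5 := hG ξ hξ (((L⁻¹ : ℝ) : ℂ) • S.T f (b₁ * e)) (smul_mem_vn (S.T_mem f hb₀) _)
      (by
        rw [norm_smul, hLi, inv_mul_le_iff₀ hL0, mul_one]
        exact (S.norm_T_le hfl _).trans hb₀n)
      (by
        rw [star_smul, smul_mul_smul_comm, map_smul, smul_eq_mul, Complex.star_def,
          Complex.conj_ofReal, ← Complex.ofReal_mul, Complex.re_ofReal_mul]
        calc _ ≤ L⁻¹ * L⁻¹ * (L * √ε) ^ 2 := by gcongr; exact h1.trans h2
          _ = ε := by rw [mul_pow, Real.sq_sqrt hε.le]; field_simp)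
    rw [ContinuousLinearMap.smul_apply, norm_smul, hLi, ← ContinuousLinearMap.mul_apply, hbe,
      inv_mul_le_iff₀ hL0] at h5
    rwa [mul_div_cancel₀ _ hL0.ne'] at h5

end Crest.Agent.R109
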